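import Mathlib
import Vale.Agent.P074.PL

/-! P230 [BM]: additive Brunn-Minkowski inequality for compact sets. -/

open MeasureTheory Set
open scoped ENNReal NNReal Pointwise

namespace Vale.Agent.P230

namespace BMAddAux

theorem bound_ind {s : ℕ} {A : Set (Fin s → ℝ)} (hA : IsCompact A) :
    ∃ (C : ℝ≥0) (R : ℝ), ∀ x, (A.indicator (fun _ => (1 : ℝ≥0∞))) x ≤
      (Metric.closedBall (0 : Fin s → ℝ) R).indicator (fun _ => (C : ℝ≥0∞)) x := by
  obtain ⟨R, hR⟩ := hA.isBounded.exists_norm_le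
  refine ⟨1, R, fun x => ?_⟩
  refine indicator_le_indicator_of_subset (fun u hu => ?_) (fun _ => zero_le) x
  rw [mem_closedBall_zero_iff]
  exact hR u hu

/-- multiplicative form -/
theorem bm_mul {s : ℕ} {A B C : Set (Fin s → ℝ)} (hA : IsCompact A)
    (hB : IsCompact B) (hC : IsCompact C) {t : ℝ}
    (ht0 : 0 < t) (ht1 : t < 1) (H : ∀ x ∈ A, ∀ y ∈ B, (1 - t) • x + t • y ∈ C) :
    volume A ^ (1 - t) * volume B ^ t ≤ volume C := by
  have h1t : 0 < 1 - t := by linarith
  have hAm := hA.isClosed.measurableSet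
  have hBm := hB.isClosed.measurableSet
  have hCm := hC.isClosed.measurableSet
  have h := P074.pl_pi ht0 ht1 s
    (f := A.indicator (fun _ => (1 : ℝ≥0∞))) (g := B.indicator (fun _ => (1 : ℝ≥0∞)))
    (h := C.indicator (fun _ => (1 : ℝ≥0∞)))
    (measurable_const.indicator hAm) (measurable_const.indicator hBm)
    (measurable_const.indicator hCm) (bound_ind hA) (bound_ind hB)
    (fun u v => by
      by_cases hu : u ∈ A
      · by_cases hv : v ∈ B
        · rw [indicator_of_mem hu, indicator_of_mem hv, indicator_of_mem (H u hu v hv)]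
          simp
        · rw [indicator_of_notMem hv, ENNReal.zero_rpow_of_pos ht0, mul_zero]
          exact zero_le
      · rw [indicator_of_notMem hu, ENNReal.zero_rpow_of_pos h1t, zero_mul]
        exact zero_le)
  rw [lintegral_indicator_const hAm, lintegral_indicator_const hBm,
    lintegral_indicator_const hCm, one_mul, one_mul, one_mul] at h
  exact h

theorem vol_smul {s : ℕ} {r : ℝ} (hr : 0 ≤ r) (A : Set (Fin s → ℝ)) :
    volume (r • A) = ENNReal.ofReal (r ^ s) * volume A := by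
  rw [Measure.addHaar_smul]
  simp [abs_of_nonneg (pow_nonneg hr s)]

end BMAddAux

open BMAddAux in
theorem bm_add {s : ℕ} (hs : 1 ≤ s) {A B C : Set (Fin s → ℝ)} (hA : IsCompact A)
    (hB : IsCompact B) (hC : IsCompact C) (hA0 : volume A ≠ 0) (hB0 : volume B ≠ 0) {t : ℝ}
    (ht0 : 0 < t) (ht1 : t < 1) (H : ∀ x ∈ A, ∀ y ∈ B, (1 - t) • x + t • y ∈ C) :
    (1 - t) * (volume A).toReal ^ (1 / (s : ℝ)) + t * (volume B).toReal ^ (1 / (s : ℝ)) ≤
      (volume C).toReal ^ (1 / (s : ℝ)) := by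
  have h1t : 0 < 1 - t := by linarith
  have hs0 : (0 : ℝ) < s := by exact_mod_cast hs
  have hsne : s ≠ 0 := by omega
  have hAf : volume A ≠ ∞ := hA.measure_lt_top.ne
  have hBf : volume B ≠ ∞ := hB.measure_lt_top.ne
  have hCf : volume C ≠ ∞ := hC.measure_lt_top.ne
  have ha : 0 < (volume A).toReal := ENNReal.toReal_pos hA0 hAf
  have hb : 0 < (volume B).toReal := ENNReal.toReal_pos hB0 hBf
  set α := (volume A).toReal ^ (1 / (s : ℝ)) with hα
  set β := (volume B).toReal ^ (1 / (s : ℝ)) with hβ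
  have hα0 : 0 < α := Real.rpow_pos_of_pos ha _
  have hβ0 : 0 < β := Real.rpow_pos_of_pos hb _
  have hαs : α ^ s = (volume A).toReal := by
    rw [hα, one_div]
    exact Real.rpow_inv_natCast_pow ha.le hsne
  have hβs : β ^ s = (volume B).toReal := by
    rw [hβ, one_div]
    exact Real.rpow_inv_natCast_pow hb.le hsne
  set γ := (1 - t) * α + t * β with hγ
  have hγ0 : 0 < γ := by positivity
  -- normalised sets
  have hvA : volume (α⁻¹ • A) = 1 := by
    rw [vol_smul (by positivity), inv_pow, hαs, ← ENNReal.ofReal_toReal hAf,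
      ENNReal.toReal_ofReal ha.le, ← ENNReal.ofReal_mul (by positivity),
      inv_mul_cancel₀ ha.ne', ENNReal.ofReal_one]
  have hvB : volume (β⁻¹ • B) = 1 := by
    rw [vol_smul (by positivity), inv_pow, hβs, ← ENNReal.ofReal_toReal hBf,
      ENNReal.toReal_ofReal hb.le, ← ENNReal.ofReal_mul (by positivity),
      inv_mul_cancel₀ hb.ne', ENNReal.ofReal_one]
  have hθ0 : 0 < t * β / γ := by positivity
  have hθ1 : t * β / γ < 1 := by
    rw [div_lt_one hγ0, hγ]
    have : 0 < (1 - t) * α := by positivity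
    linarith
  have hθ : 1 - t * β / γ = (1 - t) * α / γ := by
    rw [eq_div_iff hγ0.ne', sub_mul, div_mul_cancel₀ _ hγ0.ne', one_mul, hγ]
    ring
  have hmul := bm_mul (hA.smul α⁻¹) (hB.smul β⁻¹) (hC.smul γ⁻¹) hθ0 hθ1 (by
    intro x hx y hy
    obtain ⟨x', hx', rfl⟩ := hx
    obtain ⟨y', hy', rfl⟩ := hy
    refine ⟨(1 - t) • x' + t • y', H x' hx' y' hy', ?_⟩
    rw [hθ]
    ext i
    simp only [Pi.smul_apply, Pi.add_apply, smul_eq_mul]
    field_simp)
  rw [hvA, hvB, ENNReal.one_rpow, ENNReal.one_rpow, one_mul, vol_smul (by positivity),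
    ← ENNReal.ofReal_toReal hCf, ← ENNReal.ofReal_mul (by positivity), ENNReal.one_le_ofReal,
    inv_pow] at hmul
  have h3 : γ ^ s ≤ (volume C).toReal := by
    have h4 : 0 < γ ^ s := by positivity
    rwa [inv_mul_eq_div, le_div_iff₀ h4, one_mul] at hmul
  have h5 := Real.rpow_le_rpow (by positivity) h3 (show 0 ≤ 1 / (s : ℝ) by positivity)
  rwa [one_div, Real.pow_rpow_inv_natCast hγ0.le hsne, ← one_div] at h5

end Vale.Agent.P230
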