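import Vale.Agent.P230.Defs

/-! P230 [BN]: the numerical inequality of the base construction. -/

open MeasureTheory Set Filter
open scoped ENNReal

namespace Vale.Agent.P230

namespace BNAux

theorem exp_two_le : Real.exp 2 ≤ 8 := by
  have h := Real.exp_one_lt_d9
  have h0 := Real.exp_pos 1
  have : Real.exp 2 = Real.exp 1 * Real.exp 1 := by rw [← Real.exp_add]; norm_num
  rw [this]
  nlinarith

theorem two_le_exp : (2 : ℝ) ≤ Real.exp (7 / 10) := by
  have h := Real.log_two_lt_d9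
  rw [← Real.log_le_iff_le_exp (by norm_num)]
  linarith

theorem half_pow_le (k : ℕ) : (1 / 2 : ℝ) ^ k ≤ Real.exp (-(69 / 100) * k) := by
  have h := Real.log_two_gt_d9
  have h1 : (1 / 2 : ℝ) ≤ Real.exp (-(69 / 100)) := by
    rw [Real.exp_neg, one_div]
    refine inv_anti₀ (Real.exp_pos _) ?_
    rw [← Real.le_log_iff_exp_le (by norm_num)]
    linarith
  calc (1 / 2 : ℝ) ^ k ≤ Real.exp (-(69 / 100)) ^ k := pow_le_pow_left₀ (by norm_num) h1 k
    _ = Real.exp (-(69 / 100) * k) := by rw [← Real.exp_nat_mul, mul_comm]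

/-- the Poisson tail -/
theorem tail {τ t : ℝ} {n : ℕ} (hτ : 10 ≤ τ) (hn : 10 * τ - 1 ≤ n) (ht0 : 0 ≤ t)
    (ht : t ≤ τ + 1) : t ^ n / n.factorial ≤ Real.exp (-τ) := by
  have hn0 : (0 : ℝ) < n := by linarith
  have h1 : (n : ℝ) ^ n / n.factorial ≤ Real.exp n :=
    Real.pow_div_factorial_le_exp (x := (n : ℝ)) hn0.le n
  have h2 : t ^ n / n.factorial = (t / n) ^ n * ((n : ℝ) ^ n / n.factorial) := by
    rw [div_pow]
    field_simp
  have h3 : t / n ≤ 1 / 8 := by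
    rw [div_le_iff₀ hn0]
    linarith
  have h4 : (t / n) ^ n ≤ Real.exp (-2) ^ n := by
    refine pow_le_pow_left₀ (by positivity) (h3.trans ?_) n
    rw [Real.exp_neg, one_div]
    exact inv_anti₀ (Real.exp_pos _) exp_two_le
  calc t ^ n / n.factorial = (t / n) ^ n * ((n : ℝ) ^ n / n.factorial) := h2
    _ ≤ Real.exp (-2) ^ n * Real.exp n :=
        mul_le_mul h4 h1 (by positivity) (by positivity)
    _ = Real.exp (-(n : ℝ)) := by
        rw [← Real.exp_nat_mul, ← Real.exp_add]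
        congr 1
        ring
    _ ≤ Real.exp (-τ) := Real.exp_le_exp.2 (by linarith)

/-- the Young term -/
theorem young_term {d m : ℕ} {R w t : ℝ} (hd : 10 ^ 6 ≤ (d : ℝ)) (hm : (m : ℝ) ≤ d / 1000)
    (hw : (d : ℝ) ^ 2 ≤ w) (hR1 : 1 ≤ R) (hR : R ≤ Real.exp (d / 10 ^ 5))
    (ht : t ≤ d / 10 ^ 4 + 1) :
    2 * Real.exp (2 * t) * (2 ^ m * (R ^ 2 * rho ^ d * (1 + 2 / w) ^ (2 * d))) ≤
      1 / 2 * Real.exp (-(d : ℝ) / 10 ^ 4) := by
  have hd0 : (0 : ℝ) < d := by linarith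
  have hw0 : 0 < w := lt_of_lt_of_le (by positivity) hw
  have h1 : Real.exp (2 * t) ≤ Real.exp (2 * (d / 10 ^ 4 + 1)) := Real.exp_le_exp.2 (by linarith)
  have h2 : (2 : ℝ) ^ m ≤ Real.exp (7 / 10 * (d / 1000)) := by
    calc (2 : ℝ) ^ m ≤ Real.exp (7 / 10) ^ m := pow_le_pow_left₀ (by norm_num) two_le_exp m
      _ = Real.exp (m * (7 / 10)) := by rw [← Real.exp_nat_mul]
      _ ≤ _ := Real.exp_le_exp.2 (by linarith)
  have h3 : R ^ 2 ≤ Real.exp (2 * (d / 10 ^ 5)) := by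
    calc R ^ 2 ≤ Real.exp (d / 10 ^ 5) ^ 2 := pow_le_pow_left₀ (by linarith) hR 2
      _ = _ := by rw [← Real.exp_nat_mul]; norm_num
  have h4 : rho ^ d ≤ Real.exp (-(d / 500)) := by
    have h : rho ≤ Real.exp (-(1 / 500)) := by
      unfold rho
      have := Real.add_one_le_exp (-(1 / 500) : ℝ)
      linarith
    calc rho ^ d ≤ Real.exp (-(1 / 500)) ^ d :=
          pow_le_pow_left₀ (by unfold rho; norm_num) h d
      _ = _ := by
          rw [← Real.exp_nat_mul]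
          congr 1
          ring
  have h5 : (1 + 2 / w) ^ (2 * d) ≤ Real.exp 1 := by
    have h : 1 + 2 / w ≤ Real.exp (2 / w) := by
      have := Real.add_one_le_exp (2 / w : ℝ)
      linarith
    calc (1 + 2 / w) ^ (2 * d) ≤ Real.exp (2 / w) ^ (2 * d) :=
          pow_le_pow_left₀ (by positivity) h _
      _ = Real.exp ((2 * d : ℕ) * (2 / w)) := by rw [← Real.exp_nat_mul]
      _ ≤ Real.exp 1 := by
          refine Real.exp_le_exp.2 ?_
          rw [mul_div_assoc', div_le_one hw0]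
          push_cast
          nlinarith
  have hrho : 0 ≤ rho := by unfold rho; norm_num
  calc 2 * Real.exp (2 * t) * (2 ^ m * (R ^ 2 * rho ^ d * (1 + 2 / w) ^ (2 * d)))
      ≤ 2 * Real.exp (2 * (d / 10 ^ 4 + 1)) * (Real.exp (7 / 10 * (d / 1000)) *
        (Real.exp (2 * (d / 10 ^ 5)) * Real.exp (-(d / 500)) * Real.exp 1)) := by
        gcongr
    _ = 2 * Real.exp (2 * (d / 10 ^ 4 + 1) + (7 / 10 * (d / 1000) + (2 * (d / 10 ^ 5) +
          -(d / 500) + 1))) := by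
        rw [Real.exp_add, Real.exp_add, Real.exp_add, Real.exp_add]
        ring
    _ ≤ 1 / 2 * Real.exp (-(d : ℝ) / 10 ^ 4) := by
        have h6 : (2 : ℝ) * 2 ≤ Real.exp 2 := by
          have := Real.add_one_le_exp (1 : ℝ)
          have h : Real.exp 2 = Real.exp 1 * Real.exp 1 := by rw [← Real.exp_add]; norm_num
          rw [h]
          nlinarith
        have h7 : 2 * (2 * Real.exp (2 * (d / 10 ^ 4 + 1) + (7 / 10 * (d / 1000) +
            (2 * (d / 10 ^ 5) + -(d / 500) + 1)))) ≤ Real.exp (-(d : ℝ) / 10 ^ 4) := by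
          calc 2 * (2 * Real.exp (2 * (d / 10 ^ 4 + 1) + (7 / 10 * (d / 1000) +
            (2 * (d / 10 ^ 5) + -(d / 500) + 1)))) ≤
              Real.exp 2 * Real.exp (2 * (d / 10 ^ 4 + 1) + (7 / 10 * (d / 1000) +
            (2 * (d / 10 ^ 5) + -(d / 500) + 1))) := by
                rw [← mul_assoc]
                exact mul_le_mul_of_nonneg_right h6 (Real.exp_pos _).le
            _ = Real.exp (2 + (2 * (d / 10 ^ 4 + 1) + (7 / 10 * (d / 1000) +
            (2 * (d / 10 ^ 5) + -(d / 500) + 1)))) := by rw [← Real.exp_add]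
            _ ≤ _ := Real.exp_le_exp.2 (by linarith)
        linarith

/-- the count term -/
theorem last_term {d m q s N : ℕ} {t : ℝ} (hd : 10 ^ 6 ≤ (d : ℝ)) (hm : (m : ℝ) ≤ d / 1000)
    (hs : (d : ℝ) / 100 ≤ s) (hq : 2 ≤ q) (htN : t = N / (q : ℝ) ^ s)
    (ht1 : (d : ℝ) / 10 ^ 4 ≤ t) (ht : t ≤ d / 10 ^ 4 + 1) :
    2 * Real.exp (2 * t) * ((q : ℝ) ^ m / N) ≤ 1 / 2 * Real.exp (-(d : ℝ) / 10 ^ 4) := by
  have hd0 : (0 : ℝ) < d := by linarith
  have hq' : (2 : ℝ) ≤ q := by exact_mod_cast hq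
  have hqs : (0 : ℝ) < (q : ℝ) ^ s := by positivity
  have hN : (N : ℝ) = t * (q : ℝ) ^ s := by
    rw [htN]
    field_simp
  have ht0 : 1 ≤ t := by linarith
  have hms : m ≤ s := by
    have : (m : ℝ) ≤ s := by linarith
    exact_mod_cast this
  have h1 : (q : ℝ) ^ m / N ≤ (1 / 2) ^ (s - m) := by
    rw [hN]
    have h2 : (q : ℝ) ^ s = (q : ℝ) ^ m * (q : ℝ) ^ (s - m) := by
      rw [← pow_add]
      congr 1
      omega
    rw [h2]
    have h3 : (2 : ℝ) ^ (s - m) ≤ (q : ℝ) ^ (s - m) := pow_le_pow_left₀ (by norm_num) hq' _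
    have hqm : (0 : ℝ) < (q : ℝ) ^ m := by positivity
    have h4 : (0 : ℝ) < (2 : ℝ) ^ (s - m) := by positivity
    rw [one_div, inv_pow, ← one_div, div_le_div_iff₀ (by positivity) (by positivity), one_mul]
    have h5 : (2 : ℝ) ^ (s - m) ≤ t * (q : ℝ) ^ (s - m) := by nlinarith
    calc (q : ℝ) ^ m * 2 ^ (s - m) ≤ (q : ℝ) ^ m * (t * (q : ℝ) ^ (s - m)) :=
          mul_le_mul_of_nonneg_left h5 hqm.le
      _ = t * ((q : ℝ) ^ m * (q : ℝ) ^ (s - m)) := by ring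
  have h2 : ((s - m : ℕ) : ℝ) ≥ 9 / 1000 * d := by
    rw [Nat.cast_sub hms]
    linarith
  have h3 := half_pow_le (s - m)
  have h4 : Real.exp (-(69 / 100) * ((s - m : ℕ) : ℝ)) ≤ Real.exp (-(6 / 1000) * d) :=
    Real.exp_le_exp.2 (by nlinarith)
  have h5 : Real.exp (2 * t) ≤ Real.exp (2 * (d / 10 ^ 4 + 1)) := Real.exp_le_exp.2 (by linarith)
  calc 2 * Real.exp (2 * t) * ((q : ℝ) ^ m / N)
      ≤ 2 * Real.exp (2 * (d / 10 ^ 4 + 1)) * Real.exp (-(6 / 1000) * d) := by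
        have := h1.trans (h3.trans h4)
        gcongr
    _ = 2 * Real.exp (2 * (d / 10 ^ 4 + 1) + -(6 / 1000) * d) := by
        rw [mul_assoc, ← Real.exp_add]
    _ ≤ 1 / 2 * Real.exp (-(d : ℝ) / 10 ^ 4) := by
        have h6 : (2 : ℝ) * 2 ≤ Real.exp 2 := by
          have := Real.add_one_le_exp (1 : ℝ)
          have h : Real.exp 2 = Real.exp 1 * Real.exp 1 := by rw [← Real.exp_add]; norm_num
          rw [h]
          nlinarith
        have h7 : 2 * (2 * Real.exp (2 * (d / 10 ^ 4 + 1) + -(6 / 1000) * d)) ≤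
            Real.exp (-(d : ℝ) / 10 ^ 4) := by
          calc 2 * (2 * Real.exp (2 * (d / 10 ^ 4 + 1) + -(6 / 1000) * d)) ≤
              Real.exp 2 * Real.exp (2 * (d / 10 ^ 4 + 1) + -(6 / 1000) * d) := by
                rw [← mul_assoc]
                exact mul_le_mul_of_nonneg_right h6 (Real.exp_pos _).le
            _ = Real.exp (2 + (2 * (d / 10 ^ 4 + 1) + -(6 / 1000) * d)) := by rw [← Real.exp_add]
            _ ≤ _ := Real.exp_le_exp.2 (by linarith)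
        linarith

/-- one term of the sum over the levels -/
theorem level_one {d m B U : ℕ} {w : ℝ} (hd : 10 ^ 6 ≤ d) (hm : 1000 * m ≤ d)
    (hw : (d : ℝ) ^ 2 ≤ w) (hB : B ≤ d ^ 10) (hU2 : 2 ≤ U) (hUB : U ≤ B) :
    (2 * (U : ℝ) + 1) ^ (2 * m) * (1 / U + 1 / w) ^ d ≤ 3 * Real.exp (-(d : ℝ) / 2) := by
  have hd0 : (0 : ℝ) < d := by exact_mod_cast (by omega : 0 < d)
  have hd' : (10 : ℝ) ^ 6 ≤ d := by exact_mod_cast hd
  have hw0 : 0 < w := lt_of_lt_of_le (by positivity) hw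
  have hU : (2 : ℝ) ≤ U := by exact_mod_cast hU2
  rcases le_or_gt U d with hUd | hUd
  · have hUd' : (U : ℝ) ≤ d := by exact_mod_cast hUd
    have h1 : 1 / (U : ℝ) + 1 / w ≤ 1 / U * Real.exp (1 / d) := by
      have h2 : 1 / w ≤ 1 / U * (1 / d) := by
        rw [div_mul_div_comm, one_mul, div_le_div_iff₀ hw0 (by positivity)]
        nlinarith
      have h3 := Real.add_one_le_exp (1 / d : ℝ)
      have h4 : 0 ≤ 1 / (U : ℝ) := by positivity
      nlinarith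
    have h2 : (1 / (U : ℝ) + 1 / w) ^ d ≤ (1 / U) ^ d * Real.exp 1 := by
      calc (1 / (U : ℝ) + 1 / w) ^ d ≤ (1 / U * Real.exp (1 / d)) ^ d :=
            pow_le_pow_left₀ (by positivity) h1 d
        _ = (1 / U) ^ d * Real.exp 1 := by
            rw [mul_pow, ← Real.exp_nat_mul]
            congr 2
            field_simp
    have h3 : (2 * (U : ℝ) + 1) ^ (2 * m) ≤ (U : ℝ) ^ (6 * m) := by
      have h4 : 2 * (U : ℝ) + 1 ≤ (U : ℝ) ^ 3 := by nlinarith [mul_nonneg (by linarith : (0:ℝ) ≤ U - 2) (by linarith : (0:ℝ) ≤ U)]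
      calc (2 * (U : ℝ) + 1) ^ (2 * m) ≤ ((U : ℝ) ^ 3) ^ (2 * m) :=
            pow_le_pow_left₀ (by positivity) h4 _
        _ = (U : ℝ) ^ (6 * m) := by
            rw [← pow_mul]
            congr 1
            ring
    have h5 : (U : ℝ) ^ (6 * m) * (1 / U) ^ d ≤ (1 / 2) ^ (d - 6 * m) := by
      have h6 : d = 6 * m + (d - 6 * m) := by omega
      have h7 : (U : ℝ) ^ (6 * m) * (1 / U) ^ d = (1 / (U : ℝ)) ^ (d - 6 * m) := by
        conv_lhs => rw [h6, pow_add (1 / (U : ℝ))]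
        rw [← mul_assoc, ← mul_pow, mul_one_div_cancel (by positivity), one_pow, one_mul]
      rw [h7]
      refine pow_le_pow_left₀ (by positivity) ?_ _
      exact div_le_div_of_nonneg_left (by norm_num) (by norm_num) hU
    have h8 := half_pow_le (d - 6 * m)
    have h9 : Real.exp (-(69 / 100) * ((d - 6 * m : ℕ) : ℝ)) ≤ Real.exp (-(d : ℝ) / 2) := by
      refine Real.exp_le_exp.2 ?_
      rw [Nat.cast_sub (by omega)]
      have h10 : 1000 * (m : ℝ) ≤ d := by exact_mod_cast hm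
      push_cast
      nlinarith
    have h10 : Real.exp 1 ≤ 3 := by linarith [Real.exp_one_lt_d9]
    calc (2 * (U : ℝ) + 1) ^ (2 * m) * (1 / U + 1 / w) ^ d
        ≤ (U : ℝ) ^ (6 * m) * ((1 / U) ^ d * Real.exp 1) := by gcongr
      _ = ((U : ℝ) ^ (6 * m) * (1 / U) ^ d) * Real.exp 1 := by ring
      _ ≤ Real.exp (-(d : ℝ) / 2) * 3 :=
          mul_le_mul (h5.trans (h8.trans h9)) h10 (Real.exp_pos _).le (Real.exp_pos _).le
      _ = _ := mul_comm _ _
  · have hUd' : (d : ℝ) < U := by exact_mod_cast hUd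
    have hUB' : (U : ℝ) ≤ (d : ℝ) ^ 10 := by exact_mod_cast hUB.trans hB
    have h1 : 1 / (U : ℝ) + 1 / w ≤ 2 / d := by
      have h2 : 1 / (U : ℝ) ≤ 1 / d := div_le_div_of_nonneg_left (by norm_num) hd0 hUd'.le
      have h3 : 1 / w ≤ 1 / d := div_le_div_of_nonneg_left (by norm_num) hd0 (by nlinarith)
      have h4 : 2 / (d : ℝ) = 1 / d + 1 / d := by ring
      linarith
    have h3 : (2 * (U : ℝ) + 1) ^ (2 * m) ≤ (d : ℝ) ^ (22 * m) := by
      have h4 : 2 * (U : ℝ) + 1 ≤ (d : ℝ) ^ 11 := by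
        have h5 : (d : ℝ) ^ 11 = (d : ℝ) ^ 10 * d := by ring
        have h6 : (1 : ℝ) ≤ (d : ℝ) ^ 10 := one_le_pow₀ (by linarith)
        rw [h5]
        nlinarith
      calc (2 * (U : ℝ) + 1) ^ (2 * m) ≤ ((d : ℝ) ^ 11) ^ (2 * m) :=
            pow_le_pow_left₀ (by positivity) h4 _
        _ = (d : ℝ) ^ (22 * m) := by
            rw [← pow_mul]
            congr 1
            ring
    have h5 : (d : ℝ) ^ (22 * m) * (2 / d) ^ d ≤ (1 / 2) ^ d := by
      have h6 : d = 22 * m + (d - 22 * m) := by omega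
      have h7 : (d : ℝ) ^ (22 * m) * (2 / d) ^ d = 2 ^ d * (1 / (d : ℝ)) ^ (d - 22 * m) := by
        have h8 : (2 / (d : ℝ)) ^ d = 2 ^ d * (1 / (d : ℝ)) ^ d := by
          rw [← mul_pow]
          congr 1
          ring
        have h9 : (1 / (d : ℝ)) ^ d = (1 / (d : ℝ)) ^ (22 * m) * (1 / (d : ℝ)) ^ (d - 22 * m) := by
          rw [← pow_add]
          congr 1
        rw [h8, h9]
        have h10 : (d : ℝ) ^ (22 * m) * (1 / (d : ℝ)) ^ (22 * m) = 1 := by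
          rw [← mul_pow, mul_one_div_cancel (by positivity), one_pow]
        calc (d : ℝ) ^ (22 * m) * (2 ^ d * ((1 / (d : ℝ)) ^ (22 * m) *
              (1 / (d : ℝ)) ^ (d - 22 * m))) = ((d : ℝ) ^ (22 * m) * (1 / (d : ℝ)) ^ (22 * m)) *
              (2 ^ d * (1 / (d : ℝ)) ^ (d - 22 * m)) := by ring
          _ = _ := by rw [h10, one_mul]
      rw [h7]
      have h8 : (1 / (d : ℝ)) ^ (d - 22 * m) ≤ (1 / 16) ^ (d - 22 * m) := by
        refine pow_le_pow_left₀ (by positivity) ?_ _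
        exact div_le_div_of_nonneg_left (by norm_num) (by norm_num) (by linarith)
      have h9 : (1 / 16 : ℝ) ^ (d - 22 * m) = (1 / 2) ^ (4 * (d - 22 * m)) := by
        rw [pow_mul]
        norm_num
      have h10 : (1 / 2 : ℝ) ^ (4 * (d - 22 * m)) ≤ (1 / 2) ^ (d + d) :=
        pow_le_pow_of_le_one (by norm_num) (by norm_num) (by omega)
      calc (2 : ℝ) ^ d * (1 / (d : ℝ)) ^ (d - 22 * m) ≤ 2 ^ d * (1 / 2) ^ (d + d) := by
            have := h8.trans (h9.le.trans h10)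
            gcongr
        _ = (1 / 2) ^ d := by
            rw [pow_add, ← mul_assoc, ← mul_pow]
            norm_num
    have h8 := half_pow_le d
    have h9 : Real.exp (-(69 / 100) * (d : ℝ)) ≤ Real.exp (-(d : ℝ) / 2) :=
      Real.exp_le_exp.2 (by linarith)
    calc (2 * (U : ℝ) + 1) ^ (2 * m) * (1 / U + 1 / w) ^ d
        ≤ (d : ℝ) ^ (22 * m) * (2 / d) ^ d := by gcongr
      _ ≤ Real.exp (-(d : ℝ) / 2) := h5.trans (h8.trans h9)
      _ ≤ 3 * Real.exp (-(d : ℝ) / 2) := by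
          have := Real.exp_pos (-(d : ℝ) / 2)
          linarith

/-- the sum over the levels -/
theorem level_term {d m B : ℕ} {R w t : ℝ} (hd : 10 ^ 6 ≤ d) (hm : 1000 * m ≤ d)
    (hd10 : (d : ℝ) ^ 10 ≤ Real.exp (d / 10))
    (hw : (d : ℝ) ^ 2 ≤ w) (hB : B ≤ d ^ 10) (hR1 : 1 ≤ R) (hR : R ≤ Real.exp (d / 10 ^ 5))
    (ht : t ≤ d / 10 ^ 4 + 1) :
    2 * Real.exp (2 * t) * (∑ U ∈ Finset.Icc 2 B, (2 * (U : ℝ) + 1) ^ (2 * m) *
      (R * (1 / U + 1 / w) ^ d)) ≤ 1 / 2 * Real.exp (-(d : ℝ) / 10 ^ 4) := by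
  have hd' : (10 : ℝ) ^ 6 ≤ d := by exact_mod_cast hd
  have h1 : ∑ U ∈ Finset.Icc 2 B, (2 * (U : ℝ) + 1) ^ (2 * m) * (R * (1 / U + 1 / w) ^ d) ≤
      ∑ U ∈ Finset.Icc 2 B, R * (3 * Real.exp (-(d : ℝ) / 2)) := by
    refine Finset.sum_le_sum fun U hU => ?_
    rw [Finset.mem_Icc] at hU
    have h2 := level_one hd hm hw hB hU.1 hU.2
    calc (2 * (U : ℝ) + 1) ^ (2 * m) * (R * (1 / U + 1 / w) ^ d) =
        R * ((2 * (U : ℝ) + 1) ^ (2 * m) * (1 / U + 1 / w) ^ d) := by ring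
      _ ≤ _ := mul_le_mul_of_nonneg_left h2 (by linarith)
  have h2 : ∑ U ∈ Finset.Icc 2 B, R * (3 * Real.exp (-(d : ℝ) / 2)) ≤
      Real.exp (d / 10) * (Real.exp (d / 10 ^ 5) * (3 * Real.exp (-(d : ℝ) / 2))) := by
    rw [Finset.sum_const, nsmul_eq_mul]
    have h3 : ((Finset.Icc 2 B).card : ℝ) ≤ Real.exp (d / 10) := by
      refine le_trans ?_ hd10
      have : (Finset.Icc 2 B).card ≤ d ^ 10 := by
        rw [Nat.card_Icc]
        omega
      exact_mod_cast this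
    gcongr
  have h5 : Real.exp (2 * t) ≤ Real.exp (2 * (d / 10 ^ 4 + 1)) := Real.exp_le_exp.2 (by linarith)
  have hw0 : 0 < w := lt_of_lt_of_le (by positivity) hw
  have hnn : 0 ≤ ∑ U ∈ Finset.Icc 2 B, (2 * (U : ℝ) + 1) ^ (2 * m) *
      (R * (1 / U + 1 / w) ^ d) :=
    Finset.sum_nonneg fun U _ => by positivity
  calc 2 * Real.exp (2 * t) * (∑ U ∈ Finset.Icc 2 B, (2 * (U : ℝ) + 1) ^ (2 * m) *
      (R * (1 / U + 1 / w) ^ d))
      ≤ 2 * Real.exp (2 * (d / 10 ^ 4 + 1)) *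
        (Real.exp (d / 10) * (Real.exp (d / 10 ^ 5) * (3 * Real.exp (-(d : ℝ) / 2)))) := by
        have := h1.trans h2
        gcongr
    _ = 6 * Real.exp (2 * (d / 10 ^ 4 + 1) + (d / 10 + (d / 10 ^ 5 + -(d : ℝ) / 2))) := by
        rw [Real.exp_add, Real.exp_add, Real.exp_add]
        ring
    _ ≤ 1 / 2 * Real.exp (-(d : ℝ) / 10 ^ 4) := by
        have h6 : (2 : ℝ) * 6 ≤ Real.exp 11 := by
          have := Real.add_one_le_exp (11 : ℝ)
          linarith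
        have h7 : 2 * (6 * Real.exp (2 * (d / 10 ^ 4 + 1) + (d / 10 + (d / 10 ^ 5 +
            -(d : ℝ) / 2)))) ≤ Real.exp (-(d : ℝ) / 10 ^ 4) := by
          calc 2 * (6 * Real.exp (2 * (d / 10 ^ 4 + 1) + (d / 10 + (d / 10 ^ 5 +
            -(d : ℝ) / 2)))) ≤
              Real.exp 11 * Real.exp (2 * (d / 10 ^ 4 + 1) + (d / 10 + (d / 10 ^ 5 +
            -(d : ℝ) / 2))) := by
                rw [← mul_assoc]
                exact mul_le_mul_of_nonneg_right h6 (Real.exp_pos _).le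
            _ = Real.exp (11 + (2 * (d / 10 ^ 4 + 1) + (d / 10 + (d / 10 ^ 5 +
            -(d : ℝ) / 2)))) := by rw [← Real.exp_add]
            _ ≤ _ := Real.exp_le_exp.2 (by linarith)
        linarith

end BNAux

open BNAux in
theorem base_num : ∃ d₀ : ℕ, ∀ d : ℕ, d₀ ≤ d → ∃ m : ℕ, Even m ∧ m ≤ d ∧
    ∀ (q s B N : ℕ) (R w t : ℝ), 1 ≤ B → B ^ 2 ≤ q → (q : ℝ) ≤ (d : ℝ) ^ 20 →
      (d : ℝ) / 100 ≤ s → 2 ≤ q → (d : ℝ) ^ 2 ≤ w → 1 ≤ R → R ≤ Real.exp (d / 10 ^ 5) →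
      t = N / (q : ℝ) ^ s → (d : ℝ) / 10 ^ 4 ≤ t → t ≤ d / 10 ^ 4 + 1 →
      Real.exp (-t) + t ^ (m + 1) / (m + 1).factorial +
      2 * Real.exp (2 * t) * (2 ^ m * (R ^ 2 * rho ^ d * (1 + 2 / w) ^ (2 * d)) +
        ∑ U ∈ Finset.Icc 2 B, (2 * (U : ℝ) + 1) ^ (2 * m) * (R * (1 / U + 1 / w) ^ d) +
        (q : ℝ) ^ m / N) ≤ 4 * Real.exp (-(d : ℝ) / 10 ^ 4) := by
  have hev : ∀ᶠ x : ℝ in atTop, x ^ 10 ≤ Real.exp (x / 10) := by
    have h := (Real.tendsto_pow_mul_exp_neg_atTop_nhds_zero 10).comp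
      (tendsto_id.atTop_div_const (show (0 : ℝ) < 10 by norm_num))
    have h2 := h.eventually (gt_mem_nhds (show (0 : ℝ) < 1 / 10 ^ 10 by norm_num))
    filter_upwards [h2] with x hx
    simp only [Function.comp, id] at hx
    rw [Real.exp_neg, ← div_eq_mul_inv, div_lt_iff₀ (Real.exp_pos _), div_pow] at hx
    linarith
  obtain ⟨x₀, hx₀⟩ := eventually_atTop.1 hev
  refine ⟨max (10 ^ 6) ⌈x₀⌉₊, fun d hd => ?_⟩
  have hd6 : 10 ^ 6 ≤ d := le_of_max_le_left hd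
  have hdx : x₀ ≤ d := (Nat.le_ceil x₀).trans (by exact_mod_cast le_of_max_le_right hd)
  have hd10 := hx₀ d hdx
  have hd' : (10 : ℝ) ^ 6 ≤ d := by exact_mod_cast hd6
  set m : ℕ := 2 * (d / 2000) with hm
  have hm1 : 1000 * m ≤ d := by omega
  have hm1' : (m : ℝ) ≤ d / 1000 := by
    have : 1000 * (m : ℝ) ≤ d := by exact_mod_cast hm1
    linarith
  have hm2 : d ≤ 1000 * (m + 2) := by omega
  have hm2' : (d : ℝ) / 1000 - 2 ≤ m := by
    have : (d : ℝ) ≤ 1000 * (m + 2) := by exact_mod_cast hm2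
    linarith
  refine ⟨m, ⟨d / 2000, by omega⟩, by omega, ?_⟩
  intro q s B N R w t hB1 hBq hq hs hq2 hw hR1 hR htN ht1 ht2
  have hB : B ≤ d ^ 10 := by
    have h1 : (B : ℝ) ^ 2 ≤ ((d : ℝ) ^ 10) ^ 2 := by
      calc (B : ℝ) ^ 2 ≤ q := by exact_mod_cast hBq
        _ ≤ (d : ℝ) ^ 20 := hq
        _ = _ := by ring
    have h2 : (B : ℝ) ≤ (d : ℝ) ^ 10 := by
      exact le_of_sq_le_sq h1 (by positivity)
    exact_mod_cast h2
  have e1 : Real.exp (-t) ≤ Real.exp (-(d : ℝ) / 10 ^ 4) := Real.exp_le_exp.2 (by linarith)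
  have e2 : t ^ (m + 1) / (m + 1).factorial ≤ Real.exp (-(d : ℝ) / 10 ^ 4) := by
    have := tail (τ := d / 10 ^ 4) (t := t) (n := m + 1) (by linarith)
      (by push_cast; linarith) (by linarith) ht2
    refine this.trans (le_of_eq ?_)
    congr 1
    ring
  have e3 := young_term hd' hm1' hw hR1 hR ht2
  have e4 := level_term hd6 hm1 hd10 hw hB hR1 hR ht2
  have e5 := last_term hd' hm1' hs hq2 htN ht1 ht2
  have e6 := Real.exp_pos (-(d : ℝ) / 10 ^ 4)
  rw [mul_add, mul_add]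
  linarith

end Vale.Agent.P230
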