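import Vale.Agent.P230.YoungN

/-! # P230, module CNT: lattice points of fat convex sets -/

open MeasureTheory Set
open scoped ENNReal

namespace Vale.Agent.P230

namespace Cnt

/-- the enlarged body ` (1+t) J - t c` -/
def big {d : ℕ} (J : Set (Fin d → ℝ)) (t : ℝ) (c : Fin d → ℝ) : Set (Fin d → ℝ) :=
  {x | (1 + t)⁻¹ • (x + t • c) ∈ J}

theorem mem_big {d : ℕ} {J : Set (Fin d → ℝ)} (hc : Convex ℝ J) {w t : ℝ}
    (ht : 0 < t) {c : Fin d → ℝ}
    (hcube : ∀ x : Fin d → ℝ, (∀ i, c i ≤ x i ∧ x i ≤ c i + w) → x ∈ J)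
    {a : Fin d → ℝ} (ha : a ∈ J) {u : Fin d → ℝ} (hu : ∀ i, 0 ≤ u i ∧ u i ≤ t * w) :
    a + u ∈ big J t c := by
  have h1 : c + t⁻¹ • u ∈ J := by
    apply hcube
    intro i
    simp only [Pi.add_apply, Pi.smul_apply, smul_eq_mul]
    constructor
    · have : 0 ≤ t⁻¹ * u i := mul_nonneg (by positivity) (hu i).1
      linarith
    · have : t⁻¹ * u i ≤ w := by
        rw [inv_mul_le_iff₀ ht]; exact (hu i).2
      linarith
  have h2 := hc ha h1 (a := (1 + t)⁻¹) (b := t * (1 + t)⁻¹) (by positivity) (by positivity)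
    (by field_simp)
  change (1 + t)⁻¹ • (a + u + t • c) ∈ J
  have e : (1 + t)⁻¹ • (a + u + t • c) = (1 + t)⁻¹ • a + (t * (1 + t)⁻¹) • (c + t⁻¹ • u) := by
    ext i
    simp only [Pi.add_apply, Pi.smul_apply, smul_eq_mul]
    field_simp
    ring
  rw [e]; exact h2

theorem volume_big {d : ℕ} (J : Set (Fin d → ℝ)) {t : ℝ} (ht : 0 < t) (c : Fin d → ℝ) :
    volume (big J t c) = ENNReal.ofReal ((1 + t) ^ d) * volume J := by
  have e : big J t c = (fun x => x + t • c) ⁻¹' ((fun y => (1 + t)⁻¹ • y) ⁻¹' J) := rfl
  rw [e, measure_preimage_add_right]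
  have := Measure.addHaar_preimage_smul (volume : Measure (Fin d → ℝ)) (r := (1 + t)⁻¹)
    (by positivity) J
  rw [this]
  congr 2
  rw [abs_of_pos (by positivity)]
  simp

theorem measurableSet_big {d : ℕ} {J : Set (Fin d → ℝ)} (hm : MeasurableSet J) (t : ℝ)
    (c : Fin d → ℝ) : MeasurableSet (big J t c) := by
  have h : Measurable (fun x : Fin d → ℝ => (1 + t)⁻¹ • (x + t • c)) := by fun_prop
  exact hm.preimage h

end Cnt

theorem count_mod {d : ℕ} {J : Set (Fin d → ℝ)} (hc : Convex ℝ J) (hm : MeasurableSet J)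
    (hfin : volume J ≠ ∞) {w : ℝ} (hw : 0 < w) {c : Fin d → ℝ}
    (hcube : ∀ x : Fin d → ℝ, (∀ i, c i ≤ x i ∧ x i ≤ c i + w) → x ∈ J)
    (A : Finset (Fin d → ℤ)) (hA : ∀ a ∈ A, (fun i => (a i : ℝ)) ∈ J) {U : ℕ} (hU : 1 ≤ U)
    (x : Fin d → ℤ) :
    ((A.filter (fun a => ∀ i, (U : ℤ) ∣ a i - x i)).card : ℝ) ≤
      (1 / U + 1 / w) ^ d * (volume J).toReal := by
  classical
  set F := A.filter (fun a => ∀ i, (U : ℤ) ∣ a i - x i) with hF
  have hU0 : (0 : ℝ) < U := by exact_mod_cast hU
  set t : ℝ := U / w with ht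
  have ht0 : 0 < t := div_pos hU0 hw
  have htw : t * w = U := by rw [ht]; field_simp
  -- the disjoint boxes
  set box : (Fin d → ℤ) → Set (Fin d → ℝ) := fun a => Set.pi univ (fun i => Ico (a i : ℝ) (a i + U))
    with hbox
  have hsub : (⋃ a ∈ F, box a) ⊆ Cnt.big J t c := by
    intro y hy
    simp only [mem_iUnion, exists_prop] at hy
    obtain ⟨a, ha, hy⟩ := hy
    have haJ := hA a (Finset.mem_filter.1 ha).1
    have := Cnt.mem_big hc ht0 hcube haJ (u := fun i => y i - a i) (by
      intro i
      have := hy i (mem_univ i)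
      rw [mem_Ico] at this
      rw [htw]
      constructor <;> linarith)
    convert this using 1
    ext i
    simp
  have hvol : volume (⋃ a ∈ F, box a) = ENNReal.ofReal (F.card * (U : ℝ) ^ d) := by
    rw [measure_biUnion_finset]
    · simp only [hbox, Real.volume_pi_Ico, add_sub_cancel_left, Finset.prod_const,
        Finset.card_univ, Fintype.card_fin, Finset.sum_const, nsmul_eq_mul]
      rw [ENNReal.ofReal_mul (by positivity), ENNReal.ofReal_natCast,
        ENNReal.ofReal_pow (by positivity), ENNReal.ofReal_natCast, ENNReal.ofReal_natCast]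
    · intro a ha b hb hab
      rw [Function.onFun, Set.disjoint_left]
      intro y hy hy'
      apply hab
      ext i
      have h1 := hy i (mem_univ i)
      have h2 := hy' i (mem_univ i)
      rw [mem_Ico] at h1 h2
      have ha' := (Finset.mem_filter.1 ha).2 i
      have hb' := (Finset.mem_filter.1 hb).2 i
      have h3 : (U : ℤ) ∣ a i - b i := by
        have := dvd_sub ha' hb'
        have e : a i - b i = a i - x i - (b i - x i) := by ring
        rw [e]; exact this
      have h4 : |a i - b i| < (U : ℤ) := by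
        rw [abs_lt]
        constructor
        · have : -(U : ℝ) < (a i : ℝ) - b i := by linarith
          exact_mod_cast this
        · have : (a i : ℝ) - b i < U := by linarith
          exact_mod_cast this
      have := Int.eq_zero_of_abs_lt_dvd h3 h4
      omega
    · intro a _
      exact MeasurableSet.univ_pi (fun _ => measurableSet_Ico)
  have h1 := measure_mono (μ := volume) hsub
  rw [hvol, Cnt.volume_big J ht0 c] at h1
  have h2 := ENNReal.toReal_mono (ENNReal.mul_ne_top ENNReal.ofReal_ne_top hfin) h1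
  rw [ENNReal.toReal_ofReal (by positivity), ENNReal.toReal_mul, ENNReal.toReal_ofReal
    (by positivity)] at h2
  have e : (1 / U + 1 / w) ^ d = (1 + t) ^ d / (U : ℝ) ^ d := by
    rw [← div_pow, ht]
    congr 1
    field_simp
  rw [e, div_mul_eq_mul_div, le_div_iff₀ (by positivity)]
  exact h2

theorem count_triple {d : ℕ} {J : Set (Fin d → ℝ)} (hc : Convex ℝ J) (hm : MeasurableSet J)
    (hfin : volume J ≠ ∞) {w : ℝ} (hw : 0 < w) {c : Fin d → ℝ}
    (hcube : ∀ x : Fin d → ℝ, (∀ i, c i ≤ x i ∧ x i ≤ c i + w) → x ∈ J)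
    (A : Finset (Fin d → ℤ)) (hA : ∀ a ∈ A, (fun i => (a i : ℝ)) ∈ J) (r : Fin d → ℤ) :
    (((A ×ˢ A).filter (fun p => p.1 + p.2 + r ∈ A)).card : ℝ) ≤
      rho ^ d * ((1 + 2 / w) ^ d * (volume J).toReal) ^ 2 := by
  classical
  set t : ℝ := 2 / w with ht
  have ht0 : 0 < t := by positivity
  have htw : t * w = 2 := by rw [ht]; field_simp
  set S := Cnt.big J t c with hS
  have hSm : MeasurableSet S := Cnt.measurableSet_big hm t c
  have hY := young_set d hSm (fun i => (r i : ℝ))
  set P := (A ×ˢ A).filter (fun p => p.1 + p.2 + r ∈ A) with hP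
  have hlow : (P.card : ℝ≥0∞) ≤ ∫⁻ x in S, volume {y | y ∈ S ∧ x + y + (fun i => (r i : ℝ)) ∈ S} := by
    -- compare with the sum of indicators of pairs of cubes
    have hpt : ∀ x y : Fin d → ℝ, ∑ p ∈ P, (Yg.cube p.1).indicator (1 : (Fin d → ℝ) → ℝ≥0∞) x *
        (Yg.cube p.2).indicator 1 y ≤ S.indicator 1 x *
        ({y | y ∈ S ∧ x + y + (fun i => (r i : ℝ)) ∈ S} : Set (Fin d → ℝ)).indicator 1 y := by
      intro x y
      by_cases hp : ((fun i => ⌊x i⌋, fun i => ⌊y i⌋) : (Fin d → ℤ) × (Fin d → ℤ)) ∈ P
      · have hpA := Finset.mem_product.1 (Finset.mem_filter.1 hp).1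
        have hpr := (Finset.mem_filter.1 hp).2
        have hxS : x ∈ S := by
          have := Cnt.mem_big hc ht0 hcube (hA _ hpA.1) (u := fun i => x i - ⌊x i⌋) (by
            intro i
            have h1 := Int.floor_le (x i)
            have h2 := (Int.lt_floor_add_one (x i)).le
            rw [htw]
            constructor <;> linarith)
          convert this using 1
          ext i; simp
        have hyS : y ∈ S := by
          have := Cnt.mem_big hc ht0 hcube (hA _ hpA.2) (u := fun i => y i - ⌊y i⌋) (by
            intro i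
            have h1 := Int.floor_le (y i)
            have h2 := (Int.lt_floor_add_one (y i)).le
            rw [htw]
            constructor <;> linarith)
          convert this using 1
          ext i; simp
        have hzS : x + y + (fun i => (r i : ℝ)) ∈ S := by
          have := Cnt.mem_big hc ht0 hcube (hA _ hpr)
            (u := fun i => x i - ⌊x i⌋ + (y i - ⌊y i⌋)) (by
            intro i
            have h1 := Int.floor_le (x i)
            have h2 := (Int.lt_floor_add_one (x i)).le
            have h3 := Int.floor_le (y i)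
            have h4 := (Int.lt_floor_add_one (y i)).le
            rw [htw]
            constructor <;> linarith)
          convert this using 1
          ext i
          simp only [Pi.add_apply, Int.cast_add]
          ring
        rw [indicator_of_mem hxS, indicator_of_mem (show y ∈ {y | y ∈ S ∧
          x + y + (fun i => (r i : ℝ)) ∈ S} from ⟨hyS, hzS⟩)]
        simp only [Pi.one_apply, mul_one]
        rw [Finset.sum_eq_single_of_mem _ hp]
        · rw [indicator_of_mem (Yg.mem_cube.2 (fun i => rfl)), indicator_of_mem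
            (Yg.mem_cube.2 (fun i => rfl))]
          simp
        · intro q _ hq
          by_cases h1 : x ∈ Yg.cube q.1
          · by_cases h2 : y ∈ Yg.cube q.2
            · exfalso; apply hq
              rw [Yg.mem_cube] at h1 h2
              exact Prod.ext (funext (fun i => (h1 i).symm)) (funext (fun i => (h2 i).symm))
            · rw [indicator_of_notMem h2, mul_zero]
          · rw [indicator_of_notMem h1, zero_mul]
      · rw [Finset.sum_eq_zero]
        · exact zero_le
        · intro q hq
          by_cases h1 : x ∈ Yg.cube q.1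
          · by_cases h2 : y ∈ Yg.cube q.2
            · exfalso; apply hp
              rw [Yg.mem_cube] at h1 h2
              have : ((fun i => ⌊x i⌋, fun i => ⌊y i⌋) : (Fin d → ℤ) × (Fin d → ℤ)) = q :=
                Prod.ext (funext h1) (funext h2)
              rwa [this]
            · rw [indicator_of_notMem h2, mul_zero]
          · rw [indicator_of_notMem h1, zero_mul]
    have hint : ∫⁻ x : Fin d → ℝ, ∫⁻ y : Fin d → ℝ, ∑ p ∈ P,
        (Yg.cube p.1).indicator (1 : (Fin d → ℝ) → ℝ≥0∞) x * (Yg.cube p.2).indicator 1 y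
        = P.card := by
      have h1 : ∀ x : Fin d → ℝ, ∫⁻ y : Fin d → ℝ, ∑ p ∈ P,
          (Yg.cube p.1).indicator (1 : (Fin d → ℝ) → ℝ≥0∞) x * (Yg.cube p.2).indicator 1 y
          = ∑ p ∈ P, (Yg.cube p.1).indicator (1 : (Fin d → ℝ) → ℝ≥0∞) x := by
        intro x
        rw [lintegral_finsetSum]
        · apply Finset.sum_congr rfl
          intro p _
          rw [lintegral_const_mul _ (measurable_one.indicator (Yg.measurableSet_cube p.2)),
            lintegral_indicator_one (Yg.measurableSet_cube p.2), Yg.volume_cube, mul_one]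
        · intro p _
          exact (measurable_one.indicator (Yg.measurableSet_cube p.2)).const_mul _
      simp only [h1]
      rw [lintegral_finsetSum]
      · simp [lintegral_indicator_one (Yg.measurableSet_cube _), Yg.volume_cube]
      · intro p _
        exact measurable_one.indicator (Yg.measurableSet_cube p.1)
    rw [← hint, ← lintegral_indicator hSm]
    apply lintegral_mono
    intro x
    refine le_trans (lintegral_mono (hpt x)) ?_
    by_cases hx : x ∈ S
    · rw [indicator_of_mem hx, indicator_of_mem hx]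
      have hmy : MeasurableSet {y | y ∈ S ∧ x + y + (fun i => (r i : ℝ)) ∈ S} := by
        have h2 : Measurable (fun y : Fin d → ℝ => x + y + (fun i => (r i : ℝ))) := by fun_prop
        exact hSm.inter (hSm.preimage h2)
      simp only [Pi.one_apply, one_mul]
      rw [lintegral_indicator_one hmy]
    · simp [indicator_of_notMem hx]
  have h1 := le_trans hlow hY
  rw [hS, Cnt.volume_big J ht0 c] at h1
  have hrho : 0 ≤ rho := by unfold rho; norm_num
  have hne : ENNReal.ofReal (rho ^ d) * (ENNReal.ofReal ((1 + t) ^ d) * volume J) ^ 2 ≠ ∞ :=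
    ENNReal.mul_ne_top ENNReal.ofReal_ne_top
      (ENNReal.pow_ne_top (ENNReal.mul_ne_top ENNReal.ofReal_ne_top hfin))
  have h2 := ENNReal.toReal_mono hne h1
  rw [ENNReal.toReal_natCast, ENNReal.toReal_mul, ENNReal.toReal_ofReal (by positivity),
    ENNReal.toReal_pow, ENNReal.toReal_mul, ENNReal.toReal_ofReal (by positivity)] at h2
  exact h2

theorem count_lower {d : ℕ} {J₀ : Set (Fin d → ℝ)} (hm : MeasurableSet J₀)
    (A : Finset (Fin d → ℤ))
    (hA : ∀ a : Fin d → ℤ, (∃ u ∈ J₀, ∀ i, u i ≤ a i ∧ (a i : ℝ) ≤ u i + 1) → a ∈ A) :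
    (volume J₀).toReal ≤ A.card := by
  set box : (Fin d → ℤ) → Set (Fin d → ℝ) := fun a => Set.pi univ (fun i => Ioc (a i - 1 : ℝ) (a i))
    with hbox
  have hsub : J₀ ⊆ ⋃ a ∈ A, box a := by
    intro u hu
    have h1 : (fun i => ⌈u i⌉) ∈ A := by
      apply hA
      refine ⟨u, hu, fun i => ⟨Int.le_ceil _, (Int.ceil_lt_add_one _).le⟩⟩
    simp only [mem_iUnion, exists_prop]
    refine ⟨_, h1, fun i _ => ?_⟩
    rw [mem_Ioc]
    constructor
    · have := Int.ceil_lt_add_one (u i)
      linarith
    · exact Int.le_ceil _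
  have h1 : volume J₀ ≤ A.card := by
    refine le_trans (measure_mono hsub) (le_trans (measure_biUnion_finset_le _ _) ?_)
    simp only [hbox, Real.volume_pi_Ioc]
    simp
  have h2 := ENNReal.toReal_mono (ENNReal.natCast_ne_top _) h1
  simpa using h2

end Vale.Agent.P230
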