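import Vale.Agent.P230.Defs

/-! # P230, module H: counting by heights -/

open MeasureTheory Set
open scoped ENNReal

namespace Vale.Agent.P230

namespace Hgt

/-- the relation defining the height -/
def HP (q : ℕ) (μ : ZMod q) (U : ℕ) : Prop :=
  ∃ u v : ℤ, (u ≠ 0 ∨ v ≠ 0) ∧ |u| ≤ (U : ℤ) ∧ |v| ≤ (U : ℤ) ∧ (v : ZMod q) = μ * (u : ZMod q)

theorem HP_ex (q : ℕ) [Fact q.Prime] (μ : ZMod q) : ∃ U, HP q μ U := by
  refine ⟨q, 0, q, Or.inr ?_, ?_, ?_, ?_⟩
  · exact_mod_cast (Fact.out : q.Prime).ne_zero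
  · simp
  · simp
  · simp

open Classical in
/-- the height of a residue -/
noncomputable def ht (q : ℕ) [Fact q.Prime] (μ : ZMod q) : ℕ := Nat.find (HP_ex q μ)

variable {q : ℕ} [Fact q.Prime]

theorem ht_spec (μ : ZMod q) : HP q μ (ht q μ) := by
  classical
  exact Nat.find_spec (HP_ex q μ)

theorem ht_min (μ : ZMod q) {U : ℕ} (h : HP q μ U) : ht q μ ≤ U := by
  classical
  exact Nat.find_min' (HP_ex q μ) h

theorem cast_inj_of_lt {x : ℤ} (h : (x : ZMod q) = 0) (hx : |x| < (q : ℤ)) : x = 0 := by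
  have h1 : (q : ℤ) ∣ x := (ZMod.intCast_zmod_eq_zero_iff_dvd x q).1 h
  exact Int.eq_zero_of_abs_lt_dvd h1 hx

theorem ht_pos (μ : ZMod q) : 1 ≤ ht q μ := by
  obtain ⟨u, v, hne, hu, hv, -⟩ := ht_spec μ
  by_contra h
  have h0 : ht q μ = 0 := by omega
  rw [h0] at hu hv
  simp only [Nat.cast_zero, abs_nonpos_iff] at hu hv
  rcases hne with h | h <;> contradiction

/-- small solutions of `y = μ x` vanish when the height is large -/
theorem zero_of_ht {μ : ZMod q} {B : ℕ} (h : B < ht q μ) {x y : ℤ} (hx : |x| ≤ (B : ℤ))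
    (hy : |y| ≤ (B : ℤ)) (hxy : (y : ZMod q) = μ * (x : ZMod q)) : x = 0 ∧ y = 0 := by
  by_contra hne
  have : ht q μ ≤ B := ht_min μ ⟨x, y, by tauto, hx, hy, hxy⟩
  omega

/-- the primitive generator -/
theorem prim {μ : ZMod q} {B : ℕ} (hq : 3 * B ^ 2 < q) (h : ht q μ ≤ B) :
    ∃ u v : ℤ, (|u| = (ht q μ : ℤ) ∨ |v| = (ht q μ : ℤ)) ∧
      ∀ x y : ℤ, |x| ≤ (B : ℤ) → |y| ≤ (B : ℤ) → (y : ZMod q) = μ * (x : ZMod q) → u ∣ x ∧ v ∣ y := by
  obtain ⟨u, v, hne, hu, hv, huv⟩ := ht_spec μ
  have hB1 : 1 ≤ B := le_trans (ht_pos μ) h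
  have hBq : (B : ℤ) < q := by
    have : B ≤ B ^ 2 := by nlinarith
    have : B < q := by omega
    exact_mod_cast this
  -- coprimality
  have hcop : IsCoprime u v := by
    rw [Int.isCoprime_iff_gcd_eq_one]
    by_contra hg
    have hg0 : Int.gcd u v ≠ 0 := by
      intro h0
      rw [Int.gcd_eq_zero_iff] at h0
      rcases hne with h | h
      · exact h h0.1
      · exact h h0.2
    have hg2 : 2 ≤ Int.gcd u v := by omega
    obtain ⟨u', hu'⟩ := Int.gcd_dvd_left (a := u) (b := v)
    obtain ⟨v', hv'⟩ := Int.gcd_dvd_right (a := u) (b := v)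
    set g := Int.gcd u v with hgdef
    have hgpos : (0 : ℤ) < g := by exact_mod_cast Nat.pos_of_ne_zero hg0
    have hgB : (g : ℤ) ≤ B := by
      have hH : (ht q μ : ℤ) ≤ B := by exact_mod_cast h
      rcases hne with h1 | h1
      · have : (g : ℤ) ≤ |u| := by
          apply Int.le_of_dvd (abs_pos.2 h1)
          rw [dvd_abs]; exact Int.gcd_dvd_left u v
        linarith
      · have : (g : ℤ) ≤ |v| := by
          apply Int.le_of_dvd (abs_pos.2 h1)
          rw [dvd_abs]; exact Int.gcd_dvd_right u v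
        linarith
    have hgz : ((g : ℤ) : ZMod q) ≠ 0 := by
      intro h0
      have := cast_inj_of_lt h0 (by rw [abs_of_pos hgpos]; linarith)
      omega
    have hne' : u' ≠ 0 ∨ v' ≠ 0 := by
      rcases hne with h1 | h1
      · left; rintro rfl; exact h1 (by rw [hu', mul_zero])
      · right; rintro rfl; exact h1 (by rw [hv', mul_zero])
    have hcast : (v' : ZMod q) = μ * (u' : ZMod q) := by
      apply mul_left_cancel₀ hgz
      have : ((g : ℤ) : ZMod q) * (v' : ZMod q) = (v : ZMod q) := by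
        rw [← Int.cast_mul, ← hv']
      rw [this, huv]
      conv_lhs => rw [hu']
      push_cast
      ring
    -- the reduced pair has smaller height
    have hsmall : HP q μ (ht q μ - 1) := by
      refine ⟨u', v', hne', ?_, ?_, hcast⟩
      · have h1 : |u| = (g : ℤ) * |u'| := by
          conv_lhs => rw [hu']
          rw [abs_mul, abs_of_pos hgpos]
        have h2 : (2 : ℤ) ≤ g := by exact_mod_cast hg2
        have h3 : 1 ≤ ht q μ := ht_pos μ
        have h4 : ((ht q μ - 1 : ℕ) : ℤ) = (ht q μ : ℤ) - 1 := by omega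
        rw [h4]
        have h5 : (0 : ℤ) ≤ |u'| := abs_nonneg _
        by_cases h6 : |u'| = 0
        · rw [h6]; omega
        · have : 1 ≤ |u'| := by omega
          nlinarith
      · have h1 : |v| = (g : ℤ) * |v'| := by
          conv_lhs => rw [hv']
          rw [abs_mul, abs_of_pos hgpos]
        have h2 : (2 : ℤ) ≤ g := by exact_mod_cast hg2
        have h3 : 1 ≤ ht q μ := ht_pos μ
        have h4 : ((ht q μ - 1 : ℕ) : ℤ) = (ht q μ : ℤ) - 1 := by omega
        rw [h4]
        have h5 : (0 : ℤ) ≤ |v'| := abs_nonneg _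
        by_cases h6 : |v'| = 0
        · rw [h6]; omega
        · have : 1 ≤ |v'| := by omega
          nlinarith
    have := ht_min μ hsmall
    have h3 : 1 ≤ ht q μ := ht_pos μ
    omega
  refine ⟨u, v, ?_, ?_⟩
  · by_contra hcon
    push Not at hcon
    have h3 : 1 ≤ ht q μ := ht_pos μ
    have hsmall : HP q μ (ht q μ - 1) := by
      have h4 : ((ht q μ - 1 : ℕ) : ℤ) = (ht q μ : ℤ) - 1 := by omega
      refine ⟨u, v, hne, ?_, ?_, huv⟩
      · rw [h4]; have := hcon.1; omega
      · rw [h4]; have := hcon.2; omega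
    have := ht_min μ hsmall
    omega
  · intro x y hx hy hxy
    have hdet : u * y - v * x = 0 := by
      apply cast_inj_of_lt (q := q)
      · push_cast
        rw [hxy, huv]; ring
      · have hH : (ht q μ : ℤ) ≤ B := by exact_mod_cast h
        have h1 : |u * y| ≤ (B : ℤ) * B := by
          rw [abs_mul]; exact mul_le_mul (by linarith) hy (abs_nonneg _) (by positivity)
        have h2 : |v * x| ≤ (B : ℤ) * B := by
          rw [abs_mul]; exact mul_le_mul (by linarith) hx (abs_nonneg _) (by positivity)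
        have h3 : |u * y - v * x| ≤ |u * y| + |v * x| := abs_sub _ _
        have h4 : (3 : ℤ) * (B : ℤ) ^ 2 < q := by exact_mod_cast hq
        nlinarith
    constructor
    · have : u ∣ v * x := ⟨y, by linarith⟩
      exact hcop.dvd_of_dvd_mul_left this
    · have : v ∣ u * y := ⟨x, by linarith⟩
      exact hcop.symm.dvd_of_dvd_mul_left this

theorem two_le_ht {μ : ZMod q} (h0 : μ ≠ 0) (h1 : μ ≠ 1) (h2 : μ ≠ -1) : 2 ≤ ht q μ := by
  have hpos := ht_pos μ
  by_contra hlt
  have h : ht q μ = 1 := by omega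
  obtain ⟨u, v, hne, hu, hv, huv⟩ := ht_spec μ
  rw [h] at hu hv
  simp only [Nat.cast_one] at hu hv
  have hu' : u = 0 ∨ u = 1 ∨ u = -1 := by
    rw [abs_le] at hu; omega
  have hv' : v = 0 ∨ v = 1 ∨ v = -1 := by
    rw [abs_le] at hv; omega
  rcases hu' with rfl | rfl | rfl
  · simp only [Int.cast_zero, mul_zero] at huv
    rcases hv' with rfl | rfl | rfl
    · simp at hne
    · simp at huv
    · simp at huv
  · simp only [Int.cast_one, mul_one] at huv
    rcases hv' with rfl | rfl | rfl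
    · apply h0; rw [← huv]; simp
    · apply h1; rw [← huv]; simp
    · apply h2; rw [← huv]; simp
  · simp only [Int.cast_neg, Int.cast_one, mul_neg, mul_one] at huv
    rcases hv' with rfl | rfl | rfl
    · apply h0
      have : (0 : ZMod q) = -μ := by simpa using huv
      rw [← neg_eq_zero, ← this]
    · apply h2
      have : (1 : ZMod q) = -μ := by simpa using huv
      rw [this, neg_neg]
    · apply h1
      have : (-1 : ZMod q) = -μ := by simpa using huv
      exact (neg_injective this).symm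

/-- number of residues of bounded height -/
theorem card_ht_le {B U : ℕ} (hUB : U ≤ B) (hq : 3 * B ^ 2 < q) (hB1 : 1 ≤ B) :
    (Finset.univ.filter (fun μ : ZMod q => ht q μ ≤ U)).card ≤ (2 * U + 1) ^ 2 := by
  classical
  have hBq : (B : ℤ) < q := by
    have : B ≤ B ^ 2 := by nlinarith
    have : B < q := by omega
    exact_mod_cast this
  -- choose a pair for each residue
  have hch : ∀ μ : ZMod q, ∃ p : ℤ × ℤ, (p.1 ≠ 0 ∨ p.2 ≠ 0) ∧ |p.1| ≤ (ht q μ : ℤ) ∧
      |p.2| ≤ (ht q μ : ℤ) ∧ (p.2 : ZMod q) = μ * (p.1 : ZMod q) := by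
    intro μ
    obtain ⟨u, v, h⟩ := ht_spec μ
    exact ⟨(u, v), h⟩
  choose f hf using hch
  have hcard : (Finset.Icc (-(U : ℤ)) U ×ˢ Finset.Icc (-(U : ℤ)) U).card = (2 * U + 1) ^ 2 := by
    rw [Finset.card_product, Int.card_Icc]
    have : ((U : ℤ) + 1 - -(U : ℤ)).toNat = 2 * U + 1 := by omega
    rw [this]; ring
  rw [← hcard]
  apply Finset.card_le_card_of_injOn f
  · intro μ hμ
    have hμ' : ht q μ ≤ U := by simpa using hμ
    obtain ⟨-, h1, h2, -⟩ := hf μ
    have hh : (ht q μ : ℤ) ≤ U := by exact_mod_cast hμ'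
    simp only [Finset.coe_product, Finset.coe_Icc, Set.mem_prod, Set.mem_Icc]
    rw [abs_le] at h1 h2
    refine ⟨⟨?_, ?_⟩, ⟨?_, ?_⟩⟩ <;> omega
  · intro μ hμ μ' hμ' he
    have hμ1 : ht q μ ≤ U := by simpa using hμ
    obtain ⟨hne, h1, h2, h3⟩ := hf μ
    obtain ⟨hne', h1', h2', h3'⟩ := hf μ'
    rw [← he] at h3'
    have hh : (ht q μ : ℤ) ≤ U := by exact_mod_cast hμ1
    have hUB' : (U : ℤ) ≤ B := by exact_mod_cast hUB
    have hu0 : ((f μ).1 : ZMod q) ≠ 0 := by
      intro h0
      have hz := cast_inj_of_lt h0 (by linarith)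
      rw [h0, mul_zero] at h3
      have hz' := cast_inj_of_lt h3 (by linarith)
      rcases hne with h | h <;> contradiction
    have : μ * ((f μ).1 : ZMod q) = μ' * ((f μ).1 : ZMod q) := by rw [← h3, ← h3']
    exact mul_right_cancel₀ hu0 this

/-- reduction modulo `q` -/
def red {d : ℕ} (a : Fin d → ℤ) : Fin d → ZMod q := fun i => (a i : ZMod q)

theorem red_inj {d B : ℕ} {A : Finset (Fin d → ℤ)} (hB1 : 1 ≤ B)
    (hB : ∀ a ∈ A, ∀ b ∈ A, ∀ i, |a i - b i| ≤ (B : ℤ)) (hq : 3 * B ^ 2 < q) :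
    Set.InjOn (red (q := q)) (A : Set (Fin d → ℤ)) := by
  intro a ha b hb hab
  ext i
  have h1 : ((a i - b i : ℤ) : ZMod q) = 0 := by
    have := congrFun hab i
    simp only [red] at this
    push_cast
    rw [this, sub_self]
  have hBq : (B : ℤ) < q := by
    have : B ≤ B ^ 2 := by nlinarith
    have : B < q := by omega
    exact_mod_cast this
  have := cast_inj_of_lt h1 (lt_of_le_of_lt (hB a ha b hb i) hBq)
  omega

open Classical in
/-- one coordinate -/
theorem one_coord {d B : ℕ} {A : Finset (Fin d → ℤ)} (hB1 : 1 ≤ B)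
    (hB : ∀ a ∈ A, ∀ b ∈ A, ∀ i, |a i - b i| ≤ (B : ℤ)) (hq : 3 * B ^ 2 < q)
    {κ : ℕ → ℝ} (hκ0 : ∀ U, 0 ≤ κ U)
    (hκ : ∀ U, 2 ≤ U → U ≤ B → ∀ x : Fin d → ℤ,
      ((A.filter (fun a => ∀ i, (U : ℤ) ∣ a i - x i)).card : ℝ) ≤ κ U * A.card)
    (μ : ZMod q) (hμ : μ ≠ 0) (r : Fin d → ZMod q) :
    (B < ht q μ → ((A.image (red (q := q))).filter
      (fun a => r + μ • a ∈ A.image (red (q := q)))).card ≤ 1) ∧
    (2 ≤ ht q μ → ht q μ ≤ B → (((A.image (red (q := q))).filter
      (fun a => r + μ • a ∈ A.image (red (q := q)))).card : ℝ) ≤ κ (ht q μ) * A.card) := by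
  set A' := A.image (red (q := q)) with hA'
  have hinj := red_inj (q := q) hB1 hB hq
  set S := A.filter (fun a => r + μ • red (q := q) a ∈ A') with hS
  have hcard : (A'.filter (fun a => r + μ • a ∈ A')).card = S.card := by
    have : A'.filter (fun a => r + μ • a ∈ A') = S.image (red (q := q)) := by
      ext y
      simp only [hA', hS, Finset.mem_filter, Finset.mem_image]
      constructor
      · rintro ⟨⟨a, ha, rfl⟩, h⟩
        exact ⟨a, ⟨ha, h⟩, rfl⟩
      · rintro ⟨a, ⟨ha, h⟩, rfl⟩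
        exact ⟨⟨a, ha, rfl⟩, h⟩
    rw [this, Finset.card_image_of_injOn]
    intro a ha b hb
    exact hinj (Finset.mem_filter.1 ha).1 (Finset.mem_filter.1 hb).1
  rw [hcard]
  -- choice of the end point
  have hch : ∀ a : Fin d → ℤ, ∃ e : Fin d → ℤ, a ∈ S → e ∈ A ∧ red (q := q) e = r + μ • red a := by
    intro a
    by_cases ha : a ∈ S
    · have := (Finset.mem_filter.1 ha).2
      rw [hA', Finset.mem_image] at this
      obtain ⟨e, he, h⟩ := this
      exact ⟨e, fun _ => ⟨he, h⟩⟩
    · exact ⟨a, fun h => absurd h ha⟩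
  choose e he using hch
  have hrel : ∀ a ∈ S, ∀ b ∈ S, ∀ i, ((e a i - e b i : ℤ) : ZMod q)
      = μ * ((a i - b i : ℤ) : ZMod q) := by
    intro a ha b hb i
    have h1 := congrFun (he a ha).2 i
    have h2 := congrFun (he b hb).2 i
    simp only [red, Pi.add_apply, Pi.smul_apply, smul_eq_mul] at h1 h2
    push_cast
    rw [h1, h2]; ring
  have hSA : ∀ a ∈ S, a ∈ A := fun a ha => (Finset.mem_filter.1 ha).1
  constructor
  · intro hlt
    rw [Finset.card_le_one]
    intro a ha b hb
    ext i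
    have := zero_of_ht hlt (hB a (hSA a ha) b (hSA b hb) i)
      (hB (e a) (he a ha).1 (e b) (he b hb).1 i) (hrel a ha b hb i)
    omega
  · intro h2 hle
    rcases S.eq_empty_or_nonempty with hSe | ⟨a₀, ha₀⟩
    · rw [hSe]
      simp only [Finset.card_empty, Nat.cast_zero]
      exact mul_nonneg (hκ0 _) (Nat.cast_nonneg _)
    obtain ⟨u, v, huv, hdiv⟩ := prim hq hle
    rcases huv with hu | hv
    · refine le_trans ?_ (hκ (ht q μ) h2 hle a₀)
      apply Nat.cast_le.2
      apply Finset.card_le_card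
      intro a ha
      rw [Finset.mem_filter]
      refine ⟨hSA a ha, fun i => ?_⟩
      have := (hdiv _ _ (hB a (hSA a ha) a₀ (hSA a₀ ha₀) i)
        (hB (e a) (he a ha).1 (e a₀) (he a₀ ha₀).1 i) (hrel a ha a₀ ha₀ i)).1
      rw [← hu]
      exact (abs_dvd _ _).2 this
    · refine le_trans ?_ (hκ (ht q μ) h2 hle (e a₀))
      apply Nat.cast_le.2
      apply Finset.card_le_card_of_injOn e
      · intro a ha
        have ha : a ∈ S := ha
        rw [Finset.mem_coe, Finset.mem_filter]
        refine ⟨(he a ha).1, fun i => ?_⟩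
        have := (hdiv _ _ (hB a (hSA a ha) a₀ (hSA a₀ ha₀) i)
          (hB (e a) (he a ha).1 (e a₀) (he a₀ ha₀).1 i) (hrel a ha a₀ ha₀ i)).2
        rw [← hv]
        exact (abs_dvd _ _).2 this
      · intro a ha b hb hab
        have ha : a ∈ S := ha
        have hb : b ∈ S := hb
        apply hinj (hSA a ha) (hSA b hb)
        have h1 := (he a ha).2
        have h3 := (he b hb).2
        rw [hab, h3] at h1
        have h4 : μ • red (q := q) b = μ • red a := add_left_cancel h1
        funext i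
        have := congrFun h4 i
        simp only [Pi.smul_apply, smul_eq_mul] at this
        exact (mul_left_cancel₀ hμ this).symm

section count

variable {d j : ℕ} (A' : Finset (Fin d → ZMod q)) (lam : Fin j → ZMod q)

open Classical in
/-- the tuples counted for a fixed coefficient vector -/
noncomputable def Nl : Finset (Fin j → Fin d → ZMod q) :=
  (Fintype.piFinset (fun _ : Fin j => A')).filter (fun a => ∑ i, lam i • a i ∈ A')

/-- fix all coordinates except one -/
theorem Nl_le_one (i : Fin j) (M : ℕ) (hM : ∀ r : Fin d → ZMod q,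
    (A'.filter (fun a => r + lam i • a ∈ A')).card ≤ M) :
    (Nl A' lam).card ≤ M * A'.card ^ (j - 1) := by
  classical
  have hcard : (Fintype.piFinset (fun _ : {k : Fin j // k ≠ i} => A')).card
      = A'.card ^ (j - 1) := by
    rw [Fintype.card_piFinset, Finset.prod_const, Finset.card_univ]
    congr 1
    rw [Fintype.card_subtype_compl]
    simp
  rw [← hcard]
  apply Finset.card_le_mul_card_image_of_maps_to
    (f := fun (a : Fin j → Fin d → ZMod q) (k : {k : Fin j // k ≠ i}) => a k)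
  · intro a ha
    have ha' := Fintype.mem_piFinset.1 (Finset.mem_filter.1 ha).1
    exact Fintype.mem_piFinset.2 (fun k => ha' k)
  · intro b hb
    refine le_trans ?_ (hM (∑ k : {k : Fin j // k ≠ i}, lam k • b k))
    apply Finset.card_le_card_of_injOn (fun a => a i)
    · intro a ha
      have ha := Finset.mem_filter.1 (Finset.mem_coe.1 ha)
      have h1 := Finset.mem_filter.1 ha.1
      have h2 := Fintype.mem_piFinset.1 h1.1
      rw [Finset.mem_coe, Finset.mem_filter]
      refine ⟨h2 i, ?_⟩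
      have h3 : ∑ k : {k : Fin j // k ≠ i}, lam k • b k + lam i • a i = ∑ k, lam k • a k := by
        rw [← ha.2]
        rw [← Fintype.sum_subtype_add_sum_subtype (p := fun k => k ≠ i) (fun k => lam k • a k)]
        congr 1
        have : ∑ x : {x // ¬ (x ≠ i)}, lam x • a x = ∑ x ∈ ({⟨i, by simp⟩} :
            Finset {x : Fin j // ¬ (x ≠ i)}), lam x • a x := by
          symm
          apply Finset.sum_subset (Finset.subset_univ _)
          intro x _ hx
          exfalso; apply hx
          rw [Finset.mem_singleton]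
          apply Subtype.ext
          have := x.2
          push Not at this
          exact this
        rw [this]; simp
      rw [h3]; exact h1.2
    · intro a ha a' ha' hi
      have ha := Finset.mem_filter.1 (Finset.mem_coe.1 ha)
      have ha' := Finset.mem_filter.1 (Finset.mem_coe.1 ha')
      funext k
      by_cases hk : k = i
      · subst hk; exact hi
      · exact congrFun (ha.2.trans ha'.2.symm) ⟨k, hk⟩

/-- fix all coordinates except two -/
theorem Nl_le_two (i l : Fin j) (hil : i ≠ l) (hi : lam i = 1) (hl : lam l = 1) (M : ℕ)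
    (hM : ∀ r : Fin d → ZMod q,
    ((A' ×ˢ A').filter (fun p => p.1 + p.2 + r ∈ A')).card ≤ M) :
    (Nl A' lam).card ≤ M * A'.card ^ (j - 2) := by
  classical
  have hcard : (Fintype.piFinset (fun _ : {k : Fin j // ¬ (k = i ∨ k = l)} => A')).card
      = A'.card ^ (j - 2) := by
    rw [Fintype.card_piFinset, Finset.prod_const, Finset.card_univ]
    congr 1
    rw [Fintype.card_subtype_compl]
    have : Fintype.card {k : Fin j // k = i ∨ k = l} = 2 := by
      rw [Fintype.card_subtype]
      have : Finset.univ.filter (fun k : Fin j => k = i ∨ k = l) = {i, l} := by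
        ext k; simp
      rw [this, Finset.card_pair hil]
    rw [this]; simp
  rw [← hcard]
  apply Finset.card_le_mul_card_image_of_maps_to
    (f := fun (a : Fin j → Fin d → ZMod q) (k : {k : Fin j // ¬ (k = i ∨ k = l)}) => a k)
  · intro a ha
    have ha' := Fintype.mem_piFinset.1 (Finset.mem_filter.1 ha).1
    exact Fintype.mem_piFinset.2 (fun k => ha' k)
  · intro b hb
    refine le_trans ?_ (hM (∑ k : {k : Fin j // ¬ (k = i ∨ k = l)}, lam k • b k))
    apply Finset.card_le_card_of_injOn (fun a => (a i, a l))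
    · intro a ha
      have ha := Finset.mem_filter.1 (Finset.mem_coe.1 ha)
      have h1 := Finset.mem_filter.1 ha.1
      have h2 := Fintype.mem_piFinset.1 h1.1
      rw [Finset.mem_coe, Finset.mem_filter, Finset.mem_product]
      refine ⟨⟨h2 i, h2 l⟩, ?_⟩
      have h3 : a i + a l + ∑ k : {k : Fin j // ¬ (k = i ∨ k = l)}, lam k • b k
          = ∑ k, lam k • a k := by
        rw [← ha.2]
        rw [← Fintype.sum_subtype_add_sum_subtype (p := fun k => k = i ∨ k = l)
          (fun k => lam k • a k)]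
        congr 1
        have : ∑ x : {x : Fin j // x = i ∨ x = l}, lam x • a x
            = ∑ x ∈ ({⟨i, Or.inl rfl⟩, ⟨l, Or.inr rfl⟩} :
            Finset {x : Fin j // x = i ∨ x = l}), lam x • a x := by
          symm
          apply Finset.sum_subset (Finset.subset_univ _)
          intro x _ hx
          exfalso; apply hx
          rw [Finset.mem_insert, Finset.mem_singleton]
          rcases x.2 with h | h
          · left; exact Subtype.ext h
          · right; exact Subtype.ext h
        rw [this, Finset.sum_pair]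
        · simp [hi, hl]
        · intro h
          exact hil (congrArg Subtype.val h)
      rw [h3]; exact h1.2
    · intro a ha a' ha' hp
      have ha := Finset.mem_filter.1 (Finset.mem_coe.1 ha)
      have ha' := Finset.mem_filter.1 (Finset.mem_coe.1 ha')
      simp only [Prod.mk.injEq] at hp
      funext k
      by_cases hk : k = i ∨ k = l
      · rcases hk with hk | hk
        · subst hk; exact hp.1
        · subst hk; exact hp.2
      · exact congrFun (ha.2.trans ha'.2.symm) ⟨k, hk⟩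

open Classical in
theorem Y_eq : Y j A' = ∑ lam ∈ Finset.univ.filter (fun lam : Fin j → ZMod q =>
    (∀ i, lam i ≠ 0) ∧ ∑ i, lam i = 1), (Nl A' lam).card := by
  unfold Y
  rw [Nat.card_eq_fintype_card, Fintype.card_subtype]
  rw [Finset.card_eq_sum_card_fiberwise (f := fun p => p.1)
    (t := Finset.univ.filter (fun lam : Fin j → ZMod q => (∀ i, lam i ≠ 0) ∧ ∑ i, lam i = 1))]
  · apply Finset.sum_congr rfl
    intro lam hlam
    have hlam := (Finset.mem_filter.1 hlam).2
    apply Finset.card_bij (fun p _ => p.2)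
    · intro p hp
      rw [Finset.mem_filter, Finset.mem_filter] at hp
      obtain ⟨⟨-, h1, h2, h3, h4⟩, rfl⟩ := hp
      exact Finset.mem_filter.2 ⟨Fintype.mem_piFinset.2 h3, h4⟩
    · intro p hp p' hp' h
      have h1 := (Finset.mem_filter.1 hp).2
      have h2 := (Finset.mem_filter.1 hp').2
      exact Prod.ext (h1.trans h2.symm) h
    · intro a ha
      have ha := Finset.mem_filter.1 ha
      refine ⟨(lam, a), ?_, rfl⟩
      rw [Finset.mem_filter, Finset.mem_filter]
      exact ⟨⟨Finset.mem_univ _, hlam.1, hlam.2, fun i => Fintype.mem_piFinset.1 ha.1 i, ha.2⟩, rfl⟩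
  · intro p hp
    have hp := (Finset.mem_filter.1 (Finset.mem_coe.1 hp)).2
    rw [Finset.mem_coe, Finset.mem_filter]
    exact ⟨Finset.mem_univ _, hp.1, hp.2.1⟩

end count

open Classical in
/-- two coordinates with coefficient one -/
theorem two_coord {d B : ℕ} {A : Finset (Fin d → ℤ)} (hB1 : 1 ≤ B)
    (hB : ∀ a ∈ A, ∀ b ∈ A, ∀ i, |a i - b i| ≤ (B : ℤ)) (hq : 3 * B ^ 2 < q)
    {T : ℝ} (hT0 : 0 ≤ T) (hT : ∀ r : Fin d → ℤ,
      (((A ×ˢ A).filter (fun p => p.1 + p.2 + r ∈ A)).card : ℝ) ≤ T * (A.card : ℝ) ^ 2)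
    (r : Fin d → ZMod q) :
    (((A.image (red (q := q)) ×ˢ A.image (red (q := q))).filter
      (fun p => p.1 + p.2 + r ∈ A.image (red (q := q)))).card : ℝ) ≤ T * (A.card : ℝ) ^ 2 := by
  set A' := A.image (red (q := q)) with hA'
  set S := (A' ×ˢ A').filter (fun p => p.1 + p.2 + r ∈ A') with hS
  rcases S.eq_empty_or_nonempty with hSe | ⟨p₀, hp₀⟩
  · rw [hSe]
    simp only [Finset.card_empty, Nat.cast_zero]
    positivity
  have hlift : ∀ p ∈ S, ∃ a ∈ A, ∃ b ∈ A, ∃ c ∈ A, red (q := q) a = p.1 ∧ red (q := q) b = p.2 ∧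
      red (q := q) c = p.1 + p.2 + r := by
    intro p hp
    have h1 := Finset.mem_filter.1 hp
    have h2 := Finset.mem_product.1 h1.1
    rw [hA'] at h1 h2
    obtain ⟨a, ha, ha'⟩ := Finset.mem_image.1 h2.1
    obtain ⟨b, hb, hb'⟩ := Finset.mem_image.1 h2.2
    obtain ⟨c, hc, hc'⟩ := Finset.mem_image.1 h1.2
    exact ⟨a, ha, b, hb, c, hc, ha', hb', hc'⟩
  obtain ⟨a₀, ha₀, b₀, hb₀, c₀, hc₀, e1, e2, e3⟩ := hlift p₀ hp₀
  refine le_trans ?_ (hT (c₀ - a₀ - b₀))
  apply Nat.cast_le.2
  have hsub : S ⊆ ((A ×ˢ A).filter (fun p => p.1 + p.2 + (c₀ - a₀ - b₀) ∈ A)).image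
      (fun p => (red (q := q) p.1, red (q := q) p.2)) := by
    intro p hp
    obtain ⟨a, ha, b, hb, c, hc, f1, f2, f3⟩ := hlift p hp
    rw [Finset.mem_image]
    refine ⟨(a, b), ?_, by rw [f1, f2]⟩
    rw [Finset.mem_filter, Finset.mem_product]
    refine ⟨⟨ha, hb⟩, ?_⟩
    have hc' : a + b + (c₀ - a₀ - b₀) = c := by
      funext i
      have g1 : ((c i - a i - b i - (c₀ i - a₀ i - b₀ i) : ℤ) : ZMod q) = 0 := by
        have h1 := congrFun f1 i
        have h2 := congrFun f2 i
        have h3 := congrFun f3 i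
        have h4 := congrFun e1 i
        have h5 := congrFun e2 i
        have h6 := congrFun e3 i
        simp only [red, Pi.add_apply] at h1 h2 h3 h4 h5 h6
        push_cast
        rw [h1, h2, h3, h4, h5, h6]
        ring
      have g2 := cast_inj_of_lt g1 (by
        have h1 := hB a ha a₀ ha₀ i
        have h2 := hB b hb b₀ hb₀ i
        have h3 := hB c hc c₀ hc₀ i
        have h4 : (3 : ℤ) * (B : ℤ) ^ 2 < q := by exact_mod_cast hq
        have h5 : (1 : ℤ) ≤ B := by exact_mod_cast hB1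
        rw [abs_le] at h1 h2 h3
        rw [abs_lt]
        constructor <;> nlinarith)
      simp only [Pi.add_apply, Pi.sub_apply]
      linarith
    have : ((a, b).1 + (a, b).2 + (c₀ - a₀ - b₀) : Fin d → ℤ) = c := hc'
    rw [this]; exact hc
  exact le_trans (Finset.card_le_card hsub) Finset.card_image_le

theorem two_ones {j : ℕ} (hj : 2 ≤ j) (hjq : j + 1 < q) (lam : Fin j → ZMod q)
    (h : ∀ i, lam i = 1 ∨ lam i = -1) (hs : ∑ i, lam i = 1) :
    ∃ i l : Fin j, i ≠ l ∧ lam i = 1 ∧ lam l = 1 := by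
  classical
  set P := Finset.univ.filter (fun i : Fin j => lam i = 1) with hP
  by_cases hc : 1 < P.card
  · obtain ⟨i, hi, l, hl, hil⟩ := Finset.one_lt_card.1 hc
    exact ⟨i, l, hil, (Finset.mem_filter.1 hi).2, (Finset.mem_filter.1 hl).2⟩
  · exfalso
    have hPj : P.card ≤ j := by
      have := Finset.card_le_univ P
      simpa using this
    have hsum : ∑ i, lam i = (P.card : ZMod q) - ((j - P.card : ℕ) : ZMod q) := by
      rw [← Finset.sum_filter_add_sum_filter_not Finset.univ (fun i => lam i = 1)]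
      have h1 : ∑ i ∈ Finset.univ.filter (fun i : Fin j => lam i = 1), lam i = (P.card : ZMod q) := by
        rw [Finset.sum_congr rfl (fun i hi => (Finset.mem_filter.1 hi).2)]
        simp [hP]
      have h2 : ∑ i ∈ Finset.univ.filter (fun i : Fin j => ¬ lam i = 1), lam i
          = - ((j - P.card : ℕ) : ZMod q) := by
        rw [Finset.sum_congr rfl (fun i hi => (h i).resolve_left (Finset.mem_filter.1 hi).2)]
        rw [Finset.sum_const, smul_neg, nsmul_eq_mul, mul_one]
        congr 2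
        have h3 := Finset.card_filter_add_card_filter_not (s := (Finset.univ : Finset (Fin j)))
          (fun i => lam i = 1)
        rw [Finset.card_univ, Fintype.card_fin] at h3
        rw [← hP] at h3
        omega
      rw [h1, h2, sub_eq_add_neg]
    rw [hs] at hsum
    have h0 : (((P.card : ℤ) - ((j : ℤ) - P.card) - 1 : ℤ) : ZMod q) = 0 := by
      have : ((j - P.card : ℕ) : ZMod q) = (j : ZMod q) - (P.card : ZMod q) := by
        rw [Nat.cast_sub hPj]
      rw [this] at hsum
      push_cast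
      rw [← hsum, sub_self]
    have h1 := cast_inj_of_lt h0 (by rw [abs_lt]; constructor <;> omega)
    omega

end Hgt

theorem height {q d B : ℕ} [Fact q.Prime] (A : Finset (Fin d → ℤ)) (hne : A.Nonempty)
    (hB1 : 1 ≤ B) (hB : ∀ a ∈ A, ∀ b ∈ A, ∀ i, |a i - b i| ≤ (B : ℤ)) (hq : 3 * B ^ 2 < q)
    {κ : ℕ → ℝ} (hκ0 : ∀ U, 0 ≤ κ U)
    (hκ : ∀ U, 2 ≤ U → U ≤ B → ∀ x : Fin d → ℤ,
      ((A.filter (fun a => ∀ i, (U : ℤ) ∣ a i - x i)).card : ℝ) ≤ κ U * A.card)
    {T : ℝ} (hT0 : 0 ≤ T) (hT : ∀ r : Fin d → ℤ,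
      (((A ×ˢ A).filter (fun p => p.1 + p.2 + r ∈ A)).card : ℝ) ≤ T * (A.card : ℝ) ^ 2)
    {j : ℕ} (hj : 2 ≤ j) (hjq : j + 1 < q) :
    (Y j (A.image (fun a i => (a i : ZMod q))) : ℝ) ≤ (A.card : ℝ) ^ j *
      (2 ^ j * T + ∑ U ∈ Finset.Icc 2 B, (2 * (U : ℝ) + 1) ^ (2 * j) * κ U +
        (q : ℝ) ^ j / A.card) := by
  classical
  have hred : A.image (fun a i => (a i : ZMod q)) = A.image (Hgt.red (q := q)) := rfl
  rw [hred]
  set A' := A.image (Hgt.red (q := q)) with hA'
  have hA'card : A'.card = A.card := Finset.card_image_of_injOn (Hgt.red_inj hB1 hB hq)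
  have hApos : (0 : ℝ) < A.card := by exact_mod_cast hne.card_pos
  rw [Hgt.Y_eq]
  push_cast
  -- pointwise bound
  have hpt : ∀ lam ∈ Finset.univ.filter (fun lam : Fin j → ZMod q =>
      (∀ i, lam i ≠ 0) ∧ ∑ i, lam i = 1), ((Hgt.Nl A' lam).card : ℝ) ≤
      (if ∀ i, lam i = 1 ∨ lam i = -1 then T * (A.card : ℝ) ^ j else 0) +
      ∑ U ∈ Finset.Icc 2 B, (if ∀ i, Hgt.ht q (lam i) ≤ U then κ U * (A.card : ℝ) ^ j else 0) +
      (A.card : ℝ) ^ j / A.card := by
    intro lam hlam
    obtain ⟨-, hl0, hl1⟩ := Finset.mem_filter.1 hlam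
    have t1 : 0 ≤ (if ∀ i, lam i = 1 ∨ lam i = -1 then T * (A.card : ℝ) ^ j else 0) := by
      split_ifs <;> positivity
    have t2' : ∀ U, 0 ≤ (if ∀ i, Hgt.ht q (lam i) ≤ U then κ U * (A.card : ℝ) ^ j else 0) := by
      intro U
      have := hκ0 U
      split_ifs <;> positivity
    have t2 : 0 ≤ ∑ U ∈ Finset.Icc 2 B,
        (if ∀ i, Hgt.ht q (lam i) ≤ U then κ U * (A.card : ℝ) ^ j else 0) :=
      Finset.sum_nonneg (fun U _ => t2' U)
    have t3 : 0 ≤ (A.card : ℝ) ^ j / A.card := by positivity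
    have hpow : ∀ k, 1 ≤ k → k ≤ j → (A.card : ℝ) ^ (j - k) * (A.card : ℝ) ^ k = (A.card : ℝ) ^ j := by
      intro k _ hk
      rw [← pow_add]; congr 1; omega
    by_cases hpm : ∀ i, lam i = 1 ∨ lam i = -1
    · -- all coefficients are ±1
      obtain ⟨i, l, hil, hi, hl⟩ := Hgt.two_ones hj hjq lam hpm hl1
      have h1 := Hgt.Nl_le_two A' lam i l hil hi hl ⌊T * (A.card : ℝ) ^ 2⌋₊ (fun r =>
        Nat.le_floor (Hgt.two_coord hB1 hB hq hT0 hT r))
      have h2 : ((Hgt.Nl A' lam).card : ℝ) ≤ T * (A.card : ℝ) ^ 2 * (A.card : ℝ) ^ (j - 2) := by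
        calc ((Hgt.Nl A' lam).card : ℝ) ≤ ((⌊T * (A.card : ℝ) ^ 2⌋₊ * A'.card ^ (j - 2) : ℕ) : ℝ) := by
              exact_mod_cast h1
          _ = (⌊T * (A.card : ℝ) ^ 2⌋₊ : ℝ) * (A.card : ℝ) ^ (j - 2) := by
              push_cast; rw [hA'card]
          _ ≤ _ := by
              gcongr
              exact Nat.floor_le (by positivity)
      rw [if_pos hpm]
      have h3 : T * (A.card : ℝ) ^ 2 * (A.card : ℝ) ^ (j - 2) = T * (A.card : ℝ) ^ j := by
        rw [mul_assoc, mul_comm ((A.card : ℝ) ^ 2), hpow 2 (by norm_num) hj]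
      rw [h3] at h2
      linarith
    · push Not at hpm
      obtain ⟨i₁, hi₁, hi₁'⟩ := hpm
      by_cases hbig : ∃ i, B < Hgt.ht q (lam i)
      · obtain ⟨i, hi⟩ := hbig
        have h1 := Hgt.Nl_le_one A' lam i 1 (fun r =>
          (Hgt.one_coord hB1 hB hq hκ0 hκ (lam i) (hl0 i) r).1 hi)
        have h2 : ((Hgt.Nl A' lam).card : ℝ) ≤ (A.card : ℝ) ^ (j - 1) := by
          rw [one_mul, hA'card] at h1
          exact_mod_cast h1
        have h3 : (A.card : ℝ) ^ j / A.card = (A.card : ℝ) ^ (j - 1) := by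
          rw [← hpow 1 le_rfl (by omega), pow_one]
          field_simp
        rw [h3]
        linarith
      · push Not at hbig
        -- the maximal height
        obtain ⟨i, -, hi⟩ := Finset.exists_max_image (Finset.univ : Finset (Fin j))
          (fun i => Hgt.ht q (lam i)) ⟨i₁, Finset.mem_univ _⟩
        have hge : 2 ≤ Hgt.ht q (lam i) :=
          le_trans (Hgt.two_le_ht (hl0 i₁) hi₁ hi₁') (hi i₁ (Finset.mem_univ _))
        have h1 := Hgt.Nl_le_one A' lam i ⌊κ (Hgt.ht q (lam i)) * A.card⌋₊ (fun r =>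
          Nat.le_floor ((Hgt.one_coord hB1 hB hq hκ0 hκ (lam i) (hl0 i) r).2 hge (hbig i)))
        have hk0 := hκ0 (Hgt.ht q (lam i))
        have h2 : ((Hgt.Nl A' lam).card : ℝ) ≤
            κ (Hgt.ht q (lam i)) * A.card * (A.card : ℝ) ^ (j - 1) := by
          calc ((Hgt.Nl A' lam).card : ℝ) ≤
              ((⌊κ (Hgt.ht q (lam i)) * A.card⌋₊ * A'.card ^ (j - 1) : ℕ) : ℝ) := by
                exact_mod_cast h1
            _ = (⌊κ (Hgt.ht q (lam i)) * A.card⌋₊ : ℝ) * (A.card : ℝ) ^ (j - 1) := by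
                push_cast; rw [hA'card]
            _ ≤ _ := by
                gcongr
                exact Nat.floor_le (by positivity)
        have h3 : κ (Hgt.ht q (lam i)) * A.card * (A.card : ℝ) ^ (j - 1)
            = κ (Hgt.ht q (lam i)) * (A.card : ℝ) ^ j := by
          have := hpow 1 le_rfl (by omega)
          rw [pow_one] at this
          rw [mul_assoc, mul_comm (A.card : ℝ), this]
        have h4 : κ (Hgt.ht q (lam i)) * (A.card : ℝ) ^ j ≤ ∑ U ∈ Finset.Icc 2 B,
            (if ∀ i, Hgt.ht q (lam i) ≤ U then κ U * (A.card : ℝ) ^ j else 0) := by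
          have h5 := Finset.single_le_sum (f := fun U =>
            (if ∀ i, Hgt.ht q (lam i) ≤ U then κ U * (A.card : ℝ) ^ j else 0))
            (s := Finset.Icc 2 B) (fun U _ => t2' U)
            (Finset.mem_Icc.2 ⟨hge, hbig i⟩)
          rw [if_pos (fun k => hi k (Finset.mem_univ _))] at h5
          exact h5
        linarith
  refine le_trans (Finset.sum_le_sum hpt) ?_
  -- extend to all coefficient vectors
  refine le_trans (Finset.sum_le_sum_of_subset_of_nonneg (Finset.subset_univ _) ?_) ?_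
  · intro lam _ _
    have t1 : 0 ≤ (if ∀ i, lam i = 1 ∨ lam i = -1 then T * (A.card : ℝ) ^ j else 0) := by
      split_ifs <;> positivity
    have t2 : 0 ≤ ∑ U ∈ Finset.Icc 2 B,
        (if ∀ i, Hgt.ht q (lam i) ≤ U then κ U * (A.card : ℝ) ^ j else 0) := by
      apply Finset.sum_nonneg
      intro U _
      have := hκ0 U
      split_ifs <;> positivity
    positivity
  rw [Finset.sum_add_distrib, Finset.sum_add_distrib, Finset.sum_comm]
  have c1 : ∑ lam : Fin j → ZMod q, (if ∀ i, lam i = 1 ∨ lam i = -1 then T * (A.card : ℝ) ^ j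
      else 0) ≤ 2 ^ j * T * (A.card : ℝ) ^ j := by
    rw [← Finset.sum_filter, Finset.sum_const, nsmul_eq_mul, mul_assoc]
    gcongr
    have hsub : (Finset.univ.filter (fun lam : Fin j → ZMod q => ∀ i, lam i = 1 ∨ lam i = -1)) ⊆
        Fintype.piFinset (fun _ : Fin j => ({1, -1} : Finset (ZMod q))) := by
      intro lam hlam
      rw [Fintype.mem_piFinset]
      intro i
      have := (Finset.mem_filter.1 hlam).2 i
      simpa using this
    have h1 := Finset.card_le_card hsub
    rw [Fintype.card_piFinset, Finset.prod_const, Finset.card_univ, Fintype.card_fin] at h1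
    have h2 : (({1, -1} : Finset (ZMod q)).card) ^ j ≤ 2 ^ j :=
      Nat.pow_le_pow_left Finset.card_le_two j
    exact_mod_cast le_trans h1 h2
  have c2 : ∑ U ∈ Finset.Icc 2 B, ∑ lam : Fin j → ZMod q,
      (if ∀ i, Hgt.ht q (lam i) ≤ U then κ U * (A.card : ℝ) ^ j else 0) ≤
      (∑ U ∈ Finset.Icc 2 B, (2 * (U : ℝ) + 1) ^ (2 * j) * κ U) * (A.card : ℝ) ^ j := by
    rw [Finset.sum_mul]
    apply Finset.sum_le_sum
    intro U hU
    obtain ⟨hU2, hUB⟩ := Finset.mem_Icc.1 hU
    rw [← Finset.sum_filter, Finset.sum_const, nsmul_eq_mul, ← mul_assoc]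
    have hk0 := hκ0 U
    gcongr
    have hsub : (Finset.univ.filter (fun lam : Fin j → ZMod q => ∀ i, Hgt.ht q (lam i) ≤ U)) ⊆
        Fintype.piFinset (fun _ : Fin j => Finset.univ.filter
          (fun μ : ZMod q => Hgt.ht q μ ≤ U)) := by
      intro lam hlam
      rw [Fintype.mem_piFinset]
      intro i
      have := (Finset.mem_filter.1 hlam).2 i
      simpa using this
    have h1 := Finset.card_le_card hsub
    rw [Fintype.card_piFinset, Finset.prod_const, Finset.card_univ, Fintype.card_fin] at h1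
    have h2 := Nat.pow_le_pow_left (Hgt.card_ht_le hUB hq hB1) j
    have h3 := le_trans h1 h2
    rw [← pow_mul] at h3
    exact_mod_cast h3
  have c3 : ∑ _lam : Fin j → ZMod q, (A.card : ℝ) ^ j / A.card
      = (q : ℝ) ^ j / A.card * (A.card : ℝ) ^ j := by
    rw [Finset.sum_const, Finset.card_univ, Fintype.card_fun, ZMod.card, Fintype.card_fin,
      nsmul_eq_mul]
    push_cast
    ring
  rw [c3]
  linarith

end Vale.Agent.P230
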