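import Vale.Agent.P230.Defs

/-!
# Bonferroni inequality for a simplicial complex (helper file for P230)
-/

open MeasureTheory Set
open scoped ENNReal

namespace Vale.Agent.P230

namespace BonfAux

section
variable {α : Type} [DecidableEq α] (P : Finset α → Prop) [DecidablePred P] (E : Finset α) (e : α)

/-- faces of size `i` -/
def fn (i : ℕ) : ℤ := (((E.powersetCard i).filter P).card : ℤ)
/-- faces of size `i` without `e` -/
def an (i : ℕ) : ℤ := (((E.powersetCard i).filter (fun I => P I ∧ e ∉ I)).card : ℤ)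
/-- faces of size `i` with `e` -/
def bn (i : ℕ) : ℤ := (((E.powersetCard i).filter (fun I => P I ∧ e ∈ I)).card : ℤ)
/-- faces of size `i` that cannot be extended by `e` -/
def cn (i : ℕ) : ℤ :=
  (((E.powersetCard i).filter (fun I => P I ∧ e ∉ I ∧ ¬ P (insert e I))).card : ℤ)
/-- faces of size `i` that can be extended by `e` -/
def dn (i : ℕ) : ℤ :=
  (((E.powersetCard i).filter (fun I => e ∉ I ∧ P (insert e I))).card : ℤ)

theorem fn_eq (i : ℕ) : fn P E i = an P E e i + bn P E e i := by
  unfold fn an bn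
  rw [← Nat.cast_add, ← Finset.card_union_of_disjoint]
  · congr 2
    ext I
    simp only [Finset.mem_filter, Finset.mem_union]
    tauto
  · rw [Finset.disjoint_filter]
    tauto

theorem an_eq (hdown : ∀ I J : Finset α, J ⊆ I → P I → P J) (i : ℕ) :
    an P E e i = dn P E e i + cn P E e i := by
  unfold an dn cn
  rw [← Nat.cast_add, ← Finset.card_union_of_disjoint]
  · congr 2
    ext I
    simp only [Finset.mem_filter, Finset.mem_union]
    constructor
    · rintro ⟨h1, h2, h3⟩
      by_cases h : P (insert e I)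
      · exact Or.inl ⟨h1, h3, h⟩
      · exact Or.inr ⟨h1, h2, h3, h⟩
    · rintro (⟨h1, h2, h3⟩ | ⟨h1, h2, h3, h4⟩)
      · exact ⟨h1, hdown _ _ (Finset.subset_insert e I) h3, h2⟩
      · exact ⟨h1, h2, h3⟩
  · rw [Finset.disjoint_filter]
    tauto

theorem bn_succ (he : e ∈ E) (i : ℕ) : bn P E e (i + 1) = dn P E e i := by
  unfold bn dn
  congr 1
  refine Finset.card_nbij' (fun I => I.erase e) (fun I => insert e I) ?_ ?_ ?_ ?_
  · intro I hI
    simp only [Finset.coe_filter, Finset.mem_powersetCard, Set.mem_ofPred_eq] at hI ⊢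
    obtain ⟨⟨h1, h2⟩, h3, h4⟩ := hI
    refine ⟨⟨(Finset.erase_subset _ _).trans h1, ?_⟩, Finset.notMem_erase _ _, ?_⟩
    · rw [Finset.card_erase_of_mem h4, h2]
      rfl
    · rw [Finset.insert_erase h4]
      exact h3
  · intro I hI
    simp only [Finset.coe_filter, Finset.mem_powersetCard, Set.mem_ofPred_eq] at hI ⊢
    obtain ⟨⟨h1, h2⟩, h3, h4⟩ := hI
    refine ⟨⟨Finset.insert_subset he h1, ?_⟩, h4, Finset.mem_insert_self _ _⟩
    rw [Finset.card_insert_of_notMem h3, h2]
  · intro I hI
    simp only [Finset.coe_filter, Set.mem_ofPred_eq] at hI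
    exact Finset.insert_erase hI.2.2
  · intro I hI
    simp only [Finset.coe_filter, Set.mem_ofPred_eq] at hI
    exact Finset.erase_insert hI.2.1

theorem bn_zero : bn P E e 0 = 0 := by
  unfold bn
  rw [Nat.cast_eq_zero, Finset.card_eq_zero, Finset.filter_eq_empty_iff]
  intro I hI h
  rw [Finset.powersetCard_zero, Finset.mem_singleton] at hI
  rw [hI] at h
  exact Finset.notMem_empty _ h.2

theorem key (hdown : ∀ I J : Finset α, J ⊆ I → P I → P J) (he : e ∈ E) (m : ℕ) :
    ∑ i ∈ Finset.range (m + 1), (-1) ^ i * fn P E i =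
      (-1) ^ m * an P E e m + ∑ i ∈ Finset.range m, (-1) ^ i * cn P E e i := by
  induction m with
  | zero =>
    simp only [zero_add, Finset.sum_range_one, Finset.range_zero, Finset.sum_empty]
    rw [fn_eq P E e, bn_zero]
    ring
  | succ m ih =>
    rw [Finset.sum_range_succ, ih, Finset.sum_range_succ _ m, fn_eq P E e, bn_succ P E e he]
    have h := an_eq P E e hdown m
    rw [pow_succ]
    linear_combination (-1) ^ m * h

end

end BonfAux

open BonfAux in
theorem bonf_pointwise {α : Type} [DecidableEq α] (P : Finset α → Prop) [DecidablePred P]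
    (hdown : ∀ I J : Finset α, J ⊆ I → P I → P J) (h0 : P ∅) (E : Finset α) {m : ℕ}
    (hm : Even m) :
    (if E = ∅ then (1 : ℤ) else 0) ≤
      ∑ i ∈ Finset.range (m + 1), (-1) ^ i * (((E.powersetCard i).filter P).card : ℤ) +
      ∑ i ∈ Finset.range m, (((((E.powersetCard i).filter P) ×ˢ E).filter
        (fun p => p.2 ∉ p.1 ∧ ¬ P (insert p.2 p.1))).card : ℤ) := by
  by_cases hE : E = ∅
  · rw [if_pos hE]
    subst hE
    have h1 : ∑ i ∈ Finset.range (m + 1), (-1) ^ i *
        (((((∅ : Finset α).powersetCard i).filter P).card : ℤ)) = 1 := by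
      rw [Finset.sum_eq_single 0]
      · rw [Finset.powersetCard_zero, Finset.filter_singleton, if_pos h0]
        simp
      · intro i _ hi
        rw [Finset.powersetCard_eq_empty.2 (by rw [Finset.card_empty]; exact Nat.pos_of_ne_zero hi)]
        simp
      · intro h
        exact absurd (Finset.mem_range.2 (Nat.succ_pos m)) h
    rw [h1]
    have h2 : (0 : ℤ) ≤ ∑ i ∈ Finset.range m,
        ((((((∅ : Finset α).powersetCard i).filter P) ×ˢ (∅ : Finset α)).filter
        (fun p => p.2 ∉ p.1 ∧ ¬ P (insert p.2 p.1))).card : ℤ) :=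
      Finset.sum_nonneg (fun i _ => Int.natCast_nonneg _)
    linarith
  · rw [if_neg hE]
    obtain ⟨e, he⟩ := Finset.nonempty_iff_ne_empty.2 hE
    have hk := key P E e hdown he m
    unfold fn at hk
    rw [hk]
    have h1 : (0 : ℤ) ≤ (-1) ^ m * an P E e m := by
      rw [hm.neg_one_pow, one_mul]
      exact Int.natCast_nonneg _
    have h2 : ∀ i ∈ Finset.range m, (0 : ℤ) ≤ (-1) ^ i * cn P E e i +
        (((((E.powersetCard i).filter P) ×ˢ E).filter
        (fun p => p.2 ∉ p.1 ∧ ¬ P (insert p.2 p.1))).card : ℤ) := by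
      intro i _
      have h3 : cn P E e i ≤ (((((E.powersetCard i).filter P) ×ˢ E).filter
        (fun p => p.2 ∉ p.1 ∧ ¬ P (insert p.2 p.1))).card : ℤ) := by
        unfold cn
        rw [Nat.cast_le]
        refine Finset.card_le_card_of_injOn (fun I => (I, e)) ?_ ?_
        · intro I hI
          simp only [Finset.coe_filter, Set.mem_ofPred_eq] at hI
          simp only [Finset.coe_filter, Set.mem_ofPred_eq, Finset.mem_product, Finset.mem_filter]
          exact ⟨⟨⟨hI.1, hI.2.1⟩, he⟩, hI.2.2.1, hI.2.2.2⟩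
        · intro I _ J _ h
          exact (Prod.mk.inj h).1
      have h4 : (0 : ℤ) ≤ cn P E e i := Int.natCast_nonneg _
      rcases neg_one_pow_eq_or ℤ i with h5 | h5
      · rw [h5]
        linarith
      · rw [h5]
        linarith
    have h5 := Finset.sum_nonneg h2
    rw [Finset.sum_add_distrib] at h5
    linarith

theorem alt_sum (N m : ℕ) (hm : Even m) {p : ℝ} (hp0 : 0 ≤ p) (hp1 : p ≤ 1) :
    ∑ i ∈ Finset.range (m + 1), (-1) ^ i * (N.choose i : ℝ) * p ^ i ≤
      (1 - p) ^ N + (N.choose (m + 1) : ℝ) * p ^ (m + 1) := by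
  have hrec : ∀ N k : ℕ, ∑ i ∈ Finset.range (k + 1), (-1) ^ i * ((N + 1).choose i : ℝ) * p ^ i =
      ∑ i ∈ Finset.range (k + 1), (-1) ^ i * (N.choose i : ℝ) * p ^ i -
      p * ∑ i ∈ Finset.range k, (-1) ^ i * (N.choose i : ℝ) * p ^ i := by
    intro N k
    rw [Finset.sum_range_succ', Finset.sum_range_succ' _ k, Finset.mul_sum]
    have e : ∀ i, (-1 : ℝ) ^ (i + 1) * ((N + 1).choose (i + 1) : ℝ) * p ^ (i + 1) =
        (-1) ^ (i + 1) * (N.choose (i + 1) : ℝ) * p ^ (i + 1) -
        p * ((-1) ^ i * (N.choose i : ℝ) * p ^ i) := by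
      intro i
      rw [Nat.choose_succ_succ]
      push_cast
      ring
    simp only [e]
    rw [Finset.sum_sub_distrib]
    simp only [Nat.choose_zero_right]
    ring
  have hE : ∀ N k : ℕ, 0 ≤ (-1 : ℝ) ^ k * ((1 - p) ^ N -
      ∑ i ∈ Finset.range k, (-1) ^ i * (N.choose i : ℝ) * p ^ i) := by
    intro N
    induction N with
    | zero =>
      intro k
      rcases k with _ | k
      · simp
      · have : ∑ i ∈ Finset.range (k + 1), (-1 : ℝ) ^ i * (Nat.choose 0 i : ℝ) * p ^ i = 1 := by
          rw [Finset.sum_eq_single 0]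
          · simp
          · intro i _ hi
            rw [Nat.choose_eq_zero_of_lt (Nat.pos_of_ne_zero hi)]
            simp
          · intro h
            exact absurd (Finset.mem_range.2 (Nat.succ_pos k)) h
        rw [this]
        simp
    | succ N ih =>
      intro k
      rcases k with _ | k
      · simp only [pow_zero, Finset.range_zero, Finset.sum_empty, sub_zero, one_mul]
        exact pow_nonneg (by linarith) _
      · rw [hrec]
        have h1 := ih (k + 1)
        have h2 := mul_nonneg hp0 (ih k)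
        have e : (-1 : ℝ) ^ (k + 1) * ((1 - p) ^ (N + 1) -
            (∑ i ∈ Finset.range (k + 1), (-1) ^ i * (N.choose i : ℝ) * p ^ i -
            p * ∑ i ∈ Finset.range k, (-1) ^ i * (N.choose i : ℝ) * p ^ i)) =
            (-1 : ℝ) ^ (k + 1) * ((1 - p) ^ N -
              ∑ i ∈ Finset.range (k + 1), (-1) ^ i * (N.choose i : ℝ) * p ^ i) +
            p * ((-1 : ℝ) ^ k * ((1 - p) ^ N -
              ∑ i ∈ Finset.range k, (-1) ^ i * (N.choose i : ℝ) * p ^ i)) := by
          ring
        rw [e]
        exact add_nonneg h1 h2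
  have h := hE N (m + 2)
  rw [Finset.sum_range_succ, (hm.add even_two).neg_one_pow, one_mul,
    (hm.add_one).neg_one_pow] at h
  linarith

end Vale.Agent.P230
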