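import Vale.Agent.P230.Defs

/-!
# Counting circuits (helper file for P230)
-/

open MeasureTheory Set
open scoped ENNReal

namespace Vale.Agent.P230

namespace CircAux

theorem card_sub {α : Type} [Finite α] (p : α → Prop) :
    ∃ F : Finset α, (∀ x, x ∈ F ↔ p x) ∧ Nat.card {x // p x} = F.card := by
  classical
  have := Fintype.ofFinite α
  refine ⟨Finset.univ.filter p, fun x => by simp, ?_⟩
  rw [Nat.card_eq_fintype_card, Fintype.card_subtype]

variable {K V : Type} [Field K] [AddCommGroup V] [Module K V]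

theorem ai_iff (I : Finset V) : AffineIndependent K ((↑) : I → V) ↔
    ∀ w : V → K, ∑ a ∈ I, w a = 0 → ∑ a ∈ I, w a • a = 0 → ∀ a ∈ I, w a = 0 := by
  rw [affineIndependent_iff]
  constructor
  · intro h w h1 h2 a ha
    have := h Finset.univ (fun x : I => w x.1)
      (by rw [Finset.sum_coe_sort I w]; exact h1)
      (by rw [Finset.sum_coe_sort I (fun a => w a • a)]; exact h2) ⟨a, ha⟩ (Finset.mem_univ _)
    exact this
  · intro h s w h1 h2 e he
    classical
    set w' : V → K := fun a => if ha : a ∈ I then (if (⟨a, ha⟩ : I) ∈ s then w ⟨a, ha⟩ else 0) else 0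
      with hw'
    have hval : ∀ x : I, w' x.1 = if x ∈ s then w x else 0 := by
      intro x
      simp only [hw']
      rw [dif_pos x.2]
    have h3 : ∑ a ∈ I, w' a = 0 := by
      rw [← Finset.sum_coe_sort I w']
      simp only [hval]
      rw [Finset.sum_ite_mem, Finset.univ_inter]
      exact h1
    have h4 : ∑ a ∈ I, w' a • a = 0 := by
      rw [← Finset.sum_coe_sort I (fun a => w' a • a)]
      simp only [hval]
      simp only [ite_smul, zero_smul]
      rw [Finset.sum_ite_mem, Finset.univ_inter]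
      exact h2
    have h5 := h w' h3 h4 e.1 e.2
    rw [hval, if_pos he] at h5
    exact h5

theorem extract [DecidableEq V] (S : Finset V) (w : V → K) (h1 : ∑ a ∈ S, w a = 0)
    (h2 : ∑ a ∈ S, w a • a = 0) (hne : ∀ a ∈ S, w a ≠ 0) (e : V) (he : e ∈ S) :
    2 ≤ (S.erase e).card ∧ ∃ lam : V → K, (∀ a ∈ S.erase e, lam a ≠ 0) ∧
      ∑ a ∈ S.erase e, lam a = 1 ∧ ∑ a ∈ S.erase e, lam a • a = e := by
  have hwe := hne e he
  have e1 : ∑ a ∈ S.erase e, w a = - w e := by
    have := Finset.add_sum_erase S w he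
    rw [h1] at this
    exact eq_neg_of_add_eq_zero_right this
  have e2 : ∑ a ∈ S.erase e, w a • a = - (w e • e) := by
    have := Finset.add_sum_erase S (fun a => w a • a) he
    rw [h2] at this
    exact eq_neg_of_add_eq_zero_right this
  have l1 : ∑ a ∈ S.erase e, -(w a / w e) = 1 := by
    rw [Finset.sum_neg_distrib, ← Finset.sum_div, e1, neg_div, neg_neg, div_self hwe]
  have l2 : ∑ a ∈ S.erase e, (-(w a / w e)) • a = e := by
    have : ∀ a, (-(w a / w e)) • a = (-(w e)⁻¹) • (w a • a) := by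
      intro a
      rw [smul_smul]
      congr 1
      rw [div_eq_mul_inv]
      ring
    rw [Finset.sum_congr rfl (fun a _ => this a)]
    rw [← Finset.smul_sum, e2, smul_neg, neg_smul, neg_neg, smul_smul, inv_mul_cancel₀ hwe,
      one_smul]
  have l0 : ∀ a ∈ S.erase e, -(w a / w e) ≠ 0 := fun a ha =>
    neg_ne_zero.2 (div_ne_zero (hne a (Finset.mem_of_mem_erase ha)) hwe)
  refine ⟨?_, fun a => -(w a / w e), l0, l1, l2⟩
  by_contra hcon
  push Not at hcon
  have hc : (S.erase e).card = 0 ∨ (S.erase e).card = 1 := by omega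
  rcases hc with hc | hc
  · rw [Finset.card_eq_zero] at hc
    rw [hc, Finset.sum_empty] at l1
    exact zero_ne_one l1
  · rw [Finset.card_eq_one] at hc
    obtain ⟨b, hb⟩ := hc
    rw [hb, Finset.sum_singleton] at l1 l2
    rw [l1, one_smul] at l2
    have : b ∈ S.erase e := by rw [hb]; exact Finset.mem_singleton_self b
    rw [l2] at this
    exact Finset.notMem_erase e S this

theorem dep_extract [DecidableEq V] (I : Finset V) (h : ¬ AffineIndependent K ((↑) : I → V)) :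
    ∃ J R : Finset V, ∃ e : V, J ⊆ I ∧ R ⊆ I ∧ e ∈ I ∧ e ∉ J ∧ 2 ≤ J.card ∧
      J.card + R.card + 1 = I.card ∧ insert e (J ∪ R) = I ∧
      ∃ lam : V → K, (∀ a ∈ J, lam a ≠ 0) ∧ ∑ a ∈ J, lam a = 1 ∧ ∑ a ∈ J, lam a • a = e := by
  classical
  rw [ai_iff] at h
  push Not at h
  obtain ⟨w, h1, h2, e, heI, hwe⟩ := h
  set S := I.filter (fun a => w a ≠ 0) with hS
  have hSI : S ⊆ I := Finset.filter_subset _ _
  have heS : e ∈ S := Finset.mem_filter.2 ⟨heI, hwe⟩
  have h1' : ∑ a ∈ S, w a = 0 := by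
    rw [hS, Finset.sum_filter_ne_zero]
    exact h1
  have h2' : ∑ a ∈ S, w a • a = 0 := by
    rw [hS, Finset.sum_filter_of_ne]
    · exact h2
    · intro a _ ha hw0
      rw [hw0, zero_smul] at ha
      exact ha rfl
  obtain ⟨hc, lam, l0, l1, l2⟩ := extract S w h1' h2' (fun a ha => (Finset.mem_filter.1 ha).2) e heS
  refine ⟨S.erase e, I \ S, e, (Finset.erase_subset _ _).trans hSI, Finset.sdiff_subset, heI,
    Finset.notMem_erase _ _, hc, ?_, ?_, lam, l0, l1, l2⟩
  · have h3 := Finset.card_erase_add_one heS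
    have h4 := Finset.card_sdiff_add_card_eq_card hSI
    omega
  · rw [← Finset.insert_union, Finset.insert_erase heS, Finset.union_sdiff_of_subset hSI]

theorem ext_extract [DecidableEq V] (I : Finset V) (e : V) (heI : e ∉ I)
    (hI : AffineIndependent K ((↑) : I → V))
    (h : ¬ AffineIndependent K (Subtype.val : {x // x ∈ insert e I} → V)) :
    ∃ J R : Finset V, J ⊆ I ∧ R ⊆ I ∧ e ∉ J ∧ 2 ≤ J.card ∧
      J.card + R.card = I.card ∧ J ∪ R = I ∧
      ∃ lam : V → K, (∀ a ∈ J, lam a ≠ 0) ∧ ∑ a ∈ J, lam a = 1 ∧ ∑ a ∈ J, lam a • a = e := by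
  classical
  rw [ai_iff] at h hI
  push Not at h
  obtain ⟨w, h1, h2, b, hbI, hwb⟩ := h
  have hwe : w e ≠ 0 := by
    intro h0
    rw [Finset.sum_insert heI, h0, zero_add] at h1
    rw [Finset.sum_insert heI, h0, zero_smul, zero_add] at h2
    have h3 := hI w h1 h2
    rcases Finset.mem_insert.1 hbI with hb | hb
    · rw [hb] at hwb
      exact hwb h0
    · exact hwb (h3 b hb)
  set S := (insert e I).filter (fun a => w a ≠ 0) with hS
  have heS : e ∈ S := Finset.mem_filter.2 ⟨Finset.mem_insert_self _ _, hwe⟩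
  have hSI : S.erase e ⊆ I := by
    intro a ha
    have h3 := Finset.mem_of_mem_erase ha
    have h4 := Finset.ne_of_mem_erase ha
    exact (Finset.mem_insert.1 (Finset.mem_filter.1 h3).1).resolve_left h4
  have h1' : ∑ a ∈ S, w a = 0 := by
    rw [hS, Finset.sum_filter_ne_zero]
    exact h1
  have h2' : ∑ a ∈ S, w a • a = 0 := by
    rw [hS, Finset.sum_filter_of_ne]
    · exact h2
    · intro a _ ha hw0
      rw [hw0, zero_smul] at ha
      exact ha rfl
  obtain ⟨hc, lam, l0, l1, l2⟩ := extract S w h1' h2' (fun a ha => (Finset.mem_filter.1 ha).2) e heS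
  refine ⟨S.erase e, I \ S.erase e, hSI, Finset.sdiff_subset,
    Finset.notMem_erase _ _, hc, ?_, ?_, lam, l0, l1, l2⟩
  · have h4 := Finset.card_sdiff_add_card_eq_card hSI
    omega
  · rw [Finset.union_sdiff_of_subset hSI]

end CircAux

open CircAux

theorem circ_le_Y {q d : ℕ} [Fact q.Prime] (j : ℕ) (A : Finset (Fin d → ZMod q)) :
    j.factorial * Xc j A ≤ Y j A := by
  unfold Xc Y
  have hperm : j.factorial = Nat.card (Equiv.Perm (Fin j)) := by
    rw [Nat.card_eq_fintype_card, Fintype.card_perm, Fintype.card_fin]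
  rw [hperm, ← Nat.card_prod]
  have hc : ∀ p : {p : Finset (Fin d → ZMod q) × (Fin d → ZMod q) //
      p.1 ⊆ A ∧ p.1.card = j ∧ p.2 ∈ A ∧ IsCirc p.1 p.2}, ∃ lam : (Fin d → ZMod q) → ZMod q,
      (∀ a ∈ p.1.1, lam a ≠ 0) ∧ ∑ a ∈ p.1.1, lam a = 1 ∧ ∑ a ∈ p.1.1, lam a • a = p.1.2 :=
    fun p => p.2.2.2.2.2
  choose lam hl0 hl1 hl2 using hc
  set eq : ∀ p : {p : Finset (Fin d → ZMod q) × (Fin d → ZMod q) //
      p.1 ⊆ A ∧ p.1.card = j ∧ p.2 ∈ A ∧ IsCirc p.1 p.2}, Fin j ≃ p.1.1 :=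
    fun p => (Finset.equivFinOfCardEq p.2.2.1).symm with heq
  have hsum : ∀ (p : {p : Finset (Fin d → ZMod q) × (Fin d → ZMod q) //
      p.1 ⊆ A ∧ p.1.card = j ∧ p.2 ∈ A ∧ IsCirc p.1 p.2}) (π : Equiv.Perm (Fin j)),
      ∑ i, lam p (eq p (π i)).1 • (eq p (π i)).1 = p.1.2 := by
    intro p π
    rw [← hl2 p, ← Finset.sum_coe_sort p.1.1 (fun a => lam p a • a)]
    exact Equiv.sum_comp (π.trans (eq p)) (fun x : p.1.1 => lam p x.1 • x.1)
  refine Nat.card_le_card_of_injective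
    (fun x : Equiv.Perm (Fin j) × {p : Finset (Fin d → ZMod q) × (Fin d → ZMod q) //
      p.1 ⊆ A ∧ p.1.card = j ∧ p.2 ∈ A ∧ IsCirc p.1 p.2} =>
      (⟨(fun i => lam x.2 (eq x.2 (x.1 i)).1, fun i => (eq x.2 (x.1 i)).1), ?_, ?_, ?_, ?_⟩ :
        {p : (Fin j → ZMod q) × (Fin j → Fin d → ZMod q) //
          (∀ i, p.1 i ≠ 0) ∧ ∑ i, p.1 i = 1 ∧ (∀ i, p.2 i ∈ A) ∧ ∑ i, p.1 i • p.2 i ∈ A})) ?_
  · intro i
    exact hl0 x.2 _ (eq x.2 (x.1 i)).2
  · rw [← hl1 x.2, ← Finset.sum_coe_sort x.2.1.1 (lam x.2)]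
    exact Equiv.sum_comp (x.1.trans (eq x.2)) (fun y : x.2.1.1 => lam x.2 y.1)
  · intro i
    exact x.2.2.1 (eq x.2 (x.1 i)).2
  · simp only
    rw [hsum]
    exact x.2.2.2.2.1
  · rintro ⟨π, p⟩ ⟨π', p'⟩ h
    have h' := congrArg Subtype.val h
    have hA := (Prod.mk.inj h').1
    have hB := (Prod.mk.inj h').2
    simp only at hA hB
    have hset : ∀ (p : {p : Finset (Fin d → ZMod q) × (Fin d → ZMod q) //
        p.1 ⊆ A ∧ p.1.card = j ∧ p.2 ∈ A ∧ IsCirc p.1 p.2}) (π : Equiv.Perm (Fin j)) (a : _),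
        a ∈ p.1.1 ↔ ∃ i, (eq p (π i)).1 = a := by
      intro p π a
      constructor
      · intro ha
        refine ⟨π.symm ((eq p).symm ⟨a, ha⟩), ?_⟩
        rw [Equiv.apply_symm_apply, Equiv.apply_symm_apply]
      · rintro ⟨i, rfl⟩
        exact (eq p (π i)).2
    have h1 : p.1.1 = p'.1.1 := by
      ext a
      rw [hset p π, hset p' π']
      constructor
      · rintro ⟨i, hi⟩
        exact ⟨i, by rw [← hi]; exact (congrFun hB i).symm⟩
      · rintro ⟨i, hi⟩
        exact ⟨i, by rw [← hi]; exact congrFun hB i⟩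
    have h2 : p.1.2 = p'.1.2 := by
      rw [← hsum p π, ← hsum p' π']
      refine Finset.sum_congr rfl (fun i _ => ?_)
      rw [congrFun hA i, congrFun hB i]
    have h3 : p = p' := Subtype.ext (Prod.ext h1 h2)
    subst h3
    have h4 : π = π' := by
      ext i
      have := congrFun hB i
      have h5 := (eq p).injective (Subtype.ext this)
      rw [h5]
    rw [h4]

theorem ext_count {q d : ℕ} [Fact q.Prime] (i : ℕ) (A : Finset (Fin d → ZMod q)) :
    Nat.card {p : Finset (Fin d → ZMod q) × (Fin d → ZMod q) //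
      p.1 ⊆ A ∧ p.1.card = i ∧ p.2 ∈ A ∧ p.2 ∉ p.1 ∧
      AffineIndependent (ZMod q) ((↑) : p.1 → (Fin d → ZMod q)) ∧
      ¬ AffineIndependent (ZMod q)
        ((↑) : (insert p.2 p.1 : Finset (Fin d → ZMod q)) → (Fin d → ZMod q))} ≤
      ∑ j ∈ Finset.Icc 2 i, Xc j A * A.card.choose (i - j) := by
  obtain ⟨F, hF, hFc⟩ := card_sub (fun p : Finset (Fin d → ZMod q) × (Fin d → ZMod q) =>
      p.1 ⊆ A ∧ p.1.card = i ∧ p.2 ∈ A ∧ p.2 ∉ p.1 ∧
      AffineIndependent (ZMod q) ((↑) : p.1 → (Fin d → ZMod q)) ∧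
      ¬ AffineIndependent (ZMod q)
        ((↑) : (insert p.2 p.1 : Finset (Fin d → ZMod q)) → (Fin d → ZMod q)))
  rw [hFc]
  have hX := fun j : ℕ => card_sub (fun p : Finset (Fin d → ZMod q) × (Fin d → ZMod q) =>
    p.1 ⊆ A ∧ p.1.card = j ∧ p.2 ∈ A ∧ IsCirc p.1 p.2)
  choose CF hCF hCFc using hX
  unfold Xc
  simp only [hCFc]
  refine le_trans (Finset.card_le_card (t := (Finset.Icc 2 i).biUnion (fun j =>
    (CF j ×ˢ A.powersetCard (i - j)).image
      (fun x => ((x.1.1 ∪ x.2 : Finset (Fin d → ZMod q)), x.1.2)))) ?_) ?_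
  · intro p hp
    obtain ⟨hA, hc, heA, he, hai, hnai⟩ := (hF p).1 hp
    obtain ⟨J, R, hJ, hR, heJ, hJ2, hcard, hun, hlam⟩ := ext_extract (K := ZMod q) p.1 p.2 he hai hnai
    rw [Finset.mem_biUnion]
    refine ⟨J.card, Finset.mem_Icc.2 ⟨hJ2, by omega⟩, ?_⟩
    rw [Finset.mem_image]
    refine ⟨((J, p.2), R), ?_, ?_⟩
    · rw [Finset.mem_product]
      refine ⟨(hCF _ _).2 ⟨hJ.trans hA, rfl, heA, heJ, hlam⟩, ?_⟩
      rw [Finset.mem_powersetCard]
      refine ⟨hR.trans hA, ?_⟩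
      simp only
      omega
    · simp only
      rw [hun]
  · refine Finset.card_biUnion_le.trans (Finset.sum_le_sum (fun j _ => ?_))
    refine Finset.card_image_le.trans ?_
    rw [Finset.card_product, Finset.card_powersetCard]

theorem dep_count {q d : ℕ} [Fact q.Prime] (i : ℕ) (A : Finset (Fin d → ZMod q)) :
    Nat.card {I : Finset (Fin d → ZMod q) // I ⊆ A ∧ I.card = i ∧
      ¬ AffineIndependent (ZMod q) ((↑) : I → (Fin d → ZMod q))} ≤
      ∑ j ∈ Finset.Icc 2 (i - 1), Xc j A * A.card.choose (i - j - 1) := by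
  obtain ⟨F, hF, hFc⟩ := card_sub (fun I : Finset (Fin d → ZMod q) => I ⊆ A ∧ I.card = i ∧
      ¬ AffineIndependent (ZMod q) ((↑) : I → (Fin d → ZMod q)))
  rw [hFc]
  have hX := fun j : ℕ => card_sub (fun p : Finset (Fin d → ZMod q) × (Fin d → ZMod q) =>
    p.1 ⊆ A ∧ p.1.card = j ∧ p.2 ∈ A ∧ IsCirc p.1 p.2)
  choose CF hCF hCFc using hX
  unfold Xc
  simp only [hCFc]
  refine le_trans (Finset.card_le_card (t := (Finset.Icc 2 (i - 1)).biUnion (fun j =>
    (CF j ×ˢ A.powersetCard (i - j - 1)).image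
      (fun x => (insert x.1.2 (x.1.1 ∪ x.2) : Finset (Fin d → ZMod q))))) ?_) ?_
  · intro I hI
    obtain ⟨hA, hc, hnai⟩ := (hF I).1 hI
    obtain ⟨J, R, e, hJ, hR, heI, heJ, hJ2, hcard, hun, hlam⟩ := dep_extract (K := ZMod q) I hnai
    rw [Finset.mem_biUnion]
    refine ⟨J.card, Finset.mem_Icc.2 ⟨hJ2, by omega⟩, ?_⟩
    rw [Finset.mem_image]
    refine ⟨((J, e), R), ?_, ?_⟩
    · rw [Finset.mem_product]
      refine ⟨(hCF _ _).2 ⟨hJ.trans hA, rfl, hA heI, heJ, hlam⟩, ?_⟩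
      rw [Finset.mem_powersetCard]
      refine ⟨hR.trans hA, ?_⟩
      simp only
      omega
    · simp only
      rw [hun]
  · refine Finset.card_biUnion_le.trans (Finset.sum_le_sum (fun j _ => ?_))
    refine Finset.card_image_le.trans ?_
    rw [Finset.card_product, Finset.card_powersetCard]

end Vale.Agent.P230
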