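import Vale.Agent.P230.Defs

/-! P230 [PR]: probability that a random affine map vanishes on an affinely independent set;
number of surjective matrices. -/

open MeasureTheory Set
open scoped ENNReal

namespace Vale.Agent.P230

namespace ProbAux

theorem exists_dual {F ι V : Type*} [Field F] [AddCommGroup V] [Module F V] {v : ι → V}
    (hv : LinearIndependent F v) (g : ι → F) : ∃ φ : V →ₗ[F] F, ∀ i, φ (v i) = g i := by
  obtain ⟨L, hL⟩ := LinearMap.exists_leftInverse_of_injective (Finsupp.linearCombination F v)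
    (LinearMap.ker_eq_bot.2 hv)
  refine ⟨(Finsupp.linearCombination F g) ∘ₗ L, fun i => ?_⟩
  have h1 : L (v i) = Finsupp.single i 1 := by
    have := LinearMap.congr_fun hL (Finsupp.single i (1 : F))
    simpa using this
  simp [h1]

theorem card_ker_mul {G H : Type*} [AddCommGroup G] [AddCommGroup H] (f : G →+ H)
    (hf : Function.Surjective f) : Nat.card f.ker * Nat.card H = Nat.card G := by
  rw [AddSubgroup.card_eq_card_quotient_mul_card_addSubgroup f.ker,
    Nat.card_congr (QuotientAddGroup.quotientKerEquivOfSurjective f hf).toEquiv, mul_comm]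

/-- affine independence as linear independence -/
theorem linInd_of_affInd {F V : Type*} [Field F] [AddCommGroup V] [Module F V] {ι : Type*}
    {p : ι → V} (hp : AffineIndependent F p) : LinearIndependent F (fun i => (p i, (1 : F))) := by
  rw [linearIndependent_iff']
  intro s g hg i hi
  rw [affineIndependent_iff] at hp
  have h2 := congrArg Prod.snd hg
  have h1 := congrArg Prod.fst hg
  simp only [Prod.smul_mk, smul_eq_mul, mul_one, Prod.fst_sum, Prod.snd_sum, Prod.fst_zero,
    Prod.snd_zero] at h1 h2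
  exact hp s g h2 h1 i hi

theorem dual_apply {F : Type*} [Field F] {d : ℕ} (φ : (Fin d → F) →ₗ[F] F) (x : Fin d → F) :
    φ x = ∑ j, φ (Pi.single j 1) * x j := by
  have h3 : x = ∑ j, x j • (Pi.single j 1 : Fin d → F) := by
    ext j
    simp [Finset.sum_apply, Pi.single_apply]
  conv_lhs => rw [h3, map_sum]
  refine Finset.sum_congr rfl fun j _ => ?_
  rw [map_smul, smul_eq_mul, mul_comm]

theorem dual_apply' {F : Type*} [Field F] {d : ℕ} (φ : ((Fin d → F) × F) →ₗ[F] F)
    (x : Fin d → F) :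
    φ (x, 1) = ∑ j, φ (Pi.single j 1, 0) * x j + φ (0, 1) := by
  have h := dual_apply (φ.comp (LinearMap.inl F (Fin d → F) F)) x
  simp only [LinearMap.comp_apply, LinearMap.inl_apply] at h
  rw [← h, ← map_add]
  simp

theorem surj_aux {F : Type*} [Field F] {d s : ℕ} (I : Finset (Fin d → F))
    (hI : AffineIndependent F ((↑) : I → (Fin d → F))) (g : I → Fin s → F) :
    ∃ (W : Matrix (Fin s) (Fin d) F) (c : Fin s → F), ∀ a : I,
      W.mulVec (a : Fin d → F) - c = g a := by
  have hli : LinearIndependent F (fun a : I => ((a : Fin d → F), (1 : F))) :=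
    linInd_of_affInd hI
  choose φ hφ using fun i : Fin s => exists_dual hli (fun a => g a i)
  refine ⟨Matrix.of fun i j => φ i (Pi.single j 1, 0), fun i => - φ i (0, 1), fun a => ?_⟩
  funext i
  rw [← hφ i a, dual_apply' (φ i) (a : Fin d → F)]
  simp only [Pi.sub_apply, Matrix.mulVec, dotProduct, Matrix.of_apply]
  ring

theorem surj_of_rows {F : Type*} [Field F] {d s : ℕ} (v : Fin s → Fin d → F)
    (hv : LinearIndependent F v) : Function.Surjective (Matrix.of v).mulVec := by
  intro y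
  obtain ⟨φ, hφ⟩ := exists_dual hv y
  refine ⟨fun j => φ (Pi.single j 1), ?_⟩
  funext i
  rw [← hφ i, dual_apply φ (v i)]
  simp only [Matrix.mulVec, dotProduct, Matrix.of_apply]
  exact Finset.sum_congr rfl fun j _ => mul_comm _ _

theorem prod_est {q : ℕ} (hq : 2 ≤ q) (d : ℕ) : ∀ k : ℕ, k ≤ d →
    1 - ((q : ℝ) ^ k - 1) / (q : ℝ) ^ d ≤ ∏ i ∈ Finset.range k, (1 - (q : ℝ) ^ i / (q : ℝ) ^ d) ∧
    ∏ i ∈ Finset.range k, (1 - (q : ℝ) ^ i / (q : ℝ) ^ d) ≤ 1 := by
  have hq' : (2 : ℝ) ≤ q := by exact_mod_cast hq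
  have hqd : (0 : ℝ) < (q : ℝ) ^ d := by positivity
  intro k
  induction k with
  | zero => intro _; simp
  | succ k ih =>
    intro hk
    obtain ⟨h1, h2⟩ := ih (by omega)
    rw [Finset.prod_range_succ]
    have hx0 : 0 ≤ (q : ℝ) ^ k / (q : ℝ) ^ d := by positivity
    have hx1 : (q : ℝ) ^ k / (q : ℝ) ^ d ≤ 1 := by
      rw [div_le_one hqd]
      exact pow_le_pow_right₀ (by linarith) (by omega)
    have h0 : 0 ≤ ∏ i ∈ Finset.range k, (1 - (q : ℝ) ^ i / (q : ℝ) ^ d) := by
      refine Finset.prod_nonneg fun i hi => ?_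
      rw [sub_nonneg, div_le_one hqd]
      exact pow_le_pow_right₀ (by linarith) (by have := Finset.mem_range.1 hi; omega)
    set P := ∏ i ∈ Finset.range k, (1 - (q : ℝ) ^ i / (q : ℝ) ^ d) with hP
    set x := (q : ℝ) ^ k / (q : ℝ) ^ d with hx
    constructor
    · have h3 : ((q : ℝ) ^ (k + 1) - 1) / (q : ℝ) ^ d ≥ ((q : ℝ) ^ k - 1) / (q : ℝ) ^ d + x := by
        rw [hx, ← add_div, ge_iff_le]
        refine div_le_div_of_nonneg_right ?_ hqd.le
        have : (0 : ℝ) < (q : ℝ) ^ k := by positivity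
        rw [pow_succ]
        nlinarith
      nlinarith
    · nlinarith

end ProbAux

open ProbAux in
theorem prob_indep {q : ℕ} [Fact q.Prime] {d s : ℕ} (I : Finset (Fin d → ZMod q))
    (hI : AffineIndependent (ZMod q) ((↑) : I → (Fin d → ZMod q))) :
    Nat.card {p : Matrix (Fin s) (Fin d) (ZMod q) × (Fin s → ZMod q) //
      ∀ a ∈ I, p.1.mulVec a = p.2} * q ^ (s * I.card) = q ^ (s * d) * q ^ s := by
  set Φ : (Matrix (Fin s) (Fin d) (ZMod q) × (Fin s → ZMod q)) →+ (I → Fin s → ZMod q) :=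
    { toFun := fun p a => p.1.mulVec (a : Fin d → ZMod q) - p.2
      map_zero' := by
        funext a
        simp
      map_add' := by
        intro x y
        funext a
        simp only [Prod.fst_add, Prod.snd_add, Matrix.add_mulVec, Pi.add_apply]
        abel } with hΦ
  have hsurj : Function.Surjective Φ := by
    intro g
    obtain ⟨W, c, h⟩ := surj_aux I hI g
    exact ⟨(W, c), funext h⟩
  have h := card_ker_mul Φ hsurj
  have h1 : Nat.card (I → Fin s → ZMod q) = q ^ (s * I.card) := by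
    rw [Nat.card_fun, Nat.card_fun]
    simp [pow_mul]
  have h2 : Nat.card (Matrix (Fin s) (Fin d) (ZMod q) × (Fin s → ZMod q)) =
      q ^ (s * d) * q ^ s := by
    rw [Nat.card_prod]
    simp [Matrix, pow_mul']
  have h3 : Nat.card {p : Matrix (Fin s) (Fin d) (ZMod q) × (Fin s → ZMod q) //
      ∀ a ∈ I, p.1.mulVec a = p.2} = Nat.card Φ.ker := by
    refine Nat.card_congr (Equiv.subtypeEquivRight fun p => ?_)
    rw [AddMonoidHom.mem_ker, funext_iff]
    simp only [hΦ, AddMonoidHom.coe_mk, ZeroHom.coe_mk, Subtype.forall, Pi.zero_apply,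
      sub_eq_zero]
  rw [h3, ← h1, h, h2]

open ProbAux in
theorem card_surj {q : ℕ} [Fact q.Prime] {d s : ℕ} (hsd : s < d) :
    q ^ (s * d) ≤ 2 * Nat.card {W : Matrix (Fin s) (Fin d) (ZMod q) //
      Function.Surjective W.mulVec} := by
  have hq2 : 2 ≤ q := (Fact.out : q.Prime).two_le
  -- matrices with independent rows are surjective
  have h1 : Nat.card {v : Fin s → Fin d → ZMod q // LinearIndependent (ZMod q) v} ≤
      Nat.card {W : Matrix (Fin s) (Fin d) (ZMod q) // Function.Surjective W.mulVec} := by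
    refine Nat.card_le_card_of_injective (fun v => ⟨Matrix.of v.1, ?_⟩) ?_
    · exact surj_of_rows v.1 v.2
    · intro v w h
      have := congrArg Subtype.val h
      exact Subtype.ext (Matrix.of.injective this)
  have h2 := card_linearIndependent (K := ZMod q) (V := Fin d → ZMod q) (k := s) (by simp; omega)
  simp only [Module.finrank_fintype_fun_eq_card, Fintype.card_fin, ZMod.card] at h2
  rw [h2] at h1
  refine le_trans ?_ (Nat.mul_le_mul_left 2 h1)
  -- the product estimate
  have hq' : (2 : ℝ) ≤ q := by exact_mod_cast hq2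
  have hqd : (0 : ℝ) < (q : ℝ) ^ d := by positivity
  have key := (prod_est hq2 d s hsd.le).1
  have h3 : ((q : ℝ) ^ s - 1) / (q : ℝ) ^ d ≤ 1 / 2 := by
    rw [div_le_iff₀ hqd]
    have h4 : (q : ℝ) ^ (s + 1) ≤ (q : ℝ) ^ d := pow_le_pow_right₀ (by linarith) (by omega)
    rw [pow_succ] at h4
    have : (0 : ℝ) < (q : ℝ) ^ s := by positivity
    nlinarith
  have h5 : ((∏ i : Fin s, (q ^ d - q ^ (i : ℕ)) : ℕ) : ℝ) =
      (∏ i ∈ Finset.range s, (1 - (q : ℝ) ^ i / (q : ℝ) ^ d)) * ((q : ℝ) ^ d) ^ s := by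
    rw [Nat.cast_prod, Fin.prod_univ_eq_prod_range (fun i => ((q ^ d - q ^ i : ℕ) : ℝ)) s]
    have h6 : ((q : ℝ) ^ d) ^ s = ∏ _i ∈ Finset.range s, (q : ℝ) ^ d := by simp
    rw [h6, ← Finset.prod_mul_distrib]
    refine Finset.prod_congr rfl fun i hi => ?_
    have hi' : i < s := Finset.mem_range.1 hi
    rw [Nat.cast_sub (Nat.pow_le_pow_right (by omega) (by omega)), Nat.cast_pow, Nat.cast_pow]
    field_simp
  have h7 : ((q ^ (s * d) : ℕ) : ℝ) ≤ ((2 * ∏ i : Fin s, (q ^ d - q ^ (i : ℕ)) : ℕ) : ℝ) := by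
    rw [Nat.cast_mul, h5, Nat.cast_pow, mul_comm s d, pow_mul]
    have : (0 : ℝ) < ((q : ℝ) ^ d) ^ s := by positivity
    push_cast
    nlinarith
  exact_mod_cast h7

end Vale.Agent.P230
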