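import Vale.Agent.P230.Defs
import Vale.Agent.P230.Prob
import Vale.Agent.P230.Bonf
import Vale.Agent.P230.Circ

/-! P230 [P0]: the Poisson bound in terms of the circuit counts. -/

open MeasureTheory Set
open scoped ENNReal

namespace Vale.Agent.P230

namespace Pois0Aux

theorem sum_choose_le (N M : ℕ) {p : ℝ} (hp : 0 ≤ p) :
    ∑ l ∈ Finset.range M, (N.choose l : ℝ) * p ^ l ≤ Real.exp (N * p) := by
  refine le_trans (Finset.sum_le_sum fun l _ => ?_)
    (Real.sum_le_exp_of_nonneg (mul_nonneg (Nat.cast_nonneg N) hp) M)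
  have h := Nat.choose_le_pow_div (α := ℝ) l N
  calc (N.choose l : ℝ) * p ^ l ≤ ((N : ℝ) ^ l / l.factorial) * p ^ l :=
        mul_le_mul_of_nonneg_right h (by positivity)
    _ = (N * p) ^ l / l.factorial := by rw [mul_pow]; ring

/-- first double sum -/
theorem dep_sum (N m : ℕ) {p : ℝ} (hp0 : 0 ≤ p) (hp1 : p ≤ 1) (X : ℕ → ℝ) (hX : ∀ j, 0 ≤ X j) :
    ∑ i ∈ Finset.range (m + 1), (∑ j ∈ Finset.Icc 2 (i - 1), X j * (N.choose (i - j - 1) : ℝ)) *
      p ^ i ≤ ∑ j ∈ Finset.Icc 2 m, X j * p ^ j * Real.exp (N * p) := by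
  simp_rw [Finset.sum_mul]
  rw [Finset.sum_comm' (t' := Finset.Icc 2 m) (s' := fun j => Finset.Ico (j + 1) (m + 1))
    (by
      intro i j
      simp only [Finset.mem_range, Finset.mem_Icc, Finset.mem_Ico]
      omega)]
  refine Finset.sum_le_sum fun j _ => ?_
  rw [Finset.sum_Ico_eq_sum_range]
  calc ∑ l ∈ Finset.range (m + 1 - (j + 1)), X j * (N.choose (j + 1 + l - j - 1) : ℝ) *
        p ^ (j + 1 + l)
      ≤ ∑ l ∈ Finset.range (m + 1 - (j + 1)), X j * p ^ j * ((N.choose l : ℝ) * p ^ l) := by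
        refine Finset.sum_le_sum fun l _ => ?_
        have h1 : j + 1 + l - j - 1 = l := by omega
        rw [h1]
        have h2 : p ^ (j + 1 + l) = p ^ j * p ^ l * p := by ring
        rw [h2]
        have h3 : 0 ≤ X j * (N.choose l : ℝ) * (p ^ j * p ^ l) := by
          have := hX j
          positivity
        calc X j * (N.choose l : ℝ) * (p ^ j * p ^ l * p) =
            (X j * (N.choose l : ℝ) * (p ^ j * p ^ l)) * p := by ring
          _ ≤ (X j * (N.choose l : ℝ) * (p ^ j * p ^ l)) * 1 :=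
            mul_le_mul_of_nonneg_left hp1 h3
          _ = _ := by ring
    _ = X j * p ^ j * ∑ l ∈ Finset.range (m + 1 - (j + 1)), (N.choose l : ℝ) * p ^ l := by
        rw [Finset.mul_sum]
    _ ≤ _ := mul_le_mul_of_nonneg_left (sum_choose_le N _ hp0)
        (mul_nonneg (hX j) (pow_nonneg hp0 j))

/-- second double sum -/
theorem ext_sum (N m : ℕ) {p : ℝ} (hp0 : 0 ≤ p) (X : ℕ → ℝ) (hX : ∀ j, 0 ≤ X j) :
    ∑ i ∈ Finset.range m, (∑ j ∈ Finset.Icc 2 i, X j * (N.choose (i - j) : ℝ)) *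
      p ^ i ≤ ∑ j ∈ Finset.Icc 2 m, X j * p ^ j * Real.exp (N * p) := by
  simp_rw [Finset.sum_mul]
  rw [Finset.sum_comm' (t' := Finset.Icc 2 m) (s' := fun j => Finset.Ico j m)
    (by
      intro i j
      simp only [Finset.mem_range, Finset.mem_Icc, Finset.mem_Ico]
      omega)]
  refine Finset.sum_le_sum fun j _ => ?_
  rw [Finset.sum_Ico_eq_sum_range]
  calc ∑ l ∈ Finset.range (m - j), X j * (N.choose (j + l - j) : ℝ) * p ^ (j + l)
      = X j * p ^ j * ∑ l ∈ Finset.range (m - j), (N.choose l : ℝ) * p ^ l := by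
        rw [Finset.mul_sum]
        refine Finset.sum_congr rfl fun l _ => ?_
        have h1 : j + l - j = l := by omega
        rw [h1, pow_add]
        ring
    _ ≤ _ := mul_le_mul_of_nonneg_left (sum_choose_le N _ hp0)
        (mul_nonneg (hX j) (pow_nonneg hp0 j))

/-- exchanging the counting of subsets of random sets -/
theorem count_swap {Ω α : Type} [Fintype Ω] [DecidableEq α] (A : Finset α) (E : Ω → Finset α)
    (hE : ∀ ω, E ω ⊆ A) (P : Finset α → Prop) [DecidablePred P] (i : ℕ) :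
    ∑ ω, ((((E ω).powersetCard i).filter P).card : ℝ) =
      ∑ I ∈ (A.powersetCard i).filter P,
        ((Finset.univ.filter fun ω => I ⊆ E ω).card : ℝ) := by
  have h1 : ∀ ω, ((((E ω).powersetCard i).filter P).card : ℝ) =
      ∑ I ∈ (A.powersetCard i).filter P, if I ⊆ E ω then (1 : ℝ) else 0 := by
    intro ω
    rw [Finset.sum_ite, Finset.sum_const_zero, add_zero, Finset.sum_const, nsmul_eq_mul, mul_one]
    congr 2
    ext I
    simp only [Finset.mem_filter, Finset.mem_powersetCard]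
    constructor
    · rintro ⟨⟨h1, h2⟩, h3⟩
      exact ⟨⟨⟨h1.trans (hE ω), h2⟩, h3⟩, h1⟩
    · rintro ⟨⟨⟨h1, h2⟩, h3⟩, h4⟩
      exact ⟨⟨h4, h2⟩, h3⟩
  simp_rw [h1]
  rw [Finset.sum_comm]
  refine Finset.sum_congr rfl fun I _ => ?_
  rw [Finset.sum_ite, Finset.sum_const_zero, add_zero, Finset.sum_const, nsmul_eq_mul, mul_one]

theorem count_swap₂ {Ω α : Type} [Fintype Ω] [DecidableEq α] (A : Finset α) (E : Ω → Finset α)
    (hE : ∀ ω, E ω ⊆ A) (P : Finset α → Prop) [DecidablePred P] (i : ℕ) :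
    ∑ ω, (((((((E ω).powersetCard i).filter P) ×ˢ E ω).filter
        (fun p => p.2 ∉ p.1 ∧ ¬ P (insert p.2 p.1))).card : ℤ) : ℝ) ≤
      ∑ x ∈ (((A.powersetCard i).filter P) ×ˢ A).filter
        (fun p => p.2 ∉ p.1 ∧ ¬ P (insert p.2 p.1)),
        ((Finset.univ.filter fun ω => x.1 ⊆ E ω).card : ℝ) := by
  have h1 : ∀ ω, (((((((E ω).powersetCard i).filter P) ×ˢ E ω).filter
        (fun p => p.2 ∉ p.1 ∧ ¬ P (insert p.2 p.1))).card : ℤ) : ℝ) ≤
      ∑ x ∈ (((A.powersetCard i).filter P) ×ˢ A).filter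
        (fun p => p.2 ∉ p.1 ∧ ¬ P (insert p.2 p.1)), if x.1 ⊆ E ω then (1 : ℝ) else 0 := by
    intro ω
    rw [Finset.sum_ite, Finset.sum_const_zero, add_zero, Finset.sum_const, nsmul_eq_mul, mul_one,
      Int.cast_natCast, Nat.cast_le]
    refine Finset.card_le_card ?_
    intro x
    simp only [Finset.mem_filter, Finset.mem_product, Finset.mem_powersetCard]
    rintro ⟨⟨⟨⟨h1, h2⟩, h3⟩, h4⟩, h5⟩
    exact ⟨⟨⟨⟨⟨h1.trans (hE ω), h2⟩, h3⟩, hE ω h4⟩, h5⟩, h1⟩
  refine (Finset.sum_le_sum fun ω _ => h1 ω).trans (le_of_eq ?_)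
  rw [Finset.sum_comm]
  refine Finset.sum_congr rfl fun I _ => ?_
  rw [Finset.sum_ite, Finset.sum_const_zero, add_zero, Finset.sum_const, nsmul_eq_mul, mul_one]

end Pois0Aux

open Pois0Aux in
theorem poisson0 {q : ℕ} [Fact q.Prime] {d s m : ℕ} (hm : Even m)
    (A : Finset (Fin d → ZMod q)) {t : ℝ} (ht : t = A.card / (q : ℝ) ^ s) :
    (Nat.card {p : Matrix (Fin s) (Fin d) (ZMod q) × (Fin s → ZMod q) //
      ∀ a ∈ A, p.1.mulVec a ≠ p.2} : ℝ) / ((q : ℝ) ^ (s * d) * (q : ℝ) ^ s) ≤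
      Real.exp (-t) + t ^ (m + 1) / (m + 1).factorial +
      2 * Real.exp t * ∑ j ∈ Finset.Icc 2 m, (Y j A : ℝ) / ((q : ℝ) ^ s) ^ j / j.factorial := by
  classical
  have hq : 0 < q := (Fact.out : q.Prime).pos
  have hq' : (0 : ℝ) < q := by exact_mod_cast hq
  have hqs : (0 : ℝ) < (q : ℝ) ^ s := by positivity
  set Q : ℝ := (q : ℝ) ^ (s * d) * (q : ℝ) ^ s with hQ
  have hQ0 : 0 < Q := by positivity
  set p : ℝ := 1 / (q : ℝ) ^ s with hp
  have hp0 : 0 ≤ p := by positivity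
  have hp1 : p ≤ 1 := by
    rw [hp, div_le_one hqs]
    exact one_le_pow₀ (by exact_mod_cast hq)
  have htp : t = A.card * p := by rw [ht, hp]; ring
  let Ω := Matrix (Fin s) (Fin d) (ZMod q) × (Fin s → ZMod q)
  let E : Ω → Finset (Fin d → ZMod q) := fun ω => A.filter (fun a => ω.1.mulVec a = ω.2)
  have hEA : ∀ ω, E ω ⊆ A := fun ω => Finset.filter_subset _ _
  let P : Finset (Fin d → ZMod q) → Prop := fun I =>
    AffineIndependent (ZMod q) ((↑) : I → (Fin d → ZMod q))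
  have hdown : ∀ I J : Finset (Fin d → ZMod q), J ⊆ I → P I → P J := by
    intro I J hJI hI
    exact AffineIndependent.mono (s := (J : Set (Fin d → ZMod q)))
      (t := (I : Set (Fin d → ZMod q))) hI (by exact_mod_cast hJI)
  have h0 : P ∅ := affineIndependent_of_subsingleton _ _
  -- number of `ω` with `I ⊆ E ω`
  have hcnt : ∀ I : Finset (Fin d → ZMod q), I ⊆ A → P I →
      ((Finset.univ.filter fun ω : Ω => I ⊆ E ω).card : ℝ) = Q * p ^ I.card := by
    intro I hIA hI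
    have h1 := prob_indep (s := s) I hI
    have h2 : Nat.card {p : Matrix (Fin s) (Fin d) (ZMod q) × (Fin s → ZMod q) //
        ∀ a ∈ I, p.1.mulVec a = p.2} = (Finset.univ.filter fun ω : Ω => I ⊆ E ω).card := by
      refine Nat.subtype_card _ fun ω => ?_
      rw [Finset.mem_filter]
      constructor
      · rintro ⟨-, h⟩ a ha
        exact (Finset.mem_filter.1 (h ha)).2
      · intro h
        exact ⟨Finset.mem_univ _, fun a ha => Finset.mem_filter.2 ⟨hIA ha, h a ha⟩⟩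
    rw [h2] at h1
    have h3 : ((Finset.univ.filter fun ω : Ω => I ⊆ E ω).card : ℝ) * (q : ℝ) ^ (s * I.card) =
        Q := by
      rw [hQ]
      exact_mod_cast h1
    rw [← h3, hp, div_pow, one_pow, pow_mul]
    field_simp
  -- Bonferroni
  have hbonf : ∀ ω : Ω, (if E ω = ∅ then (1 : ℝ) else 0) ≤
      ∑ i ∈ Finset.range (m + 1), (-1) ^ i * ((((E ω).powersetCard i).filter P).card : ℝ) +
      ∑ i ∈ Finset.range m, (((((((E ω).powersetCard i).filter P) ×ˢ E ω).filter
        (fun p => p.2 ∉ p.1 ∧ ¬ P (insert p.2 p.1))).card : ℤ) : ℝ) := by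
    intro ω
    have h := bonf_pointwise P hdown h0 (E ω) hm
    have h2 : (((if E ω = ∅ then (1 : ℤ) else 0) : ℤ) : ℝ) ≤ _ := Int.cast_le.2 h
    push_cast at h2
    push_cast
    exact h2
  have hleft : (Nat.card {p : Matrix (Fin s) (Fin d) (ZMod q) × (Fin s → ZMod q) //
      ∀ a ∈ A, p.1.mulVec a ≠ p.2} : ℝ) = ∑ ω : Ω, (if E ω = ∅ then (1 : ℝ) else 0) := by
    rw [Finset.sum_ite, Finset.sum_const_zero, add_zero, Finset.sum_const, nsmul_eq_mul, mul_one]
    congr 1
    refine Nat.subtype_card _ fun ω => ?_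
    rw [Finset.mem_filter, Finset.filter_eq_empty_iff]
    simp
  have hsum := Finset.sum_le_sum fun (ω : Ω) (_ : ω ∈ Finset.univ) => hbonf ω
  rw [← hleft, Finset.sum_add_distrib, Finset.sum_comm, Finset.sum_comm (γ := Ω)] at hsum
  -- first sum
  have hfirst : ∀ i, ∑ ω : Ω, (-1) ^ i * ((((E ω).powersetCard i).filter P).card : ℝ) =
      Q * ((-1) ^ i * (((A.powersetCard i).filter P).card : ℝ) * p ^ i) := by
    intro i
    rw [← Finset.mul_sum, count_swap A E hEA P i]
    have h1 : ∑ I ∈ (A.powersetCard i).filter P,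
        ((Finset.univ.filter fun ω : Ω => I ⊆ E ω).card : ℝ) =
        ∑ I ∈ (A.powersetCard i).filter P, Q * p ^ i := by
      refine Finset.sum_congr rfl fun I hI => ?_
      rw [Finset.mem_filter, Finset.mem_powersetCard] at hI
      rw [hcnt I hI.1.1 hI.2, hI.1.2]
    rw [h1, Finset.sum_const, nsmul_eq_mul]
    ring
  have hsecond : ∀ i, ∑ ω : Ω, (((((((E ω).powersetCard i).filter P) ×ˢ E ω).filter
        (fun p => p.2 ∉ p.1 ∧ ¬ P (insert p.2 p.1))).card : ℤ) : ℝ) ≤
      Q * ((∑ j ∈ Finset.Icc 2 i, (Xc j A : ℝ) * (A.card.choose (i - j) : ℝ)) * p ^ i) := by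
    intro i
    refine (count_swap₂ A E hEA P i).trans ?_
    have h1 : ∑ x ∈ (((A.powersetCard i).filter P) ×ˢ A).filter
        (fun p => p.2 ∉ p.1 ∧ ¬ P (insert p.2 p.1)),
        ((Finset.univ.filter fun ω : Ω => x.1 ⊆ E ω).card : ℝ) =
        ∑ x ∈ (((A.powersetCard i).filter P) ×ˢ A).filter
        (fun p => p.2 ∉ p.1 ∧ ¬ P (insert p.2 p.1)), Q * p ^ i := by
      refine Finset.sum_congr rfl fun x hx => ?_
      simp only [Finset.mem_filter, Finset.mem_product, Finset.mem_powersetCard] at hx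
      rw [hcnt x.1 hx.1.1.1.1 hx.1.1.2, hx.1.1.1.2]
    rw [h1, Finset.sum_const, nsmul_eq_mul]
    have h2 := ext_count i A
    have h3 : Nat.card {p : Finset (Fin d → ZMod q) × (Fin d → ZMod q) //
      p.1 ⊆ A ∧ p.1.card = i ∧ p.2 ∈ A ∧ p.2 ∉ p.1 ∧
      AffineIndependent (ZMod q) ((↑) : p.1 → (Fin d → ZMod q)) ∧
      ¬ AffineIndependent (ZMod q)
        ((↑) : (insert p.2 p.1 : Finset (Fin d → ZMod q)) → (Fin d → ZMod q))} =
        ((((A.powersetCard i).filter P) ×ˢ A).filter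
        (fun p => p.2 ∉ p.1 ∧ ¬ P (insert p.2 p.1))).card := by
      refine Nat.subtype_card _ fun x => ?_
      simp only [Finset.mem_filter, Finset.mem_product, Finset.mem_powersetCard, P]
      constructor
      · rintro ⟨⟨⟨⟨h1, h2⟩, h3⟩, h4⟩, h5, h6⟩
        refine ⟨h1, h2, h4, h5, h3, ?_⟩
        convert h6
      · rintro ⟨h1, h2, h4, h5, h3, h6⟩
        refine ⟨⟨⟨⟨h1, h2⟩, h3⟩, h4⟩, h5, ?_⟩
        convert h6
    rw [h3] at h2
    have h4 : (((((A.powersetCard i).filter P) ×ˢ A).filter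
        (fun p => p.2 ∉ p.1 ∧ ¬ P (insert p.2 p.1))).card : ℝ) ≤
        ∑ j ∈ Finset.Icc 2 i, (Xc j A : ℝ) * (A.card.choose (i - j) : ℝ) := by
      exact_mod_cast h2
    calc _ ≤ (∑ j ∈ Finset.Icc 2 i, (Xc j A : ℝ) * (A.card.choose (i - j) : ℝ)) * (Q * p ^ i) :=
          mul_le_mul_of_nonneg_right h4 (by positivity)
      _ = _ := by ring
  -- number of independent sets
  have hind : ∀ i, (-1) ^ i * (((A.powersetCard i).filter P).card : ℝ) * p ^ i ≤
      (-1) ^ i * (A.card.choose i : ℝ) * p ^ i +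
      (∑ j ∈ Finset.Icc 2 (i - 1), (Xc j A : ℝ) * (A.card.choose (i - j - 1) : ℝ)) * p ^ i := by
    intro i
    have h1 := Finset.card_filter_add_card_filter_not (s := A.powersetCard i) P
    rw [Finset.card_powersetCard] at h1
    have h2 := dep_count i A
    have h3 : Nat.card {I : Finset (Fin d → ZMod q) // I ⊆ A ∧ I.card = i ∧
      ¬ AffineIndependent (ZMod q) ((↑) : I → (Fin d → ZMod q))} =
        ((A.powersetCard i).filter (fun I => ¬ P I)).card := by
      refine Nat.subtype_card _ fun x => ?_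
      simp only [Finset.mem_filter, Finset.mem_powersetCard, P, and_assoc]
    rw [h3] at h2
    have h4 : (((A.powersetCard i).filter (fun I => ¬ P I)).card : ℝ) ≤
        ∑ j ∈ Finset.Icc 2 (i - 1), (Xc j A : ℝ) * (A.card.choose (i - j - 1) : ℝ) := by
      exact_mod_cast h2
    have h5 : (((A.powersetCard i).filter P).card : ℝ) +
        (((A.powersetCard i).filter (fun I => ¬ P I)).card : ℝ) = (A.card.choose i : ℝ) := by
      exact_mod_cast h1
    have h6 : (((A.powersetCard i).filter P).card : ℝ) = (A.card.choose i : ℝ) -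
        (((A.powersetCard i).filter (fun I => ¬ P I)).card : ℝ) := by linarith
    rw [h6, ← add_mul]
    refine mul_le_mul_of_nonneg_right ?_ (by positivity)
    have h7 : (0 : ℝ) ≤ (((A.powersetCard i).filter (fun I => ¬ P I)).card : ℝ) := by positivity
    rcases neg_one_pow_eq_or ℝ i with h | h <;> rw [h] <;> linarith
  have hmain : (Nat.card {p : Matrix (Fin s) (Fin d) (ZMod q) × (Fin s → ZMod q) //
      ∀ a ∈ A, p.1.mulVec a ≠ p.2} : ℝ) ≤ Q * (
      ∑ i ∈ Finset.range (m + 1), (-1) ^ i * (A.card.choose i : ℝ) * p ^ i +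
      ∑ i ∈ Finset.range (m + 1), (∑ j ∈ Finset.Icc 2 (i - 1), (Xc j A : ℝ) *
        (A.card.choose (i - j - 1) : ℝ)) * p ^ i +
      ∑ i ∈ Finset.range m, (∑ j ∈ Finset.Icc 2 i, (Xc j A : ℝ) *
        (A.card.choose (i - j) : ℝ)) * p ^ i) := by
    refine hsum.trans ?_
    rw [mul_add]
    refine add_le_add ?_ ?_
    · simp_rw [hfirst]
      rw [← Finset.mul_sum, ← Finset.sum_add_distrib]
      exact mul_le_mul_of_nonneg_left (Finset.sum_le_sum fun i _ => hind i) hQ0.le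
    · rw [Finset.mul_sum]
      exact Finset.sum_le_sum fun i _ => hsecond i
  have hX0 : ∀ j, (0 : ℝ) ≤ (Xc j A : ℝ) := fun j => Nat.cast_nonneg _
  have h1 := alt_sum A.card m hm hp0 hp1
  have h2 := dep_sum A.card m hp0 hp1 (fun j => (Xc j A : ℝ)) hX0
  have h3 := ext_sum A.card m hp0 (fun j => (Xc j A : ℝ)) hX0
  have h4 : (1 - p) ^ A.card ≤ Real.exp (-t) := by
    have h := Real.add_one_le_exp (-p)
    calc (1 - p) ^ A.card ≤ Real.exp (-p) ^ A.card :=
          pow_le_pow_left₀ (by linarith) (by linarith) _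
      _ = Real.exp (-t) := by
          rw [← Real.exp_nat_mul, htp]
          congr 1
          ring
  have h5 : (A.card.choose (m + 1) : ℝ) * p ^ (m + 1) ≤ t ^ (m + 1) / (m + 1).factorial := by
    have h := Nat.choose_le_pow_div (α := ℝ) (m + 1) A.card
    calc (A.card.choose (m + 1) : ℝ) * p ^ (m + 1) ≤
        ((A.card : ℝ) ^ (m + 1) / (m + 1).factorial) * p ^ (m + 1) :=
          mul_le_mul_of_nonneg_right h (by positivity)
      _ = t ^ (m + 1) / (m + 1).factorial := by rw [htp, mul_pow]; ring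
  have h6 : ∑ j ∈ Finset.Icc 2 m, (Xc j A : ℝ) * p ^ j * Real.exp (A.card * p) ≤
      Real.exp t * ∑ j ∈ Finset.Icc 2 m, (Y j A : ℝ) / ((q : ℝ) ^ s) ^ j / j.factorial := by
    rw [Finset.mul_sum, htp]
    refine Finset.sum_le_sum fun j _ => ?_
    have h7 := circ_le_Y j A
    have h8 : (j.factorial : ℝ) * (Xc j A : ℝ) ≤ (Y j A : ℝ) := by exact_mod_cast h7
    have hj : (0 : ℝ) < j.factorial := by exact_mod_cast Nat.factorial_pos j
    have h9 : (Xc j A : ℝ) ≤ (Y j A : ℝ) / j.factorial := by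
      rw [le_div_iff₀ hj]
      linarith
    calc (Xc j A : ℝ) * p ^ j * Real.exp (A.card * p) ≤
        ((Y j A : ℝ) / j.factorial) * p ^ j * Real.exp (A.card * p) := by
          gcongr
      _ = Real.exp (A.card * p) * ((Y j A : ℝ) / ((q : ℝ) ^ s) ^ j / j.factorial) := by
          rw [hp, div_pow, one_pow]
          ring
  rw [div_le_iff₀ hQ0]
  refine hmain.trans ?_
  rw [mul_comm Q]
  refine mul_le_mul_of_nonneg_right ?_ hQ0.le
  linarith

end Vale.Agent.P230
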