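import Vale.Agent.P230.Defs
import Vale.Agent.P230.Pois0
import Vale.Agent.P230.Height

/-! # P230 [P]: the Poisson estimate for a set of integer points -/

open MeasureTheory Set
open scoped ENNReal

namespace Vale.Agent.P230

namespace PoissonAux

lemma card_image_cast {q d B : ℕ} (A : Finset (Fin d → ℤ))
    (hB : ∀ a ∈ A, ∀ b ∈ A, ∀ i, |a i - b i| ≤ (B : ℤ)) (hq : 3 * B ^ 2 < q) :
    (A.image (fun a i => (a i : ZMod q))).card = A.card := by
  refine Finset.card_image_of_injOn ?_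
  intro a ha b hb hab
  funext i
  have h1 : ((a i : ℤ) : ZMod q) = ((b i : ℤ) : ZMod q) := congrFun hab i
  rw [ZMod.intCast_eq_intCast_iff_dvd_sub] at h1
  have h2 := hB a ha b hb i
  have hBq : B < q := by nlinarith
  obtain ⟨c, hc⟩ := h1
  have h3 : |b i - a i| < q := by
    rw [abs_sub_comm]
    exact lt_of_le_of_lt h2 (by exact_mod_cast hBq)
  have h4 : b i - a i = 0 := Int.eq_zero_of_abs_lt_dvd ⟨c, hc⟩ h3
  linarith

end PoissonAux

open PoissonAux

theorem poisson {q d s m B : ℕ} [Fact q.Prime] (hm : Even m) (hmq : m + 1 < q)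
    (A : Finset (Fin d → ℤ)) (hne : A.Nonempty)
    (hB1 : 1 ≤ B) (hB : ∀ a ∈ A, ∀ b ∈ A, ∀ i, |a i - b i| ≤ (B : ℤ)) (hq : 3 * B ^ 2 < q)
    {κ : ℕ → ℝ} (hκ0 : ∀ U, 0 ≤ κ U)
    (hκ : ∀ U, 2 ≤ U → U ≤ B → ∀ x : Fin d → ℤ,
      ((A.filter (fun a => ∀ i, (U : ℤ) ∣ a i - x i)).card : ℝ) ≤ κ U * A.card)
    {T : ℝ} (hT0 : 0 ≤ T) (hT : ∀ r : Fin d → ℤ,
      (((A ×ˢ A).filter (fun p => p.1 + p.2 + r ∈ A)).card : ℝ) ≤ T * (A.card : ℝ) ^ 2)
    {t : ℝ} (ht : t = A.card / (q : ℝ) ^ s) :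
    (Nat.card {p : Matrix (Fin s) (Fin d) (ZMod q) × (Fin s → ZMod q) //
      ∀ a ∈ A, p.1.mulVec (fun i => (a i : ZMod q)) ≠ p.2} : ℝ) /
        ((q : ℝ) ^ (s * d) * (q : ℝ) ^ s) ≤
      Real.exp (-t) + t ^ (m + 1) / (m + 1).factorial +
      2 * Real.exp (2 * t) * (2 ^ m * T +
        ∑ U ∈ Finset.Icc 2 B, (2 * (U : ℝ) + 1) ^ (2 * m) * κ U + (q : ℝ) ^ m / A.card) := by
  have hcard := card_image_cast (q := q) A hB hq
  have hq1 : (1:ℝ) ≤ q := by
    have := (Fact.out : q.Prime).one_lt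
    exact_mod_cast this.le
  have hq0 : (0:ℝ) < q := by linarith
  have hA0 : (0:ℝ) < A.card := by exact_mod_cast hne.card_pos
  have ht0 : 0 ≤ t := by rw [ht]; positivity
  have h0 := poisson0 (q := q) (d := d) (s := s) hm (A.image (fun a i => (a i : ZMod q)))
    (t := t) (by rw [hcard]; exact ht)
  have hcong : Nat.card {p : Matrix (Fin s) (Fin d) (ZMod q) × (Fin s → ZMod q) //
      ∀ a ∈ A.image (fun a i => (a i : ZMod q)), p.1.mulVec a ≠ p.2} =
      Nat.card {p : Matrix (Fin s) (Fin d) (ZMod q) × (Fin s → ZMod q) //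
      ∀ a ∈ A, p.1.mulVec (fun i => (a i : ZMod q)) ≠ p.2} := by
    refine Nat.card_congr (Equiv.subtypeEquivRight fun p => ?_)
    simp only [Finset.mem_image, forall_exists_index, and_imp, forall_apply_eq_imp_iff₂]
  rw [hcong] at h0
  refine h0.trans (add_le_add le_rfl ?_)
  obtain ⟨S, hS⟩ : ∃ S : ℝ, S = 2 ^ m * T +
    ∑ U ∈ Finset.Icc 2 B, (2 * (U : ℝ) + 1) ^ (2 * m) * κ U + (q : ℝ) ^ m / A.card := ⟨_, rfl⟩
  rw [← hS]
  have hS0 : 0 ≤ S := by
    rw [hS]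
    have : 0 ≤ ∑ U ∈ Finset.Icc 2 B, (2 * (U : ℝ) + 1) ^ (2 * m) * κ U :=
      Finset.sum_nonneg fun U _ => mul_nonneg (by positivity) (hκ0 U)
    positivity
  have h1 : ∀ j ∈ Finset.Icc 2 m, (Y j (A.image (fun a i => (a i : ZMod q))) : ℝ) /
      ((q : ℝ) ^ s) ^ j / j.factorial ≤ t ^ j / j.factorial * S := by
    intro j hj
    rw [Finset.mem_Icc] at hj
    have h2 := height (q := q) A hne hB1 hB hq hκ0 hκ hT0 hT hj.1 (by omega : j + 1 < q)
    have h3 : 2 ^ j * T + ∑ U ∈ Finset.Icc 2 B, (2 * (U : ℝ) + 1) ^ (2 * j) * κ U +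
        (q : ℝ) ^ j / A.card ≤ S := by
      rw [hS]
      refine add_le_add (add_le_add ?_ ?_) ?_
      · exact mul_le_mul_of_nonneg_right (pow_le_pow_right₀ (by norm_num) hj.2) hT0
      · refine Finset.sum_le_sum fun U _ => mul_le_mul_of_nonneg_right ?_ (hκ0 U)
        refine pow_le_pow_right₀ ?_ (by omega)
        have : (0:ℝ) ≤ U := Nat.cast_nonneg U
        linarith
      · exact div_le_div_of_nonneg_right (pow_le_pow_right₀ hq1 hj.2) hA0.le
    have h4 := h2.trans (mul_le_mul_of_nonneg_left h3 (by positivity))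
    rw [div_mul_eq_mul_div]
    refine div_le_div_of_nonneg_right ?_ (by positivity)
    rw [ht, div_pow, div_mul_eq_mul_div]
    exact div_le_div_of_nonneg_right h4 (by positivity)
  have h5 : ∑ j ∈ Finset.Icc 2 m, t ^ j / (j.factorial : ℝ) ≤ Real.exp t := by
    refine le_trans (Finset.sum_le_sum_of_subset_of_nonneg ?_ ?_)
      (Real.sum_le_exp_of_nonneg ht0 (m + 1))
    · intro j hj
      rw [Finset.mem_Icc] at hj
      rw [Finset.mem_range]
      omega
    · intro j _ _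
      positivity
  calc 2 * Real.exp t * ∑ j ∈ Finset.Icc 2 m, (Y j (A.image (fun a i => (a i : ZMod q))) : ℝ) /
        ((q : ℝ) ^ s) ^ j / j.factorial
      ≤ 2 * Real.exp t * ∑ j ∈ Finset.Icc 2 m, t ^ j / j.factorial * S :=
        mul_le_mul_of_nonneg_left (Finset.sum_le_sum h1) (by positivity)
    _ = 2 * Real.exp t * (∑ j ∈ Finset.Icc 2 m, t ^ j / j.factorial) * S := by
        rw [← Finset.sum_mul]; ring
    _ ≤ 2 * Real.exp t * Real.exp t * S := by
        refine mul_le_mul_of_nonneg_right ?_ hS0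
        exact mul_le_mul_of_nonneg_left h5 (by positivity)
    _ = 2 * Real.exp (2 * t) * S := by
        rw [two_mul t, Real.exp_add]; ring

end Vale.Agent.P230
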