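import Vale.Agent.P230.Defs
import Vale.Agent.P230.Count
import Vale.Agent.P230.Prob
import Vale.Agent.P230.Poisson
import Vale.Agent.P230.BaseNum

/-! # P230 [BA]: the base layer -/

open MeasureTheory Set
open scoped ENNReal

namespace Vale.Agent.P230

namespace BaseAux

/-- the homomorphism given by an integer-valued point and a matrix mod `q` -/
def hom {q d s : ℕ} (W : Matrix (Fin s) (Fin d) (ZMod q)) : (Fin d → ℤ) →+ (Fin s → ZMod q) where
  toFun x := W.mulVec (fun i => (x i : ZMod q))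
  map_zero' := by
    have : (fun i : Fin d => (((0 : Fin d → ℤ) i : ℤ) : ZMod q)) = 0 := by funext i; simp
    rw [this, Matrix.mulVec_zero]
  map_add' x y := by
    have : (fun i : Fin d => (((x + y) i : ℤ) : ZMod q)) =
        (fun i => (x i : ZMod q)) + fun i => (y i : ZMod q) := by funext i; simp
    rw [this, Matrix.mulVec_add]

lemma hom_surj {q d s : ℕ} {W : Matrix (Fin s) (Fin d) (ZMod q)}
    (hW : Function.Surjective W.mulVec) : Function.Surjective (hom W) := by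
  intro y
  obtain ⟨x, hx⟩ := hW y
  choose z hz using fun i => ZMod.intCast_surjective (x i)
  refine ⟨z, ?_⟩
  change W.mulVec (fun i => (z i : ZMod q)) = y
  rw [← hx]
  congr 1
  funext i
  exact hz i

/-- averaging: a surjective matrix which is good for all sets -/
lemma exists_good {q d s : ℕ} [Fact q.Prime] (hsd : s < d) {ι : Type} [Fintype ι]
    (A : ι → Finset (Fin d → ℤ)) {β : ℝ}
    (h : ∀ i, (Nat.card {p : Matrix (Fin s) (Fin d) (ZMod q) × (Fin s → ZMod q) //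
      ∀ a ∈ A i, p.1.mulVec (fun l => (a l : ZMod q)) ≠ p.2} : ℝ) /
        ((q : ℝ) ^ (s * d) * (q : ℝ) ^ s) ≤ β) :
    ∃ W : Matrix (Fin s) (Fin d) (ZMod q), Function.Surjective W.mulVec ∧
      ∑ i, (Nat.card {b : Fin s → ZMod q // ∀ a ∈ A i,
        W.mulVec (fun l => (a l : ZMod q)) ≠ b} : ℝ) ≤ 2 * Fintype.card ι * β * (q : ℝ) ^ s := by
  classical
  have hq0 : (0:ℝ) < q := by
    have := (Fact.out : q.Prime).pos
    exact_mod_cast this
  obtain ⟨f, hf⟩ : ∃ f : Matrix (Fin s) (Fin d) (ZMod q) → ℝ, f = fun W =>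
    ∑ i, (Nat.card {b : Fin s → ZMod q // ∀ a ∈ A i,
        W.mulVec (fun l => (a l : ZMod q)) ≠ b} : ℝ) := ⟨_, rfl⟩
  have hf0 : ∀ W, 0 ≤ f W := fun W => by
    rw [hf]
    exact Finset.sum_nonneg fun i _ => Nat.cast_nonneg _
  have hcard : ∀ i, (Nat.card {p : Matrix (Fin s) (Fin d) (ZMod q) × (Fin s → ZMod q) //
      ∀ a ∈ A i, p.1.mulVec (fun l => (a l : ZMod q)) ≠ p.2} : ℝ) =
      ∑ W : Matrix (Fin s) (Fin d) (ZMod q), (Nat.card {b : Fin s → ZMod q // ∀ a ∈ A i,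
        W.mulVec (fun l => (a l : ZMod q)) ≠ b} : ℝ) := by
    intro i
    have e : {p : Matrix (Fin s) (Fin d) (ZMod q) × (Fin s → ZMod q) //
      ∀ a ∈ A i, p.1.mulVec (fun l => (a l : ZMod q)) ≠ p.2} ≃
      Σ W : Matrix (Fin s) (Fin d) (ZMod q), {b : Fin s → ZMod q // ∀ a ∈ A i,
        W.mulVec (fun l => (a l : ZMod q)) ≠ b} :=
      { toFun := fun p => ⟨p.1.1, p.1.2, p.2⟩
        invFun := fun p => ⟨(p.1, p.2.1), p.2.2⟩
        left_inv := fun p => rfl
        right_inv := fun p => rfl }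
    rw [Nat.card_congr e, Nat.card_sigma]
    push_cast
    rfl
  have hsum : ∑ W, f W ≤ Fintype.card ι * β * ((q : ℝ) ^ (s * d) * (q : ℝ) ^ s) := by
    rw [hf]
    simp only
    rw [Finset.sum_comm]
    calc ∑ i, ∑ W : Matrix (Fin s) (Fin d) (ZMod q), (Nat.card {b : Fin s → ZMod q //
          ∀ a ∈ A i, W.mulVec (fun l => (a l : ZMod q)) ≠ b} : ℝ)
        ≤ ∑ _i : ι, β * ((q : ℝ) ^ (s * d) * (q : ℝ) ^ s) := by
          refine Finset.sum_le_sum fun i _ => ?_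
          rw [← hcard i]
          have := h i
          rwa [div_le_iff₀ (by positivity)] at this
      _ = _ := by
          rw [Finset.sum_const, Finset.card_univ, nsmul_eq_mul, mul_assoc]
  by_contra hcon
  push Not at hcon
  obtain ⟨G, hG⟩ : ∃ G : Finset (Matrix (Fin s) (Fin d) (ZMod q)),
    G = Finset.univ.filter fun W => Function.Surjective W.mulVec := ⟨_, rfl⟩
  have hGc : (q : ℝ) ^ (s * d) ≤ 2 * (G.card : ℝ) := by
    have := card_surj (q := q) hsd
    rw [Nat.card_eq_fintype_card, Fintype.card_subtype, ← hG] at this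
    exact_mod_cast this
  have hGpos : 0 < G.card := by
    have : (0:ℝ) < (q : ℝ) ^ (s * d) := by positivity
    have h2 : (0:ℝ) < G.card := by linarith
    exact_mod_cast h2
  have h1 : (G.card : ℝ) * (2 * Fintype.card ι * β * (q : ℝ) ^ s) < ∑ W ∈ G, f W := by
    rw [← nsmul_eq_mul, ← Finset.sum_const]
    refine Finset.sum_lt_sum_of_nonempty (Finset.card_pos.1 hGpos) fun W hW => ?_
    rw [hG, Finset.mem_filter] at hW
    rw [hf]
    exact hcon W hW.2
  have h2 : ∑ W ∈ G, f W ≤ ∑ W, f W :=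
    Finset.sum_le_sum_of_subset_of_nonneg (Finset.subset_univ _) fun W _ _ => hf0 W
  have h3 : (G.card : ℝ) * (2 * Fintype.card ι * β * (q : ℝ) ^ s) <
      Fintype.card ι * β * ((q : ℝ) ^ (s * d) * (q : ℝ) ^ s) := by linarith
  rcases isEmpty_or_nonempty ι with he | ⟨⟨i0⟩⟩
  · simp at h3
  · have hβ : 0 ≤ β := le_trans (by positivity) (h i0)
    have h4 : Fintype.card ι * β * ((q : ℝ) ^ (s * d) * (q : ℝ) ^ s) ≤
        Fintype.card ι * β * ((2 * (G.card : ℝ)) * (q : ℝ) ^ s) := by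
      refine mul_le_mul_of_nonneg_left ?_ (by positivity)
      exact mul_le_mul_of_nonneg_right hGc (by positivity)
    nlinarith

end BaseAux

open BaseAux

theorem base : ∃ d₀ : ℕ, ∀ d : ℕ, d₀ ≤ d → ∀ (q s B N : ℕ) [Fact q.Prime] (R w : ℝ)
    (ι : Type) [Fintype ι] (A : ι → Finset (Fin d → ℤ)) (J : ι → Set (Fin d → ℝ))
    (c : ι → Fin d → ℝ),
    d < B → 3 * B ^ 2 < q → (q : ℝ) ≤ (d : ℝ) ^ 20 → (d : ℝ) / 100 ≤ s → s < d →
    (d : ℝ) ^ 2 ≤ w → 1 ≤ R → R ≤ Real.exp (d / 10 ^ 5) →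
    (∀ i, Convex ℝ (J i)) → (∀ i, MeasurableSet (J i)) → (∀ i, volume (J i) ≠ ∞) →
    (∀ i, ∀ x : Fin d → ℝ, (∀ l, c i l ≤ x l ∧ x l ≤ c i l + w) → x ∈ J i) →
    (∀ i, ∀ a ∈ A i, (fun l => (a l : ℝ)) ∈ J i) →
    (∀ i, (volume (J i)).toReal ≤ R * N) →
    (∀ i, ∀ a ∈ A i, ∀ b ∈ A i, ∀ l, |a l - b l| ≤ (B : ℤ)) →
    (∀ i, N ≤ (A i).card) →
    (d : ℝ) / 10 ^ 4 * (q : ℝ) ^ s ≤ N → (N : ℝ) ≤ (d / 10 ^ 4 + 1) * (q : ℝ) ^ s →
    ∃ ψ : (Fin d → ℤ) →+ (Fin s → ZMod q), Function.Surjective ψ ∧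
      ∀ i, unc ψ (A i : Set (Fin d → ℤ)) ≤
        8 * (Fintype.card ι) * Real.exp (-(d : ℝ) / 10 ^ 4) := by
  obtain ⟨d₀, hd₀⟩ := base_num
  refine ⟨max d₀ 1, ?_⟩
  intro d hd q s B N _ R w ι _ A J c hdB hBq hqd hds hsd hw hR1 hR hconv hmeas hfin hcube hAJ hvol
    hAB hAN hN1 hN2
  have hd1 : 1 ≤ d := le_trans (le_max_right _ _) hd
  obtain ⟨m, hm, hmd, hnum⟩ := hd₀ d (le_trans (le_max_left _ _) hd)
  have hB1 : 1 ≤ B := by omega
  have hqpr : q.Prime := Fact.out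
  have hq2 : 2 ≤ q := hqpr.two_le
  have hq0 : (0:ℝ) < q := by exact_mod_cast hqpr.pos
  have hw0 : 0 < w := by
    have h1 : (0:ℝ) < (d:ℝ) ^ 2 := by positivity
    linarith
  have hNpos : (0:ℝ) < N := by
    have h1 : (0:ℝ) < (d : ℝ) / 10 ^ 4 * (q : ℝ) ^ s := by positivity
    linarith
  have hmq : m + 1 < q := by nlinarith
  choose A' hA'A hA'N using fun i => Finset.exists_subset_card_eq (hAN i)
  obtain ⟨t, ht⟩ : ∃ t : ℝ, t = N / (q : ℝ) ^ s := ⟨_, rfl⟩
  have ht1 : (d : ℝ) / 10 ^ 4 ≤ t := by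
    rw [ht, le_div_iff₀ (by positivity)]
    exact hN1
  have ht2 : t ≤ d / 10 ^ 4 + 1 := by
    rw [ht, div_le_iff₀ (by positivity)]
    exact hN2
  have hβ := hnum q s B N R w t hB1 (by omega) hqd hds hq2 hw hR1 hR ht ht1 ht2
  have hρ0 : (0:ℝ) ≤ rho := by unfold rho; norm_num
  have hpois : ∀ i, (Nat.card {p : Matrix (Fin s) (Fin d) (ZMod q) × (Fin s → ZMod q) //
      ∀ a ∈ A' i, p.1.mulVec (fun l => (a l : ZMod q)) ≠ p.2} : ℝ) /
        ((q : ℝ) ^ (s * d) * (q : ℝ) ^ s) ≤ 4 * Real.exp (-(d : ℝ) / 10 ^ 4) := by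
    intro i
    have hne : (A' i).Nonempty := by
      rw [← Finset.card_pos, hA'N]
      exact_mod_cast hNpos
    have hJ0 : 0 ≤ (volume (J i)).toReal := ENNReal.toReal_nonneg
    refine le_trans (poisson (κ := fun U => R * (1 / U + 1 / w) ^ d)
      (T := R ^ 2 * rho ^ d * (1 + 2 / w) ^ (2 * d)) hm hmq (A' i) hne hB1
      (fun a ha b hb => hAB i a (hA'A i ha) b (hA'A i hb)) hBq ?_ ?_ ?_ ?_
      (t := t) (by rw [ht, hA'N])) ?_
    · intro U
      positivity
    · intro U hU _ x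
      have h1 := count_mod (hconv i) (hmeas i) (hfin i) hw0 (hcube i) (A' i)
        (fun a ha => hAJ i a (hA'A i ha)) (U := U) (by omega) x
      refine h1.trans ?_
      rw [hA'N]
      calc (1 / (U:ℝ) + 1 / w) ^ d * (volume (J i)).toReal
          ≤ (1 / (U:ℝ) + 1 / w) ^ d * (R * N) :=
            mul_le_mul_of_nonneg_left (hvol i) (by positivity)
        _ = _ := by ring
    · positivity
    · intro r
      have h1 := count_triple (hconv i) (hmeas i) (hfin i) hw0 (hcube i) (A' i)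
        (fun a ha => hAJ i a (hA'A i ha)) r
      refine h1.trans ?_
      rw [hA'N]
      calc rho ^ d * ((1 + 2 / w) ^ d * (volume (J i)).toReal) ^ 2
          ≤ rho ^ d * ((1 + 2 / w) ^ d * (R * N)) ^ 2 := by
            refine mul_le_mul_of_nonneg_left ?_ (by positivity)
            refine pow_le_pow_left₀ (by positivity) ?_ 2
            exact mul_le_mul_of_nonneg_left (hvol i) (by positivity)
        _ = _ := by
            rw [mul_pow, mul_pow, ← pow_mul, mul_comm d 2]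
            ring
    · rw [hA'N]
      exact hβ
  obtain ⟨W, hW1, hW2⟩ := exists_good hsd A' hpois
  refine ⟨hom W, hom_surj hW1, ?_⟩
  intro i
  unfold unc
  have hcG : (Nat.card (Fin s → ZMod q) : ℝ) = (q : ℝ) ^ s := by
    rw [Nat.card_eq_fintype_card, Fintype.card_fun, Fintype.card_fin, ZMod.card]
    push_cast
    rfl
  rw [hcG, div_le_iff₀ (by positivity)]
  have h1 : (Nat.card {g : Fin s → ZMod q // ∀ x ∈ (A i : Set (Fin d → ℤ)), hom W x ≠ g} : ℝ) ≤
      (Nat.card {b : Fin s → ZMod q // ∀ a ∈ A' i,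
        W.mulVec (fun l => (a l : ZMod q)) ≠ b} : ℝ) := by
    have : Nat.card {g : Fin s → ZMod q // ∀ x ∈ (A i : Set (Fin d → ℤ)), hom W x ≠ g} ≤
        Nat.card {b : Fin s → ZMod q // ∀ a ∈ A' i,
        W.mulVec (fun l => (a l : ZMod q)) ≠ b} := by
      refine Nat.card_le_card_of_injective
        (fun g => ⟨g.1, fun a ha => g.2 a (hA'A i ha)⟩) ?_
      intro g g' hgg
      exact Subtype.ext (congrArg (fun z => z.1) hgg)
    exact_mod_cast this
  have h2 : (Nat.card {b : Fin s → ZMod q // ∀ a ∈ A' i,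
        W.mulVec (fun l => (a l : ZMod q)) ≠ b} : ℝ) ≤
      ∑ i, (Nat.card {b : Fin s → ZMod q // ∀ a ∈ A' i,
        W.mulVec (fun l => (a l : ZMod q)) ≠ b} : ℝ) :=
    Finset.single_le_sum (f := fun i => (Nat.card {b : Fin s → ZMod q // ∀ a ∈ A' i,
        W.mulVec (fun l => (a l : ZMod q)) ≠ b} : ℝ)) (fun i _ => Nat.cast_nonneg _)
      (Finset.mem_univ i)
  refine (h1.trans (h2.trans hW2)).trans (le_of_eq ?_)
  ring

end Vale.Agent.P230
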