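import Vale.Agent.P230.Defs
import Vale.Agent.P230.BaseNum

/-! P230 [BN2]: the numerical inequality of the second base construction. -/

open MeasureTheory Set Filter
open scoped ENNReal NNReal Pointwise

namespace Vale.Agent.P230

namespace BN2Aux

open BNAux

/-- one term of the sum over the levels -/
theorem level_one2 {d m U : ℕ} {w : ℝ} (hd : 10 ^ 6 ≤ d) (hm : 1000 * m ≤ d)
    (hw : (d : ℝ) ^ 2 ≤ w) (hU2 : 2 ≤ U) (hUw : (U : ℝ) ≤ w ^ 2) :
    (2 * (U : ℝ) + 1) ^ (2 * m) * (1 / U + 1 / w) ^ d ≤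
      3 * Real.exp (-(d : ℝ) / 2) * ((U : ℝ) ^ 2)⁻¹ := by
  have hd0 : (0 : ℝ) < d := by exact_mod_cast (by omega : 0 < d)
  have hd' : (10 : ℝ) ^ 6 ≤ d := by exact_mod_cast hd
  have hw0 : 0 < w := lt_of_lt_of_le (by positivity) hw
  have hU : (2 : ℝ) ≤ U := by exact_mod_cast hU2
  rcases le_or_gt U d with hUd | hUd
  · have hUd' : (U : ℝ) ≤ d := by exact_mod_cast hUd
    have h1 : 1 / (U : ℝ) + 1 / w ≤ 1 / U * Real.exp (1 / d) := by
      have h2 : 1 / w ≤ 1 / U * (1 / d) := by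
        rw [div_mul_div_comm, one_mul, div_le_div_iff₀ hw0 (by positivity)]
        nlinarith
      have h3 := Real.add_one_le_exp (1 / d : ℝ)
      have h4 : 0 ≤ 1 / (U : ℝ) := by positivity
      nlinarith
    have h2 : (1 / (U : ℝ) + 1 / w) ^ d ≤ (1 / U) ^ d * Real.exp 1 := by
      calc (1 / (U : ℝ) + 1 / w) ^ d ≤ (1 / U * Real.exp (1 / d)) ^ d :=
            pow_le_pow_left₀ (by positivity) h1 d
        _ = (1 / U) ^ d * Real.exp 1 := by
            rw [mul_pow, ← Real.exp_nat_mul]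
            congr 2
            field_simp
    have h3 : (2 * (U : ℝ) + 1) ^ (2 * m) ≤ (U : ℝ) ^ (6 * m) := by
      have h4 : 2 * (U : ℝ) + 1 ≤ (U : ℝ) ^ 3 := by
        nlinarith [mul_nonneg (by linarith : (0:ℝ) ≤ U - 2) (by linarith : (0:ℝ) ≤ U)]
      calc (2 * (U : ℝ) + 1) ^ (2 * m) ≤ ((U : ℝ) ^ 3) ^ (2 * m) :=
            pow_le_pow_left₀ (by positivity) h4 _
        _ = (U : ℝ) ^ (6 * m) := by
            rw [← pow_mul]
            congr 1
            ring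
    have h5 : (U : ℝ) ^ (6 * m) * (1 / U) ^ d ≤ (1 / 2) ^ (d - 6 * m - 2) * ((U : ℝ) ^ 2)⁻¹ := by
      have h6 : d = 6 * m + ((d - 6 * m - 2) + 2) := by omega
      have h7 : (U : ℝ) ^ (6 * m) * (1 / U) ^ d =
          (1 / (U : ℝ)) ^ (d - 6 * m - 2) * ((U : ℝ) ^ 2)⁻¹ := by
        conv_lhs => rw [h6, pow_add (1 / (U : ℝ))]
        rw [← mul_assoc, ← mul_pow, mul_one_div_cancel (by positivity), one_pow, one_mul, pow_add,
          one_div, inv_pow (U : ℝ) 2]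
      rw [h7]
      refine mul_le_mul_of_nonneg_right ?_ (by positivity)
      refine pow_le_pow_left₀ (by positivity) ?_ _
      exact div_le_div_of_nonneg_left (by norm_num) (by norm_num) hU
    have h8 := half_pow_le (d - 6 * m - 2)
    have h9 : Real.exp (-(69 / 100) * ((d - 6 * m - 2 : ℕ) : ℝ)) ≤ Real.exp (-(d : ℝ) / 2) := by
      refine Real.exp_le_exp.2 ?_
      have h11 : ((d - 6 * m - 2 : ℕ) : ℝ) = d - 6 * m - 2 := by
        rw [Nat.cast_sub (by omega), Nat.cast_sub (by omega)]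
        push_cast
        ring
      rw [h11]
      have h10 : 1000 * (m : ℝ) ≤ d := by exact_mod_cast hm
      nlinarith
    have h10 : Real.exp 1 ≤ 3 := by linarith [Real.exp_one_lt_d9]
    calc (2 * (U : ℝ) + 1) ^ (2 * m) * (1 / U + 1 / w) ^ d
        ≤ (U : ℝ) ^ (6 * m) * ((1 / U) ^ d * Real.exp 1) := by gcongr
      _ = ((U : ℝ) ^ (6 * m) * (1 / U) ^ d) * Real.exp 1 := by ring
      _ ≤ (Real.exp (-(d : ℝ) / 2) * ((U : ℝ) ^ 2)⁻¹) * 3 := by
          refine mul_le_mul (h5.trans ?_) h10 (Real.exp_pos _).le (by positivity)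
          exact mul_le_mul_of_nonneg_right (h8.trans h9) (by positivity)
      _ = _ := by ring
  · have hUd' : (d : ℝ) < U := by exact_mod_cast hUd
    have hU0 : (0 : ℝ) < U := by linarith
    set r : ℝ := √U with hr
    have hr0 : 0 < r := Real.sqrt_pos.2 hU0
    have hr2 : r ^ 2 = U := Real.sq_sqrt hU0.le
    have hrw : r ≤ w := by
      rw [hr]
      exact Real.sqrt_le_iff.2 ⟨hw0.le, hUw⟩
    have hr16 : 16 ≤ r := by
      rw [hr]
      refine Real.le_sqrt_of_sq_le ?_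
      linarith
    have h1 : 1 / (U : ℝ) + 1 / w ≤ 2 / r := by
      have h2 : 1 / (U : ℝ) ≤ 1 / r := by
        refine div_le_div_of_nonneg_left (by norm_num) hr0 ?_
        nlinarith
      have h3 : 1 / w ≤ 1 / r := div_le_div_of_nonneg_left (by norm_num) hr0 hrw
      have h4 : 2 / r = 1 / r + 1 / r := by ring
      linarith
    have h3 : (2 * (U : ℝ) + 1) ^ (2 * m) ≤ r ^ (8 * m) := by
      have h4 : 2 * (U : ℝ) + 1 ≤ r ^ 4 := by
        have h5 : r ^ 4 = (U : ℝ) ^ 2 := by rw [← hr2]; ring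
        rw [h5]
        nlinarith
      calc (2 * (U : ℝ) + 1) ^ (2 * m) ≤ (r ^ 4) ^ (2 * m) :=
            pow_le_pow_left₀ (by positivity) h4 _
        _ = r ^ (8 * m) := by
            rw [← pow_mul]
            congr 1
            ring
    have h5 : r ^ (8 * m) * (2 / r) ^ d ≤ (1 / 2) ^ d * ((U : ℝ) ^ 2)⁻¹ := by
      have h6 : d = 8 * m + ((d - 8 * m - 4) + 4) := by omega
      have h7 : r ^ (8 * m) * (2 / r) ^ d =
          2 ^ d * (1 / r) ^ (d - 8 * m - 4) * ((U : ℝ) ^ 2)⁻¹ := by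
        have h8 : (2 / r) ^ d = 2 ^ d * (1 / r) ^ d := by
          rw [← mul_pow]
          congr 1
          ring
        have h9 : (1 / r) ^ d = (1 / r) ^ (8 * m) * ((1 / r) ^ (d - 8 * m - 4) * (1 / r) ^ 4) := by
          rw [← pow_add, ← pow_add]
          congr 1
        have h11 : (1 / r) ^ 4 = ((U : ℝ) ^ 2)⁻¹ := by
          rw [← hr2, one_div, inv_pow]
          congr 1
          ring
        rw [h8, h9, h11]
        have h10 : r ^ (8 * m) * (1 / r) ^ (8 * m) = 1 := by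
          rw [← mul_pow, mul_one_div_cancel hr0.ne', one_pow]
        calc r ^ (8 * m) * (2 ^ d * ((1 / r) ^ (8 * m) *
              ((1 / r) ^ (d - 8 * m - 4) * ((U : ℝ) ^ 2)⁻¹))) =
              (r ^ (8 * m) * (1 / r) ^ (8 * m)) *
              (2 ^ d * (1 / r) ^ (d - 8 * m - 4) * ((U : ℝ) ^ 2)⁻¹) := by ring
          _ = _ := by rw [h10, one_mul]
      rw [h7]
      refine mul_le_mul_of_nonneg_right ?_ (by positivity)
      have h8 : (1 / r) ^ (d - 8 * m - 4) ≤ (1 / 16) ^ (d - 8 * m - 4) := by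
        refine pow_le_pow_left₀ (by positivity) ?_ _
        exact div_le_div_of_nonneg_left (by norm_num) (by norm_num) hr16
      have h9 : (1 / 16 : ℝ) ^ (d - 8 * m - 4) = (1 / 2) ^ (4 * (d - 8 * m - 4)) := by
        rw [pow_mul]
        norm_num
      have h10 : (1 / 2 : ℝ) ^ (4 * (d - 8 * m - 4)) ≤ (1 / 2) ^ (d + d) :=
        pow_le_pow_of_le_one (by norm_num) (by norm_num) (by omega)
      calc (2 : ℝ) ^ d * (1 / r) ^ (d - 8 * m - 4) ≤ 2 ^ d * (1 / 2) ^ (d + d) := by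
            have := h8.trans (h9.le.trans h10)
            gcongr
        _ = (1 / 2) ^ d := by
            rw [pow_add, ← mul_assoc, ← mul_pow]
            norm_num
    have h8 := half_pow_le d
    have h9 : Real.exp (-(69 / 100) * (d : ℝ)) ≤ Real.exp (-(d : ℝ) / 2) :=
      Real.exp_le_exp.2 (by linarith)
    calc (2 * (U : ℝ) + 1) ^ (2 * m) * (1 / U + 1 / w) ^ d
        ≤ r ^ (8 * m) * (2 / r) ^ d := by gcongr
      _ ≤ Real.exp (-(d : ℝ) / 2) * ((U : ℝ) ^ 2)⁻¹ := by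
          refine h5.trans ?_
          exact mul_le_mul_of_nonneg_right (h8.trans h9) (by positivity)
      _ ≤ 3 * Real.exp (-(d : ℝ) / 2) * ((U : ℝ) ^ 2)⁻¹ := by
          have : 0 ≤ Real.exp (-(d : ℝ) / 2) * ((U : ℝ) ^ 2)⁻¹ := by positivity
          linarith

theorem sum_inv_sq (B : ℕ) : ∑ U ∈ Finset.Icc 2 B, ((U : ℝ) ^ 2)⁻¹ ≤ 1 := by
  rcases Nat.lt_or_ge B 1 with h | h
  · have : Finset.Icc 2 B = ∅ := by
      rw [Finset.Icc_eq_empty]
      omega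
    rw [this, Finset.sum_empty]
    exact zero_le_one
  · have h1 := sum_Ioc_inv_sq_le_sub (α := ℝ) (k := 1) (n := B) one_ne_zero h
    have h2 : Finset.Icc 2 B = Finset.Ioc 1 B := by
      ext x
      simp only [Finset.mem_Icc, Finset.mem_Ioc]
      omega
    rw [h2]
    refine h1.trans ?_
    have : (0 : ℝ) ≤ (B : ℝ)⁻¹ := by positivity
    push_cast
    linarith

/-- the sum over the levels -/
theorem level_term2 {d m B : ℕ} {R w t : ℝ} (hd : 10 ^ 6 ≤ d) (hm : 1000 * m ≤ d)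
    (hw : (d : ℝ) ^ 2 ≤ w) (hB : (B : ℝ) ≤ w ^ 2) (hR1 : 1 ≤ R) (hR : R ≤ Real.exp (d / 10 ^ 5))
    (ht : t ≤ d / 10 ^ 4 + 1) :
    2 * Real.exp (2 * t) * (∑ U ∈ Finset.Icc 2 B, (2 * (U : ℝ) + 1) ^ (2 * m) *
      (R * (1 / U + 1 / w) ^ d)) ≤ 1 / 2 * Real.exp (-(d : ℝ) / 10 ^ 4) := by
  have hd' : (10 : ℝ) ^ 6 ≤ d := by exact_mod_cast hd
  have h1 : ∑ U ∈ Finset.Icc 2 B, (2 * (U : ℝ) + 1) ^ (2 * m) * (R * (1 / U + 1 / w) ^ d) ≤
      ∑ U ∈ Finset.Icc 2 B, R * (3 * Real.exp (-(d : ℝ) / 2)) * ((U : ℝ) ^ 2)⁻¹ := by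
    refine Finset.sum_le_sum fun U hU => ?_
    rw [Finset.mem_Icc] at hU
    have hUB : (U : ℝ) ≤ w ^ 2 := by
      have : (U : ℝ) ≤ B := by exact_mod_cast hU.2
      linarith
    have h2 := level_one2 hd hm hw hU.1 hUB
    calc (2 * (U : ℝ) + 1) ^ (2 * m) * (R * (1 / U + 1 / w) ^ d) =
        R * ((2 * (U : ℝ) + 1) ^ (2 * m) * (1 / U + 1 / w) ^ d) := by ring
      _ ≤ R * (3 * Real.exp (-(d : ℝ) / 2) * ((U : ℝ) ^ 2)⁻¹) :=
          mul_le_mul_of_nonneg_left h2 (by linarith)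
      _ = _ := by ring
  have h2 : ∑ U ∈ Finset.Icc 2 B, R * (3 * Real.exp (-(d : ℝ) / 2)) * ((U : ℝ) ^ 2)⁻¹ ≤
      Real.exp (d / 10 ^ 5) * (3 * Real.exp (-(d : ℝ) / 2)) := by
    rw [← Finset.mul_sum]
    have hR0 : 0 ≤ R := by linarith
    calc R * (3 * Real.exp (-(d : ℝ) / 2)) * ∑ U ∈ Finset.Icc 2 B, ((U : ℝ) ^ 2)⁻¹
        ≤ R * (3 * Real.exp (-(d : ℝ) / 2)) * 1 :=
          mul_le_mul_of_nonneg_left (sum_inv_sq B) (by positivity)
      _ = R * (3 * Real.exp (-(d : ℝ) / 2)) := mul_one _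
      _ ≤ _ := mul_le_mul_of_nonneg_right hR (by positivity)
  have h5 : Real.exp (2 * t) ≤ Real.exp (2 * (d / 10 ^ 4 + 1)) := Real.exp_le_exp.2 (by linarith)
  have hw0 : 0 < w := lt_of_lt_of_le (by positivity) hw
  have hnn : 0 ≤ ∑ U ∈ Finset.Icc 2 B, (2 * (U : ℝ) + 1) ^ (2 * m) *
      (R * (1 / U + 1 / w) ^ d) :=
    Finset.sum_nonneg fun U _ => by positivity
  calc 2 * Real.exp (2 * t) * (∑ U ∈ Finset.Icc 2 B, (2 * (U : ℝ) + 1) ^ (2 * m) *
      (R * (1 / U + 1 / w) ^ d))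
      ≤ 2 * Real.exp (2 * (d / 10 ^ 4 + 1)) *
        (Real.exp (d / 10 ^ 5) * (3 * Real.exp (-(d : ℝ) / 2))) := by
        have := h1.trans h2
        gcongr
    _ = 6 * Real.exp (2 * (d / 10 ^ 4 + 1) + (d / 10 ^ 5 + -(d : ℝ) / 2)) := by
        rw [Real.exp_add, Real.exp_add]
        ring
    _ ≤ 1 / 2 * Real.exp (-(d : ℝ) / 10 ^ 4) := by
        have h6 : (2 : ℝ) * 6 ≤ Real.exp 11 := by
          have := Real.add_one_le_exp (11 : ℝ)
          linarith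
        have h7 : 2 * (6 * Real.exp (2 * (d / 10 ^ 4 + 1) + (d / 10 ^ 5 +
            -(d : ℝ) / 2))) ≤ Real.exp (-(d : ℝ) / 10 ^ 4) := by
          calc 2 * (6 * Real.exp (2 * (d / 10 ^ 4 + 1) + (d / 10 ^ 5 +
            -(d : ℝ) / 2))) ≤
              Real.exp 11 * Real.exp (2 * (d / 10 ^ 4 + 1) + (d / 10 ^ 5 +
            -(d : ℝ) / 2)) := by
                rw [← mul_assoc]
                exact mul_le_mul_of_nonneg_right h6 (Real.exp_pos _).le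
            _ = Real.exp (11 + (2 * (d / 10 ^ 4 + 1) + (d / 10 ^ 5 +
            -(d : ℝ) / 2))) := by rw [← Real.exp_add]
            _ ≤ _ := Real.exp_le_exp.2 (by linarith)
        linarith

end BN2Aux

open BNAux BN2Aux in
theorem base_num2 : ∃ d₀ : ℕ, ∀ d : ℕ, d₀ ≤ d → ∃ M : ℕ, Even M ∧ M ≤ d ∧ (d : ℝ) / 10 ^ 4 ≤ M ∧
    ∀ (q s B N m : ℕ) (R w t : ℝ), (m : ℝ) ≤ d / 10 ^ 5 → 1 ≤ B → B ^ 2 ≤ q →
      (B : ℝ) ≤ w ^ 2 → (d : ℝ) / 100 ≤ s → 2 ≤ q → (d : ℝ) ^ 2 ≤ w → 1 ≤ R →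
      R ≤ Real.exp (d / 10 ^ 5) →
      t = N / (q : ℝ) ^ s → (d : ℝ) / 10 ^ 4 ≤ t → t ≤ d / 10 ^ 4 + 1 →
      2 ^ m * (Real.exp (-t / 4) + t ^ (M + 1) / (M + 1).factorial +
      3 * Real.exp (2 * t) * (2 ^ M * (R ^ 2 * rho ^ d * (1 + 2 / w) ^ (2 * d)) +
        ∑ U ∈ Finset.Icc 2 B, (2 * (U : ℝ) + 1) ^ (2 * M) * (R * (1 / U + 1 / w) ^ d) +
        (q : ℝ) ^ M / N)) ≤ 6 * Real.exp (-(d : ℝ) / 10 ^ 5) := by
  refine ⟨10 ^ 6, fun d hd6 => ?_⟩
  have hd' : (10 : ℝ) ^ 6 ≤ d := by exact_mod_cast hd6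
  set M : ℕ := 2 * (d / 2000) with hM
  have hm1 : 1000 * M ≤ d := by omega
  have hm1' : (M : ℝ) ≤ d / 1000 := by
    have : 1000 * (M : ℝ) ≤ d := by exact_mod_cast hm1
    linarith
  have hm2 : d ≤ 1000 * (M + 2) := by omega
  have hm2' : (d : ℝ) / 1000 - 2 ≤ M := by
    have : (d : ℝ) ≤ 1000 * (M + 2) := by exact_mod_cast hm2
    linarith
  refine ⟨M, ⟨d / 2000, by omega⟩, by omega, by linarith, ?_⟩
  intro q s B N m R w t hm hB1 hBq hB hs hq2 hw hR1 hR htN ht1 ht2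
  obtain ⟨x, hx⟩ : ∃ x : ℝ, x = Real.exp (-(d : ℝ) / (4 * 10 ^ 4)) := ⟨_, rfl⟩
  have hx0 : 0 < x := by rw [hx]; exact Real.exp_pos _
  have hle : Real.exp (-(d : ℝ) / 10 ^ 4) ≤ x := by
    rw [hx]
    refine Real.exp_le_exp.2 ?_
    rw [div_le_div_iff₀ (by norm_num) (by norm_num)]
    nlinarith
  have e1 : Real.exp (-t / 4) ≤ x := by
    rw [hx]
    refine Real.exp_le_exp.2 ?_
    linarith
  have e2 : t ^ (M + 1) / (M + 1).factorial ≤ x := by
    have := tail (τ := d / 10 ^ 4) (t := t) (n := M + 1) (by linarith)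
      (by push_cast; linarith) (by linarith) ht2
    refine this.trans (le_trans (le_of_eq ?_) hle)
    congr 1
    ring
  have e3 := young_term hd' hm1' hw hR1 hR ht2
  have e4 := level_term2 hd6 hm1 hw hB hR1 hR ht2
  have e5 := last_term hd' hm1' hs hq2 htN ht1 ht2
  have e6 := Real.exp_pos (-(d : ℝ) / 10 ^ 4)
  have e7 : Real.exp (-t / 4) + t ^ (M + 1) / (M + 1).factorial +
      3 * Real.exp (2 * t) * (2 ^ M * (R ^ 2 * rho ^ d * (1 + 2 / w) ^ (2 * d)) +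
        ∑ U ∈ Finset.Icc 2 B, (2 * (U : ℝ) + 1) ^ (2 * M) * (R * (1 / U + 1 / w) ^ d) +
        (q : ℝ) ^ M / N) ≤ 5 * x := by
    rw [mul_add, mul_add]
    linarith
  have e8 : (2 : ℝ) ^ m ≤ Real.exp (7 / 10 * (d / 10 ^ 5)) := by
    calc (2 : ℝ) ^ m ≤ Real.exp (7 / 10) ^ m := pow_le_pow_left₀ (by norm_num) two_le_exp m
      _ = Real.exp (m * (7 / 10)) := by rw [← Real.exp_nat_mul]
      _ ≤ _ := Real.exp_le_exp.2 (by linarith)
  have e9 : Real.exp (7 / 10 * (d / 10 ^ 5)) * x ≤ Real.exp (-(d : ℝ) / 10 ^ 5) := by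
    rw [hx, ← Real.exp_add]
    refine Real.exp_le_exp.2 ?_
    linarith
  calc 2 ^ m * (Real.exp (-t / 4) + t ^ (M + 1) / (M + 1).factorial +
      3 * Real.exp (2 * t) * (2 ^ M * (R ^ 2 * rho ^ d * (1 + 2 / w) ^ (2 * d)) +
        ∑ U ∈ Finset.Icc 2 B, (2 * (U : ℝ) + 1) ^ (2 * M) * (R * (1 / U + 1 / w) ^ d) +
        (q : ℝ) ^ M / N)) ≤ 2 ^ m * (5 * x) :=
        mul_le_mul_of_nonneg_left e7 (by positivity)
    _ ≤ Real.exp (7 / 10 * (d / 10 ^ 5)) * (5 * x) :=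
        mul_le_mul_of_nonneg_right e8 (by positivity)
    _ = 5 * (Real.exp (7 / 10 * (d / 10 ^ 5)) * x) := by ring
    _ ≤ 6 * Real.exp (-(d : ℝ) / 10 ^ 5) := by
        have := Real.exp_pos (-(d : ℝ) / 10 ^ 5)
        linarith

end Vale.Agent.P230
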