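import Vale.Agent.P230.Defs

open MeasureTheory Set
open scoped ENNReal

namespace Vale.Agent.P230

namespace DiscAux

theorem box_finite {s : ℕ} (B : ℕ) :
    ({z : Fin s → ℤ | ∀ i, |z i| ≤ (B : ℤ)}).Finite ∧
      ({z : Fin s → ℤ | ∀ i, |z i| ≤ (B : ℤ)}).ncard = (2 * B + 1) ^ s := by
  have h : {z : Fin s → ℤ | ∀ i, |z i| ≤ (B : ℤ)} =
      ((Fintype.piFinset fun _ : Fin s => Finset.Icc (-(B : ℤ)) B : Finset (Fin s → ℤ)) :
        Set (Fin s → ℤ)) := by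
    ext z
    simp [abs_le, Pi.le_def, forall_and]
  rw [h]
  refine ⟨Finset.finite_toSet _, ?_⟩
  rw [Set.ncard_coe_finset, Fintype.card_piFinset]
  simp only [Int.card_Icc, Finset.prod_const, Finset.card_univ, Fintype.card_fin]
  congr 1
  omega

end DiscAux

theorem disc {s D M : ℕ} (hD : 1 ≤ D) {δ : Fin s → ℝ} {δ₀ : ℝ} (h0 : 0 < δ₀)
    (hδ : ∀ i, δ₀ ≤ δ i) {Z : Set (Fin s → ℝ)} (hZ : RStep s δ Z)
    (hbd : ∀ z ∈ Z, ∀ i, |z i| ≤ 1) (hM : (2 * (D : ℝ) / δ₀ + 3) ^ s ≤ M) :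
    StepOK D M s {z : Fin s → ℤ | (fun i => δ i / D * (z i : ℝ)) ∈ Z} := by
  induction s with
  | zero =>
    obtain ⟨z, hz⟩ := hZ
    refine ⟨fun _ => 0, ?_⟩
    have : (fun i : Fin 0 => δ i / D * (((fun _ : Fin 0 => (0 : ℤ)) i : ℤ) : ℝ)) = z :=
      Subsingleton.elim _ _
    rw [Set.mem_ofPred_eq, this]
    exact hz
  | succ s ih =>
    obtain ⟨Z', hZ', hfib⟩ := hZ
    have hDr : (1 : ℝ) ≤ D := by exact_mod_cast hD
    have hD0 : (0 : ℝ) < D := by linarith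
    have hδ0 : 0 < δ 0 := lt_of_lt_of_le h0 (hδ 0)
    have hbase : (1 : ℝ) ≤ 2 * (D : ℝ) / δ₀ + 3 := by
      have : 0 ≤ 2 * (D : ℝ) / δ₀ := by positivity
      linarith
    have hM' : (2 * (D : ℝ) / δ₀ + 3) ^ s ≤ M :=
      le_trans (pow_le_pow_right₀ hbase (Nat.le_succ s)) hM
    have hbd' : ∀ z ∈ Z', ∀ i, |z i| ≤ 1 := by
      intro z hz i
      obtain ⟨a, ha⟩ := hfib z hz
      have h1 := ha a ⟨le_rfl, by linarith⟩
      have h2 := hbd _ h1 i.succ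
      simpa using h2
    refine ⟨{z : Fin s → ℤ | (fun i => Fin.tail δ i / D * (z i : ℝ)) ∈ Z'},
      ih (fun i => hδ i.succ) hZ' hbd' hM', ?_, ?_, ?_⟩
    · refine (DiscAux.box_finite (s := s) ⌊(D : ℝ) / δ₀⌋₊).1.subset ?_
      intro z hz i
      have h1 := hbd' _ hz i
      have hdi : δ₀ ≤ Fin.tail δ i := hδ i.succ
      have hdp : 0 < Fin.tail δ i := lt_of_lt_of_le h0 hdi
      rw [abs_mul, abs_of_pos (div_pos hdp hD0)] at h1
      have h2 : |(z i : ℝ)| ≤ (D : ℝ) / δ₀ := by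
        rw [le_div_iff₀ h0]
        rw [div_mul_eq_mul_div, div_le_one hD0] at h1
        nlinarith [abs_nonneg (z i : ℝ)]
      have h3 : ((z i).natAbs : ℝ) ≤ (D : ℝ) / δ₀ := by
        rw [Nat.cast_natAbs]
        push_cast
        exact h2
      have h4 : (z i).natAbs ≤ ⌊(D : ℝ) / δ₀⌋₊ := Nat.le_floor h3
      rw [Int.abs_eq_natAbs]
      exact_mod_cast h4
    · have hsub : {z : Fin s → ℤ | (fun i => Fin.tail δ i / D * (z i : ℝ)) ∈ Z'} ⊆
          {z : Fin s → ℤ | ∀ i, |z i| ≤ ((⌊(D : ℝ) / δ₀⌋₊ : ℕ) : ℤ)} := by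
        intro z hz i
        have h1 := hbd' _ hz i
        have hdi : δ₀ ≤ Fin.tail δ i := hδ i.succ
        have hdp : 0 < Fin.tail δ i := lt_of_lt_of_le h0 hdi
        rw [abs_mul, abs_of_pos (div_pos hdp hD0)] at h1
        have h2 : |(z i : ℝ)| ≤ (D : ℝ) / δ₀ := by
          rw [le_div_iff₀ h0]
          rw [div_mul_eq_mul_div, div_le_one hD0] at h1
          nlinarith [abs_nonneg (z i : ℝ)]
        have h3 : ((z i).natAbs : ℝ) ≤ (D : ℝ) / δ₀ := by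
          rw [Nat.cast_natAbs]
          push_cast
          exact h2
        have h4 : (z i).natAbs ≤ ⌊(D : ℝ) / δ₀⌋₊ := Nat.le_floor h3
        rw [Int.abs_eq_natAbs]
        exact_mod_cast h4
      have h1 := Set.ncard_le_ncard hsub (DiscAux.box_finite (s := s) ⌊(D : ℝ) / δ₀⌋₊).1
      rw [(DiscAux.box_finite (s := s) ⌊(D : ℝ) / δ₀⌋₊).2] at h1
      have h2 : ((2 * ⌊(D : ℝ) / δ₀⌋₊ + 1 : ℕ) : ℝ) ≤ 2 * (D : ℝ) / δ₀ + 3 := by
        push_cast
        have := Nat.floor_le (show (0 : ℝ) ≤ (D : ℝ) / δ₀ by positivity)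
        have e : 2 * (D : ℝ) / δ₀ = 2 * ((D : ℝ) / δ₀) := by ring
        rw [e]
        linarith
      have h3 : (((2 * ⌊(D : ℝ) / δ₀⌋₊ + 1) ^ s : ℕ) : ℝ) ≤ M := by
        rw [Nat.cast_pow]
        exact le_trans (pow_le_pow_left₀ (Nat.cast_nonneg _) h2 s) hM'
      exact le_trans h1 (by exact_mod_cast h3)
    · intro z hz
      obtain ⟨a, ha⟩ := hfib _ hz
      refine ⟨⌈a * D / δ 0⌉, fun j hj => ?_⟩
      have hjr : (j : ℝ) ≤ 2 * D - 1 := by
        have : j + 1 ≤ 2 * D := hj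
        have h : ((j + 1 : ℕ) : ℝ) ≤ ((2 * D : ℕ) : ℝ) := by exact_mod_cast this
        push_cast at h
        linarith
      have hc1 := Int.le_ceil (a * D / δ 0)
      have hc2 := Int.ceil_lt_add_one (a * D / δ 0)
      have hx : δ 0 / D * ((⌈a * D / δ 0⌉ + (j : ℤ) : ℤ) : ℝ) ∈ Set.Icc a (a + 2 * δ 0) := by
        have hj0 : (0 : ℝ) ≤ j := Nat.cast_nonneg j
        push_cast
        constructor
        · rw [div_mul_eq_mul_div, le_div_iff₀ hD0]
          rw [div_le_iff₀ hδ0] at hc1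
          nlinarith
        · rw [div_mul_eq_mul_div, div_le_iff₀ hD0]
          have h5 : (⌈a * D / δ 0⌉ : ℝ) + j ≤ a * D / δ 0 + 2 * D := by linarith
          calc δ 0 * ((⌈a * D / δ 0⌉ : ℝ) + j) ≤ δ 0 * (a * D / δ 0 + 2 * D) :=
                mul_le_mul_of_nonneg_left h5 hδ0.le
            _ = (a + 2 * δ 0) * D := by field_simp
      have h6 := ha _ hx
      rw [Set.mem_ofPred_eq]
      convert h6 using 1
      funext i
      refine Fin.cases ?_ (fun i => ?_) i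
      · simp
      · simp [Fin.tail]

end Vale.Agent.P230
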