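import Vale.Agent.P230.Base
import Vale.Agent.P230.Disc
import Vale.Agent.P230.Iter
import Vale.Agent.P230.Count

open MeasureTheory Set
open scoped ENNReal Pointwise

namespace Vale.Agent.P230

namespace CoreAux

/-- the set `K` thickened in the first block of coordinates -/
def thick {d s : ℕ} (K : Set ((Fin d → ℝ) × (Fin s → ℝ))) (w₀ : ℝ) :
    Set ((Fin d → ℝ) × (Fin s → ℝ)) :=
  {p | ∃ u, (u, p.2) ∈ K ∧ ∀ i, u i ≤ p.1 i ∧ p.1 i ≤ u i + w₀}

theorem unc_nonneg {X G : Type} [AddCommGroup X] [AddCommGroup G] (ψ : X →+ G) (A : Set X) :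
    0 ≤ unc ψ A := by
  unfold unc; positivity

theorem unc_mono {X G : Type} [AddCommGroup X] [AddCommGroup G] [Finite G] (ψ : X →+ G)
    {A B : Set X} (h : A ⊆ B) : unc ψ B ≤ unc ψ A := by
  unfold unc
  refine div_le_div_of_nonneg_right ?_ (by positivity)
  have : Nat.card {g : G // ∀ x ∈ B, ψ x ≠ g} ≤ Nat.card {g : G // ∀ x ∈ A, ψ x ≠ g} := by
    refine Nat.card_le_card_of_injective (fun g => ⟨g.1, fun x hx => g.2 x (h hx)⟩) ?_
    intro g g' hgg
    ext
    simpa using hgg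
  exact_mod_cast this

theorem cov_of_unc {X G : Type} [AddCommGroup X] [AddCommGroup G] [Finite G] (ψ : X →+ G)
    {A : Set X} (h : unc ψ A * Nat.card G < 1) : ∀ g, ∃ x ∈ A, ψ x = g := by
  intro g
  by_contra hne
  push Not at hne
  have hG : 0 < Nat.card G := Nat.card_pos
  have h1 : 0 < Nat.card {g : G // ∀ x ∈ A, ψ x ≠ g} := by
    haveI : Nonempty {g : G // ∀ x ∈ A, ψ x ≠ g} := ⟨⟨g, hne⟩⟩
    exact Nat.card_pos
  have h2 : unc ψ A * Nat.card G = Nat.card {g : G // ∀ x ∈ A, ψ x ≠ g} := by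
    unfold unc
    have : (Nat.card G : ℝ) ≠ 0 := by positivity
    field_simp
  rw [h2] at h
  have : Nat.card {g : G // ∀ x ∈ A, ψ x ≠ g} < 1 := by exact_mod_cast h
  omega

end CoreAux

open CoreAux

theorem core : ∃ d₀ : ℕ, ∀ (d s D M q s' : ℕ) [Fact q.Prime] (H τ w₀ R δ₀ : ℝ)
    (δ : Fin s → ℝ) (K : Set ((Fin d → ℝ) × (Fin s → ℝ))),
    d₀ ≤ d → 1 ≤ D → 1 ≤ M → 0 < δ₀ → 0 < w₀ → Convex ℝ K → IsCompact K →
    (∀ p ∈ thick K w₀, ∀ i, |p.1 i| ≤ 1) → (∀ p ∈ K, ∀ i, |p.2 i| ≤ 1) → 0 < τ →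
    RStep s δ {z | ENNReal.ofReal τ ≤ volume {u : Fin d → ℝ | (u, z) ∈ K}} →
    (∀ i, δ₀ ≤ δ i) →
    (∀ z, volume {u : Fin d → ℝ | (u, z) ∈ thick K w₀} ≤ ENNReal.ofReal (R * τ)) →
    0 < H → 1 ≤ H * w₀ → (d : ℝ) ^ 2 ≤ H * w₀ →
    H ^ d * τ = d / 10 ^ 4 * (q : ℝ) ^ s' →
    d < 2 * ⌈H⌉₊ → 3 * (2 * ⌈H⌉₊) ^ 2 < q → (q : ℝ) ≤ (d : ℝ) ^ 20 → (d : ℝ) / 100 ≤ s' →
    s' < d → 1 ≤ R → R ≤ Real.exp (d / 10 ^ 5) →
    (2 * (D : ℝ) / δ₀ + 3) ^ s ≤ M →
    (M * (8 * M * Real.exp (-(d : ℝ) / 10 ^ 4))) ^ (2 ^ s) * ((q : ℝ) ^ s' * (D : ℝ) ^ s) < 1 →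
    ∃ (G : Type) (_ : AddCommGroup G) (_ : Finite G) (ψ : (Fin d → ℤ) × (Fin s → ℤ) →+ G),
      Function.Surjective ψ ∧ Nat.card G = q ^ s' * D ^ s ∧
      ∀ g, ∃ (x : Fin d → ℤ) (z : Fin s → ℤ),
        ((fun i => (x i : ℝ) / H), (fun i => δ i / D * (z i : ℝ))) ∈ thick K w₀ ∧
        ψ (x, z) = g := by
  classical
  obtain ⟨d₀, hbase⟩ := base
  refine ⟨max d₀ 1, ?_⟩
  intro d s D M q s' _ H τ w₀ R δ₀ δ K hd hD hM hδ₀ hw₀ hc hk hbox1 hbox2 hτ hR hδ hvol hH hHw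
    hHw2 hHτ hdB hBq hq20 hs1 hs2 hR1 hR2 hMs hfin
  have hd0 : d₀ ≤ d := le_trans (le_max_left _ _) hd
  have hd1 : 1 ≤ d := le_trans (le_max_right _ _) hd
  have hDr : (0 : ℝ) < D := by exact_mod_cast hD
  set Z : Set (Fin s → ℝ) := {z | ENNReal.ofReal τ ≤ volume {u : Fin d → ℝ | (u, z) ∈ K}} with hZ
  set Zi : Set (Fin s → ℤ) := {z | (fun i => δ i / D * (z i : ℝ)) ∈ Z} with hZi
  -- points of Z lie in the box
  have hZne : ∀ z ∈ Z, ∃ u, (u, z) ∈ K := by
    intro z hz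
    by_contra hne
    push Not at hne
    have : {u : Fin d → ℝ | (u, z) ∈ K} = ∅ := by
      ext u; simp [hne u]
    rw [hZ, Set.mem_setOf_eq, this, measure_empty] at hz
    exact absurd (ENNReal.ofReal_pos.2 hτ) (by simpa using hz)
  have hZbox : ∀ z ∈ Z, ∀ i, |z i| ≤ 1 := by
    intro z hz i
    obtain ⟨u, hu⟩ := hZne z hz
    exact hbox2 _ hu i
  -- discretisation
  have hstep : StepOK D M s Zi := disc hD hδ₀ hδ hR hZbox hMs
  -- Zi is finite with at most M elements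
  have hZfin : Zi.Finite ∧ Zi.ncard ≤ M := by
    set m : ℕ := ⌊(D : ℝ) / δ₀⌋₊ with hm
    have hsub : Zi ⊆ ((Fintype.piFinset fun _ : Fin s => Finset.Icc (-(m : ℤ)) m :
        Finset (Fin s → ℤ)) : Set (Fin s → ℤ)) := by
      intro z hz
      simp only [Finset.mem_coe, Fintype.mem_piFinset, Finset.mem_Icc]
      intro i
      have h1 := hZbox _ hz i
      have hδi := hδ i
      have hδi0 : 0 < δ i := lt_of_lt_of_le hδ₀ hδi
      have h2 : |(z i : ℝ)| ≤ D / δ₀ := by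
        rw [abs_mul, abs_of_pos (div_pos hδi0 hDr)] at h1
        have h3 : |(z i : ℝ)| ≤ D / δ i := by
          rw [le_div_iff₀ hδi0]
          have : δ i / D * |(z i : ℝ)| * D ≤ 1 * D := mul_le_mul_of_nonneg_right h1 hDr.le
          have h4 : δ i / D * |(z i : ℝ)| * D = |(z i : ℝ)| * δ i := by field_simp
          linarith
        exact h3.trans (div_le_div_of_nonneg_left hDr.le hδ₀ hδi)
      have h5 : (z i).natAbs ≤ m := by
        rw [hm]
        refine Nat.le_floor ?_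
        have : (((z i).natAbs : ℕ) : ℝ) = |(z i : ℝ)| := by
          rw [Nat.cast_natAbs, Int.cast_abs]
        rw [this]; exact h2
      omega
    have hfin1 : Zi.Finite := (Finset.finite_toSet _).subset hsub
    refine ⟨hfin1, ?_⟩
    have h6 : Zi.ncard ≤ (Fintype.piFinset fun _ : Fin s => Finset.Icc (-(m : ℤ)) m).card := by
      rw [← Set.ncard_coe_finset]
      exact Set.ncard_le_ncard hsub (Finset.finite_toSet _)
    have h7 : (Fintype.piFinset fun _ : Fin s => Finset.Icc (-(m : ℤ)) m).card = (2 * m + 1) ^ s := by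
      rw [Fintype.card_piFinset]
      simp only [Int.card_Icc, Finset.prod_const, Finset.card_univ, Fintype.card_fin]
      congr 1
      omega
    have h8 : (((2 * m + 1) ^ s : ℕ) : ℝ) ≤ M := by
      refine le_trans ?_ hMs
      push_cast
      refine pow_le_pow_left₀ (by positivity) ?_ s
      have h9 : (m : ℝ) ≤ D / δ₀ := Nat.floor_le (by positivity)
      have h10 : 2 * (D : ℝ) / δ₀ = 2 * (D / δ₀) := by ring
      rw [h10]; linarith
    rw [h7] at h6
    exact_mod_cast (le_trans (by exact_mod_cast h6) h8 : ((Zi.ncard : ℕ) : ℝ) ≤ M)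
  haveI : Fintype Zi := hZfin.1.fintype
  -- the integer point sets
  set hh : Fin s → ℝ := fun i => δ i / D with hhh
  let pt : Zi → (Fin s → ℝ) := fun z => fun i => δ i / D * (z.1 i : ℝ)
  let J : Zi → Set (Fin d → ℝ) := fun z => {u | ((fun i => u i / H), pt z) ∈ thick K w₀}
  let box : Finset (Fin d → ℤ) := Fintype.piFinset fun _ => Finset.Icc (-(⌈H⌉₊ : ℤ)) ⌈H⌉₊
  let A : Zi → Finset (Fin d → ℤ) := fun z => box.filter (fun a => (fun l => (a l : ℝ)) ∈ J z)
  have hJbox : ∀ (z : Zi) (u : Fin d → ℝ), u ∈ J z → ∀ i, |u i| ≤ H := by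
    intro z u hu i
    have := hbox1 _ hu i
    simp only at this
    rw [abs_div, abs_of_pos hH, div_le_one hH] at this
    exact this
  have hAmem : ∀ (z : Zi) (a : Fin d → ℤ), a ∈ A z ↔ (fun l => (a l : ℝ)) ∈ J z := by
    intro z a
    simp only [A, Finset.mem_filter, and_iff_right_iff_imp]
    intro ha
    simp only [box, Fintype.mem_piFinset, Finset.mem_Icc]
    intro i
    have h1 := hJbox z _ ha i
    have h2 : (((a i).natAbs : ℕ) : ℝ) ≤ ⌈H⌉₊ := by
      rw [Nat.cast_natAbs, Int.cast_abs]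
      exact h1.trans (Nat.le_ceil H)
    have h3 : (a i).natAbs ≤ ⌈H⌉₊ := by exact_mod_cast h2
    omega
  set N : ℕ := ⌈(d : ℝ) / 10 ^ 4 * (q : ℝ) ^ s'⌉₊ with hN
  have hqpos : (0 : ℝ) < (q : ℝ) := by
    have := (Fact.out : q.Prime).pos
    exact_mod_cast this
  have hqs : (1 : ℝ) ≤ (q : ℝ) ^ s' := by
    refine one_le_pow₀ ?_
    have := (Fact.out : q.Prime).one_lt
    exact_mod_cast this.le
  have hN1 : (d : ℝ) / 10 ^ 4 * (q : ℝ) ^ s' ≤ N := Nat.le_ceil _
  have hN2 : (N : ℝ) ≤ (d / 10 ^ 4 + 1) * (q : ℝ) ^ s' := by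
    have := Nat.ceil_lt_add_one (show (0 : ℝ) ≤ (d : ℝ) / 10 ^ 4 * (q : ℝ) ^ s' by positivity)
    rw [hN]
    linarith
  -- scaling of slices
  have hJ_eq : ∀ z : Zi, J z = H • {u : Fin d → ℝ | (u, pt z) ∈ thick K w₀} := by
    intro z
    ext u
    rw [Set.mem_smul_set_iff_inv_smul_mem₀ hH.ne']
    simp only [J, Set.mem_setOf_eq]
    have : (fun i => u i / H) = H⁻¹ • u := by
      ext i; simp [div_eq_inv_mul]
    rw [this]
  -- compactness of the thickened set slices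
  have hthick : ∀ z : Fin s → ℝ, {u : Fin d → ℝ | (u, z) ∈ thick K w₀} =
      {u : Fin d → ℝ | (u, z) ∈ K} + {c : Fin d → ℝ | ∀ i, 0 ≤ c i ∧ c i ≤ w₀} := by
    intro z
    ext u
    rw [Set.mem_add]
    constructor
    · rintro ⟨v, hv, hvi⟩
      refine ⟨v, hv, u - v, fun i => ?_, by abel⟩
      have := hvi i
      simp only at this
      constructor <;> simp only [Pi.sub_apply] <;> linarith
    · rintro ⟨v, hv, c, hc', rfl⟩
      refine ⟨v, hv, fun i => ?_⟩
      have := hc' i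
      simp only [Pi.add_apply]
      constructor <;> linarith
  have hslice_cpt : ∀ z : Fin s → ℝ, IsCompact {u : Fin d → ℝ | (u, z) ∈ K} := by
    intro z
    have h1 : {u : Fin d → ℝ | (u, z) ∈ K} = (fun u => (u, z)) ⁻¹' K := rfl
    rw [h1]
    have h2 : IsClosed ((fun u : Fin d → ℝ => (u, z)) ⁻¹' K) :=
      hk.isClosed.preimage (by fun_prop)
    refine IsCompact.of_isClosed_subset (hk.image continuous_fst) h2 ?_
    intro u hu
    exact ⟨(u, z), hu, rfl⟩
  have hslice_conv : ∀ z : Fin s → ℝ, Convex ℝ {u : Fin d → ℝ | (u, z) ∈ K} := by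
    intro z u hu v hv a b ha hb hab
    have := hc hu hv ha hb hab
    have h2 : a • (u, z) + b • (v, z) = (a • u + b • v, z) := by
      ext i
      · rfl
      · simp only [Prod.snd_add, Prod.smul_snd, Pi.add_apply, Pi.smul_apply, smul_eq_mul]
        rw [← add_mul, hab, one_mul]
    rw [h2] at this
    exact this
  have hcube_eq : {c : Fin d → ℝ | ∀ i, 0 ≤ c i ∧ c i ≤ w₀} = Set.Icc 0 (fun _ => w₀) := by
    ext c
    simp only [Set.mem_setOf_eq, Set.mem_Icc, Pi.le_def, Pi.zero_apply]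
    constructor
    · intro h; exact ⟨fun i => (h i).1, fun i => (h i).2⟩
    · rintro ⟨h1, h2⟩ i; exact ⟨h1 i, h2 i⟩
  have hth_cpt : ∀ z : Fin s → ℝ, IsCompact {u : Fin d → ℝ | (u, z) ∈ thick K w₀} := by
    intro z
    rw [hthick, hcube_eq]
    exact (hslice_cpt z).add isCompact_Icc
  have hth_conv : ∀ z : Fin s → ℝ, Convex ℝ {u : Fin d → ℝ | (u, z) ∈ thick K w₀} := by
    intro z
    rw [hthick, hcube_eq]
    exact (hslice_conv z).add (convex_Icc _ _)
  have hJcpt : ∀ z, IsCompact (J z) := fun z => by rw [hJ_eq]; exact (hth_cpt _).smul H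
  have hJvol : ∀ z, (volume (J z)).toReal ≤ R * N := by
    intro z
    rw [hJ_eq, Measure.addHaar_smul, ENNReal.toReal_mul]
    have h1 : (volume {u : Fin d → ℝ | (u, pt z) ∈ thick K w₀}).toReal ≤ R * τ := by
      refine ENNReal.toReal_le_of_le_ofReal (by positivity) (hvol _)
    have h2 : (ENNReal.ofReal |H ^ Module.finrank ℝ (Fin d → ℝ)|).toReal = H ^ d := by
      rw [ENNReal.toReal_ofReal (abs_nonneg _), Module.finrank_fin_fun, abs_of_pos (by positivity)]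
    rw [h2]
    calc H ^ d * (volume {u : Fin d → ℝ | (u, pt z) ∈ thick K w₀}).toReal
        ≤ H ^ d * (R * τ) := by gcongr
      _ = R * (H ^ d * τ) := by ring
      _ ≤ R * N := by rw [hHτ]; gcongr
  have hAcard : ∀ z : Zi, N ≤ (A z).card := by
    intro z
    have hz : pt z ∈ Z := z.2
    have h1 : (volume (H • {u : Fin d → ℝ | (u, pt z) ∈ K})).toReal ≤ (A z).card := by
      refine count_lower ((hslice_cpt _).smul H).measurableSet (A z) ?_
      rintro a ⟨u, hu, hua⟩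
      rw [hAmem]
      rw [Set.mem_smul_set_iff_inv_smul_mem₀ hH.ne'] at hu
      refine ⟨H⁻¹ • u, hu, fun i => ?_⟩
      obtain ⟨h1, h2⟩ := hua i
      simp only [Pi.smul_apply, smul_eq_mul]
      have h3 : H⁻¹ * u i = u i / H := by rw [div_eq_inv_mul]
      rw [h3]
      constructor
      · exact div_le_div_of_nonneg_right h1 hH.le
      · rw [div_le_iff₀ hH]
        have h4 : (u i / H + w₀) * H = u i + H * w₀ := by field_simp
        rw [h4]; linarith
    rw [Measure.addHaar_smul, ENNReal.toReal_mul] at h1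
    have h2 : (ENNReal.ofReal |H ^ Module.finrank ℝ (Fin d → ℝ)|).toReal = H ^ d := by
      rw [ENNReal.toReal_ofReal (abs_nonneg _), Module.finrank_fin_fun, abs_of_pos (by positivity)]
    rw [h2] at h1
    have h3 : τ ≤ (volume {u : Fin d → ℝ | (u, pt z) ∈ K}).toReal := by
      have h4 : ENNReal.ofReal τ ≤ volume {u : Fin d → ℝ | (u, pt z) ∈ K} := hz
      exact (ENNReal.ofReal_le_iff_le_toReal (hslice_cpt _).measure_lt_top.ne).1 h4
    rw [hN]
    refine Nat.ceil_le.2 ?_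
    rw [← hHτ]
    refine le_trans ?_ h1
    gcongr
  have hB1 : ∀ z : Zi, ∀ a ∈ A z, ∀ b ∈ A z, ∀ l, |a l - b l| ≤ ((2 * ⌈H⌉₊ : ℕ) : ℤ) := by
    intro z a ha b hb l
    simp only [A, box, Finset.mem_filter, Fintype.mem_piFinset, Finset.mem_Icc] at ha hb
    have h1 := ha.1 l
    have h2 := hb.1 l
    rw [abs_le]
    push_cast
    constructor <;> omega
  -- choose a point in each slice
  have hptK : ∀ z : Zi, ∃ u, (u, pt z) ∈ K := fun z => hZne _ z.2
  choose u₀ hu₀ using hptK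
  obtain ⟨ψ, hψs, hψu⟩ := hbase d hd0 q s' (2 * ⌈H⌉₊) N R (H * w₀) Zi A J (fun z => H • u₀ z)
    hdB hBq hq20 hs1 hs2 hHw2 hR1 hR2
    (fun z => by rw [hJ_eq]; exact (hth_conv _).smul H)
    (fun z => (hJcpt z).measurableSet)
    (fun z => (hJcpt z).measure_lt_top.ne)
    (fun z x hx => by
      refine ⟨u₀ z, hu₀ z, fun i => ?_⟩
      obtain ⟨h1, h2⟩ := hx i
      simp only [Pi.smul_apply, smul_eq_mul] at h1 h2
      simp only
      constructor
      · rw [le_div_iff₀ hH]; linarith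
      · rw [div_le_iff₀ hH]; nlinarith)
    (fun z a ha => (hAmem z a).1 ha)
    hJvol hB1 hAcard hN1 hN2
  have hcardZ : (Fintype.card Zi : ℝ) ≤ M := by
    have : Fintype.card Zi = Zi.ncard := by
      rw [← Nat.card_eq_fintype_card, Nat.card_coe_set_eq]
    rw [this]
    exact_mod_cast hZfin.2
  set β : ℝ := 8 * M * Real.exp (-(d : ℝ) / 10 ^ 4) with hβ
  let AA : Set ((Fin d → ℤ) × (Fin s → ℤ)) :=
    {p | ((fun i => (p.1 i : ℝ) / H), (fun i => δ i / D * (p.2 i : ℝ))) ∈ thick K w₀}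
  obtain ⟨G', i1, i2, ψ', hs', hc', hu'⟩ := iterate hD hM s ψ hψs Zi hstep AA (β := β)
    (by positivity) (by
      intro z hz
      have h1 : ((A ⟨z, hz⟩ : Finset (Fin d → ℤ)) : Set (Fin d → ℤ)) ⊆ {x | (x, z) ∈ AA} := by
        intro a ha
        exact (hAmem ⟨z, hz⟩ a).1 ha
      refine (unc_mono ψ h1).trans ((hψu ⟨z, hz⟩).trans ?_)
      rw [hβ]
      gcongr)
  refine ⟨G', i1, i2, ψ', hs', ?_, ?_⟩
  · rw [hc']
    congr 1
    rw [Nat.card_eq_fintype_card, Fintype.card_fun, ZMod.card, Fintype.card_fin]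
  · have hcard : (Nat.card G' : ℝ) = (q : ℝ) ^ s' * (D : ℝ) ^ s := by
      rw [hc']
      have : Nat.card (Fin s' → ZMod q) = q ^ s' := by
        rw [Nat.card_eq_fintype_card, Fintype.card_fun, ZMod.card, Fintype.card_fin]
      rw [this]; push_cast; rfl
    have h1 : unc ψ' AA * Nat.card G' < 1 := by
      refine lt_of_le_of_lt ?_ hfin
      rw [hcard]
      gcongr
    intro g
    obtain ⟨⟨x, z⟩, hx, hg⟩ := cov_of_unc ψ' h1 g
    exact ⟨x, z, hx, hg⟩

end Vale.Agent.P230
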