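import Vale.Agent.P230.Defs
import Vale.Agent.P074.PL

open MeasureTheory Set
open scoped ENNReal NNReal

namespace Vale.Agent.P230

namespace StairAux

theorem cut {Φ : ℝ → ℝ≥0∞} (anti : ∀ x y, 0 ≤ x → x ≤ y → Φ y ≤ Φ x)
    (lc : ∀ t : ℝ, 0 < t → t < 1 → ∀ x y, 0 ≤ x → 0 ≤ y →
      Φ x ^ (1 - t) * Φ y ^ t ≤ Φ ((1 - t) * x + t * y))
    (fin : Φ 0 ≠ ∞) (supp : ∀ x, 2 < x → Φ x = 0)
    (pos : ∫⁻ x in Ioi (0 : ℝ), Φ x ≠ 0) :
    ∃ l : ℝ, 0 < l ∧ l ≤ 2 ∧ ∫⁻ x in Ioi (0 : ℝ), Φ x ≤ ENNReal.ofReal (4 * l) * Φ l := by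
  have hfin : ∀ x, 0 ≤ x → Φ x ≠ ∞ := fun x hx =>
    ne_top_of_le_ne_top fin (anti 0 x le_rfl hx)
  set P : ℝ := (Φ 0).toReal with hP
  have hle : ∀ x, 0 ≤ x → (Φ x).toReal ≤ P := fun x hx =>
    ENNReal.toReal_mono fin (anti 0 x le_rfl hx)
  have hPpos : 0 < P := by
    rcases (ENNReal.toReal_nonneg : 0 ≤ (Φ 0).toReal).lt_or_eq with h | h
    · exact h
    · exfalso
      apply pos
      have h0 : Φ 0 = 0 := by
        rcases (ENNReal.toReal_eq_zero_iff _).1 h.symm with h' | h'
        · exact h'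
        · exact absurd h' fin
      rw [setLIntegral_congr_fun (g := fun _ => 0) measurableSet_Ioi
        (fun x hx => le_antisymm ((anti 0 x le_rfl (le_of_lt hx)).trans h0.le) zero_le)]
      simp
  set I : Set ℝ := {x | 0 ≤ x ∧ P / Real.exp 1 ≤ (Φ x).toReal} with hI
  have he : 1 < Real.exp 1 := by
    have := Real.exp_one_gt_d9
    linarith
  have h0I : (0 : ℝ) ∈ I := ⟨le_rfl, div_le_self hPpos.le he.le⟩
  have hIb : ∀ x ∈ I, x ≤ 2 := by
    intro x hx
    by_contra hcon
    push Not at hcon
    have h1 := hx.2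
    rw [supp x hcon] at h1
    simp only [ENNReal.toReal_zero] at h1
    have : 0 < P / Real.exp 1 := by positivity
    linarith
  have hbdd : BddAbove I := ⟨2, hIb⟩
  set l₀ : ℝ := sSup I with hl₀
  have hl₀0 : 0 ≤ l₀ := le_csSup hbdd h0I
  have hA : ∀ l₁, l₀ < l₁ → ∫⁻ x in Ioi (0 : ℝ), Φ x ≤
      ENNReal.ofReal (l₁ * P * (1 + Real.exp (-1))) := by
    intro l₁ hl₁
    have hl₁0 : 0 < l₁ := lt_of_le_of_lt hl₀0 hl₁
    have hnot : l₁ ∉ I := fun h => absurd (le_csSup hbdd h) (not_le.2 hl₁)
    have hsmall : (Φ l₁).toReal < P / Real.exp 1 := by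
      by_contra hcon
      push Not at hcon
      exact hnot ⟨hl₁0.le, hcon⟩
    have htail : ∀ x, l₁ < x → Φ x ≤ ENNReal.ofReal (P * Real.exp (-(x / l₁))) := by
      intro x hx
      have hx0 : 0 < x := hl₁0.trans hx
      rw [← ENNReal.ofReal_toReal (hfin x hx0.le)]
      apply ENNReal.ofReal_le_ofReal
      rcases (ENNReal.toReal_nonneg : 0 ≤ (Φ x).toReal).lt_or_eq with hxp | hxp
      · set t : ℝ := l₁ / x with ht
        have ht0 : 0 < t := by positivity
        have ht1 : t < 1 := (div_lt_one hx0).2 hx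
        have h1 := lc t ht0 ht1 0 x le_rfl hx0.le
        have harg : (1 - t) * 0 + t * x = l₁ := by
          rw [ht]; field_simp; ring
        rw [harg] at h1
        have h2 := ENNReal.toReal_mono (hfin l₁ hl₁0.le) h1
        rw [ENNReal.toReal_mul, ← ENNReal.toReal_rpow, ← ENNReal.toReal_rpow] at h2
        have h3 : P ^ (1 - t) * (Φ x).toReal ^ t < P / Real.exp 1 := lt_of_le_of_lt h2 hsmall
        have h4 := Real.log_lt_log (by positivity) h3
        rw [Real.log_mul (by positivity) (by positivity), Real.log_rpow hPpos,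
          Real.log_rpow hxp, Real.log_div hPpos.ne' (Real.exp_pos 1).ne', Real.log_exp] at h4
        have h5 : Real.log (Φ x).toReal < Real.log P - x / l₁ := by
          have h6 : t * Real.log (Φ x).toReal < t * (Real.log P - x / l₁) := by
            have h7 : t * (x / l₁) = 1 := by rw [ht]; field_simp
            nlinarith
          exact lt_of_mul_lt_mul_left h6 ht0.le
        have h8 : (Φ x).toReal = Real.exp (Real.log (Φ x).toReal) := (Real.exp_log hxp).symm
        have h9 : P * Real.exp (-(x / l₁)) = Real.exp (Real.log P - x / l₁) := by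
          rw [sub_eq_add_neg, Real.exp_add, Real.exp_log hPpos]
        rw [h8, h9]
        exact (Real.exp_lt_exp.2 h5).le
      · rw [← hxp]
        positivity
    have hsplit : Ioi (0 : ℝ) = Ioc 0 l₁ ∪ Ioi l₁ := (Ioc_union_Ioi_eq_Ioi hl₁0.le).symm
    have hint1 : ∫⁻ x in Ioc (0 : ℝ) l₁, Φ x ≤ ENNReal.ofReal (l₁ * P) := by
      calc ∫⁻ x in Ioc (0 : ℝ) l₁, Φ x ≤ ∫⁻ x in Ioc (0 : ℝ) l₁, ENNReal.ofReal P := by
            apply setLIntegral_mono measurable_const
            intro x hx
            rw [ENNReal.ofReal_toReal fin]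
            exact anti 0 x le_rfl hx.1.le
        _ = ENNReal.ofReal (l₁ * P) := by
            rw [setLIntegral_const, Real.volume_Ioc, sub_zero,
              ← ENNReal.ofReal_mul hPpos.le, mul_comm]
    have hint2 : ∫⁻ x in Ioi l₁, Φ x ≤ ENNReal.ofReal (l₁ * P * Real.exp (-1)) := by
      calc ∫⁻ x in Ioi l₁, Φ x ≤ ∫⁻ x in Ioi l₁, ENNReal.ofReal (P * Real.exp (-(x / l₁))) := by
            apply setLIntegral_mono (by fun_prop)
            intro x hx
            exact htail x hx
        _ = ENNReal.ofReal (∫ x in Ioi l₁, P * Real.exp (-(x / l₁))) := by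
            rw [ofReal_integral_eq_lintegral_ofReal]
            · have h := integrableOn_exp_mul_Ioi (a := -(1 / l₁)) (by
                have : 0 < 1 / l₁ := by positivity
                linarith) l₁
              refine (h.const_mul P).congr ?_
              filter_upwards with x
              congr 2
              ring
            · filter_upwards with x
              positivity
        _ = ENNReal.ofReal (l₁ * P * Real.exp (-1)) := by
            congr 1
            have h : ∀ x, P * Real.exp (-(x / l₁)) = P * Real.exp (-(1 / l₁) * x) := by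
              intro x; congr 2; ring
            simp_rw [h]
            rw [integral_const_mul, integral_exp_mul_Ioi (by
                have : 0 < 1 / l₁ := by positivity
                linarith)]
            have h2 : -(1 / l₁) * l₁ = -1 := by field_simp
            rw [h2]
            field_simp
    rw [hsplit]
    calc ∫⁻ x in Ioc 0 l₁ ∪ Ioi l₁, Φ x ≤
          (∫⁻ x in Ioc 0 l₁, Φ x) + ∫⁻ x in Ioi l₁, Φ x :=
          lintegral_union_le _ _ _
      _ ≤ ENNReal.ofReal (l₁ * P) + ENNReal.ofReal (l₁ * P * Real.exp (-1)) :=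
          add_le_add hint1 hint2
      _ = ENNReal.ofReal (l₁ * P * (1 + Real.exp (-1))) := by
          rw [← ENNReal.ofReal_add (by positivity) (by positivity)]
          congr 1; ring
  have hl₀pos : 0 < l₀ := by
    rcases hl₀0.lt_or_eq with h | h
    · exact h
    · exfalso
      apply pos
      refine le_antisymm ?_ zero_le
      refine ENNReal.le_of_forall_pos_le_add ?_
      intro ε hε _
      have hc : 0 < P * (1 + Real.exp (-1)) := by positivity
      have h1 := hA (ε / (P * (1 + Real.exp (-1)))) (by rw [← h]; positivity)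
      refine h1.trans ?_
      rw [zero_add]
      have h2 : (ε : ℝ) / (P * (1 + Real.exp (-1))) * P * (1 + Real.exp (-1)) = ε := by
        field_simp
      rw [h2]
      simp
  obtain ⟨l, hlI, hl⟩ := exists_lt_of_lt_csSup ⟨0, h0I⟩
    (show 99 / 100 * l₀ < sSup I by rw [← hl₀]; linarith)
  have hlpos : 0 < l := by nlinarith
  refine ⟨l, hlpos, hIb l hlI, ?_⟩
  refine (hA (101 / 100 * l₀) (by linarith)).trans ?_
  rw [← ENNReal.ofReal_toReal (hfin l hlpos.le), ← ENNReal.ofReal_mul (by positivity)]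
  apply ENNReal.ofReal_le_ofReal
  have h1 := hlI.2
  have he2 : Real.exp 1 < 2.7182818286 := Real.exp_one_lt_d9
  have h3 : P / Real.exp 1 = P * Real.exp (-1) := by
    rw [Real.exp_neg]; rfl
  rw [h3] at h1
  have h4 : Real.exp (-1) * Real.exp 1 = 1 := by rw [← Real.exp_add]; simp
  have h5 : 1 ≤ 28 / 10 * Real.exp (-1) := by
    have : 0 < Real.exp (-1) := Real.exp_pos _
    nlinarith
  have h6 : 4 * (99 / 100 * l₀) * (P * Real.exp (-1)) ≤ 4 * l * (Φ l).toReal := by
    have hPe : 0 ≤ P * Real.exp (-1) := by positivity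
    apply mul_le_mul _ h1 hPe (by positivity)
    linarith
  refine le_trans ?_ h6
  have h7 : 101 / 100 * (1 + Real.exp (-1)) ≤ 4 * (99 / 100) * Real.exp (-1) := by nlinarith
  have h8 : 0 ≤ l₀ * P := by positivity
  nlinarith [mul_le_mul_of_nonneg_left h7 h8]

end StairAux

end Vale.Agent.P230
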