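import Vale.Agent.P230.Defs
import Vale.Agent.P230.StairA

open MeasureTheory Set
open scoped ENNReal NNReal

namespace Vale.Agent.P230

namespace StairAux

/-- Bounded log-concave functions with closed superlevel sets, supported in the unit box. -/
structure LC (s : ℕ) (g : (Fin s → ℝ) → ℝ≥0∞) (Q : ℝ≥0) : Prop where
  bd : ∀ z, g z ≤ Q
  box : ∀ z, g z ≠ 0 → ∀ i, |z i| ≤ 1
  closed : ∀ τ : ℝ≥0∞, 0 < τ → IsClosed {z | τ ≤ g z}
  lc : ∀ t : ℝ, 0 < t → t < 1 → ∀ x y, g x ^ (1 - t) * g y ^ t ≤ g ((1 - t) • x + t • y)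

theorem measurable_of_closed {X : Type*} [TopologicalSpace X] [MeasurableSpace X] [BorelSpace X]
    {g : X → ℝ≥0∞} (h : ∀ τ : ℝ≥0∞, 0 < τ → IsClosed {z | τ ≤ g z}) : Measurable g := by
  refine measurable_of_Ici fun τ => ?_
  rcases eq_or_ne τ 0 with h0 | h0
  · have : g ⁻¹' Ici τ = univ := by
      ext z; simp [h0]
    rw [this]; exact MeasurableSet.univ
  · exact (h τ (pos_iff_ne_zero.2 h0)).measurableSet

theorem LC.meas {s : ℕ} {g : (Fin s → ℝ) → ℝ≥0∞} {Q : ℝ≥0} (h : LC s g Q) : Measurable g :=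
  measurable_of_closed h.closed

/-- best level on a fibre interval of length l -/
noncomputable def F {s : ℕ} (g : (Fin (s + 1) → ℝ) → ℝ≥0∞) (p : (Fin s → ℝ) × ℝ) : ℝ≥0∞ :=
  ⨆ a : ℝ, ⨅ θ : Icc (0 : ℝ) 1, g (Fin.cons (a + θ * p.2) p.1)

theorem cont_cons {s : ℕ} : Continuous (fun q : ℝ × ((Fin s → ℝ) × ℝ) × ℝ =>
    (Fin.cons (q.1 + q.2.2 * q.2.1.2) q.2.1.1 : Fin (s + 1) → ℝ)) := by
  refine Continuous.finCons (A := fun _ => ℝ) ?_ ?_
  · fun_prop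
  · fun_prop

/-- closed sets D -/
def D {s : ℕ} (g : (Fin (s + 1) → ℝ) → ℝ≥0∞) (τ : ℝ≥0∞) : Set ((Fin s → ℝ) × ℝ) :=
  {p | ∃ a : ℝ, a ∈ Icc (-1 : ℝ) 1 ∧ ∀ θ ∈ Icc (0 : ℝ) 1, τ ≤ g (Fin.cons (a + θ * p.2) p.1)}

theorem closed_D {s : ℕ} {g : (Fin (s + 1) → ℝ) → ℝ≥0∞} {Q : ℝ≥0} (h : LC (s + 1) g Q)
    {τ : ℝ≥0∞} (hτ : 0 < τ) : IsClosed (D g τ) := by
  have hC : IsClosed {q : (Icc (-1 : ℝ) 1) × ((Fin s → ℝ) × ℝ) | ∀ θ ∈ Icc (0 : ℝ) 1,
      τ ≤ g (Fin.cons ((q.1 : ℝ) + θ * q.2.2) q.2.1)} := by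
    have : {q : (Icc (-1 : ℝ) 1) × ((Fin s → ℝ) × ℝ) | ∀ θ ∈ Icc (0 : ℝ) 1,
      τ ≤ g (Fin.cons ((q.1 : ℝ) + θ * q.2.2) q.2.1)} =
      ⋂ θ ∈ Icc (0 : ℝ) 1, {q : (Icc (-1 : ℝ) 1) × ((Fin s → ℝ) × ℝ) |
        τ ≤ g (Fin.cons ((q.1 : ℝ) + θ * q.2.2) q.2.1)} := by
      ext q; simp
    rw [this]
    refine isClosed_biInter fun θ _ => ?_
    refine (h.closed τ hτ).preimage (f := fun q : (Icc (-1 : ℝ) 1) × ((Fin s → ℝ) × ℝ) =>
      (Fin.cons ((q.1 : ℝ) + θ * q.2.2) q.2.1 : Fin (s + 1) → ℝ)) ?_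
    refine Continuous.finCons (A := fun _ => ℝ) ?_ ?_
    · fun_prop
    · fun_prop
  have h2 := isClosedMap_snd_of_compactSpace (X := Icc (-1 : ℝ) 1) _ hC
  convert h2 using 1
  ext p
  constructor
  · rintro ⟨a, ha, hp⟩
    exact ⟨(⟨a, ha⟩, p), hp, rfl⟩
  · rintro ⟨⟨a, q⟩, hq, rfl⟩
    exact ⟨a, a.2, hq⟩

theorem le_F_of {s : ℕ} {g : (Fin (s + 1) → ℝ) → ℝ≥0∞} {τ : ℝ≥0∞} {p : (Fin s → ℝ) × ℝ}
    {a : ℝ} (h : ∀ θ ∈ Icc (0 : ℝ) 1, τ ≤ g (Fin.cons (a + θ * p.2) p.1)) : τ ≤ F g p :=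
  le_trans (le_iInf fun θ : Icc (0 : ℝ) 1 => h (θ : ℝ) θ.2)
    (le_iSup (fun a : ℝ => ⨅ θ : Icc (0 : ℝ) 1, g (Fin.cons (a + θ * p.2) p.1)) a)

theorem lt_F {s : ℕ} {g : (Fin (s + 1) → ℝ) → ℝ≥0∞} {τ : ℝ≥0∞} {p : (Fin s → ℝ) × ℝ}
    (h : τ < F g p) : ∃ a : ℝ, ∀ θ ∈ Icc (0 : ℝ) 1, τ < g (Fin.cons (a + θ * p.2) p.1) := by
  obtain ⟨a, ha⟩ := lt_iSup_iff.1 h
  exact ⟨a, fun θ hθ => lt_of_lt_of_le ha (iInf_le _ (⟨θ, hθ⟩ : Icc (0 : ℝ) 1))⟩

theorem lt_F_D {s : ℕ} {g : (Fin (s + 1) → ℝ) → ℝ≥0∞} {Q : ℝ≥0} (hg : LC (s + 1) g Q)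
    {τ : ℝ≥0∞} {p : (Fin s → ℝ) × ℝ} (h : τ < F g p) : p ∈ D g τ := by
  obtain ⟨a, ha⟩ := lt_F h
  refine ⟨a, ?_, fun θ hθ => (ha θ hθ).le⟩
  have h0 := ha 0 ⟨le_rfl, zero_le_one⟩
  have h1 := hg.box _ (ne_of_gt (lt_of_le_of_lt zero_le h0)) 0
  simp only [Fin.cons_zero, zero_mul, add_zero] at h1
  exact abs_le.1 h1

theorem F_super {s : ℕ} {g : (Fin (s + 1) → ℝ) → ℝ≥0∞} {Q : ℝ≥0} (hg : LC (s + 1) g Q)
    {τ : ℝ≥0∞} (_hτ : 0 < τ) : {p | τ ≤ F g p} = ⋂ τ' ∈ Ioo 0 τ, D g τ' := by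
  ext p
  simp only [mem_iInter]
  constructor
  · intro hp τ' hτ'
    exact lt_F_D hg (lt_of_lt_of_le hτ'.2 hp)
  · intro hp
    change τ ≤ F g p
    refine le_of_forall_lt fun c hc => ?_
    obtain ⟨c', hc1, hc2⟩ := exists_between hc
    obtain ⟨a, -, ha⟩ := hp c' ⟨lt_of_le_of_lt zero_le hc1, hc2⟩
    exact lt_of_lt_of_le hc1 (le_F_of ha)

theorem F_closed {s : ℕ} {g : (Fin (s + 1) → ℝ) → ℝ≥0∞} {Q : ℝ≥0} (hg : LC (s + 1) g Q)
    {τ : ℝ≥0∞} (hτ : 0 < τ) : IsClosed {p | τ ≤ F g p} := by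
  rw [F_super hg hτ]
  exact isClosed_biInter fun τ' hτ' => closed_D hg hτ'.1

theorem F_meas {s : ℕ} {g : (Fin (s + 1) → ℝ) → ℝ≥0∞} {Q : ℝ≥0} (hg : LC (s + 1) g Q) :
    Measurable (F g) := measurable_of_closed fun _ hτ => F_closed hg hτ

theorem F_bd {s : ℕ} {g : (Fin (s + 1) → ℝ) → ℝ≥0∞} {Q : ℝ≥0} (hg : LC (s + 1) g Q)
    (p : (Fin s → ℝ) × ℝ) : F g p ≤ Q := by
  refine iSup_le fun a => ?_
  exact (iInf_le _ (⟨0, by simp⟩ : Icc (0 : ℝ) 1)).trans (hg.bd _)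

theorem F_box {s : ℕ} {g : (Fin (s + 1) → ℝ) → ℝ≥0∞} {Q : ℝ≥0} (hg : LC (s + 1) g Q)
    (p : (Fin s → ℝ) × ℝ) (hp : F g p ≠ 0) : ∀ i, |p.1 i| ≤ 1 := by
  obtain ⟨a, ha⟩ := lt_F (pos_iff_ne_zero.2 hp)
  intro i
  have h := hg.box _ (ha 0 (by simp)).ne' i.succ
  simpa using h

theorem F_len {s : ℕ} {g : (Fin (s + 1) → ℝ) → ℝ≥0∞} {Q : ℝ≥0} (hg : LC (s + 1) g Q)
    (p : (Fin s → ℝ) × ℝ) (hp : 2 < p.2) : F g p = 0 := by
  by_contra hcon
  obtain ⟨a, ha⟩ := lt_F (pos_iff_ne_zero.2 hcon)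
  have h0 := hg.box _ (ha 0 (by simp)).ne' 0
  have h1 := hg.box _ (ha 1 (by simp)).ne' 0
  simp only [Fin.cons_zero, zero_mul, add_zero, one_mul] at h0 h1
  have := abs_le.1 h0
  have := abs_le.1 h1
  linarith

theorem F_anti {s : ℕ} {g : (Fin (s + 1) → ℝ) → ℝ≥0∞} (z : Fin s → ℝ) {x y : ℝ}
    (hx : 0 ≤ x) (hxy : x ≤ y) : F g (z, y) ≤ F g (z, x) := by
  refine le_of_forall_lt fun c hc => ?_
  obtain ⟨c', hc1, hc2⟩ := exists_between hc
  obtain ⟨a, ha⟩ := lt_F hc2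
  refine lt_of_lt_of_le hc1 (le_F_of (a := a) fun θ hθ => ?_)
  rcases hx.lt_or_eq with h0 | h0
  · have hy : 0 < y := h0.trans_le hxy
    have h := ha (θ * x / y) ⟨by have := hθ.1; positivity, by
      rw [div_le_one hy]
      nlinarith [hθ.1, hθ.2]⟩
    have h2 : θ * x / y * y = θ * x := by field_simp
    simp only [h2] at h
    exact h.le
  · have h := ha 0 (by simp)
    simp only [zero_mul, add_zero] at h
    simp only [← h0, mul_zero, add_zero]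
    exact h.le

theorem iSup_rpow {ι : Sort*} (f : ι → ℝ≥0∞) {t : ℝ} (ht : 0 < t) :
    (⨆ i, f i) ^ t = ⨆ i, f i ^ t := by
  exact (ENNReal.orderIsoRpow t ht).map_iSup f

theorem F_lc {s : ℕ} {g : (Fin (s + 1) → ℝ) → ℝ≥0∞} {Q : ℝ≥0} (hg : LC (s + 1) g Q)
    {t : ℝ} (ht0 : 0 < t) (ht1 : t < 1) (p q : (Fin s → ℝ) × ℝ) :
    F g p ^ (1 - t) * F g q ^ t ≤ F g ((1 - t) • p + t • q) := by
  have h1 : 0 < 1 - t := by linarith
  unfold F
  rw [iSup_rpow _ h1, iSup_rpow _ ht0, ENNReal.iSup_mul]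
  refine iSup_le fun a => ?_
  rw [ENNReal.mul_iSup]
  refine iSup_le fun b => ?_
  refine le_trans ?_ (le_iSup _ ((1 - t) * a + t * b))
  refine le_iInf fun θ => ?_
  refine le_trans (mul_le_mul' (ENNReal.rpow_le_rpow (iInf_le _ θ) h1.le)
    (ENNReal.rpow_le_rpow (iInf_le _ θ) ht0.le)) ?_
  refine (hg.lc t ht0 ht1 _ _).trans (le_of_eq ?_)
  congr 1
  funext i
  refine Fin.cases ?_ (fun i => ?_) i
  · simp
    ring
  · simp

/-- the next function is again in the class -/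
theorem LC.next {s : ℕ} {g : (Fin (s + 1) → ℝ) → ℝ≥0∞} {Q : ℝ≥0} (hg : LC (s + 1) g Q)
    (l : ℝ) : LC s (fun z => F g (z, l)) Q where
  bd z := F_bd hg _
  box z hz := F_box hg _ hz
  closed τ hτ := (F_closed hg hτ).preimage (f := fun z : Fin s → ℝ => (z, l)) (by fun_prop)
  lc t ht0 ht1 x y := by
    have h := F_lc hg ht0 ht1 (x, l) (y, l)
    have h2 : (1 - t) • (x, l) + t • (y, l) = ((1 - t) • x + t • y, l) := by
      ext <;> simp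
      ring
    rwa [h2] at h

/-- quasi-concavity -/
theorem LC.quasi {s : ℕ} {g : (Fin s → ℝ) → ℝ≥0∞} {Q : ℝ≥0} (hg : LC s g Q) {t : ℝ}
    (ht0 : 0 ≤ t) (ht1 : t ≤ 1) (x y : Fin s → ℝ) {m : ℝ≥0∞} (hx : m ≤ g x) (hy : m ≤ g y) :
    m ≤ g ((1 - t) • x + t • y) := by
  rcases ht0.lt_or_eq with h0 | h0
  · rcases ht1.lt_or_eq with h1 | h1
    · have h2 : 0 < 1 - t := by linarith
      refine le_trans ?_ (hg.lc t h0 h1 x y)
      have hm : m ≠ ∞ := ne_top_of_le_ne_top ENNReal.coe_ne_top (hx.trans (hg.bd x))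
      rcases eq_or_ne m 0 with hm0 | hm0
      · rw [hm0]; exact zero_le
      calc m = m ^ (1 - t) * m ^ t := by
            rw [← ENNReal.rpow_add _ _ hm0 hm]; simp
        _ ≤ _ := mul_le_mul' (ENNReal.rpow_le_rpow hx h2.le) (ENNReal.rpow_le_rpow hy h0.le)
    · rw [h1]; simpa using hy
  · rw [← h0]; simpa using hx

theorem layer1 {s : ℕ} {g : (Fin (s + 1) → ℝ) → ℝ≥0∞} {Q : ℝ≥0} (hg : LC (s + 1) g Q)
    (v : Fin s → ℝ) :
    ∫⁻ x : ℝ, g (Fin.cons x v) ≤ ∫⁻ l in Ioi (0 : ℝ), F g (v, l) := by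
  have hgt : ∀ x, g (Fin.cons x v) ≠ ∞ := fun x =>
    ne_top_of_le_ne_top ENNReal.coe_ne_top (hg.bd _)
  have hFt : ∀ l, F g (v, l) ≠ ∞ := fun l => ne_top_of_le_ne_top ENNReal.coe_ne_top (F_bd hg _)
  have hm1 : Measurable fun x : ℝ => g (Fin.cons x v) := hg.meas.comp
    (Continuous.finCons (A := fun _ => ℝ) continuous_id continuous_const).measurable
  have hm2 : Measurable fun l : ℝ => F g (v, l) := (F_meas hg).comp (by fun_prop)
  have e1 : ∫⁻ x : ℝ, g (Fin.cons x v) =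
      ∫⁻ t in Ioi (0 : ℝ), volume {x : ℝ | t < (g (Fin.cons x v)).toReal} := by
    rw [← lintegral_eq_lintegral_meas_lt volume
      (Filter.Eventually.of_forall fun x => ENNReal.toReal_nonneg)
      hm1.ennreal_toReal.aemeasurable]
    exact lintegral_congr fun x => (ENNReal.ofReal_toReal (hgt x)).symm
  have e2 : ∫⁻ l in Ioi (0 : ℝ), F g (v, l) =
      ∫⁻ t in Ioi (0 : ℝ), volume.restrict (Ioi (0 : ℝ)) {l : ℝ | t < (F g (v, l)).toReal} := by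
    rw [← lintegral_eq_lintegral_meas_lt (volume.restrict (Ioi (0 : ℝ)))
      (Filter.Eventually.of_forall fun x => ENNReal.toReal_nonneg)
      hm2.ennreal_toReal.aemeasurable]
    exact lintegral_congr fun x => (ENNReal.ofReal_toReal (hFt x)).symm
  rw [e1, e2]
  refine setLIntegral_mono' measurableSet_Ioi fun t ht => ?_
  have ht0 : (0 : ℝ) < t := ht
  set S : Set ℝ := {x : ℝ | t < (g (Fin.cons x v)).toReal} with hS
  refine (Real.volume_le_diam S).trans ?_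
  have hSb : S ⊆ Icc (-1) 1 := by
    intro x hx
    have h1 : g (Fin.cons x v) ≠ 0 := by
      intro h0
      have h2 : t < (g (Fin.cons x v)).toReal := hx
      rw [h0] at h2
      simp only [ENNReal.toReal_zero] at h2
      linarith
    have := hg.box _ h1 0
    simp only [Fin.cons_zero] at this
    exact abs_le.1 this
  have hdt : Metric.ediam S ≠ ∞ := ne_top_of_le_ne_top
    (by rw [Real.ediam_Icc]; exact ENNReal.ofReal_ne_top) (Metric.ediam_mono hSb)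
  have hsub : Ioo (0 : ℝ) (Metric.ediam S).toReal ⊆
      {l : ℝ | t < (F g (v, l)).toReal} ∩ Ioi 0 := by
    intro l hl
    refine ⟨?_, hl.1⟩
    have h1 : ENNReal.ofReal l < Metric.ediam S := by
      rw [← ENNReal.ofReal_toReal hdt]
      exact (ENNReal.ofReal_lt_ofReal_iff (hl.1.trans hl.2)).2 hl.2
    have h2 : ∃ x ∈ S, ∃ y ∈ S, l < y - x := by
      by_contra hcon
      push Not at hcon
      refine absurd (Metric.ediam_le (fun x hx y hy => ?_)) (not_le.2 h1)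
      rw [edist_dist, Real.dist_eq]
      apply ENNReal.ofReal_le_ofReal
      rw [abs_le]
      constructor
      · linarith [hcon x hx y hy]
      · linarith [hcon y hy x hx]
    obtain ⟨x, hx, y, hy, hxy⟩ := h2
    set m : ℝ≥0∞ := min (g (Fin.cons x v)) (g (Fin.cons y v)) with hm
    have hmt : t < m.toReal := by
      rw [hm]
      rcases min_choice (g (Fin.cons x v)) (g (Fin.cons y v)) with h | h
      · rw [h]; exact hx
      · rw [h]; exact hy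
    have hmF : m ≤ F g (v, l) := by
      refine le_F_of (a := x) fun θ hθ => ?_
      have hyx : 0 < y - x := hl.1.trans hxy
      have hr0 : 0 ≤ θ * l / (y - x) := by
        have := hθ.1
        have := hl.1
        positivity
      have hr1 : θ * l / (y - x) ≤ 1 := by
        rw [div_le_one hyx]
        nlinarith [hθ.1, hθ.2, hl.1]
      have h3 := hg.quasi hr0 hr1 (Fin.cons x v) (Fin.cons y v) (min_le_left _ _)
        (min_le_right _ _)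
      refine h3.trans (le_of_eq ?_)
      congr 1
      funext i
      refine Fin.cases ?_ (fun i => ?_) i
      · simp
        field_simp
        ring
      · simp
        ring
    exact lt_of_lt_of_le hmt (ENNReal.toReal_mono (hFt l) hmF)
  rw [Measure.restrict_apply' measurableSet_Ioi]
  refine le_trans ?_ (measure_mono hsub)
  rw [Real.volume_Ioo, sub_zero, ENNReal.ofReal_toReal hdt]

end StairAux

end Vale.Agent.P230
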