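import Vale.Agent.P230.Defs
import Vale.Agent.P230.StairB

open MeasureTheory Set
open scoped ENNReal NNReal

namespace Vale.Agent.P230

namespace StairAux

theorem RStep_mono : ∀ (s : ℕ) (δ : Fin s → ℝ) {Z W : Set (Fin s → ℝ)}, Z ⊆ W →
    RStep s δ Z → RStep s δ W
  | 0, _, _, _, h, hZ => by
      obtain ⟨z, hz⟩ := hZ
      exact ⟨z, h hz⟩
  | s + 1, δ, Z, W, h, hZ => by
      obtain ⟨Z', h1, h2⟩ := hZ
      refine ⟨Z', h1, fun z hz => ?_⟩
      obtain ⟨a, ha⟩ := h2 z hz
      exact ⟨a, fun x hx => h (ha x hx)⟩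

theorem LC.ind {s : ℕ} {g : (Fin s → ℝ) → ℝ≥0∞} {Q : ℝ≥0} (hg : LC s g Q) :
    ∃ (C : ℝ≥0) (R : ℝ), ∀ x,
      g x ≤ (Metric.closedBall (0 : Fin s → ℝ) R).indicator (fun _ => (C : ℝ≥0∞)) x := by
  refine ⟨Q, 1, fun x => ?_⟩
  rcases eq_or_ne (g x) 0 with h | h
  · rw [h]; exact zero_le
  · have hx : x ∈ Metric.closedBall (0 : Fin s → ℝ) 1 := by
      rw [mem_closedBall_zero_iff, pi_norm_le_iff_of_nonneg zero_le_one]
      intro i
      exact hg.box x h i
    rw [indicator_of_mem hx]
    exact hg.bd x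

theorem LC.int_fin {s : ℕ} {g : (Fin s → ℝ) → ℝ≥0∞} {Q : ℝ≥0} (hg : LC s g Q) :
    ∫⁻ z, g z ≠ ∞ := by
  obtain ⟨C, R, h⟩ := hg.ind
  refine ne_top_of_le_ne_top ?_ (lintegral_mono h)
  rw [lintegral_indicator Metric.isClosed_closedBall.measurableSet, setLIntegral_const]
  exact ENNReal.mul_ne_top ENNReal.coe_ne_top
    (isCompact_closedBall _ _).measure_lt_top.ne

theorem stair : ∀ (s : ℕ) {g : (Fin s → ℝ) → ℝ≥0∞} {Q : ℝ≥0} (_ : LC s g Q)
    (_ : ∫⁻ z, g z ≠ 0),
    ∃ (τ : ℝ) (δ : Fin s → ℝ), 0 < τ ∧ RStep s δ {z | ENNReal.ofReal τ < g z} ∧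
      (∀ i, 0 < δ i ∧ δ i ≤ 1) ∧
      ∫⁻ z, g z ≤ ENNReal.ofReal (2 * 4 ^ s * τ * ∏ i, (2 * δ i))
  | 0, g, Q, hg, hpos => by
      rw [P074.lintegral_fin_zero] at hpos ⊢
      have hfin : g 0 ≠ ∞ := ne_top_of_le_ne_top ENNReal.coe_ne_top (hg.bd _)
      have h0 : 0 < (g 0).toReal := ENNReal.toReal_pos hpos hfin
      refine ⟨(g 0).toReal / 2, fun _ => 1, by positivity, ⟨0, ?_⟩, fun i => ⟨one_pos, le_rfl⟩, ?_⟩
      · change ENNReal.ofReal ((g 0).toReal / 2) < g 0
        conv_rhs => rw [← ENNReal.ofReal_toReal hfin]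
        exact (ENNReal.ofReal_lt_ofReal_iff h0).2 (by linarith)
      · have : 2 * 4 ^ 0 * ((g 0).toReal / 2) * ∏ _i : Fin 0, (2 * (1 : ℝ)) = (g 0).toReal := by
          simp
          ring
        rw [this, ENNReal.ofReal_toReal hfin]
  | s + 1, g, Q, hg, hpos => by
      set Φ : ℝ → ℝ≥0∞ := fun l => ∫⁻ z : Fin s → ℝ, F g (z, l) with hΦ
      have hbase : ∫⁻ z, g z ≤ ∫⁻ l in Ioi (0 : ℝ), Φ l := by
        have hm : Measurable fun q : ℝ × (Fin s → ℝ) => g (Fin.cons q.1 q.2) :=
          hg.meas.comp (Continuous.finCons (A := fun _ => ℝ) continuous_fst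
            continuous_snd).measurable
        rw [P074.lintegral_fin_succ hg.meas,
          lintegral_lintegral_swap (f := fun (a : ℝ) (v : Fin s → ℝ) => g (Fin.cons a v))
            hm.aemeasurable]
        calc ∫⁻ v : Fin s → ℝ, ∫⁻ a : ℝ, g (Fin.cons a v)
            ≤ ∫⁻ v : Fin s → ℝ, ∫⁻ l in Ioi (0 : ℝ), F g (v, l) :=
              lintegral_mono fun v => layer1 hg v
          _ = ∫⁻ l in Ioi (0 : ℝ), ∫⁻ v : Fin s → ℝ, F g (v, l) := by
              rw [lintegral_lintegral_swap (f := fun (v : Fin s → ℝ) (l : ℝ) => F g (v, l))]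
              exact (F_meas hg).aemeasurable
      have hnext : ∀ l, LC s (fun z => F g (z, l)) Q := fun l => hg.next l
      obtain ⟨l, hl0, hl2, hl⟩ := cut (Φ := Φ)
        (fun x y hx hxy => lintegral_mono fun z => F_anti z hx hxy)
        (fun t ht0 ht1 x y _ _ => by
          refine P074.pl_pi ht0 ht1 s (hnext x).meas (hnext y).meas (hnext _).meas
            (hnext x).ind (hnext y).ind (fun u v => ?_)
          have h := F_lc hg ht0 ht1 (u, x) (v, y)
          exact h)
        (hnext 0).int_fin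
        (fun x hx => by
          rw [hΦ]
          simp only
          rw [lintegral_congr (g := fun _ => 0) fun z => F_len hg (z, x) hx]
          simp)
        (fun h0 => hpos (le_antisymm (hbase.trans h0.le) zero_le))
      have hΦl : Φ l ≠ 0 := by
        intro h0
        rw [h0, mul_zero] at hl
        exact hpos (le_antisymm (hbase.trans hl) zero_le)
      obtain ⟨τ, δ, hτ, hR, hδ, hint⟩ := stair s (hnext l) hΦl
      refine ⟨τ, Fin.cons (l / 2) δ, hτ, ⟨{z | ENNReal.ofReal τ < F g (z, l)}, ?_, ?_⟩, ?_, ?_⟩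
      · rw [Fin.tail_cons]
        exact hR
      · intro z hz
        obtain ⟨a, ha⟩ := lt_F (show ENNReal.ofReal τ < F g (z, l) from hz)
        refine ⟨a, fun x hx => ?_⟩
        simp only [Fin.cons_zero] at hx
        have h1 := ha ((x - a) / l) ⟨by
          have := hx.1
          have h3 : 0 ≤ x - a := by linarith
          positivity, by
          rw [div_le_one hl0]
          linarith [hx.2]⟩
        have h2 : a + (x - a) / l * l = x := by
          field_simp
          ring
        simp only [h2] at h1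
        exact h1
      · intro i
        refine Fin.cases ?_ (fun i => ?_) i
        · simp only [Fin.cons_zero]
          constructor <;> linarith
        · simp only [Fin.cons_succ]
          exact hδ i
      · refine (hbase.trans hl).trans ?_
        refine (mul_le_mul' le_rfl hint).trans ?_
        rw [← ENNReal.ofReal_mul (by positivity), Fin.prod_univ_succ]
        apply ENNReal.ofReal_le_ofReal
        simp only [Fin.cons_zero, Fin.cons_succ]
        apply le_of_eq
        ring

end StairAux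

end Vale.Agent.P230
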