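import Vale.Agent.P230.Defs
import Vale.Agent.P230.Stair

open MeasureTheory Set
open scoped ENNReal NNReal Pointwise

namespace Vale.Agent.P230

namespace StairAux

variable {d s : ℕ}

/-- volume of the slice -/
noncomputable def sl (K : Set ((Fin d → ℝ) × (Fin s → ℝ))) (z : Fin s → ℝ) : ℝ≥0∞ :=
  volume {u : Fin d → ℝ | (u, z) ∈ K}

theorem sl_meas {K : Set ((Fin d → ℝ) × (Fin s → ℝ))} (hk : IsCompact K) (z : Fin s → ℝ) :
    MeasurableSet {u : Fin d → ℝ | (u, z) ∈ K} :=
  (hk.isClosed.preimage (f := fun u : Fin d → ℝ => (u, z)) (by fun_prop)).measurableSet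

theorem sl_closed {K : Set ((Fin d → ℝ) × (Fin s → ℝ))} (hk : IsCompact K) (τ : ℝ≥0∞) :
    IsClosed {z | τ ≤ sl K z} := by
  have : {z | τ ≤ sl K z} = {z | sl K z < τ}ᶜ := by
    ext z; simp
  rw [this, isClosed_compl_iff, isOpen_iff_mem_nhds]
  intro z hz
  obtain ⟨U, hU, hUo, hUt⟩ := Set.exists_isOpen_lt_of_lt _ _ (show volume _ < τ from hz)
  have hc : IsCompact (K ∩ (Uᶜ ×ˢ (univ : Set (Fin s → ℝ)))) :=
    hk.inter_right (hUo.isClosed_compl.prod isClosed_univ)
  have hcl : IsClosed (Prod.snd '' (K ∩ (Uᶜ ×ˢ (univ : Set (Fin s → ℝ))))) :=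
    (hc.image continuous_snd).isClosed
  have hzn : z ∈ (Prod.snd '' (K ∩ (Uᶜ ×ˢ (univ : Set (Fin s → ℝ)))))ᶜ := by
    rintro ⟨⟨u, z'⟩, ⟨h1, h2⟩, h3⟩
    simp only at h3
    subst h3
    exact h2.1 (hU h1)
  refine Filter.mem_of_superset (hcl.isOpen_compl.mem_nhds hzn) ?_
  intro z' hz'
  refine lt_of_le_of_lt (measure_mono ?_) hUt
  intro u hu
  by_contra hcon
  exact hz' ⟨(u, z'), ⟨hu, hcon, mem_univ _⟩, rfl⟩

theorem sl_LC {K : Set ((Fin d → ℝ) × (Fin s → ℝ))} (hc : Convex ℝ K) (hk : IsCompact K)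
    (hbox : ∀ x ∈ K, (∀ i, |x.1 i| ≤ 1) ∧ (∀ i, |x.2 i| ≤ 1)) :
    LC s (sl K) (volume (Metric.closedBall (0 : Fin d → ℝ) 1)).toNNReal where
  bd z := by
    rw [ENNReal.coe_toNNReal (isCompact_closedBall _ _).measure_lt_top.ne]
    refine measure_mono fun u hu => ?_
    rw [mem_closedBall_zero_iff, pi_norm_le_iff_of_nonneg zero_le_one]
    exact fun i => (hbox _ hu).1 i
  box z hz := by
    obtain ⟨u, hu⟩ := nonempty_of_measure_ne_zero hz
    exact (hbox _ hu).2
  closed τ _ := sl_closed hk τ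
  lc t ht0 ht1 x y := by
    have h1t : 0 < 1 - t := by linarith
    have hb : ∀ z : Fin s → ℝ, ∃ (C : ℝ≥0) (R : ℝ), ∀ v,
        ({u : Fin d → ℝ | (u, z) ∈ K}.indicator (fun _ => (1 : ℝ≥0∞))) v ≤
        (Metric.closedBall (0 : Fin d → ℝ) R).indicator (fun _ => (C : ℝ≥0∞)) v := by
      intro z
      refine ⟨1, 1, fun v => ?_⟩
      refine indicator_le_indicator_of_subset (fun u hu => ?_) (fun _ => zero_le) v
      rw [mem_closedBall_zero_iff, pi_norm_le_iff_of_nonneg zero_le_one]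
      exact fun i => (hbox _ hu).1 i
    have h := P074.pl_pi ht0 ht1 d
      (f := {u : Fin d → ℝ | (u, x) ∈ K}.indicator (fun _ => (1 : ℝ≥0∞)))
      (g := {u : Fin d → ℝ | (u, y) ∈ K}.indicator (fun _ => (1 : ℝ≥0∞)))
      (h := {u : Fin d → ℝ | (u, (1 - t) • x + t • y) ∈ K}.indicator (fun _ => (1 : ℝ≥0∞)))
      (measurable_const.indicator (sl_meas hk x)) (measurable_const.indicator (sl_meas hk y))
      (measurable_const.indicator (sl_meas hk ((1 - t) • x + t • y))) (hb x) (hb y)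
      (fun u v => by
        by_cases hu : (u, x) ∈ K
        · by_cases hv : (v, y) ∈ K
          · have huv : ((1 - t) • u + t • v, (1 - t) • x + t • y) ∈ K := by
              have := hc hu hv h1t.le ht0.le (by ring)
              exact this
            rw [indicator_of_mem (by exact hu), indicator_of_mem (by exact hv),
              indicator_of_mem (by exact huv)]
            simp
          · rw [indicator_of_notMem (a := v) (by exact hv), ENNReal.zero_rpow_of_pos ht0, mul_zero]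
            exact zero_le
        · rw [indicator_of_notMem (a := u) (by exact hu), ENNReal.zero_rpow_of_pos h1t, zero_mul]
          exact zero_le)
    rw [lintegral_indicator_const (sl_meas hk x), lintegral_indicator_const (sl_meas hk y),
      lintegral_indicator_const (sl_meas hk _), one_mul, one_mul, one_mul] at h
    exact h

theorem vol_eq {K : Set ((Fin d → ℝ) × (Fin s → ℝ))} (hk : IsCompact K) :
    volume K = ∫⁻ z, sl K z := by
  rw [Measure.volume_eq_prod, Measure.prod_apply_symm hk.isClosed.measurableSet]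
  rfl

theorem vol_homothety {r : ℝ} (hr : 0 ≤ r) (c : Fin d → ℝ) (A : Set (Fin d → ℝ)) :
    volume ((fun x => r • x + c) '' A) = ENNReal.ofReal (r ^ d) * volume A := by
  have h1 : (fun x => r • x + c) '' A = (fun x => x + c) '' (r • A) := by
    rw [← Set.image_smul, Set.image_image]
  rw [h1, Set.image_add_right, measure_preimage_add_right, Measure.addHaar_smul]
  simp [abs_of_nonneg (pow_nonneg hr d)]

theorem fat (hd : 1 ≤ d) {K : Set ((Fin d → ℝ) × (Fin s → ℝ))}
    (hc : Convex ℝ K) (hk : IsCompact K) {a : ℝ} (ha : 0 < a)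
    (p : (Fin d → ℝ) × (Fin s → ℝ))
    (hcube : ∀ x : (Fin d → ℝ) × (Fin s → ℝ), (∀ i, |x.1 i - p.1 i| ≤ a) →
      (∀ i, |x.2 i - p.2 i| ≤ a) → x ∈ K) (w : Fin s → ℝ) :
    ENNReal.ofReal ((a / d) ^ s / 2) * sl K w ≤ volume K := by
  have hd0 : (0 : ℝ) < d := by exact_mod_cast hd
  set r : ℝ := 1 / (2 * d) with hr
  have hr0 : 0 < r := by positivity
  have hr1 : r ≤ 1 / 2 := by
    rw [hr, div_le_div_iff₀ (by positivity) (by positivity)]
    have : (1 : ℝ) ≤ d := by exact_mod_cast hd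
    linarith
  set c : Fin s → ℝ := (1 - r) • w + r • p.2 with hcdef
  set B : Set (Fin s → ℝ) := Metric.closedBall c (r * a) with hB
  have hvolB : volume B = ENNReal.ofReal ((a / d) ^ s) := by
    rw [hB, Real.volume_pi_closedBall _ (by positivity)]
    congr 1
    rw [Fintype.card_fin, hr]
    congr 1
    field_simp
  have hsl : ∀ z ∈ B, ENNReal.ofReal (1 / 2) * sl K w ≤ sl K z := by
    intro z hz
    have hsub : (fun x => (1 - r) • x + r • p.1) '' {u : Fin d → ℝ | (u, w) ∈ K} ⊆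
        {u : Fin d → ℝ | (u, z) ∈ K} := by
      rintro _ ⟨u, hu, rfl⟩
      have hq : (p.1, p.2 + (1 / r) • (z - c)) ∈ K := by
        apply hcube
        · intro i; simpa using ha.le
        · intro i
          simp only [Pi.add_apply, Pi.smul_apply, Pi.sub_apply, smul_eq_mul, add_sub_cancel_left]
          rw [abs_mul, abs_of_pos (by positivity)]
          have h1 : |z i - c i| ≤ r * a := by
            have := (dist_pi_le_iff (by positivity)).1 (Metric.mem_closedBall.1 hz) i
            rwa [Real.dist_eq] at this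
          calc 1 / r * |z i - c i| ≤ 1 / r * (r * a) := by gcongr
            _ = a := by field_simp
      have h := hc hu hq (by linarith : 0 ≤ 1 - r) hr0.le (by ring)
      have h2 : (1 - r) • (u, w) + r • (p.1, p.2 + (1 / r) • (z - c)) =
          ((1 - r) • u + r • p.1, z) := by
        ext i
        · simp
        · simp only [Prod.snd_add, Prod.smul_snd, Pi.add_apply, Pi.smul_apply, smul_eq_mul,
            Pi.sub_apply, hcdef]
          field_simp
          ring
      rw [h2] at h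
      exact h
    refine le_trans ?_ (measure_mono hsub)
    rw [vol_homothety (by linarith)]
    refine mul_le_mul' (ENNReal.ofReal_le_ofReal ?_) le_rfl
    have h1 := one_add_mul_le_pow (a := -r) (by linarith) d
    have h2 : (d : ℝ) * r = 1 / 2 := by rw [hr]; field_simp
    have h3 : (1 + -r) = 1 - r := by ring
    rw [h3] at h1
    nlinarith
  calc ENNReal.ofReal ((a / d) ^ s / 2) * sl K w
      = ENNReal.ofReal (1 / 2) * sl K w * volume B := by
        rw [hvolB, mul_right_comm, ← ENNReal.ofReal_mul (by norm_num)]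
        congr 2
        ring
    _ = ∫⁻ _ in B, ENNReal.ofReal (1 / 2) * sl K w := by rw [setLIntegral_const]
    _ ≤ ∫⁻ z in B, sl K z := setLIntegral_mono' Metric.isClosed_closedBall.measurableSet hsl
    _ ≤ ∫⁻ z, sl K z := setLIntegral_le_lintegral _ _
    _ = volume K := (vol_eq hk).symm

theorem RStep_nonempty : ∀ (s : ℕ) (δ : Fin s → ℝ) {Z : Set (Fin s → ℝ)},
    (∀ i, 0 < δ i) → RStep s δ Z → Z.Nonempty
  | 0, _, _, _, h => h
  | s + 1, δ, Z, hδ, h => by
      obtain ⟨Z', h1, h2⟩ := h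
      obtain ⟨z, hz⟩ := RStep_nonempty s (Fin.tail δ) (fun i => hδ i.succ) h1
      obtain ⟨a, ha⟩ := h2 z hz
      exact ⟨_, ha a ⟨le_rfl, by have := hδ 0; linarith⟩⟩

end StairAux

open StairAux in
theorem geo {d s : ℕ} (hd : 1 ≤ d) {K : Set ((Fin d → ℝ) × (Fin s → ℝ))}
    (hc : Convex ℝ K) (hk : IsCompact K)
    (hbox : ∀ x ∈ K, (∀ i, |x.1 i| ≤ 1) ∧ (∀ i, |x.2 i| ≤ 1)) {a : ℝ} (ha : 0 < a)
    (p : (Fin d → ℝ) × (Fin s → ℝ))
    (hcube : ∀ x : (Fin d → ℝ) × (Fin s → ℝ), (∀ i, |x.1 i - p.1 i| ≤ a) →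
      (∀ i, |x.2 i - p.2 i| ≤ a) → x ∈ K) :
    ∃ (τ : ℝ) (δ : Fin s → ℝ), 0 < τ ∧
      RStep s δ {z : Fin s → ℝ | ENNReal.ofReal τ ≤ volume {u : Fin d → ℝ | (u, z) ∈ K}} ∧
      (∀ i, 0 < δ i ∧ δ i ≤ 1) ∧
      (volume K).toReal ≤ 2 * 4 ^ s * τ * ∏ i, (2 * δ i) ∧
      (∀ z : Fin s → ℝ,
        volume {u : Fin d → ℝ | (u, z) ∈ K} ≤ ENNReal.ofReal (4 * (8 * d / a) ^ s * τ)) ∧
      (∀ i, (a / d) ^ s / (4 * 8 ^ s) ≤ δ i) := by
  have hd0 : (0 : ℝ) < d := by exact_mod_cast hd
  have hLC := sl_LC hc hk hbox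
  have hKt : volume K ≠ ∞ := hk.measure_lt_top.ne
  have hKpos : volume K ≠ 0 := by
    have hsub : Metric.closedBall p a ⊆ K := by
      intro x hx
      have hx' := Metric.mem_closedBall.1 hx
      rw [Prod.dist_eq, max_le_iff] at hx'
      apply hcube
      · intro i
        have := (dist_pi_le_iff ha.le).1 hx'.1 i
        rwa [Real.dist_eq] at this
      · intro i
        have := (dist_pi_le_iff ha.le).1 hx'.2 i
        rwa [Real.dist_eq] at this
    exact (lt_of_lt_of_le (Metric.measure_closedBall_pos volume p ha) (measure_mono hsub)).ne'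
  obtain ⟨τ, δ, hτ, hR, hδ, hint⟩ := stair s hLC (by rw [← vol_eq hk]; exact hKpos)
  rw [← vol_eq hk] at hint
  have hδ0 : ∀ i, 0 < δ i := fun i => (hδ i).1
  have hprod0 : 0 < ∏ i, (2 * δ i) := Finset.prod_pos fun i _ => by have := hδ0 i; positivity
  have hprod1 : ∏ i, (2 * δ i) ≤ 2 ^ s := by
    calc ∏ i, (2 * δ i) ≤ ∏ _i : Fin s, (2 : ℝ) := by
          refine Finset.prod_le_prod (fun i _ => by have := hδ0 i; positivity) fun i _ => ?_
          have := (hδ i).2
          linarith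
      _ = 2 ^ s := by simp
  have hprodi : ∀ i, ∏ j, (2 * δ j) ≤ 2 ^ s * δ i := by
    intro i
    have h1 : ∏ j, (2 * δ j) = 2 ^ s * ∏ j, δ j := by
      rw [Finset.prod_mul_distrib]; simp
    rw [h1]
    refine mul_le_mul_of_nonneg_left ?_ (by positivity)
    rw [← Finset.mul_prod_erase Finset.univ δ (Finset.mem_univ i)]
    refine mul_le_of_le_one_right (hδ0 i).le ?_
    exact Finset.prod_le_one (fun j _ => (hδ0 j).le) fun j _ => (hδ j).2
  have hvol : (volume K).toReal ≤ 2 * 4 ^ s * τ * ∏ i, (2 * δ i) := by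
    have := ENNReal.toReal_mono ENNReal.ofReal_ne_top hint
    rwa [ENNReal.toReal_ofReal (by positivity)] at this
  have hslt : ∀ z, sl K z ≠ ∞ := fun z => ne_top_of_le_ne_top ENNReal.coe_ne_top (hLC.bd z)
  have hfat : ∀ z, (sl K z).toReal ≤ 2 * (d / a) ^ s * (volume K).toReal := by
    intro z
    have h1 := ENNReal.toReal_mono hKt (fat hd hc hk ha p hcube z)
    rw [ENNReal.toReal_mul, ENNReal.toReal_ofReal (by positivity)] at h1
    have h2 : 2 * (d / a) ^ s * ((a / d) ^ s / 2 * (sl K z).toReal) = (sl K z).toReal := by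
      have h3 : (d / a) ^ s * (a / d) ^ s = 1 := by
        rw [← mul_pow]
        have : d / a * (a / d) = 1 := by field_simp
        rw [this, one_pow]
      calc 2 * (d / a) ^ s * ((a / d) ^ s / 2 * (sl K z).toReal)
          = ((d / a) ^ s * (a / d) ^ s) * (sl K z).toReal := by ring
        _ = _ := by rw [h3, one_mul]
    calc (sl K z).toReal = 2 * (d / a) ^ s * ((a / d) ^ s / 2 * (sl K z).toReal) := h2.symm
      _ ≤ _ := mul_le_mul_of_nonneg_left h1 (by positivity)
  refine ⟨τ, δ, hτ, RStep_mono s δ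
    (Z := {z | ENNReal.ofReal τ < sl K z})
    (W := {z : Fin s → ℝ | ENNReal.ofReal τ ≤ volume {u : Fin d → ℝ | (u, z) ∈ K}})
    (fun z (hz : ENNReal.ofReal τ < sl K z) => hz.le) hR, hδ, hvol, fun z => ?_,
    fun i => ?_⟩
  · change sl K z ≤ _
    rw [← ENNReal.ofReal_toReal (hslt z)]
    apply ENNReal.ofReal_le_ofReal
    refine (hfat z).trans ?_
    have h1 : 2 * (d / a) ^ s * (volume K).toReal ≤
        2 * (d / a) ^ s * (2 * 4 ^ s * τ * 2 ^ s) := by
      refine mul_le_mul_of_nonneg_left (hvol.trans ?_) (by positivity)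
      exact mul_le_mul_of_nonneg_left hprod1 (by positivity)
    refine h1.trans (le_of_eq ?_)
    have h8 : (8 : ℝ) ^ s = 4 ^ s * 2 ^ s := by rw [← mul_pow]; norm_num
    have h9 : (8 * (d : ℝ) / a) ^ s = 8 ^ s * (d / a) ^ s := by rw [← mul_pow]; congr 1; ring
    rw [h9, h8]
    ring
  · obtain ⟨z, hz⟩ := RStep_nonempty s δ hδ0 hR
    have h1 : τ ≤ (sl K z).toReal := by
      have := ENNReal.toReal_mono (hslt z) (le_of_lt hz)
      rwa [ENNReal.toReal_ofReal hτ.le] at this
    have h2 : τ ≤ 2 * (d / a) ^ s * (2 * 4 ^ s * τ * (2 ^ s * δ i)) := by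
      refine h1.trans ((hfat z).trans ?_)
      refine mul_le_mul_of_nonneg_left (hvol.trans ?_) (by positivity)
      exact mul_le_mul_of_nonneg_left (hprodi i) (by positivity)
    have h8 : (8 : ℝ) ^ s = 4 ^ s * 2 ^ s := by rw [← mul_pow]; norm_num
    have h3 : 1 ≤ 4 * 8 ^ s * (d / a) ^ s * δ i := by
      have h4 : τ * 1 ≤ τ * (4 * 8 ^ s * (d / a) ^ s * δ i) := by
        rw [mul_one]
        refine h2.trans (le_of_eq ?_)
        rw [h8]
        ring
      exact le_of_mul_le_mul_left h4 hτ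
    have h5 : (a / d) ^ s = ((d / a) ^ s)⁻¹ := by
      rw [← inv_pow, inv_div]
    rw [h5, div_le_iff₀ (by positivity), inv_le_iff_one_le_mul₀ (by positivity)]
    calc 1 ≤ 4 * 8 ^ s * (d / a) ^ s * δ i := h3
      _ = _ := by ring

end Vale.Agent.P230
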