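import Mathlib

open MeasureTheory Set

namespace Vale.Agent.P230

namespace VA

/-- appending vectors, as a measurable equivalence -/
noncomputable def appE (d s : ℕ) : ((Fin d → ℝ) × (Fin s → ℝ)) ≃ᵐ (Fin (d + s) → ℝ) :=
  (MeasurableEquiv.sumPiEquivProdPi (fun _ : Fin d ⊕ Fin s => ℝ)).symm.trans
    (MeasurableEquiv.piCongrLeft (fun _ : Fin (d + s) => ℝ) finSumFinEquiv)

theorem appE_apply {d s : ℕ} (p : (Fin d → ℝ) × (Fin s → ℝ)) :
    appE d s p = Fin.append p.1 p.2 := by
  ext i
  refine Fin.addCases (fun i => ?_) (fun i => ?_) i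
  · rw [Fin.append_left]
    have : Fin.castAdd s i = finSumFinEquiv (Sum.inl i) := rfl
    rw [this]
    simp only [appE, MeasurableEquiv.trans_apply]
    rw [MeasurableEquiv.coe_piCongrLeft, Equiv.piCongrLeft_apply_apply]
    rfl
  · rw [Fin.append_right]
    have : Fin.natAdd d i = finSumFinEquiv (Sum.inr i) := rfl
    rw [this]
    simp only [appE, MeasurableEquiv.trans_apply]
    rw [MeasurableEquiv.coe_piCongrLeft, Equiv.piCongrLeft_apply_apply]
    rfl

theorem appE_mp (d s : ℕ) : MeasurePreserving (appE d s) volume volume := by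
  refine (volume_measurePreserving_sumPiEquivProdPi_symm (fun _ : Fin d ⊕ Fin s => ℝ)).trans ?_
  exact volume_measurePreserving_piCongrLeft (fun _ : Fin (d + s) => ℝ) finSumFinEquiv

theorem volume_append {d s : ℕ} (K : Set (Fin (d + s) → ℝ)) :
    volume {p : (Fin d → ℝ) × (Fin s → ℝ) | (Fin.append p.1 p.2 : Fin (d + s) → ℝ) ∈ K} =
      volume K := by
  rw [← (appE_mp d s).measure_preimage_equiv K]
  congr 1
  ext p
  simp [appE_apply]

theorem continuous_append {d s : ℕ} :
    Continuous (fun p : (Fin d → ℝ) × (Fin s → ℝ) => (Fin.append p.1 p.2 : Fin (d + s) → ℝ)) := by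
  refine continuous_pi fun i => ?_
  refine Fin.addCases (fun i => ?_) (fun i => ?_) i
  · simp only [Fin.append_left]; fun_prop
  · simp only [Fin.append_right]; fun_prop

theorem append_lin {d s : ℕ} (a b : ℝ) (p q : (Fin d → ℝ) × (Fin s → ℝ)) :
    (Fin.append (a • p + b • q).1 (a • p + b • q).2 : Fin (d + s) → ℝ) =
      a • Fin.append p.1 p.2 + b • Fin.append q.1 q.2 := by
  ext i
  refine Fin.addCases (fun i => ?_) (fun i => ?_) i <;> simp

theorem isCompact_append {d s : ℕ} {K : Set (Fin (d + s) → ℝ)} (hK : IsCompact K) :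
    IsCompact {p : (Fin d → ℝ) × (Fin s → ℝ) | (Fin.append p.1 p.2 : Fin (d + s) → ℝ) ∈ K} := by
  have h1 : {p : (Fin d → ℝ) × (Fin s → ℝ) | (Fin.append p.1 p.2 : Fin (d + s) → ℝ) ∈ K} =
      (fun x : Fin (d + s) → ℝ => ((fun i => x (Fin.castAdd s i), fun i => x (Fin.natAdd d i)) :
        (Fin d → ℝ) × (Fin s → ℝ))) '' K := by
    ext p
    simp only [mem_setOf_eq, mem_image]
    constructor
    · intro h
      refine ⟨_, h, ?_⟩
      ext i <;> simp
    · rintro ⟨x, hx, rfl⟩
      have : (Fin.append (fun i => x (Fin.castAdd s i)) (fun i => x (Fin.natAdd d i)) :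
          Fin (d + s) → ℝ) = x := by
        ext i
        refine Fin.addCases (fun i => ?_) (fun i => ?_) i <;> simp
      rw [this]; exact hx
  rw [h1]
  exact hK.image (by fun_prop)

theorem convex_append {d s : ℕ} {K : Set (Fin (d + s) → ℝ)} (hK : Convex ℝ K) :
    Convex ℝ {p : (Fin d → ℝ) × (Fin s → ℝ) | (Fin.append p.1 p.2 : Fin (d + s) → ℝ) ∈ K} := by
  intro p hp q hq a b ha hb hab
  rw [mem_setOf_eq, append_lin]
  exact hK hp hq ha hb hab

end VA

end Vale.Agent.P230
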