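import Vale.Agent.P230.Level
import Vale.Agent.P230.Geo
import Vale.Agent.P230.Core
import Vale.Agent.P230.VolAppend

open MeasureTheory Set
open scoped ENNReal NNReal Pointwise

namespace Vale.Agent.P230

open StairAux CoreAux

/-- the best level set of the slice volume -/
theorem level_set {d k : ℕ} (hd : 1 ≤ d) (hk1 : 1 ≤ k) {S : Set ((Fin d → ℝ) × (Fin k → ℝ))}
    (hc : Convex ℝ S) (hk : IsCompact S)
    (hbox : ∀ x ∈ S, (∀ i, |x.1 i| ≤ 1) ∧ (∀ i, |x.2 i| ≤ 1)) {a : ℝ} (ha : 0 < a)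
    (p : (Fin d → ℝ) × (Fin k → ℝ))
    (hcube : ∀ x : (Fin d → ℝ) × (Fin k → ℝ), (∀ i, |x.1 i - p.1 i| ≤ a) →
      (∀ i, |x.2 i - p.2 i| ≤ a) → x ∈ S) :
    ∃ τ : ℝ, 0 < τ ∧
      Convex ℝ {z : Fin k → ℝ | ENNReal.ofReal τ ≤ volume {u : Fin d → ℝ | (u, z) ∈ S}} ∧
      IsCompact {z : Fin k → ℝ | ENNReal.ofReal τ ≤ volume {u : Fin d → ℝ | (u, z) ∈ S}} ∧
      (interior {z : Fin k → ℝ | ENNReal.ofReal τ ≤
        volume {u : Fin d → ℝ | (u, z) ∈ S}}).Nonempty ∧
      (∀ z, ENNReal.ofReal τ ≤ volume {u : Fin d → ℝ | (u, z) ∈ S} → ∀ i, |z i| ≤ 1) ∧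
      (volume S).toReal ≤ 20 * √k * τ * (volume {z : Fin k → ℝ | ENNReal.ofReal τ ≤
        volume {u : Fin d → ℝ | (u, z) ∈ S}}).toReal ∧
      (volume {z : Fin k → ℝ | ENNReal.ofReal τ ≤
        volume {u : Fin d → ℝ | (u, z) ∈ S}}).toReal ≤ 2 ^ k ∧
      (∀ z, volume {u : Fin d → ℝ | (u, z) ∈ S} ≤
        ENNReal.ofReal (40 * √k * (2 * d / a) ^ k * τ)) ∧ τ ≤ 2 ^ d := by
  have hd0 : (0 : ℝ) < d := by exact_mod_cast hd
  have hk0 : (0 : ℝ) < k := by exact_mod_cast hk1
  have hLC := sl_LC hc hk hbox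
  have hKt : volume S ≠ ∞ := hk.measure_lt_top.ne
  have hKpos : volume S ≠ 0 := by
    have hsub : Metric.closedBall p a ⊆ S := by
      intro x hx
      have hx' := Metric.mem_closedBall.1 hx
      rw [Prod.dist_eq, max_le_iff] at hx'
      apply hcube
      · intro i
        have := (dist_le_pi_dist x.1 p.1 i).trans hx'.1
        rwa [Real.dist_eq] at this
      · intro i
        have := (dist_le_pi_dist x.2 p.2 i).trans hx'.2
        rwa [Real.dist_eq] at this
    intro h0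
    have h1 : volume (Metric.closedBall p a) = 0 := measure_mono_null hsub h0
    have h2 : 0 < volume (Metric.closedBall p a) := Metric.measure_closedBall_pos _ _ ha
    exact h2.ne' h1
  have hint0 : ∫⁻ z, sl S z ≠ 0 := by rw [← vol_eq hk]; exact hKpos
  obtain ⟨τ, hτ, hτvol⟩ := level_lc hk1 hLC hint0
  rw [← vol_eq hk] at hτvol
  obtain ⟨B, hB⟩ : ∃ B : Set (Fin k → ℝ), B = {z : Fin k → ℝ | ENNReal.ofReal τ ≤ sl S z} :=
    ⟨_, rfl⟩
  have hB' : {z : Fin k → ℝ | ENNReal.ofReal τ ≤ volume {u : Fin d → ℝ | (u, z) ∈ S}} = B := by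
    rw [hB]; rfl
  have hτe : 0 < ENNReal.ofReal τ := ENNReal.ofReal_pos.2 hτ
  have hBconv : Convex ℝ B := by
    intro x hx y hy α β hα hβ hαβ
    have h1 : α = 1 - β := by linarith
    rw [h1]
    rw [hB] at hx hy ⊢
    exact hLC.quasi hβ (by linarith) x y hx hy
  have hBcl : IsClosed B := by rw [hB]; exact hLC.closed _ hτe
  have hBbox : ∀ z ∈ B, ∀ i, |z i| ≤ 1 := by
    intro z hz
    rw [hB] at hz
    exact hLC.box z (fun h0 => by
      have h1 : ENNReal.ofReal τ ≤ sl S z := hz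
      rw [h0] at h1
      exact absurd hτe (by simpa using h1))
  have hBsub : B ⊆ Set.univ.pi fun _ : Fin k => Set.Icc (-1 : ℝ) 1 := by
    intro z hz i _
    exact abs_le.1 (hBbox z hz i)
  have hBcpt : IsCompact B :=
    IsCompact.of_isClosed_subset (isCompact_univ_pi fun _ => isCompact_Icc) hBcl hBsub
  have hBvol : volume B ≤ ENNReal.ofReal (2 ^ k) := by
    refine (measure_mono hBsub).trans (le_of_eq ?_)
    rw [Set.pi_univ_Icc, Real.volume_Icc_pi]
    simp only [Finset.prod_const, Finset.card_univ, Fintype.card_fin]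
    rw [← ENNReal.ofReal_pow (by norm_num)]
    norm_num
  have hBt : volume B ≠ ∞ := hBcpt.measure_lt_top.ne
  have hτvol' : volume S ≤ ENNReal.ofReal (20 * √k * τ) * volume B := by rw [hB]; exact hτvol
  have hB0 : volume B ≠ 0 := by
    intro h0
    rw [h0, mul_zero] at hτvol'
    exact hKpos (le_antisymm hτvol' (zero_le))
  have hBint : (interior B).Nonempty := by
    rw [Set.nonempty_iff_ne_empty]
    intro h0
    have h1 : frontier B = B := by
      rw [hBcl.frontier_eq, h0, Set.sdiff_empty]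
    have h2 := hBconv.addHaar_frontier (volume : Measure (Fin k → ℝ))
    rw [h1] at h2
    exact hB0 h2
  refine ⟨τ, hτ, by rw [hB']; exact hBconv, by rw [hB']; exact hBcpt, by rw [hB']; exact hBint,
    fun z hz => hBbox z (by rw [hB]; exact hz), ?_, ?_, ?_, ?_⟩
  · rw [hB']
    have := ENNReal.toReal_mono (ENNReal.mul_ne_top ENNReal.ofReal_ne_top hBt) hτvol'
    rwa [ENNReal.toReal_mul, ENNReal.toReal_ofReal (by positivity)] at this
  · rw [hB']
    exact ENNReal.toReal_le_of_le_ofReal (by positivity) hBvol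
  · intro z
    have h1 := fat hd hc hk ha p hcube z
    have h2 : volume S ≤ ENNReal.ofReal (20 * √k * τ * 2 ^ k) := by
      refine hτvol'.trans ?_
      rw [show ENNReal.ofReal (20 * √k * τ * 2 ^ k) = ENNReal.ofReal (20 * √k * τ) *
        ENNReal.ofReal (2 ^ k) from ENNReal.ofReal_mul (by positivity)]
      gcongr
    have h3 := h1.trans h2
    have h4 : ENNReal.ofReal ((a / d) ^ k / 2) ≠ 0 := by
      rw [Ne, ENNReal.ofReal_eq_zero, not_le]
      positivity
    change sl S z ≤ _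
    have h5 : sl S z ≤ ENNReal.ofReal (20 * √k * τ * 2 ^ k) / ENNReal.ofReal ((a / d) ^ k / 2) := by
      rw [ENNReal.le_div_iff_mul_le (Or.inl h4) (Or.inl ENNReal.ofReal_ne_top), mul_comm]
      exact h3
    refine h5.trans (le_of_eq ?_)
    rw [← ENNReal.ofReal_div_of_pos (by positivity)]
    congr 1
    rw [div_pow, div_pow, mul_pow]
    field_simp
    ring
  · obtain ⟨z, hz⟩ := hBint
    have hz' := interior_subset hz
    rw [hB] at hz'
    have h1 : {u : Fin d → ℝ | (u, z) ∈ S} ⊆ (Set.univ.pi fun _ : Fin d => Set.Icc (-1 : ℝ) 1) := by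
      intro u hu i _
      exact abs_le.1 ((hbox _ hu).1 i)
    have h2 : ENNReal.ofReal τ ≤ ENNReal.ofReal (2 ^ d) := by
      refine (le_trans hz' (measure_mono h1)).trans (le_of_eq ?_)
      rw [Set.pi_univ_Icc, Real.volume_Icc_pi]
      simp only [Finset.prod_const, Finset.card_univ, Fintype.card_fin]
      rw [← ENNReal.ofReal_pow (by norm_num)]
      norm_num
    exact (ENNReal.ofReal_le_ofReal_iff (by positivity)).1 h2

/-! ### block matrices -/

/-- the identity on the first block and `T` on the second -/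
def blk (d k : ℕ) (T : Matrix (Fin k) (Fin k) ℝ) : Matrix (Fin (d + k)) (Fin (d + k)) ℝ :=
  Matrix.reindex finSumFinEquiv finSumFinEquiv (Matrix.fromBlocks 1 0 0 T)

theorem blk_det (d k : ℕ) (T : Matrix (Fin k) (Fin k) ℝ) : (blk d k T).det = T.det := by
  unfold blk
  rw [Matrix.det_reindex_self, Matrix.det_fromBlocks_zero₂₁, Matrix.det_one, one_mul]

theorem blk_mulVec {d k : ℕ} (T : Matrix (Fin k) (Fin k) ℝ) (a : Fin d → ℝ) (b : Fin k → ℝ) :
    (blk d k T).mulVec (Fin.append a b) = Fin.append a (T.mulVec b) := by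
  ext i
  refine Fin.addCases (fun i => ?_) (fun i => ?_) i
  · simp [blk, Matrix.mulVec, dotProduct, Fin.sum_univ_add, Matrix.one_apply]
  · simp [blk, Matrix.mulVec, dotProduct, Fin.sum_univ_add]

/-- the preimage of `S` under the change of variables `z = T z' + v` in the second block -/
def pull {d k : ℕ} (S : Set ((Fin d → ℝ) × (Fin k → ℝ))) (T : Matrix (Fin k) (Fin k) ℝ)
    (v : Fin k → ℝ) : Set ((Fin d → ℝ) × (Fin k → ℝ)) :=
  {p | (p.1, T.mulVec p.2 + v) ∈ S}

theorem pull_convex {d k : ℕ} {S : Set ((Fin d → ℝ) × (Fin k → ℝ))} (hc : Convex ℝ S)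
    (T : Matrix (Fin k) (Fin k) ℝ) (v : Fin k → ℝ) : Convex ℝ (pull S T v) := by
  intro x hx y hy a b ha hb hab
  have h1 := hc hx hy ha hb hab
  change ((a • x + b • y).1, T.mulVec (a • x + b • y).2 + v) ∈ S
  have h2 : ((a • x + b • y).1, T.mulVec (a • x + b • y).2 + v) =
      a • (x.1, T.mulVec x.2 + v) + b • (y.1, T.mulVec y.2 + v) := by
    refine Prod.ext rfl ?_
    simp only [Prod.snd_add, Prod.smul_snd]
    rw [Matrix.mulVec_add, Matrix.mulVec_smul, Matrix.mulVec_smul]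
    have h3 : v = a • v + b • v := by rw [← add_smul, hab, one_smul]
    nth_rewrite 1 [h3]
    rw [smul_add, smul_add]
    abel
  rw [h2]
  exact h1

theorem pull_compact {d k : ℕ} {S : Set ((Fin d → ℝ) × (Fin k → ℝ))} (hk : IsCompact S)
    {T : Matrix (Fin k) (Fin k) ℝ} (hT : T.det ≠ 0) (v : Fin k → ℝ) : IsCompact (pull S T v) := by
  have hTu : IsUnit T.det := isUnit_iff_ne_zero.2 hT
  have h1 : pull S T v = (fun p : (Fin d → ℝ) × (Fin k → ℝ) =>
      (p.1, T⁻¹.mulVec (p.2 - v))) '' S := by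
    ext x
    simp only [mem_image]
    constructor
    · intro h
      refine ⟨_, h, ?_⟩
      refine Prod.ext rfl ?_
      simp only
      rw [add_sub_cancel_right, Matrix.mulVec_mulVec, Matrix.nonsing_inv_mul _ hTu,
        Matrix.one_mulVec]
    · rintro ⟨y, hy, rfl⟩
      change (y.1, T.mulVec _ + v) ∈ S
      simp only
      rw [Matrix.mulVec_mulVec, Matrix.mul_nonsing_inv _ hTu, Matrix.one_mulVec, sub_add_cancel]
      exact hy
  rw [h1]
  refine hk.image ?_
  refine continuous_fst.prodMk ?_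
  exact (Continuous.matrix_mulVec continuous_const (by fun_prop))

theorem thick_pull {d k : ℕ} {S : Set ((Fin d → ℝ) × (Fin k → ℝ))} {w : ℝ}
    (T : Matrix (Fin k) (Fin k) ℝ) (v : Fin k → ℝ) (p : (Fin d → ℝ) × (Fin k → ℝ)) :
    p ∈ thick (pull S T v) w ↔ (p.1, T.mulVec p.2 + v) ∈ thick S w := Iff.rfl

/-- entries of a normalising matrix -/
theorem norm_entries {k : ℕ} {B : Set (Fin k → ℝ)} {T : Matrix (Fin k) (Fin k) ℝ}
    {v : Fin k → ℝ} (hk : 1 ≤ k)
    (h1 : ∀ x : Fin k → ℝ, (∀ i, 0 ≤ x i ∧ x i ≤ 1 / (k : ℝ)) → T.mulVec x + v ∈ B)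
    (hB : ∀ z ∈ B, ∀ i, |z i| ≤ 1) : ∀ i j, |T i j| ≤ 2 * k := by
  intro i j
  have hk0 : (0 : ℝ) < k := by exact_mod_cast hk
  have h2 := hB _ (h1 0 (fun i => ⟨le_refl _, by simp⟩)) i
  have h3 := hB _ (h1 (Pi.single j (1 / (k : ℝ))) (fun l => by
    rcases eq_or_ne l j with h | h
    · rw [h, Pi.single_eq_same]
      exact ⟨by positivity, le_refl _⟩
    · rw [Pi.single_eq_of_ne h]
      exact ⟨le_refl _, by positivity⟩)) i
  rw [Matrix.mulVec_zero, zero_add] at h2
  rw [Pi.add_apply, Matrix.mulVec_single] at h3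
  simp only [Matrix.col_apply, Pi.smul_apply, MulOpposite.smul_eq_mul_unop,
    MulOpposite.unop_op] at h3
  have h4 : |T i j * (1 / k)| ≤ 2 := by
    have h5 : T i j * (1 / k) = (T i j * (1 / k) + v i) - v i := by ring
    rw [h5]
    exact (abs_sub _ _).trans (by linarith)
  rw [abs_mul, abs_of_pos (by positivity : (0 : ℝ) < 1 / k), mul_one_div, div_le_iff₀ hk0] at h4
  exact h4

/-- volume of the pulled back set -/
theorem vol_affine {n : ℕ} {K : Set (Fin n → ℝ)} {T : Matrix (Fin n) (Fin n) ℝ} (hT : T.det ≠ 0)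
    (v : Fin n → ℝ) :
    (volume K).toReal = |T.det| * (volume {x : Fin n → ℝ | T.mulVec x + v ∈ K}).toReal := by
  have hTu : IsUnit T.det := isUnit_iff_ne_zero.2 hT
  set K₀ : Set (Fin n → ℝ) := {x | T.mulVec x + v ∈ K} with hK₀
  have e1 : K = (fun x => x + v) '' ((Matrix.toLin' T) '' K₀) := by
    ext y
    simp only [mem_image]
    constructor
    · intro hy
      refine ⟨y - v, ⟨T⁻¹.mulVec (y - v), ?_, ?_⟩, by abel⟩
      · change T.mulVec _ + v ∈ K
        rw [Matrix.mulVec_mulVec, Matrix.mul_nonsing_inv _ hTu, Matrix.one_mulVec, sub_add_cancel]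
        exact hy
      · rw [Matrix.toLin'_apply, Matrix.mulVec_mulVec, Matrix.mul_nonsing_inv _ hTu,
          Matrix.one_mulVec]
    · rintro ⟨_, ⟨x, hx, rfl⟩, rfl⟩
      exact hx
  have e2 : volume K = ENNReal.ofReal |T.det| * volume K₀ := by
    rw [e1]
    have : (fun x : Fin n → ℝ => x + v) '' ((Matrix.toLin' T) '' K₀) =
        (fun x : Fin n → ℝ => x + (-v)) ⁻¹' ((Matrix.toLin' T) '' K₀) := by
      ext x; simp
    rw [this, measure_preimage_add_right, Measure.addHaar_image_linearMap]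
    rw [LinearMap.det_toLin']
  rw [e2, ENNReal.toReal_mul, ENNReal.toReal_ofReal (abs_nonneg _)]

end Vale.Agent.P230
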