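import Vale.Agent.P230.Iter

open MeasureTheory Set
open scoped ENNReal

namespace Vale.Agent.P230

/-- the iteration, with information on the kernel -/
theorem iterate2 {D M : ℕ} (hD : 1 ≤ D) (hM : 1 ≤ M) : ∀ (s : ℕ) {X G : Type}
    [AddCommGroup X] [AddCommGroup G] [Finite G] (ψ : X →+ G) (_ : Function.Surjective ψ)
    (Z : Set (Fin s → ℤ)) (_ : StepOK D M s Z) (A : Set (X × (Fin s → ℤ))) {β : ℝ}
    (_ : 0 ≤ β) (_ : ∀ z ∈ Z, unc ψ {x | (x, z) ∈ A} ≤ β),
    ∃ (G' : Type) (_ : AddCommGroup G') (_ : Finite G') (ψ' : X × (Fin s → ℤ) →+ G'),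
      Function.Surjective ψ' ∧ Nat.card G' = Nat.card G * D ^ s ∧
      unc ψ' A ≤ (M * β) ^ (2 ^ s) ∧
      (∀ x, ψ x = 0 → ψ' (x, 0) = 0) ∧
      (∀ x z, ψ' (x, z) = 0 → (∀ i, |z i| < (D : ℤ)) → z = 0 ∧ ψ x = 0) := by
  intro s
  induction s with
  | zero =>
    intro X G _ _ _ ψ hψ Z hZ A β hβ0 hβ
    obtain ⟨z, hz⟩ := hZ
    refine ⟨G, inferInstance, inferInstance, ψ.comp (AddMonoidHom.fst X (Fin 0 → ℤ)), ?_, ?_, ?_,
      ?_, ?_⟩
    · intro g
      obtain ⟨x, hx⟩ := hψ g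
      exact ⟨(x, z), by simpa using hx⟩
    · simp
    · have h1 := hβ z hz
      have h2 : unc (ψ.comp (AddMonoidHom.fst X (Fin 0 → ℤ))) A = unc ψ {x | (x, z) ∈ A} := by
        unfold unc
        congr 2
        apply Nat.card_congr
        refine Equiv.subtypeEquivRight fun g => ?_
        constructor
        · intro h x hx
          exact h (x, z) hx
        · rintro h ⟨x, y⟩ hx
          have : y = z := Subsingleton.elim _ _
          subst this
          exact h x hx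
      rw [h2, pow_zero, pow_one]
      have hM' : (1 : ℝ) ≤ M := by exact_mod_cast hM
      nlinarith
    · intro x hx
      simpa using hx
    · intro x z hx _
      exact ⟨Subsingleton.elim _ _, by simpa using hx⟩
  | succ s ih =>
    intro X G _ _ _ ψ hψ Z hZ A β hβ0 hβ
    obtain ⟨Z', hZ', hfin, hcard, hfib⟩ := hZ
    have : Finite Z' := hfin
    have hA1 : ∀ i : Z', ∃ k₀ : ℤ, ∀ j : ℕ, j < 2 * D →
        unc ψ {x | (x, k₀ + (j : ℤ)) ∈ IterAux.slice A (i : Fin s → ℤ)} ≤ β := by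
      rintro ⟨z, hz⟩
      obtain ⟨k₀, hk₀⟩ := hfib z hz
      refine ⟨k₀, fun j hj => ?_⟩
      have h1 := hβ _ (hk₀ j hj)
      have e : {x : X | (x, k₀ + (j : ℤ)) ∈ IterAux.slice A z} =
          {x : X | (x, (Fin.cons (k₀ + (j : ℤ)) z : Fin (s + 1) → ℤ)) ∈ A} := rfl
      rw [e]
      exact h1
    obtain ⟨G₁, _, _, ψ₁, hψ₁, hG₁, hu₁, hk₁, hk₁'⟩ := squaring2 ψ hψ hD
      (fun z : Z' => IterAux.slice A (z : Fin s → ℤ)) hA1
    have hβ1 : 0 ≤ (M : ℝ) * β ^ 2 := by positivity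
    obtain ⟨G₂, _, _, ψ₂, hψ₂, hG₂, hu₂, hk₂, hk₂'⟩ := ih ψ₁ hψ₁ Z' hZ'
      ((IterAux.split s X).symm ⁻¹' A) hβ1 (by
        intro z hz
        have h2 := hu₁ ⟨z, hz⟩
        have e : {x : X × ℤ | (x, z) ∈ (IterAux.split s X).symm ⁻¹' A} =
            IterAux.slice A z := rfl
        rw [e]
        refine le_trans h2 ?_
        have : (Nat.card Z' : ℝ) ≤ M := by
          rw [Nat.card_coe_set_eq]
          exact_mod_cast hcard
        exact mul_le_mul_of_nonneg_right this (by positivity))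
    refine ⟨G₂, inferInstance, inferInstance,
      ψ₂.comp ((IterAux.split s X : X × (Fin (s + 1) → ℤ) ≃+ (X × ℤ) × (Fin s → ℤ)) :
        X × (Fin (s + 1) → ℤ) →+ (X × ℤ) × (Fin s → ℤ)), ?_, ?_, ?_, ?_, ?_⟩
    · intro g
      obtain ⟨y, hy⟩ := hψ₂ g
      exact ⟨(IterAux.split s X).symm y, by simpa using hy⟩
    · rw [hG₂, hG₁]
      ring
    · rw [IterAux.unc_comp_equiv]
      refine le_trans hu₂ (le_of_eq ?_)
      rw [pow_succ' 2 s, pow_mul]
      congr 1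
      ring
    · intro x hx
      exact hk₂ _ (hk₁ x hx)
    · intro x z hxz hz
      obtain ⟨h1, h2⟩ := hk₂' (x, z 0) (Fin.tail z) hxz (fun i => hz i.succ)
      obtain ⟨h3, h4⟩ := hk₁' x (z 0) h2 (hz 0)
      refine ⟨?_, h4⟩
      funext i
      refine Fin.cases h3 (fun i => ?_) i
      exact congrFun h1 i

end Vale.Agent.P230
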