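import Mathlib

namespace Vale.Agent.P230

/-- the class `g` is rich: it contains `m` points of `A` with affinely independent reductions
modulo `q` -/
def Rich (q m : ℕ) {k : ℕ} {G : Type} (ψ : (Fin k → ℤ) → G) (A : Set (Fin k → ℤ)) (g : G) : Prop :=
  ∃ y : Fin m → Fin k → ℤ, (∀ j, y j ∈ A ∧ ψ (y j) = g) ∧
    AffineIndependent (ZMod q) (fun j l => (y j l : ZMod q))

end Vale.Agent.P230
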