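import Vale.Agent.P230.Defs
import Vale.Agent.P230.Prob
import Vale.Agent.P230.Circ
import Vale.Agent.P230.Pois0

/-! P230 [PM]: many affinely independent points in a random class (thinning). -/

open MeasureTheory Set
open scoped ENNReal NNReal Pointwise

namespace Vale.Agent.P230

namespace Pois2Aux

theorem Y_mono {q d : ℕ} [Fact q.Prime] (j : ℕ) {A A' : Finset (Fin d → ZMod q)} (h : A' ⊆ A) :
    Y j A' ≤ Y j A := by
  unfold Y
  refine Nat.card_le_card_of_injective (fun p => ⟨p.1, p.2.1, p.2.2.1,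
    fun i => h (p.2.2.2.1 i), h p.2.2.2.2⟩) ?_
  intro p p' hp
  exact Subtype.ext (congrArg (fun x => x.1) hp)

theorem half_exp {p : ℝ} (hp0 : 0 ≤ p) (hp1 : p ≤ 1) :
    (1 + Real.exp (-p)) / 2 ≤ Real.exp (-p / 4) := by
  have h1 : Real.exp (-p) ≤ 1 - p / 2 := by
    rw [Real.exp_neg, inv_le_comm₀ (Real.exp_pos p) (by linarith)]
    refine le_trans ?_ (Real.add_one_le_exp p)
    rw [inv_le_comm₀ (by linarith) (by linarith), inv_le_iff_one_le_mul₀ (by linarith)]
    nlinarith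
  have h2 := Real.add_one_le_exp (-p / 4)
  linarith

/-- `1 / (number of omega)` times number of omega with `I ⊆ E ω` -/
theorem cnt {q : ℕ} [Fact q.Prime] {d s : ℕ} [DecidableEq (Fin d → ZMod q)]
    (I : Finset (Fin d → ZMod q))
    (hI : AffineIndependent (ZMod q) ((↑) : I → (Fin d → ZMod q)))
    (F : Finset (Matrix (Fin s) (Fin d) (ZMod q) × (Fin s → ZMod q)))
    (hF : ∀ ω, ω ∈ F ↔ ∀ a ∈ I, ω.1.mulVec a = ω.2) :
    (F.card : ℝ) = (q : ℝ) ^ (s * d) * (q : ℝ) ^ s * (1 / (q : ℝ) ^ s) ^ I.card := by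
  have hq : 0 < q := (Fact.out : q.Prime).pos
  have hq' : (0 : ℝ) < q := by exact_mod_cast hq
  have h1 := prob_indep (s := s) I hI
  have h2 : Nat.card {p : Matrix (Fin s) (Fin d) (ZMod q) × (Fin s → ZMod q) //
      ∀ a ∈ I, p.1.mulVec a = p.2} = F.card := Nat.subtype_card _ hF
  rw [h2] at h1
  have h3 : (F.card : ℝ) * (q : ℝ) ^ (s * I.card) = (q : ℝ) ^ (s * d) * (q : ℝ) ^ s := by
    exact_mod_cast h1
  rw [← h3, div_pow, one_pow, pow_mul]
  field_simp

/-- the thinning estimate -/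
theorem thin {q : ℕ} [Fact q.Prime] {d s M : ℕ} (hM : Even M)
    (A : Finset (Fin d → ZMod q)) {t : ℝ} (ht : t = A.card / (q : ℝ) ^ s)
    (E : Matrix (Fin s) (Fin d) (ZMod q) × (Fin s → ZMod q) → Finset (Fin d → ZMod q))
    (hE : ∀ ω a, a ∈ E ω ↔ a ∈ A ∧ ω.1.mulVec a = ω.2) :
    ∑ ω, (1 / 2 : ℝ) ^ (E ω).card ≤ (q : ℝ) ^ (s * d) * (q : ℝ) ^ s *
      (Real.exp (-t / 4) + t ^ (M + 1) / (M + 1).factorial +
        2 * Real.exp t * ∑ j ∈ Finset.Icc 2 M, (Y j A : ℝ) / ((q : ℝ) ^ s) ^ j / j.factorial) := by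
  classical
  have hq : 0 < q := (Fact.out : q.Prime).pos
  have hq' : (0 : ℝ) < q := by exact_mod_cast hq
  have hqs : (0 : ℝ) < (q : ℝ) ^ s := by positivity
  set Q : ℝ := (q : ℝ) ^ (s * d) * (q : ℝ) ^ s with hQ
  have hQ0 : 0 < Q := by positivity
  set p : ℝ := 1 / (q : ℝ) ^ s with hp
  have hp0 : 0 ≤ p := by positivity
  have hp1 : p ≤ 1 := by
    rw [hp, div_le_one hqs]
    exact one_le_pow₀ (by exact_mod_cast hq)
  have htp : t = A.card * p := by rw [ht, hp]; ring
  have ht0 : 0 ≤ t := by rw [htp]; positivity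
  set Sg : ℝ := ∑ j ∈ Finset.Icc 2 M, (Y j A : ℝ) / ((q : ℝ) ^ s) ^ j / j.factorial with hSg
  have hSg0 : 0 ≤ Sg := Finset.sum_nonneg fun _ _ => by positivity
  -- exchanging the sums
  have hswap : ∑ ω, (2 : ℝ) ^ A.card * (1 / 2 : ℝ) ^ (E ω).card =
      ∑ A' ∈ A.powerset, ((Finset.univ.filter (fun ω :
        Matrix (Fin s) (Fin d) (ZMod q) × (Fin s → ZMod q) =>
          ∀ a ∈ A', ω.1.mulVec a ≠ ω.2)).card : ℝ) := by
    have h1 : ∀ ω, (2 : ℝ) ^ A.card * (1 / 2 : ℝ) ^ (E ω).card =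
        ∑ A' ∈ A.powerset, if (∀ a ∈ A', ω.1.mulVec a ≠ ω.2) then (1 : ℝ) else 0 := by
      intro ω
      have hEA : E ω ⊆ A := fun a ha => ((hE ω a).1 ha).1
      rw [Finset.sum_ite, Finset.sum_const_zero, add_zero, Finset.sum_const, nsmul_eq_mul, mul_one]
      have h2 : A.powerset.filter (fun A' => ∀ a ∈ A', ω.1.mulVec a ≠ ω.2) =
          (A \ E ω).powerset := by
        ext A'
        simp only [Finset.mem_filter, Finset.mem_powerset]
        constructor
        · rintro ⟨h3, h4⟩ a ha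
          rw [Finset.mem_sdiff]
          exact ⟨h3 ha, fun h5 => h4 a ha ((hE ω a).1 h5).2⟩
        · intro h3
          refine ⟨fun a ha => (Finset.mem_sdiff.1 (h3 ha)).1, fun a ha h5 => ?_⟩
          have h6 := Finset.mem_sdiff.1 (h3 ha)
          exact h6.2 ((hE ω a).2 ⟨h6.1, h5⟩)
      rw [h2, Finset.card_powerset]
      push_cast
      have h3 : (A \ E ω).card + (E ω).card = A.card := Finset.card_sdiff_add_card_eq_card hEA
      rw [← h3, pow_add, mul_assoc, ← mul_pow]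
      norm_num
    simp_rw [h1]
    rw [Finset.sum_comm]
    refine Finset.sum_congr rfl fun A' _ => ?_
    rw [Finset.sum_ite, Finset.sum_const_zero, add_zero, Finset.sum_const, nsmul_eq_mul, mul_one]
  -- each term
  have hterm : ∀ A' ∈ A.powerset, ((Finset.univ.filter (fun ω :
        Matrix (Fin s) (Fin d) (ZMod q) × (Fin s → ZMod q) =>
          ∀ a ∈ A', ω.1.mulVec a ≠ ω.2)).card : ℝ) ≤
      Q * (Real.exp (-p) ^ A'.card + (t ^ (M + 1) / (M + 1).factorial +
        2 * Real.exp t * Sg)) := by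
    intro A' hA'
    rw [Finset.mem_powerset] at hA'
    have h0 := poisson0 (q := q) (d := d) (s := s) hM A' (t := A'.card * p)
      (by rw [hp]; ring)
    have h2 : Nat.card {p : Matrix (Fin s) (Fin d) (ZMod q) × (Fin s → ZMod q) //
        ∀ a ∈ A', p.1.mulVec a ≠ p.2} = (Finset.univ.filter (fun ω :
        Matrix (Fin s) (Fin d) (ZMod q) × (Fin s → ZMod q) =>
          ∀ a ∈ A', ω.1.mulVec a ≠ ω.2)).card := by
      refine Nat.subtype_card _ fun ω => ?_
      simp
    rw [h2, div_le_iff₀ hQ0, mul_comm] at h0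
    refine h0.trans (mul_le_mul_of_nonneg_left ?_ hQ0.le)
    have hc : (A'.card : ℝ) * p ≤ t := by
      rw [htp]
      refine mul_le_mul_of_nonneg_right ?_ hp0
      exact_mod_cast Finset.card_le_card hA'
    have hc0 : 0 ≤ (A'.card : ℝ) * p := by positivity
    have e1 : Real.exp (-((A'.card : ℝ) * p)) = Real.exp (-p) ^ A'.card := by
      rw [← Real.exp_nat_mul]
      congr 1
      ring
    have e2 : ((A'.card : ℝ) * p) ^ (M + 1) / (M + 1).factorial ≤
        t ^ (M + 1) / (M + 1).factorial := by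
      refine div_le_div_of_nonneg_right ?_ (by positivity)
      exact pow_le_pow_left₀ hc0 hc _
    have e3 : ∑ j ∈ Finset.Icc 2 M, (Y j A' : ℝ) / ((q : ℝ) ^ s) ^ j / j.factorial ≤ Sg := by
      refine Finset.sum_le_sum fun j _ => ?_
      have h3 : (Y j A' : ℝ) ≤ (Y j A : ℝ) := by exact_mod_cast Y_mono j hA'
      gcongr
    have e4 : Real.exp ((A'.card : ℝ) * p) ≤ Real.exp t := Real.exp_le_exp.2 hc
    have e5 : 2 * Real.exp ((A'.card : ℝ) * p) *
        ∑ j ∈ Finset.Icc 2 M, (Y j A' : ℝ) / ((q : ℝ) ^ s) ^ j / j.factorial ≤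
        2 * Real.exp t * Sg := by
      refine mul_le_mul ?_ e3 (Finset.sum_nonneg fun _ _ => by positivity) (by positivity)
      linarith
    rw [e1]
    linarith
  have hsum := Finset.sum_le_sum hterm
  rw [← hswap, ← Finset.mul_sum, ← Finset.mul_sum, Finset.sum_add_distrib, Finset.sum_const,
    nsmul_eq_mul, Finset.card_powerset] at hsum
  have hpow : ∑ A' ∈ A.powerset, Real.exp (-p) ^ A'.card = (Real.exp (-p) + 1) ^ A.card := by
    rw [← Finset.sum_pow_mul_eq_add_pow]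
    simp
  rw [hpow] at hsum
  have hexp : (Real.exp (-p) + 1) ^ A.card ≤ 2 ^ A.card * Real.exp (-t / 4) := by
    have h1 := half_exp hp0 hp1
    have h2 : Real.exp (-p) + 1 ≤ 2 * Real.exp (-p / 4) := by linarith
    calc (Real.exp (-p) + 1) ^ A.card ≤ (2 * Real.exp (-p / 4)) ^ A.card :=
          pow_le_pow_left₀ (by positivity) h2 _
      _ = 2 ^ A.card * Real.exp (-t / 4) := by
          rw [mul_pow, ← Real.exp_nat_mul, htp]
          congr 2
          ring
  have h2A : (0 : ℝ) < 2 ^ A.card := by positivity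
  have hfin : (2 : ℝ) ^ A.card * ∑ ω, (1 / 2 : ℝ) ^ (E ω).card ≤ 2 ^ A.card * (Q *
      (Real.exp (-t / 4) + t ^ (M + 1) / (M + 1).factorial + 2 * Real.exp t * Sg)) := by
    refine hsum.trans ?_
    push_cast
    calc Q * ((Real.exp (-p) + 1) ^ A.card +
          2 ^ A.card * (t ^ (M + 1) / (M + 1).factorial + 2 * Real.exp t * Sg))
        ≤ Q * (2 ^ A.card * Real.exp (-t / 4) +
          2 ^ A.card * (t ^ (M + 1) / (M + 1).factorial + 2 * Real.exp t * Sg)) := by
          refine mul_le_mul_of_nonneg_left ?_ hQ0.le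
          linarith
      _ = _ := by ring
  exact le_of_mul_le_mul_left hfin h2A

end Pois2Aux

open Pois2Aux in
theorem poisson_rich0 {q : ℕ} [Fact q.Prime] {d s M m : ℕ} (hM : Even M) (hm : m ≤ M + 1)
    (A : Finset (Fin d → ZMod q)) {t : ℝ} (ht : t = A.card / (q : ℝ) ^ s) :
    (Nat.card {p : Matrix (Fin s) (Fin d) (ZMod q) × (Fin s → ZMod q) //
      ¬ ∃ I : Finset (Fin d → ZMod q), I ⊆ A ∧ I.card = m ∧
        AffineIndependent (ZMod q) ((↑) : I → (Fin d → ZMod q)) ∧
        ∀ a ∈ I, p.1.mulVec a = p.2} : ℝ) / ((q : ℝ) ^ (s * d) * (q : ℝ) ^ s) ≤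
      2 ^ m * (Real.exp (-t / 4) + t ^ (M + 1) / (M + 1).factorial +
        3 * Real.exp t * ∑ j ∈ Finset.Icc 2 M, (Y j A : ℝ) / ((q : ℝ) ^ s) ^ j / j.factorial) := by
  classical
  have hq : 0 < q := (Fact.out : q.Prime).pos
  have hq' : (0 : ℝ) < q := by exact_mod_cast hq
  have hqs : (0 : ℝ) < (q : ℝ) ^ s := by positivity
  set Q : ℝ := (q : ℝ) ^ (s * d) * (q : ℝ) ^ s with hQ
  have hQ0 : 0 < Q := by positivity
  set p : ℝ := 1 / (q : ℝ) ^ s with hp
  have hp0 : 0 ≤ p := by positivity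
  have htp : t = A.card * p := by rw [ht, hp]; ring
  have ht0 : 0 ≤ t := by rw [htp]; positivity
  set Sg : ℝ := ∑ j ∈ Finset.Icc 2 M, (Y j A : ℝ) / ((q : ℝ) ^ s) ^ j / j.factorial with hSg
  have hSg0 : 0 ≤ Sg := Finset.sum_nonneg fun _ _ => by positivity
  let Ω := Matrix (Fin s) (Fin d) (ZMod q) × (Fin s → ZMod q)
  let E : Ω → Finset (Fin d → ZMod q) := fun ω => A.filter (fun a => ω.1.mulVec a = ω.2)
  have hE : ∀ (ω : Ω) a, a ∈ E ω ↔ a ∈ A ∧ ω.1.mulVec a = ω.2 := by
    intro ω a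
    exact Finset.mem_filter
  have hthin := thin hM A ht E hE
  rw [← hQ, ← hSg] at hthin
  -- circuits with independent base
  have hX := fun j : ℕ => CircAux.card_sub (fun x : Finset (Fin d → ZMod q) × (Fin d → ZMod q) =>
    x.1 ⊆ A ∧ x.1.card = j ∧ x.2 ∈ A ∧ IsCirc x.1 x.2)
  choose CF hCF hCFc using hX
  let P : Finset (Fin d → ZMod q) → Prop := fun I =>
    AffineIndependent (ZMod q) ((↑) : I → (Fin d → ZMod q))
  obtain ⟨Bad, hBad, hBadc⟩ := CircAux.card_sub (fun p : Ω =>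
      ¬ ∃ I : Finset (Fin d → ZMod q), I ⊆ A ∧ I.card = m ∧
        AffineIndependent (ZMod q) ((↑) : I → (Fin d → ZMod q)) ∧
        ∀ a ∈ I, p.1.mulVec a = p.2)
  rw [hBadc]
  have hcover : Bad ⊆ (Finset.univ.filter (fun ω : Ω => (E ω).card < m)) ∪
      (Finset.Icc 2 M).biUnion (fun j => ((CF j).filter (fun x => P x.1)).biUnion
        (fun x => Finset.univ.filter (fun ω : Ω => ∀ a ∈ x.1, ω.1.mulVec a = ω.2))) := by
    intro ω hω
    have hω' := (hBad ω).1 hω
    rw [Finset.mem_union]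
    -- a maximal independent subset
    obtain ⟨J, hJmem, hJmax⟩ := Finset.exists_max_image ((E ω).powerset.filter P) Finset.card
      ⟨∅, Finset.mem_filter.2 ⟨Finset.empty_mem_powerset _, affineIndependent_of_subsingleton _ _⟩⟩
    rw [Finset.mem_filter, Finset.mem_powerset] at hJmem
    obtain ⟨hJE, hJP⟩ := hJmem
    have hJA : J ⊆ A := fun a ha => ((hE ω a).1 (hJE ha)).1
    have hJm : J.card < m := by
      by_contra hcon
      push Not at hcon
      obtain ⟨I, hIJ, hIc⟩ := Finset.exists_subset_card_eq hcon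
      refine hω' ⟨I, hIJ.trans hJA, hIc, ?_, fun a ha => ((hE ω a).1 (hJE (hIJ ha))).2⟩
      exact AffineIndependent.mono (s := (I : Set (Fin d → ZMod q)))
        (t := (J : Set (Fin d → ZMod q))) hJP (by exact_mod_cast hIJ)
    by_cases hEJ : E ω ⊆ J
    · left
      rw [Finset.mem_filter]
      exact ⟨Finset.mem_univ _, lt_of_le_of_lt (Finset.card_le_card hEJ) hJm⟩
    · right
      rw [Finset.not_subset] at hEJ
      obtain ⟨e, heE, heJ⟩ := hEJ
      have hdep : ¬ AffineIndependent (ZMod q)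
          (Subtype.val : {x // x ∈ insert e J} → (Fin d → ZMod q)) := by
        intro hind
        have h1 := hJmax (insert e J) (Finset.mem_filter.2
          ⟨Finset.mem_powerset.2 (Finset.insert_subset heE hJE), hind⟩)
        rw [Finset.card_insert_of_notMem heJ] at h1
        omega
      obtain ⟨J', R, hJ'J, _, heJ', hJ'2, hc, _, hlam⟩ :=
        CircAux.ext_extract (K := ZMod q) J e heJ hJP hdep
      rw [Finset.mem_biUnion]
      refine ⟨J'.card, Finset.mem_Icc.2 ⟨hJ'2, by omega⟩, ?_⟩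
      rw [Finset.mem_biUnion]
      refine ⟨(J', e), ?_, ?_⟩
      · rw [Finset.mem_filter]
        refine ⟨(hCF _ _).2 ⟨hJ'J.trans hJA, rfl, ((hE ω e).1 heE).1, heJ', hlam⟩, ?_⟩
        exact AffineIndependent.mono (s := (J' : Set (Fin d → ZMod q)))
          (t := (J : Set (Fin d → ZMod q))) hJP (by exact_mod_cast hJ'J)
      · rw [Finset.mem_filter]
        exact ⟨Finset.mem_univ _, fun a ha => ((hE ω a).1 (hJE (hJ'J ha))).2⟩
  -- first event
  have h1 : ((Finset.univ.filter (fun ω : Ω => (E ω).card < m)).card : ℝ) ≤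
      2 ^ m * (Q * (Real.exp (-t / 4) + t ^ (M + 1) / (M + 1).factorial +
        2 * Real.exp t * Sg)) := by
    refine le_trans ?_ (mul_le_mul_of_nonneg_left hthin (by positivity))
    rw [Finset.mul_sum]
    calc ((Finset.univ.filter (fun ω : Ω => (E ω).card < m)).card : ℝ)
        = ∑ ω ∈ Finset.univ.filter (fun ω : Ω => (E ω).card < m), (1 : ℝ) := by
          rw [Finset.sum_const, nsmul_eq_mul, mul_one]
      _ ≤ ∑ ω ∈ Finset.univ.filter (fun ω : Ω => (E ω).card < m),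
            2 ^ m * (1 / 2 : ℝ) ^ (E ω).card := by
          refine Finset.sum_le_sum fun ω hω => ?_
          rw [Finset.mem_filter] at hω
          have h2 : (1 / 2 : ℝ) ^ m ≤ (1 / 2 : ℝ) ^ (E ω).card :=
            pow_le_pow_of_le_one (by norm_num) (by norm_num) hω.2.le
          calc (1 : ℝ) = 2 ^ m * (1 / 2 : ℝ) ^ m := by rw [← mul_pow]; norm_num
            _ ≤ _ := mul_le_mul_of_nonneg_left h2 (by positivity)
      _ ≤ ∑ ω, 2 ^ m * (1 / 2 : ℝ) ^ (E ω).card :=
          Finset.sum_le_sum_of_subset_of_nonneg (Finset.filter_subset _ _)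
            (fun _ _ _ => by positivity)
  -- second event
  have h2 : (((Finset.Icc 2 M).biUnion (fun j => ((CF j).filter (fun x => P x.1)).biUnion
        (fun x => Finset.univ.filter (fun ω : Ω => ∀ a ∈ x.1, ω.1.mulVec a = ω.2)))).card : ℝ) ≤
      Q * Sg := by
    rw [hSg, Finset.mul_sum]
    refine le_trans (Nat.cast_le.2 Finset.card_biUnion_le) ?_
    rw [Nat.cast_sum]
    refine Finset.sum_le_sum fun j _ => ?_
    refine le_trans (Nat.cast_le.2 Finset.card_biUnion_le) ?_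
    rw [Nat.cast_sum]
    have h3 : ∀ x ∈ (CF j).filter (fun x => P x.1),
        ((Finset.univ.filter (fun ω : Ω => ∀ a ∈ x.1, ω.1.mulVec a = ω.2)).card : ℝ) =
          Q * p ^ j := by
      intro x hx
      rw [Finset.mem_filter] at hx
      have h4 := cnt (s := s) x.1 hx.2
        (Finset.univ.filter (fun ω : Ω => ∀ a ∈ x.1, ω.1.mulVec a = ω.2))
        (fun ω => by simp)
      rw [h4, ((hCF j x).1 hx.1).2.1]
    rw [Finset.sum_congr rfl h3, Finset.sum_const, nsmul_eq_mul]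
    have h5 : (((CF j).filter (fun x => P x.1)).card : ℝ) ≤ (Xc j A : ℝ) := by
      unfold Xc
      rw [hCFc j]
      exact_mod_cast Finset.card_filter_le _ _
    have h7 := circ_le_Y j A
    have h8 : (j.factorial : ℝ) * (Xc j A : ℝ) ≤ (Y j A : ℝ) := by exact_mod_cast h7
    have hj : (0 : ℝ) < j.factorial := by exact_mod_cast Nat.factorial_pos j
    have h9 : (Xc j A : ℝ) ≤ (Y j A : ℝ) / j.factorial := by
      rw [le_div_iff₀ hj]
      linarith
    calc (((CF j).filter (fun x => P x.1)).card : ℝ) * (Q * p ^ j) ≤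
        ((Y j A : ℝ) / j.factorial) * (Q * p ^ j) :=
          mul_le_mul_of_nonneg_right (h5.trans h9) (by positivity)
      _ = Q * ((Y j A : ℝ) / ((q : ℝ) ^ s) ^ j / j.factorial) := by
          rw [hp, div_pow, one_pow]
          ring
  have h3 : (Bad.card : ℝ) ≤ 2 ^ m * (Q * (Real.exp (-t / 4) + t ^ (M + 1) / (M + 1).factorial +
        2 * Real.exp t * Sg)) + Q * Sg := by
    refine le_trans (Nat.cast_le.2 ((Finset.card_le_card hcover).trans
      (Finset.card_union_le _ _))) ?_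
    rw [Nat.cast_add]
    exact add_le_add h1 h2
  rw [div_le_iff₀ hQ0]
  refine h3.trans ?_
  have h4 : (1 : ℝ) ≤ 2 ^ m * Real.exp t := by
    have e1 : (1 : ℝ) ≤ 2 ^ m := one_le_pow₀ (by norm_num)
    have e2 : (1 : ℝ) ≤ Real.exp t := Real.one_le_exp ht0
    calc (1 : ℝ) = 1 * 1 := (one_mul 1).symm
      _ ≤ 2 ^ m * Real.exp t := mul_le_mul e1 e2 zero_le_one (by positivity)
  have h5 : Q * Sg ≤ 2 ^ m * Real.exp t * (Q * Sg) := by
    have : 0 ≤ Q * Sg := by positivity
    calc Q * Sg = 1 * (Q * Sg) := (one_mul _).symm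
      _ ≤ _ := mul_le_mul_of_nonneg_right h4 this
  calc 2 ^ m * (Q * (Real.exp (-t / 4) + t ^ (M + 1) / (M + 1).factorial +
        2 * Real.exp t * Sg)) + Q * Sg
      ≤ 2 ^ m * (Q * (Real.exp (-t / 4) + t ^ (M + 1) / (M + 1).factorial +
        2 * Real.exp t * Sg)) + 2 ^ m * Real.exp t * (Q * Sg) := by linarith
    _ = 2 ^ m * (Real.exp (-t / 4) + t ^ (M + 1) / (M + 1).factorial +
        3 * Real.exp t * Sg) * Q := by ring

end Vale.Agent.P230
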