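import Vale.Agent.P230.Defs
import Vale.Agent.P230.Pois2
import Vale.Agent.P230.Poisson
import Vale.Agent.P230.Height

/-! P230 [PQ]: rich classes for a set of integer points -/

open MeasureTheory Set
open scoped ENNReal NNReal Pointwise

namespace Vale.Agent.P230

open PoissonAux

theorem poisson_rich {q d s M m B : ℕ} [Fact q.Prime] (hM : Even M) (hm : m ≤ M + 1)
    (hMq : M + 1 < q) (A : Finset (Fin d → ℤ)) (hne : A.Nonempty)
    (hB1 : 1 ≤ B) (hB : ∀ a ∈ A, ∀ b ∈ A, ∀ i, |a i - b i| ≤ (B : ℤ)) (hq : 3 * B ^ 2 < q)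
    {κ : ℕ → ℝ} (hκ0 : ∀ U, 0 ≤ κ U)
    (hκ : ∀ U, 2 ≤ U → U ≤ B → ∀ x : Fin d → ℤ,
      ((A.filter (fun a => ∀ i, (U : ℤ) ∣ a i - x i)).card : ℝ) ≤ κ U * A.card)
    {T : ℝ} (hT0 : 0 ≤ T) (hT : ∀ r : Fin d → ℤ,
      (((A ×ˢ A).filter (fun p => p.1 + p.2 + r ∈ A)).card : ℝ) ≤ T * (A.card : ℝ) ^ 2)
    {t : ℝ} (ht : t = A.card / (q : ℝ) ^ s) :
    (Nat.card {p : Matrix (Fin s) (Fin d) (ZMod q) × (Fin s → ZMod q) //
      ¬ ∃ y : Fin m → Fin d → ℤ,
        (∀ j, y j ∈ A ∧ p.1.mulVec (fun i => (y j i : ZMod q)) = p.2) ∧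
        AffineIndependent (ZMod q) (fun j l => (y j l : ZMod q))} : ℝ) /
        ((q : ℝ) ^ (s * d) * (q : ℝ) ^ s) ≤
      2 ^ m * (Real.exp (-t / 4) + t ^ (M + 1) / (M + 1).factorial +
        3 * Real.exp (2 * t) * (2 ^ M * T +
          ∑ U ∈ Finset.Icc 2 B, (2 * (U : ℝ) + 1) ^ (2 * M) * κ U + (q : ℝ) ^ M / A.card)) := by
  have hcard := card_image_cast (q := q) A hB hq
  have hq1 : (1:ℝ) ≤ q := by
    have := (Fact.out : q.Prime).one_lt
    exact_mod_cast this.le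
  have hq0 : (0:ℝ) < q := by linarith
  have hA0 : (0:ℝ) < A.card := by exact_mod_cast hne.card_pos
  have ht0 : 0 ≤ t := by rw [ht]; positivity
  have h0 := poisson_rich0 (q := q) (d := d) (s := s) hM hm (A.image (fun a i => (a i : ZMod q)))
    (t := t) (by rw [hcard]; exact ht)
  -- comparison of the two events
  have hcong : Nat.card {p : Matrix (Fin s) (Fin d) (ZMod q) × (Fin s → ZMod q) //
      ¬ ∃ y : Fin m → Fin d → ℤ,
        (∀ j, y j ∈ A ∧ p.1.mulVec (fun i => (y j i : ZMod q)) = p.2) ∧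
        AffineIndependent (ZMod q) (fun j l => (y j l : ZMod q))} ≤
      Nat.card {p : Matrix (Fin s) (Fin d) (ZMod q) × (Fin s → ZMod q) //
      ¬ ∃ I : Finset (Fin d → ZMod q), I ⊆ A.image (fun a i => (a i : ZMod q)) ∧ I.card = m ∧
        AffineIndependent (ZMod q) ((↑) : I → (Fin d → ZMod q)) ∧
        ∀ a ∈ I, p.1.mulVec a = p.2} := by
    refine Nat.card_le_card_of_injective (fun p => ⟨p.1, ?_⟩) ?_
    · rintro ⟨I, hIA, hIc, hI, hIp⟩
      apply p.2
      have hex : ∀ a : I, ∃ z : Fin d → ℤ, z ∈ A ∧ (fun i => (z i : ZMod q)) = (a : Fin d → ZMod q) := by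
        intro a
        obtain ⟨z, hz, hza⟩ := Finset.mem_image.1 (hIA a.2)
        exact ⟨z, hz, hza⟩
      choose z hz hza using hex
      let eq : Fin m ≃ I := (Finset.equivFinOfCardEq hIc).symm
      refine ⟨fun j => z (eq j), fun j => ⟨hz _, ?_⟩, ?_⟩
      · rw [hza (eq j)]
        exact hIp _ (eq j).2
      · have h1 : (fun j l => ((z (eq j) l : ℤ) : ZMod q)) =
            (fun j : Fin m => ((eq j : I) : Fin d → ZMod q)) := by
          funext j
          exact hza (eq j)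
        rw [h1]
        exact hI.comp_embedding eq.toEmbedding
    · intro p p' h
      exact Subtype.ext (congrArg (fun x => x.1) h)
  have h0' : (Nat.card {p : Matrix (Fin s) (Fin d) (ZMod q) × (Fin s → ZMod q) //
      ¬ ∃ y : Fin m → Fin d → ℤ,
        (∀ j, y j ∈ A ∧ p.1.mulVec (fun i => (y j i : ZMod q)) = p.2) ∧
        AffineIndependent (ZMod q) (fun j l => (y j l : ZMod q))} : ℝ) /
        ((q : ℝ) ^ (s * d) * (q : ℝ) ^ s) ≤ _ :=
    (div_le_div_of_nonneg_right (by exact_mod_cast hcong) (by positivity)).trans h0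
  refine h0'.trans (mul_le_mul_of_nonneg_left (add_le_add le_rfl ?_) (by positivity))
  obtain ⟨S, hS⟩ : ∃ S : ℝ, S = 2 ^ M * T +
    ∑ U ∈ Finset.Icc 2 B, (2 * (U : ℝ) + 1) ^ (2 * M) * κ U + (q : ℝ) ^ M / A.card := ⟨_, rfl⟩
  rw [← hS]
  have hS0 : 0 ≤ S := by
    rw [hS]
    have : 0 ≤ ∑ U ∈ Finset.Icc 2 B, (2 * (U : ℝ) + 1) ^ (2 * M) * κ U :=
      Finset.sum_nonneg fun U _ => mul_nonneg (by positivity) (hκ0 U)
    positivity
  have h1 : ∀ j ∈ Finset.Icc 2 M, (Y j (A.image (fun a i => (a i : ZMod q))) : ℝ) /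
      ((q : ℝ) ^ s) ^ j / j.factorial ≤ t ^ j / j.factorial * S := by
    intro j hj
    rw [Finset.mem_Icc] at hj
    have h2 := height (q := q) A hne hB1 hB hq hκ0 hκ hT0 hT hj.1 (by omega : j + 1 < q)
    have h3 : 2 ^ j * T + ∑ U ∈ Finset.Icc 2 B, (2 * (U : ℝ) + 1) ^ (2 * j) * κ U +
        (q : ℝ) ^ j / A.card ≤ S := by
      rw [hS]
      refine add_le_add (add_le_add ?_ ?_) ?_
      · exact mul_le_mul_of_nonneg_right (pow_le_pow_right₀ (by norm_num) hj.2) hT0
      · refine Finset.sum_le_sum fun U _ => mul_le_mul_of_nonneg_right ?_ (hκ0 U)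
        refine pow_le_pow_right₀ ?_ (by omega)
        have : (0:ℝ) ≤ U := Nat.cast_nonneg U
        linarith
      · exact div_le_div_of_nonneg_right (pow_le_pow_right₀ hq1 hj.2) hA0.le
    have h4 := h2.trans (mul_le_mul_of_nonneg_left h3 (by positivity))
    rw [div_mul_eq_mul_div]
    refine div_le_div_of_nonneg_right ?_ (by positivity)
    rw [ht, div_pow, div_mul_eq_mul_div]
    exact div_le_div_of_nonneg_right h4 (by positivity)
  have h5 : ∑ j ∈ Finset.Icc 2 M, t ^ j / (j.factorial : ℝ) ≤ Real.exp t := by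
    refine le_trans (Finset.sum_le_sum_of_subset_of_nonneg ?_ ?_)
      (Real.sum_le_exp_of_nonneg ht0 (M + 1))
    · intro j hj
      rw [Finset.mem_Icc] at hj
      rw [Finset.mem_range]
      omega
    · intro j _ _
      positivity
  calc 3 * Real.exp t * ∑ j ∈ Finset.Icc 2 M, (Y j (A.image (fun a i => (a i : ZMod q))) : ℝ) /
        ((q : ℝ) ^ s) ^ j / j.factorial
      ≤ 3 * Real.exp t * ∑ j ∈ Finset.Icc 2 M, t ^ j / j.factorial * S :=
        mul_le_mul_of_nonneg_left (Finset.sum_le_sum h1) (by positivity)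
    _ = 3 * Real.exp t * (∑ j ∈ Finset.Icc 2 M, t ^ j / j.factorial) * S := by
        rw [← Finset.sum_mul]; ring
    _ ≤ 3 * Real.exp t * Real.exp t * S := by
        refine mul_le_mul_of_nonneg_right ?_ hS0
        exact mul_le_mul_of_nonneg_left h5 (by positivity)
    _ = 3 * Real.exp (2 * t) * S := by
        rw [two_mul t, Real.exp_add]; ring

end Vale.Agent.P230
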