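import Vale.Agent.P230.Prob
import Vale.Agent.P230.Defs2

/-! P230 [VR]: a random matrix makes all the classes miss the uncovered sets. -/

open MeasureTheory Set
open scoped ENNReal NNReal Pointwise

namespace Vale.Agent.P230

namespace VrandAux

theorem card_preimage {G H : Type*} [AddCommGroup G] [AddCommGroup H] [Fintype G] [Fintype H]
    [DecidableEq H] (f : G →+ H) (hf : Function.Surjective f) (S : Finset H) :
    (Finset.univ.filter (fun x => f x ∈ S)).card * Fintype.card H = S.card * Fintype.card G := by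
  have hfib : ∀ h : H, (Finset.univ.filter (fun x => f x = h)).card =
      (Finset.univ.filter (fun x => f x = 0)).card := by
    intro h
    exact AddMonoidHom.card_fiber_eq_of_mem_range f (hf h) (hf 0)
  have h1 : (Finset.univ.filter (fun x => f x ∈ S)).card =
      S.card * (Finset.univ.filter (fun x => f x = 0)).card := by
    rw [Finset.card_eq_sum_card_fiberwise (f := f) (t := S)]
    · rw [Finset.sum_congr rfl (g := fun _ => (Finset.univ.filter (fun x => f x = 0)).card)]
      · rw [Finset.sum_const, smul_eq_mul]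
      · intro h hh
        rw [← hfib h]
        congr 1
        ext x
        simp only [Finset.mem_filter, Finset.mem_univ, true_and]
        constructor
        · rintro ⟨_, h2⟩; exact h2
        · intro h2; exact ⟨by rw [h2]; exact hh, h2⟩
    · intro x hx
      simpa using hx
  have h2 : Fintype.card G = Fintype.card H * (Finset.univ.filter (fun x => f x = 0)).card := by
    rw [← Finset.card_univ, Finset.card_eq_sum_card_fiberwise (f := f) (t := Finset.univ)]
    · rw [Finset.sum_congr rfl (fun h _ => hfib h), Finset.sum_const, smul_eq_mul,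
        Finset.card_univ]
    · intro x _
      simp
  rw [h1, h2]
  ring

theorem surj_fam {F : Type*} [Field F] {k s m : ℕ} (y : Fin m → Fin k → F)
    (hy : AffineIndependent F y) (g : Fin m → Fin s → F) :
    ∃ (V : Matrix (Fin s) (Fin k) F) (b : Fin s → F), ∀ j, b - V.mulVec (y j) = g j := by
  have hli : LinearIndependent F (fun j => (y j, (1 : F))) := ProbAux.linInd_of_affInd hy
  choose φ hφ using fun i : Fin s => ProbAux.exists_dual hli (fun j => g j i)
  refine ⟨Matrix.of fun i l => - φ i (Pi.single l 1, 0), fun i => φ i (0, 1), fun j => ?_⟩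
  funext i
  rw [← hφ i j, ProbAux.dual_apply' (φ i) (y j)]
  simp only [Pi.sub_apply, Matrix.mulVec, dotProduct, Matrix.of_apply, neg_mul,
    Finset.sum_neg_distrib]
  ring

end VrandAux

open VrandAux in
theorem vrand {q k s m : ℕ} [Fact q.Prime] {G₂ : Type} [Finite G₂]
    (U : (Fin k → ℤ) → Finset (Fin s → ZMod q)) {u : ℝ} (hu : 0 ≤ u)
    (y : G₂ → Fin m → Fin k → ℤ)
    (hy : ∀ g, AffineIndependent (ZMod q) (fun j l => (y g j l : ZMod q)))
    (hU : ∀ g j, ((U (y g j)).card : ℝ) ≤ u * (q : ℝ) ^ s)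
    (hlt : (Nat.card G₂ : ℝ) * (q : ℝ) ^ s * u ^ m < 1) :
    ∃ V : Matrix (Fin s) (Fin k) (ZMod q), ∀ g (b : Fin s → ZMod q),
      ∃ j, b - V.mulVec (fun l => (y g j l : ZMod q)) ∉ U (y g j) := by
  classical
  haveI : Fintype G₂ := Fintype.ofFinite G₂
  have hq0 : 0 < (q : ℝ) := by exact_mod_cast (Fact.out : q.Prime).pos
  by_contra hcon
  push Not at hcon
  choose g b hgb using hcon
  set Y : G₂ → Fin m → Fin k → ZMod q := fun g j l => (y g j l : ZMod q) with hY
  -- the homomorphisms
  let Φ : G₂ → (Matrix (Fin s) (Fin k) (ZMod q) × (Fin s → ZMod q)) →+ (Fin m → Fin s → ZMod q) :=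
    fun g =>
    { toFun := fun p j => p.2 - p.1.mulVec (Y g j)
      map_zero' := by
        funext j
        simp
      map_add' := by
        intro x z
        funext j
        simp only [Prod.fst_add, Prod.snd_add, Matrix.add_mulVec, Pi.add_apply]
        abel }
  have hsurj : ∀ g, Function.Surjective (Φ g) := by
    intro g t
    obtain ⟨W, c, h⟩ := surj_fam (Y g) (hy g) t
    exact ⟨(W, c), funext h⟩
  let S : G₂ → Finset (Fin m → Fin s → ZMod q) := fun g => Fintype.piFinset (fun j => U (y g j))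
  have hcH : Fintype.card (Fin m → Fin s → ZMod q) = q ^ (s * m) := by
    rw [Fintype.card_fun, Fintype.card_fun]
    simp [pow_mul]
  have hcV : Fintype.card (Matrix (Fin s) (Fin k) (ZMod q)) = q ^ (s * k) := by
    have h0 : Fintype.card (Matrix (Fin s) (Fin k) (ZMod q)) =
        Fintype.card (Fin s → Fin k → ZMod q) := Fintype.card_congr (Equiv.refl _)
    rw [h0, Fintype.card_fun, Fintype.card_fun]
    simp [pow_mul']
  have hcG : Fintype.card (Matrix (Fin s) (Fin k) (ZMod q) × (Fin s → ZMod q)) =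
      q ^ (s * k) * q ^ s := by
    rw [Fintype.card_prod, hcV]
    simp
  -- count for one class
  have hone : ∀ g : G₂, ((Finset.univ.filter (fun p => Φ g p ∈ S g)).card : ℝ) ≤
      (q : ℝ) ^ s * u ^ m * (q : ℝ) ^ (s * k) := by
    intro g
    have h := card_preimage (Φ g) (hsurj g) (S g)
    rw [hcH, hcG] at h
    have h1 : ((S g).card : ℝ) ≤ (u * (q : ℝ) ^ s) ^ m := by
      simp only [S]
      rw [Fintype.card_piFinset, Nat.cast_prod]
      calc ∏ j, ((U (y g j)).card : ℝ) ≤ ∏ _j : Fin m, (u * (q : ℝ) ^ s) :=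
            Finset.prod_le_prod (fun _ _ => by positivity) (fun j _ => hU g j)
        _ = _ := by simp
    have h2 : ((Finset.univ.filter (fun p => Φ g p ∈ S g)).card : ℝ) * (q : ℝ) ^ (s * m) =
        ((S g).card : ℝ) * ((q : ℝ) ^ (s * k) * (q : ℝ) ^ s) := by exact_mod_cast h
    have h3 : (0 : ℝ) < (q : ℝ) ^ (s * m) := by positivity
    have h4 : ((Finset.univ.filter (fun p => Φ g p ∈ S g)).card : ℝ) * (q : ℝ) ^ (s * m) ≤
        (q : ℝ) ^ s * u ^ m * (q : ℝ) ^ (s * k) * (q : ℝ) ^ (s * m) := by
      rw [h2]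
      calc ((S g).card : ℝ) * ((q : ℝ) ^ (s * k) * (q : ℝ) ^ s)
          ≤ (u * (q : ℝ) ^ s) ^ m * ((q : ℝ) ^ (s * k) * (q : ℝ) ^ s) :=
            mul_le_mul_of_nonneg_right h1 (by positivity)
        _ = _ := by rw [mul_pow, ← pow_mul]; ring
    exact le_of_mul_le_mul_right h4 h3
  -- every matrix is bad
  have hinj : (Fintype.card (Matrix (Fin s) (Fin k) (ZMod q)) : ℝ) ≤
      ∑ g : G₂, ((Finset.univ.filter (fun p => Φ g p ∈ S g)).card : ℝ) := by
    have h1 : Fintype.card (Matrix (Fin s) (Fin k) (ZMod q)) ≤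
        (Finset.univ.sigma (fun g : G₂ => Finset.univ.filter (fun p => Φ g p ∈ S g))).card := by
      rw [← Finset.card_univ]
      refine Finset.card_le_card_of_injOn (fun V => ⟨g V, (V, b V)⟩) ?_ ?_
      · intro V _
        simp only [Finset.coe_sigma, Set.mem_sigma_iff, Finset.coe_univ, Set.mem_univ, true_and,
          Finset.coe_filter, Finset.mem_univ, Set.mem_ofPred_eq, S, Fintype.mem_piFinset]
        intro j
        exact hgb V j
      · intro V _ V' _ h
        simp only [Sigma.mk.injEq] at h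
        obtain ⟨h1, h2⟩ := h
        have h3 : ((V, b V) : Matrix (Fin s) (Fin k) (ZMod q) × (Fin s → ZMod q)) = (V', b V') :=
          eq_of_heq h2
        exact (Prod.mk.inj h3).1
    rw [Finset.card_sigma] at h1
    exact_mod_cast h1
  have hfin : (Fintype.card (Matrix (Fin s) (Fin k) (ZMod q)) : ℝ) ≤
      (Nat.card G₂ : ℝ) * ((q : ℝ) ^ s * u ^ m * (q : ℝ) ^ (s * k)) := by
    refine hinj.trans ((Finset.sum_le_sum (fun g _ => hone g)).trans ?_)
    rw [Finset.sum_const, nsmul_eq_mul, Finset.card_univ, Nat.card_eq_fintype_card]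
  rw [hcV, Nat.cast_pow] at hfin
  have h5 : (0 : ℝ) < (q : ℝ) ^ (s * k) := by positivity
  have h6 : (Nat.card G₂ : ℝ) * ((q : ℝ) ^ s * u ^ m * (q : ℝ) ^ (s * k)) <
      1 * (q : ℝ) ^ (s * k) := by
    have := mul_lt_mul_of_pos_right hlt h5
    calc (Nat.card G₂ : ℝ) * ((q : ℝ) ^ s * u ^ m * (q : ℝ) ^ (s * k)) =
        (Nat.card G₂ : ℝ) * (q : ℝ) ^ s * u ^ m * (q : ℝ) ^ (s * k) := by ring
      _ < _ := this
  linarith

end Vale.Agent.P230
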