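import Vale.Agent.P230.Defs
import Vale.Agent.P230.Defs2
import Vale.Agent.P230.Count
import Vale.Agent.P230.Prob
import Vale.Agent.P230.Poisson2
import Vale.Agent.P230.BaseNum2
import Vale.Agent.P230.Base
import Vale.Agent.P230.Vrand

/-! # P230 [MB]: the base layer with rich classes -/

open MeasureTheory Set
open scoped ENNReal NNReal Pointwise

namespace Vale.Agent.P230

namespace MBaseAux

/-- number of matrices which kill a given nonzero vector -/
theorem card_kill {q d s : ℕ} [Fact q.Prime] (u : Fin d → ZMod q) (hu : u ≠ 0)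
    (F : Finset (Matrix (Fin s) (Fin d) (ZMod q))) (hF : ∀ W, W ∈ F ↔ W.mulVec u = 0) :
    F.card * q ^ s = q ^ (s * d) := by
  classical
  haveI : NeZero q := ⟨(Fact.out : q.Prime).ne_zero⟩
  let f : Matrix (Fin s) (Fin d) (ZMod q) →+ (Fin s → ZMod q) :=
    { toFun := fun W => W.mulVec u
      map_zero' := Matrix.zero_mulVec u
      map_add' := fun W W' => Matrix.add_mulVec W W' u }
  have hsurj : Function.Surjective f := by
    intro v
    obtain ⟨l, hl⟩ := Function.ne_iff.1 hu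
    have hl' : u l ≠ 0 := hl
    refine ⟨Matrix.of fun i j => if j = l then v i * (u l)⁻¹ else 0, ?_⟩
    funext i
    simp only [f, AddMonoidHom.coe_mk, ZeroHom.coe_mk, Matrix.mulVec, dotProduct, Matrix.of_apply,
      ite_mul, zero_mul]
    rw [Finset.sum_ite_eq' Finset.univ l]
    simp only [Finset.mem_univ, if_true]
    rw [mul_assoc, inv_mul_cancel₀ hl', mul_one]
  have h := VrandAux.card_preimage f hsurj {0}
  have hFf : F = Finset.univ.filter (fun W => f W ∈ ({0} : Finset (Fin s → ZMod q))) := by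
    ext W
    rw [hF, Finset.mem_filter, Finset.mem_singleton]
    simp [f]
  have hcV : Fintype.card (Matrix (Fin s) (Fin d) (ZMod q)) = q ^ (s * d) := by
    have h0 : Fintype.card (Matrix (Fin s) (Fin d) (ZMod q)) =
        Fintype.card (Fin s → Fin d → ZMod q) := Fintype.card_congr (Equiv.refl _)
    rw [h0, Fintype.card_fun, Fintype.card_fun]
    simp [pow_mul']
  have hcH : Fintype.card (Fin s → ZMod q) = q ^ s := by
    rw [Fintype.card_fun]
    simp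
  rw [← hFf, hcH, hcV, Finset.card_singleton, one_mul] at h
  exact h

/-- the cube -/
noncomputable def cube (d r : ℕ) : Finset (Fin d → ℤ) := Fintype.piFinset (fun _ => Finset.Icc (-(r : ℤ)) r)

theorem mem_cube {d r : ℕ} {u : Fin d → ℤ} : u ∈ cube d r ↔ ∀ i, |u i| ≤ (r : ℤ) := by
  unfold cube
  rw [Fintype.mem_piFinset]
  simp only [Finset.mem_Icc, abs_le]

theorem card_cube (d r : ℕ) : (cube d r).card = (2 * r + 1) ^ d := by
  unfold cube
  rw [Fintype.card_piFinset]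
  simp only [Int.card_Icc, Finset.prod_const, Finset.card_univ, Fintype.card_fin]
  congr 1
  omega

theorem cast_ne {q d r : ℕ} (hr : r < q) {u : Fin d → ℤ} (hu : u ∈ cube d r) (hu0 : u ≠ 0) :
    (fun i => (u i : ZMod q)) ≠ 0 := by
  intro h
  apply hu0
  funext i
  have h1 : ((u i : ℤ) : ZMod q) = 0 := congrFun h i
  rw [ZMod.intCast_zmod_eq_zero_iff_dvd] at h1
  have h2 := mem_cube.1 hu i
  refine Int.eq_zero_of_abs_lt_dvd h1 (lt_of_le_of_lt h2 ?_)
  exact_mod_cast hr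

/-- matrices which are not injective on the cube -/
theorem card_noninj {q d s r : ℕ} [Fact q.Prime] (hr : r < q)
    (F : Finset (Matrix (Fin s) (Fin d) (ZMod q)))
    (hF : ∀ W ∈ F, ∃ u : Fin d → ℤ, (∀ i, |u i| ≤ (r : ℤ)) ∧ u ≠ 0 ∧
      W.mulVec (fun i => (u i : ZMod q)) = 0) :
    (F.card : ℝ) * (q : ℝ) ^ s ≤ (2 * (r : ℝ) + 1) ^ d * (q : ℝ) ^ (s * d) := by
  classical
  haveI : NeZero q := ⟨(Fact.out : q.Prime).ne_zero⟩
  obtain ⟨D, hD⟩ : ∃ D : Finset (Fin d → ℤ), D = (cube d r).erase 0 := ⟨_, rfl⟩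
  obtain ⟨Kf, hKf⟩ : ∃ Kf : (Fin d → ℤ) → Finset (Matrix (Fin s) (Fin d) (ZMod q)),
      ∀ u W, W ∈ Kf u ↔ W.mulVec (fun i => (u i : ZMod q)) = 0 :=
    ⟨fun u => Finset.univ.filter (fun W => W.mulVec (fun i => (u i : ZMod q)) = 0),
      fun u W => by simp⟩
  have h1 : F ⊆ D.biUnion Kf := by
    intro W hW
    obtain ⟨u, hu, hu0, hWu⟩ := hF W hW
    rw [Finset.mem_biUnion]
    refine ⟨u, ?_, (hKf u W).2 hWu⟩
    rw [hD]
    exact Finset.mem_erase.2 ⟨hu0, mem_cube.2 hu⟩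
  have h1c : F.card ≤ ∑ u ∈ D, (Kf u).card :=
    (Finset.card_le_card h1).trans Finset.card_biUnion_le
  have h1s : (∑ u ∈ D, (Kf u).card) * q ^ s = D.card * q ^ (s * d) := by
    rw [Finset.sum_mul, ← smul_eq_mul, ← Finset.sum_const]
    refine Finset.sum_congr rfl fun u hu => ?_
    rw [hD, Finset.mem_erase] at hu
    exact card_kill _ (cast_ne hr hu.2 hu.1) _ (hKf u)
  have h1d : D.card ≤ (2 * r + 1) ^ d := by
    rw [← card_cube d r, hD]
    exact Finset.card_le_card (Finset.erase_subset _ _)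
  have h2 : F.card * q ^ s ≤ (2 * r + 1) ^ d * q ^ (s * d) := by
    calc F.card * q ^ s ≤ (∑ u ∈ D, (Kf u).card) * q ^ s := Nat.mul_le_mul_right _ h1c
      _ = D.card * q ^ (s * d) := h1s
      _ ≤ (2 * r + 1) ^ d * q ^ (s * d) := Nat.mul_le_mul_right _ h1d
  exact_mod_cast h2

/-- averaging: a surjective matrix, injective on the cube, which is good for all sets -/
lemma exists_good2 {q d s r : ℕ} [Fact q.Prime] (hsd : s < d) (hr : r < q)
    (hrq : 8 * (2 * r + 1) ^ d ≤ q ^ s) {ι : Type} [Fintype ι]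
    (T : ι → Matrix (Fin s) (Fin d) (ZMod q) → (Fin s → ZMod q) → Prop) {β : ℝ} (hβ : 0 ≤ β)
    (h : ∀ i, (Nat.card {p : Matrix (Fin s) (Fin d) (ZMod q) × (Fin s → ZMod q) //
      T i p.1 p.2} : ℝ) / ((q : ℝ) ^ (s * d) * (q : ℝ) ^ s) ≤ β) :
    ∃ W : Matrix (Fin s) (Fin d) (ZMod q), Function.Surjective W.mulVec ∧
      (∀ u : Fin d → ℤ, (∀ i, |u i| ≤ (r : ℤ)) →
        W.mulVec (fun i => (u i : ZMod q)) = 0 → u = 0) ∧
      ∑ i, (Nat.card {b : Fin s → ZMod q // T i W b} : ℝ) ≤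
        4 * Fintype.card ι * β * (q : ℝ) ^ s := by
  classical
  haveI : NeZero q := ⟨(Fact.out : q.Prime).ne_zero⟩
  have hq0 : (0:ℝ) < q := by
    have := (Fact.out : q.Prime).pos
    exact_mod_cast this
  obtain ⟨f, hf⟩ : ∃ f : Matrix (Fin s) (Fin d) (ZMod q) → ℝ, f = fun W =>
    ∑ i, (Nat.card {b : Fin s → ZMod q // T i W b} : ℝ) := ⟨_, rfl⟩
  have hf0 : ∀ W, 0 ≤ f W := fun W => by
    rw [hf]
    exact Finset.sum_nonneg fun i _ => Nat.cast_nonneg _
  have hcard : ∀ i, (Nat.card {p : Matrix (Fin s) (Fin d) (ZMod q) × (Fin s → ZMod q) //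
      T i p.1 p.2} : ℝ) =
      ∑ W : Matrix (Fin s) (Fin d) (ZMod q), (Nat.card {b : Fin s → ZMod q // T i W b} : ℝ) := by
    intro i
    have e : {p : Matrix (Fin s) (Fin d) (ZMod q) × (Fin s → ZMod q) // T i p.1 p.2} ≃
      Σ W : Matrix (Fin s) (Fin d) (ZMod q), {b : Fin s → ZMod q // T i W b} :=
      { toFun := fun p => ⟨p.1.1, p.1.2, p.2⟩
        invFun := fun p => ⟨(p.1, p.2.1), p.2.2⟩
        left_inv := fun p => rfl
        right_inv := fun p => rfl }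
    rw [Nat.card_congr e, Nat.card_sigma]
    push_cast
    rfl
  set X : ℝ := Fintype.card ι * β * ((q : ℝ) ^ (s * d) * (q : ℝ) ^ s) with hX
  have hX0 : 0 ≤ X := by positivity
  have hsum : ∑ W, f W ≤ X := by
    rw [hf]
    simp only
    rw [Finset.sum_comm]
    calc ∑ i, ∑ W : Matrix (Fin s) (Fin d) (ZMod q), (Nat.card {b : Fin s → ZMod q //
          T i W b} : ℝ)
        ≤ ∑ _i : ι, β * ((q : ℝ) ^ (s * d) * (q : ℝ) ^ s) := by
          refine Finset.sum_le_sum fun i _ => ?_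
          rw [← hcard i]
          have := h i
          rwa [div_le_iff₀ (by positivity)] at this
      _ = _ := by
          rw [Finset.sum_const, Finset.card_univ, nsmul_eq_mul, hX]
          ring
  by_contra hcon
  push Not at hcon
  obtain ⟨G, hG⟩ : ∃ G : Finset (Matrix (Fin s) (Fin d) (ZMod q)),
    G = Finset.univ.filter fun W => Function.Surjective W.mulVec := ⟨_, rfl⟩
  obtain ⟨Bd, hBd⟩ : ∃ Bd : Finset (Matrix (Fin s) (Fin d) (ZMod q)),
    Bd = Finset.univ.filter fun W => ∃ u : Fin d → ℤ, (∀ i, |u i| ≤ (r : ℤ)) ∧ u ≠ 0 ∧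
      W.mulVec (fun i => (u i : ZMod q)) = 0 := ⟨_, rfl⟩
  have hGc : (q : ℝ) ^ (s * d) ≤ 2 * (G.card : ℝ) := by
    have := card_surj (q := q) hsd
    rw [Nat.card_eq_fintype_card, Fintype.card_subtype, ← hG] at this
    exact_mod_cast this
  have hBc : 8 * (Bd.card : ℝ) ≤ (q : ℝ) ^ (s * d) := by
    have h1 := card_noninj (s := s) hr Bd (fun W hW => by
      rw [hBd, Finset.mem_filter] at hW
      exact hW.2)
    have h2 : 8 * (2 * (r : ℝ) + 1) ^ d ≤ (q : ℝ) ^ s := by exact_mod_cast hrq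
    have hqs : (0 : ℝ) < (q : ℝ) ^ s := by positivity
    have hqsd : (0 : ℝ) < (q : ℝ) ^ (s * d) := by positivity
    have h3 : 8 * (Bd.card : ℝ) * (q : ℝ) ^ s ≤ (q : ℝ) ^ (s * d) * (q : ℝ) ^ s := by
      calc 8 * (Bd.card : ℝ) * (q : ℝ) ^ s = 8 * ((Bd.card : ℝ) * (q : ℝ) ^ s) := by ring
        _ ≤ 8 * ((2 * (r : ℝ) + 1) ^ d * (q : ℝ) ^ (s * d)) := by linarith
        _ = (8 * (2 * (r : ℝ) + 1) ^ d) * (q : ℝ) ^ (s * d) := by ring
        _ ≤ (q : ℝ) ^ s * (q : ℝ) ^ (s * d) := mul_le_mul_of_nonneg_right h2 hqsd.le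
        _ = _ := mul_comm _ _
    exact le_of_mul_le_mul_right h3 hqs
  have hqsd : (0 : ℝ) < (q : ℝ) ^ (s * d) := by positivity
  have hGB : (3 / 8 : ℝ) * (q : ℝ) ^ (s * d) ≤ ((G \ Bd).card : ℝ) := by
    have h1 : G.card ≤ (G \ Bd).card + Bd.card := by
      have := Finset.le_card_sdiff Bd G
      omega
    have h2 : (G.card : ℝ) ≤ ((G \ Bd).card : ℝ) + (Bd.card : ℝ) := by exact_mod_cast h1
    linarith
  have hpos : 0 < (G \ Bd).card := by
    have h2 : (0:ℝ) < ((G \ Bd).card : ℝ) := by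
      have : 0 < (3 / 8 : ℝ) * (q : ℝ) ^ (s * d) := by positivity
      linarith
    exact_mod_cast h2
  have h1 : ((G \ Bd).card : ℝ) * (4 * Fintype.card ι * β * (q : ℝ) ^ s) < ∑ W ∈ G \ Bd, f W := by
    rw [← nsmul_eq_mul, ← Finset.sum_const]
    refine Finset.sum_lt_sum_of_nonempty (Finset.card_pos.1 hpos) fun W hW => ?_
    rw [Finset.mem_sdiff, hG, hBd, Finset.mem_filter, Finset.mem_filter] at hW
    rw [hf]
    refine hcon W hW.1.2 ?_
    intro u hu hWu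
    by_contra hu0
    exact hW.2 ⟨Finset.mem_univ _, u, hu, hu0, hWu⟩
  have h2 : ∑ W ∈ G \ Bd, f W ≤ ∑ W, f W :=
    Finset.sum_le_sum_of_subset_of_nonneg (Finset.subset_univ _) fun W _ _ => hf0 W
  have h3 : (3 / 8 : ℝ) * (q : ℝ) ^ (s * d) * (4 * Fintype.card ι * β * (q : ℝ) ^ s) ≤
      ((G \ Bd).card : ℝ) * (4 * Fintype.card ι * β * (q : ℝ) ^ s) :=
    mul_le_mul_of_nonneg_right hGB (by positivity)
  have h4 : (3 / 8 : ℝ) * (q : ℝ) ^ (s * d) * (4 * Fintype.card ι * β * (q : ℝ) ^ s) =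
      3 / 2 * X := by
    rw [hX]
    ring
  linarith

end MBaseAux

open BaseAux MBaseAux

theorem mbase : ∃ d₀ : ℕ, ∀ d : ℕ, d₀ ≤ d → ∀ (q s B N m r : ℕ) [Fact q.Prime] (R w : ℝ)
    (ι : Type) [Fintype ι] (A : ι → Finset (Fin d → ℤ)) (J : ι → Set (Fin d → ℝ))
    (c : ι → Fin d → ℝ),
    (m : ℝ) ≤ d / 10 ^ 5 →
    d < B → 3 * B ^ 2 < q → (B : ℝ) ≤ w ^ 2 → (d : ℝ) / 100 ≤ s → s < d →
    (d : ℝ) ^ 2 ≤ w → 1 ≤ R → R ≤ Real.exp (d / 10 ^ 5) →
    r < q → 8 * (2 * r + 1) ^ d ≤ q ^ s →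
    (∀ i, Convex ℝ (J i)) → (∀ i, MeasurableSet (J i)) → (∀ i, volume (J i) ≠ ∞) →
    (∀ i, ∀ x : Fin d → ℝ, (∀ l, c i l ≤ x l ∧ x l ≤ c i l + w) → x ∈ J i) →
    (∀ i, ∀ a ∈ A i, (fun l => (a l : ℝ)) ∈ J i) →
    (∀ i, (volume (J i)).toReal ≤ R * N) →
    (∀ i, ∀ a ∈ A i, ∀ b ∈ A i, ∀ l, |a l - b l| ≤ (B : ℤ)) →
    (∀ i, N ≤ (A i).card) →
    (d : ℝ) / 10 ^ 4 * (q : ℝ) ^ s ≤ N → (N : ℝ) ≤ (d / 10 ^ 4 + 1) * (q : ℝ) ^ s →
    ∃ ψ : (Fin d → ℤ) →+ (Fin s → ZMod q), Function.Surjective ψ ∧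
      (∀ u : Fin d → ℤ, (∀ i, |u i| ≤ (r : ℤ)) → ψ u = 0 → u = 0) ∧
      ∀ i, (Nat.card {g : Fin s → ZMod q // ¬ Rich q m ψ (A i : Set (Fin d → ℤ)) g} : ℝ) /
        Nat.card (Fin s → ZMod q) ≤ 50 * (Fintype.card ι) * Real.exp (-(d : ℝ) / 10 ^ 5) := by
  obtain ⟨d₀, hd₀⟩ := base_num2
  refine ⟨max d₀ 1, ?_⟩
  intro d hd q s B N m r _ R w ι _ A J c hmd hdB hBq hBw hds hsd hw hR1 hR hrq hrqs hconv hmeas hfin
    hcube hAJ hvol hAB hAN hN1 hN2
  have hd1 : 1 ≤ d := le_trans (le_max_right _ _) hd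
  obtain ⟨M, hM, hMd, hMl, hnum⟩ := hd₀ d (le_trans (le_max_left _ _) hd)
  have hB1 : 1 ≤ B := by omega
  have hqpr : q.Prime := Fact.out
  have hq2 : 2 ≤ q := hqpr.two_le
  have hq0 : (0:ℝ) < q := by exact_mod_cast hqpr.pos
  haveI : NeZero q := ⟨hqpr.ne_zero⟩
  have hd0 : (0:ℝ) < d := by exact_mod_cast hd1
  have hw0 : 0 < w := by
    have h1 : (0:ℝ) < (d:ℝ) ^ 2 := by positivity
    linarith
  have hNpos : (0:ℝ) < N := by
    have h1 : (0:ℝ) < (d : ℝ) / 10 ^ 4 * (q : ℝ) ^ s := by positivity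
    linarith
  have hMq : M + 1 < q := by nlinarith
  have hmM : m ≤ M + 1 := by
    have h1 : (m : ℝ) ≤ M + 1 := by
      have : (d : ℝ) / 10 ^ 5 ≤ d / 10 ^ 4 := by
        rw [div_le_div_iff₀ (by norm_num) (by norm_num)]
        nlinarith
      linarith
    exact_mod_cast h1
  choose A' hA'A hA'N using fun i => Finset.exists_subset_card_eq (hAN i)
  obtain ⟨t, ht⟩ : ∃ t : ℝ, t = N / (q : ℝ) ^ s := ⟨_, rfl⟩
  have ht1 : (d : ℝ) / 10 ^ 4 ≤ t := by
    rw [ht, le_div_iff₀ (by positivity)]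
    exact hN1
  have ht2 : t ≤ d / 10 ^ 4 + 1 := by
    rw [ht, div_le_iff₀ (by positivity)]
    exact hN2
  have hβ := hnum q s B N m R w t hmd hB1 (by omega) hBw hds hq2 hw hR1 hR ht ht1 ht2
  have hρ0 : (0:ℝ) ≤ rho := by unfold rho; norm_num
  have hpois : ∀ i, (Nat.card {p : Matrix (Fin s) (Fin d) (ZMod q) × (Fin s → ZMod q) //
      ¬ ∃ y : Fin m → Fin d → ℤ,
        (∀ j, y j ∈ A' i ∧ p.1.mulVec (fun l => (y j l : ZMod q)) = p.2) ∧
        AffineIndependent (ZMod q) (fun j l => (y j l : ZMod q))} : ℝ) /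
        ((q : ℝ) ^ (s * d) * (q : ℝ) ^ s) ≤ 6 * Real.exp (-(d : ℝ) / 10 ^ 5) := by
    intro i
    have hne : (A' i).Nonempty := by
      rw [← Finset.card_pos, hA'N]
      exact_mod_cast hNpos
    have hJ0 : 0 ≤ (volume (J i)).toReal := ENNReal.toReal_nonneg
    refine le_trans (poisson_rich (κ := fun U => R * (1 / U + 1 / w) ^ d)
      (T := R ^ 2 * rho ^ d * (1 + 2 / w) ^ (2 * d)) hM hmM hMq (A' i) hne hB1
      (fun a ha b hb => hAB i a (hA'A i ha) b (hA'A i hb)) hBq ?_ ?_ ?_ ?_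
      (t := t) (by rw [ht, hA'N])) ?_
    · intro U
      positivity
    · intro U hU _ x
      have h1 := count_mod (hconv i) (hmeas i) (hfin i) hw0 (hcube i) (A' i)
        (fun a ha => hAJ i a (hA'A i ha)) (U := U) (by omega) x
      refine h1.trans ?_
      rw [hA'N]
      calc (1 / (U:ℝ) + 1 / w) ^ d * (volume (J i)).toReal
          ≤ (1 / (U:ℝ) + 1 / w) ^ d * (R * N) :=
            mul_le_mul_of_nonneg_left (hvol i) (by positivity)
        _ = _ := by ring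
    · positivity
    · intro r
      have h1 := count_triple (hconv i) (hmeas i) (hfin i) hw0 (hcube i) (A' i)
        (fun a ha => hAJ i a (hA'A i ha)) r
      refine h1.trans ?_
      rw [hA'N]
      calc rho ^ d * ((1 + 2 / w) ^ d * (volume (J i)).toReal) ^ 2
          ≤ rho ^ d * ((1 + 2 / w) ^ d * (R * N)) ^ 2 := by
            refine mul_le_mul_of_nonneg_left ?_ (by positivity)
            refine pow_le_pow_left₀ (by positivity) ?_ 2
            exact mul_le_mul_of_nonneg_left (hvol i) (by positivity)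
        _ = _ := by
            rw [mul_pow, mul_pow, ← pow_mul, mul_comm d 2]
            ring
    · rw [hA'N]
      exact hβ
  obtain ⟨W, hW1, hWinj, hW2⟩ := exists_good2 hsd hrq hrqs
    (fun i (W : Matrix (Fin s) (Fin d) (ZMod q)) (b : Fin s → ZMod q) =>
      ¬ ∃ y : Fin m → Fin d → ℤ,
        (∀ j, y j ∈ A' i ∧ W.mulVec (fun l => (y j l : ZMod q)) = b) ∧
        AffineIndependent (ZMod q) (fun j l => (y j l : ZMod q))) (by positivity) hpois
  refine ⟨hom W, hom_surj hW1, hWinj, ?_⟩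
  intro i
  have hcG : (Nat.card (Fin s → ZMod q) : ℝ) = (q : ℝ) ^ s := by
    rw [Nat.card_eq_fintype_card, Fintype.card_fun, Fintype.card_fin, ZMod.card]
    push_cast
    rfl
  rw [hcG, div_le_iff₀ (by positivity)]
  have h1 : (Nat.card {g : Fin s → ZMod q // ¬ Rich q m (hom W) (A i : Set (Fin d → ℤ)) g} : ℝ) ≤
      (Nat.card {b : Fin s → ZMod q // ¬ ∃ y : Fin m → Fin d → ℤ,
        (∀ j, y j ∈ A' i ∧ W.mulVec (fun l => (y j l : ZMod q)) = b) ∧
        AffineIndependent (ZMod q) (fun j l => (y j l : ZMod q))} : ℝ) := by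
    have : Nat.card {g : Fin s → ZMod q // ¬ Rich q m (hom W) (A i : Set (Fin d → ℤ)) g} ≤
        Nat.card {b : Fin s → ZMod q // ¬ ∃ y : Fin m → Fin d → ℤ,
        (∀ j, y j ∈ A' i ∧ W.mulVec (fun l => (y j l : ZMod q)) = b) ∧
        AffineIndependent (ZMod q) (fun j l => (y j l : ZMod q))} := by
      refine Nat.card_le_card_of_injective (fun g => ⟨g.1, ?_⟩) ?_
      · rintro ⟨y, hy1, hy2⟩
        exact g.2 ⟨y, fun j => ⟨hA'A i (hy1 j).1, (hy1 j).2⟩, hy2⟩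
      · intro g g' hgg
        exact Subtype.ext (congrArg (fun z => z.1) hgg)
    exact_mod_cast this
  have h2 : (Nat.card {b : Fin s → ZMod q // ¬ ∃ y : Fin m → Fin d → ℤ,
        (∀ j, y j ∈ A' i ∧ W.mulVec (fun l => (y j l : ZMod q)) = b) ∧
        AffineIndependent (ZMod q) (fun j l => (y j l : ZMod q))} : ℝ) ≤
      ∑ i, (Nat.card {b : Fin s → ZMod q // ¬ ∃ y : Fin m → Fin d → ℤ,
        (∀ j, y j ∈ A' i ∧ W.mulVec (fun l => (y j l : ZMod q)) = b) ∧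
        AffineIndependent (ZMod q) (fun j l => (y j l : ZMod q))} : ℝ) :=
    Finset.single_le_sum (f := fun i => (Nat.card {b : Fin s → ZMod q //
        ¬ ∃ y : Fin m → Fin d → ℤ,
        (∀ j, y j ∈ A' i ∧ W.mulVec (fun l => (y j l : ZMod q)) = b) ∧
        AffineIndependent (ZMod q) (fun j l => (y j l : ZMod q))} : ℝ))
      (fun i _ => Nat.cast_nonneg _) (Finset.mem_univ i)
  refine (h1.trans (h2.trans hW2)).trans ?_
  have h3 : 0 ≤ (Fintype.card ι : ℝ) * Real.exp (-(d : ℝ) / 10 ^ 5) * (q : ℝ) ^ s := by positivity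
  calc 4 * (Fintype.card ι : ℝ) * (6 * Real.exp (-(d : ℝ) / 10 ^ 5)) * (q : ℝ) ^ s
      = 24 * ((Fintype.card ι : ℝ) * Real.exp (-(d : ℝ) / 10 ^ 5) * (q : ℝ) ^ s) := by ring
    _ ≤ 50 * ((Fintype.card ι : ℝ) * Real.exp (-(d : ℝ) / 10 ^ 5) * (q : ℝ) ^ s) := by linarith
    _ = _ := by ring

end Vale.Agent.P230
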