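import Vale.Agent.P230.SliceData
import Vale.Agent.P230.Iter2
import Vale.Agent.P230.MBase

open MeasureTheory Set
open scoped ENNReal Pointwise

namespace Vale.Agent.P230

open CoreAux

namespace ClassAux

/-- integer points of a discretised set in the unit box: finiteness and cardinality -/
theorem disc_fin {s D M : ℕ} {δ₀ : ℝ} {δ : Fin s → ℝ} {Z : Set (Fin s → ℝ)} (hD : 1 ≤ D)
    (hδ₀ : 0 < δ₀) (hδ : ∀ i, δ₀ ≤ δ i) (hZbox : ∀ z ∈ Z, ∀ i, |z i| ≤ 1)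
    (hMs : (2 * (D : ℝ) / δ₀ + 3) ^ s ≤ M) :
    {z : Fin s → ℤ | (fun i => δ i / D * (z i : ℝ)) ∈ Z}.Finite ∧
      {z : Fin s → ℤ | (fun i => δ i / D * (z i : ℝ)) ∈ Z}.ncard ≤ M := by
  have hDr : (0 : ℝ) < D := by exact_mod_cast hD
  set Zi : Set (Fin s → ℤ) := {z | (fun i => δ i / D * (z i : ℝ)) ∈ Z} with hZi
  set m : ℕ := ⌊(D : ℝ) / δ₀⌋₊ with hm
  have hsub : Zi ⊆ ((Fintype.piFinset fun _ : Fin s => Finset.Icc (-(m : ℤ)) m :
      Finset (Fin s → ℤ)) : Set (Fin s → ℤ)) := by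
    intro z hz
    simp only [Finset.mem_coe, Fintype.mem_piFinset, Finset.mem_Icc]
    intro i
    have h1 := hZbox _ hz i
    have hδi := hδ i
    have hδi0 : 0 < δ i := lt_of_lt_of_le hδ₀ hδi
    have h2 : |(z i : ℝ)| ≤ D / δ₀ := by
      rw [abs_mul, abs_of_pos (div_pos hδi0 hDr)] at h1
      have h3 : |(z i : ℝ)| ≤ D / δ i := by
        rw [le_div_iff₀ hδi0]
        have : δ i / D * |(z i : ℝ)| * D ≤ 1 * D := mul_le_mul_of_nonneg_right h1 hDr.le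
        have h4 : δ i / D * |(z i : ℝ)| * D = |(z i : ℝ)| * δ i := by field_simp
        linarith
      exact h3.trans (div_le_div_of_nonneg_left hDr.le hδ₀ hδi)
    have h5 : (z i).natAbs ≤ m := by
      rw [hm]
      refine Nat.le_floor ?_
      have : (((z i).natAbs : ℕ) : ℝ) = |(z i : ℝ)| := by
        rw [Nat.cast_natAbs, Int.cast_abs]
      rw [this]; exact h2
    omega
  have hfin1 : Zi.Finite := (Finset.finite_toSet _).subset hsub
  refine ⟨hfin1, ?_⟩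
  have h6 : Zi.ncard ≤ (Fintype.piFinset fun _ : Fin s => Finset.Icc (-(m : ℤ)) m).card := by
    rw [← Set.ncard_coe_finset]
    exact Set.ncard_le_ncard hsub (Finset.finite_toSet _)
  have h7 : (Fintype.piFinset fun _ : Fin s => Finset.Icc (-(m : ℤ)) m).card = (2 * m + 1) ^ s := by
    rw [Fintype.card_piFinset]
    simp only [Int.card_Icc, Finset.prod_const, Finset.card_univ, Fintype.card_fin]
    congr 1
    omega
  have h8 : (((2 * m + 1) ^ s : ℕ) : ℝ) ≤ M := by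
    refine le_trans ?_ hMs
    push_cast
    refine pow_le_pow_left₀ (by positivity) ?_ s
    have h9 : (m : ℝ) ≤ D / δ₀ := Nat.floor_le (by positivity)
    have h10 : 2 * (D : ℝ) / δ₀ = 2 * (D / δ₀) := by ring
    rw [h10]; linarith
  rw [h7] at h6
  exact_mod_cast (le_trans (by exact_mod_cast h6) h8 : ((Zi.ncard : ℕ) : ℝ) ≤ M)

/-- pigeonhole: if fewer classes than shifts are bad, every class is a shift of a good one -/
theorem shift_good {X G : Type} [AddCommGroup X] [AddCommGroup G] [Finite G] (ψ : X →+ G)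
    (A : Set X) (Q : Finset X) (hQ : ∀ u ∈ Q, ∀ v ∈ Q, ψ u = ψ v → u = v)
    (h : unc ψ A * Nat.card G < Q.card) : ∀ g, ∃ u ∈ Q, ∃ x ∈ A, ψ (x + u) = g := by
  classical
  intro g
  by_contra hne
  push Not at hne
  have hG : 0 < Nat.card G := Nat.card_pos
  have h2 : unc ψ A * Nat.card G = Nat.card {g : G // ∀ x ∈ A, ψ x ≠ g} := by
    unfold unc
    have : (Nat.card G : ℝ) ≠ 0 := by positivity
    field_simp
  rw [h2] at h
  have h3 : Nat.card Q ≤ Nat.card {g : G // ∀ x ∈ A, ψ x ≠ g} := by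
    refine Nat.card_le_card_of_injective (fun u => ⟨g - ψ u.1, fun x hx hxu => ?_⟩) ?_
    · exact hne u.1 u.2 x hx (by rw [map_add, hxu]; abel)
    · intro u v huv
      have h4 : g - ψ u.1 = g - ψ v.1 := congrArg Subtype.val huv
      have h5 : ψ u.1 = ψ v.1 := by
        have := congrArg (fun t => g - t) h4
        simpa using this
      exact Subtype.ext (hQ _ u.2 _ v.2 h5)
  have h6 : Nat.card Q = Q.card := by simp
  rw [h6] at h3
  have h7 : (Q.card : ℝ) ≤ Nat.card {g : G // ∀ x ∈ A, ψ x ≠ g} := by exact_mod_cast h3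
  linarith

end ClassAux

open ClassAux

theorem class_core : ∃ d₀ : ℕ, ∀ (d s D M q s' m r D₁ : ℕ) [Fact q.Prime]
    (H τ w₀ w₁ R δ₀ : ℝ) (δ : Fin s → ℝ) (K : Set ((Fin d → ℝ) × (Fin s → ℝ))),
    d₀ ≤ d → 1 ≤ D → 1 ≤ M → 0 < δ₀ → Convex ℝ K → IsCompact K →
    (∀ p ∈ thick K w₀, ∀ i, |p.1 i| ≤ 1) → (∀ p ∈ K, ∀ i, |p.2 i| ≤ 1) → 0 < τ →
    RStep s δ {z | ENNReal.ofReal τ ≤ volume {u : Fin d → ℝ | (u, z) ∈ K}} →
    (∀ i, δ₀ ≤ δ i) → (∀ i, δ i ≤ 1) →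
    (∀ z, volume {u : Fin d → ℝ | (u, z) ∈ thick K w₀} ≤ ENNReal.ofReal (R * τ)) →
    0 < H → 1 ≤ H * w₀ → (d : ℝ) ^ 2 ≤ H * w₀ →
    H ^ d * τ = d / 10 ^ 4 * (q : ℝ) ^ s' → (m : ℝ) ≤ d / 10 ^ 5 →
    d < 2 * ⌈H⌉₊ → 3 * (2 * ⌈H⌉₊) ^ 2 < q → ((2 * ⌈H⌉₊ : ℕ) : ℝ) ≤ (H * w₀) ^ 2 →
    (d : ℝ) / 100 ≤ s' → s' < d → 1 ≤ R → R ≤ Real.exp (d / 10 ^ 5) →
    r < q → 8 * (2 * r + 1) ^ d ≤ q ^ s' → (r : ℝ) ≤ H * w₁ → (D₁ : ℝ) ≤ D * w₁ → D₁ < D →
    (2 * (D : ℝ) / δ₀ + 3) ^ s ≤ M →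
    (M * (50 * M * Real.exp (-(d : ℝ) / 10 ^ 5))) ^ (2 ^ s) * ((q : ℝ) ^ s' * (D : ℝ) ^ s) <
      (r + 1 : ℝ) ^ d * (D₁ + 1 : ℝ) ^ s →
    ∃ (G : Type) (_ : AddCommGroup G) (_ : Finite G) (ψ : (Fin d → ℤ) × (Fin s → ℤ) →+ G),
      Function.Surjective ψ ∧ Nat.card G = q ^ s' * D ^ s ∧
      ∀ g, ∃ (x : Fin m → Fin d → ℤ) (z : Fin s → ℤ),
        (∀ j, ψ (x j, z) = g) ∧ AffineIndependent (ZMod q) (fun j l => (x j l : ZMod q)) ∧
        ∀ j, ∃ p ∈ K, (∀ i, p.1 i ≤ x j i / H ∧ (x j i : ℝ) / H ≤ p.1 i + (w₀ + w₁)) ∧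
          ∀ i, p.2 i ≤ δ i / D * z i ∧ δ i / D * (z i : ℝ) ≤ p.2 i + w₁ := by
  classical
  obtain ⟨d₀, hbase⟩ := mbase
  refine ⟨max d₀ 1, ?_⟩
  intro d s D M q s' m r D₁ _ H τ w₀ w₁ R δ₀ δ K hd hD hM hδ₀ hc hk hbox1 hbox2 hτ hR hδ hδ1 hvol
    hH hHw hHw2 hHτ hm hdB hBq hBw hs1 hs2 hR1 hR2 hrq hr8 hrw hDw hDD hMs hfin
  have hd0 : d₀ ≤ d := le_trans (le_max_left _ _) hd
  have hd1 : 1 ≤ d := le_trans (le_max_right _ _) hd
  have hDr : (0 : ℝ) < D := by exact_mod_cast hD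
  set Z : Set (Fin s → ℝ) := {z | ENNReal.ofReal τ ≤ volume {u : Fin d → ℝ | (u, z) ∈ K}} with hZ
  set Zi : Set (Fin s → ℤ) := {z | (fun i => δ i / D * (z i : ℝ)) ∈ Z} with hZi
  have hZne : ∀ z ∈ Z, ∃ u, (u, z) ∈ K := by
    intro z hz
    by_contra hne
    push Not at hne
    have : {u : Fin d → ℝ | (u, z) ∈ K} = ∅ := by
      ext u; simp [hne u]
    rw [hZ, Set.mem_setOf_eq, this, measure_empty] at hz
    exact absurd (ENNReal.ofReal_pos.2 hτ) (by simpa using hz)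
  have hZbox : ∀ z ∈ Z, ∀ i, |z i| ≤ 1 := by
    intro z hz i
    obtain ⟨u, hu⟩ := hZne z hz
    exact hbox2 _ hu i
  have hstep : StepOK D M s Zi := disc hD hδ₀ hδ hR hZbox hMs
  have hZfin : Zi.Finite ∧ Zi.ncard ≤ M := disc_fin hD hδ₀ hδ hZbox hMs
  haveI : Fintype Zi := hZfin.1.fintype
  let pt : Zi → (Fin s → ℝ) := fun z => fun i => δ i / D * (z.1 i : ℝ)
  obtain ⟨A, J, c, hJ1, hJ2, hJ3, hJ4, hJ5, hJ6, hA1, hA2, hA3⟩ :=
    slice_data (N := ⌈H ^ d * τ⌉₊) hc hk hbox1 hτ pt (fun z => z.2) (fun z => hvol _) hH hHw hR1 rfl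
  have hqpos : (0 : ℝ) < (q : ℝ) := by
    have := (Fact.out : q.Prime).pos
    exact_mod_cast this
  have hqs : (1 : ℝ) ≤ (q : ℝ) ^ s' := by
    refine one_le_pow₀ ?_
    have := (Fact.out : q.Prime).one_lt
    exact_mod_cast this.le
  have hN1 : (d : ℝ) / 10 ^ 4 * (q : ℝ) ^ s' ≤ (⌈H ^ d * τ⌉₊ : ℕ) := by
    rw [← hHτ]; exact Nat.le_ceil _
  have hN2 : ((⌈H ^ d * τ⌉₊ : ℕ) : ℝ) ≤ (d / 10 ^ 4 + 1) * (q : ℝ) ^ s' := by
    have := Nat.ceil_lt_add_one (show (0 : ℝ) ≤ H ^ d * τ by positivity)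
    rw [hHτ] at this ⊢
    linarith
  obtain ⟨ψ, hψs, hψi, hψu⟩ := hbase d hd0 q s' (2 * ⌈H⌉₊) ⌈H ^ d * τ⌉₊ m r R (H * w₀) Zi A J c
    hm hdB hBq hBw hs1 hs2 hHw2 hR1 hR2 hrq hr8 hJ1 hJ2 hJ3 hJ4 hJ5 hJ6 hA1 hA2 hN1 hN2
  have hcardZ : (Fintype.card Zi : ℝ) ≤ M := by
    have : Fintype.card Zi = Zi.ncard := by
      rw [← Nat.card_eq_fintype_card, Nat.card_coe_set_eq]
    rw [this]
    exact_mod_cast hZfin.2
  set β : ℝ := 50 * M * Real.exp (-(d : ℝ) / 10 ^ 5) with hβ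
  let AA : Set ((Fin d → ℤ) × (Fin s → ℤ)) :=
    {p | ∃ hz : p.2 ∈ Zi, Rich q m ψ (A ⟨p.2, hz⟩ : Set (Fin d → ℤ)) (ψ p.1)}
  obtain ⟨G', i1, i2, ψ', hs', hc', hu', hk1, hk2⟩ := iterate2 hD hM s ψ hψs Zi hstep AA (β := β)
    (by positivity) (by
      intro z hz
      refine le_trans ?_ ((hψu ⟨z, hz⟩).trans (?_ : _ ≤ β))
      · unfold unc
        refine div_le_div_of_nonneg_right ?_ (by positivity)
        have : Nat.card {g : Fin s' → ZMod q // ∀ x ∈ {x | (x, z) ∈ AA}, ψ x ≠ g} ≤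
            Nat.card {g : Fin s' → ZMod q //
              ¬ Rich q m ψ (A ⟨z, hz⟩ : Set (Fin d → ℤ)) g} := by
          refine Nat.card_le_card_of_injective (fun g => ⟨g.1, fun hr => ?_⟩) ?_
          · obtain ⟨x, hx⟩ := hψs g.1
            refine g.2 x ?_ hx
            refine ⟨hz, ?_⟩
            rw [hx]; exact hr
          · intro g g' hgg
            exact Subtype.ext (congrArg (fun z => z.1) hgg)
        exact_mod_cast this
      · rw [hβ]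
        gcongr)
  have hcard : (Nat.card G' : ℝ) = (q : ℝ) ^ s' * (D : ℝ) ^ s := by
    rw [hc']
    have : Nat.card (Fin s' → ZMod q) = q ^ s' := by
      rw [Nat.card_eq_fintype_card, Fintype.card_fun, ZMod.card, Fintype.card_fin]
    rw [this]; push_cast; rfl
  refine ⟨G', i1, i2, ψ', hs', ?_, ?_⟩
  · rw [hc']
    congr 1
    rw [Nat.card_eq_fintype_card, Fintype.card_fun, ZMod.card, Fintype.card_fin]
  -- shifts
  let Q : Finset ((Fin d → ℤ) × (Fin s → ℤ)) :=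
    (Fintype.piFinset fun _ : Fin d => Finset.Icc (0 : ℤ) r) ×ˢ
      (Fintype.piFinset fun _ : Fin s => Finset.Icc (0 : ℤ) D₁)
  have hQmem : ∀ u : (Fin d → ℤ) × (Fin s → ℤ), u ∈ Q ↔
      (∀ i, 0 ≤ u.1 i ∧ u.1 i ≤ (r : ℤ)) ∧ ∀ i, 0 ≤ u.2 i ∧ u.2 i ≤ (D₁ : ℤ) := by
    intro u
    simp only [Q, Finset.mem_product, Fintype.mem_piFinset, Finset.mem_Icc]
  have hQcard : (Q.card : ℝ) = (r + 1 : ℝ) ^ d * (D₁ + 1 : ℝ) ^ s := by
    simp only [Q, Finset.card_product, Fintype.card_piFinset, Int.card_Icc, Finset.prod_const,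
      Finset.card_univ, Fintype.card_fin]
    have h1 : ((r : ℤ) + 1 - 0).toNat = r + 1 := by omega
    have h2 : ((D₁ : ℤ) + 1 - 0).toNat = D₁ + 1 := by omega
    rw [h1, h2]
    push_cast
    ring
  have hQinj : ∀ u ∈ Q, ∀ v ∈ Q, ψ' u = ψ' v → u = v := by
    intro u hu v hv huv
    rw [hQmem] at hu hv
    have h1 : ψ' (u.1 - v.1, u.2 - v.2) = 0 := by
      have : ((u.1 - v.1, u.2 - v.2) : (Fin d → ℤ) × (Fin s → ℤ)) = u - v := rfl
      rw [this, map_sub, huv, sub_self]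
    obtain ⟨h2, h3⟩ := hk2 _ _ h1 (by
      intro i
      have h4 := hu.2 i
      have h5 := hv.2 i
      rw [Pi.sub_apply, abs_lt]
      constructor <;> omega)
    have h6 := hψi _ (by
      intro i
      have h4 := hu.1 i
      have h5 := hv.1 i
      rw [Pi.sub_apply, abs_le]
      constructor <;> omega) h3
    exact Prod.ext (sub_eq_zero.1 h6) (sub_eq_zero.1 h2)
  have hgood := shift_good ψ' AA Q hQinj (by
    refine lt_of_le_of_lt ?_ (hfin.trans_eq hQcard.symm)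
    rw [hcard]
    gcongr)
  intro g
  obtain ⟨u, hu, p, ⟨hz, y, hy1, hy2⟩, hg⟩ := hgood g
  rw [hQmem] at hu
  refine ⟨fun j => y j + u.1, p.2 + u.2, ?_, ?_, ?_⟩
  · intro j
    rw [← hg]
    have h1 : ψ (y j - p.1) = 0 := by
      rw [map_sub, (hy1 j).2, sub_self]
    have h2 := hk1 _ h1
    have h3 : ((y j + u.1, p.2 + u.2) : (Fin d → ℤ) × (Fin s → ℤ)) =
        (y j - p.1, 0) + (p + u) := by
      refine Prod.ext ?_ ?_
      · simp only [Prod.fst_add]; abel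
      · simp only [Prod.snd_add]; abel
    rw [h3, map_add, h2, zero_add]
  · have h1 : (fun j l => (((y j + u.1) l : ℤ) : ZMod q)) =
        fun j => (fun l => (u.1 l : ZMod q)) + (fun l => (y j l : ZMod q)) := by
      funext j l
      simp only [Pi.add_apply, Int.cast_add]
      ring
    rw [h1]
    exact (affineIndependent_vadd (k := ZMod q) (v := fun l => (u.1 l : ZMod q))
      (p := fun j l => (y j l : ZMod q))).2 hy2
  · intro j
    have h1 := (hA3 ⟨p.2, hz⟩ (y j)).1 (hy1 j).1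
    obtain ⟨v, hv, hvi⟩ := h1
    refine ⟨(v, pt ⟨p.2, hz⟩), hv, ?_, ?_⟩
    · intro i
      have h2 := hvi i
      have h3 := hu.1 i
      have h4 : (((y j + u.1) i : ℤ) : ℝ) / H = (y j i : ℝ) / H + (u.1 i : ℝ) / H := by
        simp only [Pi.add_apply, Int.cast_add]; ring
      have h5 : (0 : ℝ) ≤ (u.1 i : ℝ) / H := by
        have : (0 : ℝ) ≤ (u.1 i : ℝ) := by exact_mod_cast h3.1
        positivity
      have h6 : (u.1 i : ℝ) / H ≤ w₁ := by
        rw [div_le_iff₀ hH]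
        have : (u.1 i : ℝ) ≤ r := by exact_mod_cast h3.2
        linarith
      simp only at h2 ⊢
      rw [h4]
      constructor <;> linarith [h2.1, h2.2]
    · intro i
      have h3 := hu.2 i
      have hδi : 0 < δ i := lt_of_lt_of_le hδ₀ (hδ i)
      have h4 : δ i / D * (((p.2 + u.2) i : ℤ) : ℝ) =
          δ i / D * (p.2 i : ℝ) + δ i / D * (u.2 i : ℝ) := by
        simp only [Pi.add_apply, Int.cast_add]; ring
      have h5 : (0 : ℝ) ≤ (u.2 i : ℝ) := by exact_mod_cast h3.1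
      have h5' : 0 ≤ δ i / D * (u.2 i : ℝ) := by positivity
      have h6 : δ i / D * (u.2 i : ℝ) ≤ w₁ := by
        have h7 : (u.2 i : ℝ) ≤ D₁ := by exact_mod_cast h3.2
        calc δ i / D * (u.2 i : ℝ) ≤ 1 / D * (D * w₁) := by
              refine mul_le_mul ?_ (h7.trans hDw) h5 (by positivity)
              exact div_le_div_of_nonneg_right (hδ1 i) hDr.le
          _ = w₁ := by field_simp
      simp only
      rw [h4]
      simp only [pt]
      constructor <;> linarith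

end Vale.Agent.P230
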