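import Mathlib

open MeasureTheory Set
open scoped ENNReal

namespace Vale.Agent.P230

/-- The fraction of the finite group `G` which is not covered by the image of `A`. -/
noncomputable def unc {X G : Type} [AddCommGroup X] [AddCommGroup G] (ψ : X →+ G)
    (A : Set X) : ℝ :=
  (Nat.card {g : G // ∀ x ∈ A, ψ x ≠ g} : ℝ) / Nat.card G

/-- Integer layer structure: recursively, over every point of `Z'` there are `2 * D` consecutive
integers in the fibre of `Z`. -/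
def StepOK (D M : ℕ) : (s : ℕ) → Set (Fin s → ℤ) → Prop
  | 0, Z => Z.Nonempty
  | s + 1, Z => ∃ Z' : Set (Fin s → ℤ), StepOK D M s Z' ∧ Z'.Finite ∧ Z'.ncard ≤ M ∧
      ∀ z ∈ Z', ∃ k₀ : ℤ, ∀ j : ℕ, j < 2 * D → (Fin.cons (k₀ + (j : ℤ)) z : Fin (s + 1) → ℤ) ∈ Z

/-- Real layer structure: over every point of `Z'` the fibre of `Z` contains an interval of
length `2 * δ 0`. -/
def RStep : (s : ℕ) → (Fin s → ℝ) → Set (Fin s → ℝ) → Prop
  | 0, _, Z => Z.Nonempty
  | s + 1, δ, Z => ∃ Z' : Set (Fin s → ℝ), RStep s (Fin.tail δ) Z' ∧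
      ∀ z ∈ Z', ∃ a : ℝ, ∀ x ∈ Set.Icc a (a + 2 * δ 0), (Fin.cons x z : Fin (s + 1) → ℝ) ∈ Z

/-- The constant of the weak sharp Young inequality. -/
noncomputable def rho : ℝ := 499 / 500

/-- Y j A counts solutions of sum of lam i a i in A, a i in A, over all coefficient vectors with
nonzero entries and sum one. -/
noncomputable def Y {q d : ℕ} [Fact q.Prime] (j : ℕ) (A : Finset (Fin d → ZMod q)) : ℕ :=
  Nat.card {p : (Fin j → ZMod q) × (Fin j → Fin d → ZMod q) //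
    (∀ i, p.1 i ≠ 0) ∧ ∑ i, p.1 i = 1 ∧ (∀ i, p.2 i ∈ A) ∧ ∑ i, p.1 i • p.2 i ∈ A}

/-- e is an affine combination of all points of J with nonzero coefficients. -/
def IsCirc {q d : ℕ} (J : Finset (Fin d → ZMod q)) (e : Fin d → ZMod q) : Prop :=
  e ∉ J ∧ ∃ lam : (Fin d → ZMod q) → ZMod q, (∀ a ∈ J, lam a ≠ 0) ∧ ∑ a ∈ J, lam a = 1 ∧
    ∑ a ∈ J, lam a • a = e

/-- The number of circuits (J, e) with card J = j in A. -/
noncomputable def Xc {q d : ℕ} (j : ℕ) (A : Finset (Fin d → ZMod q)) : ℕ :=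
  Nat.card {p : Finset (Fin d → ZMod q) × (Fin d → ZMod q) //
    p.1 ⊆ A ∧ p.1.card = j ∧ p.2 ∈ A ∧ IsCirc p.1 p.2}

end Vale.Agent.P230
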