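import Vale.Agent.P230.Defs

/-! # P230 [NO]: normalisation of a convex body by a simplex of maximal volume -/

open MeasureTheory Set
open scoped ENNReal

namespace Vale.Agent.P230

namespace NormAux

/-- the edge matrix of the simplex `v, V 0, ..., V (n-1)` -/
def mat {n : ℕ} (p : (Fin n → Fin n → ℝ) × (Fin n → ℝ)) : Matrix (Fin n) (Fin n) ℝ :=
  Matrix.of fun i j => p.1 j i - p.2 i

lemma continuous_mat {n : ℕ} : Continuous (mat : _ → Matrix (Fin n) (Fin n) ℝ) := by
  refine continuous_matrix fun i j => ?_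
  change Continuous fun p : (Fin n → Fin n → ℝ) × (Fin n → ℝ) => p.1 j i - p.2 i
  fun_prop

lemma mulVec_mat {n : ℕ} (V : Fin n → Fin n → ℝ) (v x : Fin n → ℝ) :
    (mat (V, v)).mulVec x + v = (1 - ∑ j, x j) • v + ∑ j, x j • V j := by
  funext i
  simp only [mat, Matrix.mulVec, dotProduct, Matrix.of_apply, Pi.add_apply, Pi.smul_apply,
    smul_eq_mul, Finset.sum_apply, sub_mul, Finset.sum_sub_distrib, Finset.sum_mul, one_mul]
  have h1 : ∑ j, V j i * x j = ∑ j, x j * V j i :=
    Finset.sum_congr rfl fun j _ => mul_comm _ _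
  have h2 : ∑ j, v i * x j = ∑ j, x j * v i :=
    Finset.sum_congr rfl fun j _ => mul_comm _ _
  rw [h1, h2]
  ring

lemma det_update {n : ℕ} (T : Matrix (Fin n) (Fin n) ℝ) (x : Fin n → ℝ) (i : Fin n) :
    (T.updateCol i (T.mulVec x)).det = T.det * x i := by
  rw [← Matrix.cramer_apply, Matrix.cramer_eq_adjugate_mulVec, Matrix.mulVec_mulVec,
    Matrix.adjugate_mul, Matrix.smul_mulVec, Matrix.one_mulVec]
  rfl

end NormAux

open NormAux

theorem normalise {n : ℕ} (hn : 1 ≤ n) {K : Set (Fin n → ℝ)} (hc : Convex ℝ K)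
    (hk : IsCompact K) (hi : (interior K).Nonempty) :
    ∃ (T : Matrix (Fin n) (Fin n) ℝ) (v : Fin n → ℝ), T.det ≠ 0 ∧
      (∀ x : Fin n → ℝ, (∀ i, 0 ≤ x i ∧ x i ≤ 1 / n) → T.mulVec x + v ∈ K) ∧
      (∀ x : Fin n → ℝ, T.mulVec x + v ∈ K → ∀ i, |x i| ≤ 1) := by
  classical
  have hK2 : IsCompact ((Set.pi Set.univ fun _ : Fin n => K) ×ˢ K) :=
    (isCompact_univ_pi fun _ => hk).prod hk
  obtain ⟨x0, hx0⟩ := hi
  obtain ⟨ε, hε, hball⟩ := Metric.isOpen_iff.1 isOpen_interior x0 hx0
  have hx0K : x0 ∈ K := interior_subset hx0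
  -- a nondegenerate simplex
  obtain ⟨p0, hp0, hdet0⟩ : ∃ p0 ∈ (Set.pi Set.univ fun _ : Fin n => K) ×ˢ K,
      0 < |(mat p0).det| := by
    refine ⟨(fun j => x0 + Pi.single j (ε / 2), x0), ⟨?_, hx0K⟩, ?_⟩
    · intro j _
      refine interior_subset (hball ?_)
      rw [Metric.mem_ball, dist_eq_norm, add_sub_cancel_left]
      refine lt_of_le_of_lt (b := ε / 2) ?_ (by linarith)
      rw [pi_norm_le_iff_of_nonneg (by linarith)]
      intro i
      by_cases h : i = j
      · subst h
        rw [Pi.single_eq_same, Real.norm_eq_abs, abs_of_pos (by linarith)]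
      · rw [Pi.single_eq_of_ne h, norm_zero]
        linarith
    · have : mat (fun j => x0 + Pi.single j (ε / 2), x0) = Matrix.diagonal fun _ => ε / 2 := by
        ext i j
        simp only [mat, Matrix.of_apply, Pi.add_apply, add_sub_cancel_left]
        by_cases h : i = j
        · subst h; simp
        · rw [Matrix.diagonal_apply_ne _ h, Pi.single_eq_of_ne h]
      rw [this, Matrix.det_diagonal, Finset.prod_const]
      exact abs_pos.2 (pow_ne_zero _ (by linarith))
  obtain ⟨⟨V, v⟩, hp, hmax⟩ := hK2.exists_isMaxOn ⟨p0, hp0⟩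
    (f := fun p => |(mat p).det|) (continuous_mat.matrix_det.abs.continuousOn)
  have hV : ∀ j, V j ∈ K := fun j => hp.1 j trivial
  have hv : v ∈ K := hp.2
  have hdet : 0 < |(mat (V, v)).det| := lt_of_lt_of_le hdet0 (hmax hp0)
  refine ⟨mat (V, v), v, abs_pos.1 hdet, ?_, ?_⟩
  · intro x hx
    rw [mulVec_mat]
    have hsum : ∑ j, x j ≤ 1 := by
      calc ∑ j, x j ≤ ∑ _j : Fin n, (1 / n : ℝ) := Finset.sum_le_sum fun j _ => (hx j).2
        _ = 1 := by
          rw [Finset.sum_const, Finset.card_univ, Fintype.card_fin, nsmul_eq_mul]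
          have : (n : ℝ) ≠ 0 := by positivity
          field_simp
    rcases eq_or_lt_of_le (Finset.sum_nonneg fun j (_ : j ∈ Finset.univ) => (hx j).1) with h0 | h0
    · have hz : ∀ j, x j = 0 := fun j =>
        (Finset.sum_eq_zero_iff_of_nonneg (fun j _ => (hx j).1)).1 h0.symm j (Finset.mem_univ j)
      simp [hz, hv]
    · obtain ⟨s, hs⟩ : ∃ s, s = ∑ j, x j := ⟨_, rfl⟩
      rw [← hs] at h0 hsum ⊢
      have hmem : ∑ j, (x j / s) • V j ∈ K := by
        refine hc.sum_mem (fun j _ => div_nonneg (hx j).1 h0.le) ?_ (fun j _ => hV j)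
        rw [← Finset.sum_div, ← hs, div_self h0.ne']
      have e : ∑ j, x j • V j = s • ∑ j, (x j / s) • V j := by
        rw [Finset.smul_sum]
        refine Finset.sum_congr rfl fun j _ => ?_
        rw [smul_smul, mul_div_cancel₀ _ h0.ne']
      rw [e]
      exact hc hv hmem (by linarith) h0.le (by ring)
  · intro x hx i
    have h1 := hmax (a := (Function.update V i ((mat (V, v)).mulVec x + v), v)) ⟨by
      intro j _
      by_cases h : j = i
      · subst h
        simpa using hx
      · simp only [Function.update_of_ne h]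
        exact hV j, hv⟩
    simp only [Set.mem_ofPred_eq] at h1
    have e : mat (Function.update V i ((mat (V, v)).mulVec x + v), v) =
        (mat (V, v)).updateCol i ((mat (V, v)).mulVec x) := by
      ext a b
      by_cases h : b = i
      · subst h
        simp [mat]
      · rw [Matrix.updateCol_ne h]
        simp [mat, Function.update_of_ne h]
    rw [e, det_update, abs_mul] at h1
    by_contra hcon
    push Not at hcon
    nlinarith

end Vale.Agent.P230
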