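import Vale.Agent.P230.Large
import Vale.Agent.P230.Norm

open MeasureTheory Set
open scoped ENNReal Pointwise

namespace Vale.Agent.P230

/-- every dimension `n ≥ 2`: lattice coverings of a normalised body -/
theorem all_norm : ∃ C : ℝ, 0 < C ∧ ∀ n : ℕ, 2 ≤ n → ∀ K : Set (Fin n → ℝ),
    Convex ℝ K → IsCompact K →
    (∀ x : Fin n → ℝ, (∀ i, 0 ≤ x i ∧ x i ≤ 1 / (n : ℝ)) → x ∈ K) →
    (∀ x ∈ K, ∀ i, |x i| ≤ 1) →
    ∃ M : Matrix (Fin n) (Fin n) ℝ, M.det ≠ 0 ∧
      (∀ y, ∃ k ∈ K, ∃ z : Fin n → ℤ, y = k + M.mulVec (fun i => (z i : ℝ))) ∧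
      (volume K).toReal ≤ C * n * (Real.log n) ^ 3 * |M.det| := by
  obtain ⟨C, n₀, hC, hlarge⟩ := large
  refine ⟨max C (2 * (2 * (n₀ : ℝ)) ^ n₀), lt_max_of_lt_left hC, ?_⟩
  intro n hn K hc hk hcube hbox
  have hnr : (2 : ℝ) ≤ n := by exact_mod_cast hn
  have hlogpos : 0 ≤ Real.log n := Real.log_nonneg (by linarith)
  by_cases hnn : n₀ ≤ n
  · obtain ⟨M, h1, h2, h3⟩ := hlarge n hnn K hc hk hcube hbox
    refine ⟨M, h1, h2, h3.trans ?_⟩
    have := le_max_left C (2 * (2 * (n₀ : ℝ)) ^ n₀)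
    gcongr
  · push Not at hnn
    have hnn' : (n : ℝ) ≤ n₀ := by exact_mod_cast hnn.le
    have hdet : (Matrix.diagonal (fun _ : Fin n => 1 / (n : ℝ))).det = (1 / (n : ℝ)) ^ n := by
      rw [Matrix.det_diagonal]; simp
    refine ⟨Matrix.diagonal (fun _ => 1 / (n : ℝ)), ?_, ?_, ?_⟩
    · rw [hdet]; positivity
    · intro y
      refine ⟨fun i => Int.fract (n * y i) / n, hcube _ fun i => ?_, fun i => ⌊n * y i⌋, ?_⟩
      · constructor
        · exact div_nonneg (Int.fract_nonneg _) (by linarith)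
        · exact div_le_div_of_nonneg_right (Int.fract_lt_one _).le (by linarith)
      · ext i
        rw [Pi.add_apply, Matrix.mulVec_diagonal]
        have h1 := Int.fract_add_floor (n * y i)
        rw [one_div, inv_mul_eq_div, ← add_div, h1]
        field_simp
    · rw [hdet]
      have h1 : volume K ≤ ENNReal.ofReal (2 ^ n) := by
        have h2 : K ⊆ (Set.univ.pi fun _ : Fin n => Set.Icc (-1 : ℝ) 1) := by
          intro u hu i _
          exact abs_le.1 (hbox _ hu i)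
        refine (measure_mono h2).trans (le_of_eq ?_)
        rw [Set.pi_univ_Icc, Real.volume_Icc_pi]
        simp only [Finset.prod_const, Finset.card_univ, Fintype.card_fin]
        rw [← ENNReal.ofReal_pow (by norm_num)]
        norm_num
      have h3 : (volume K).toReal ≤ 2 ^ n := by
        have := ENNReal.toReal_mono ENNReal.ofReal_ne_top h1
        rwa [ENNReal.toReal_ofReal (by positivity)] at this
      refine h3.trans ?_
      rw [abs_of_nonneg (by positivity)]
      have hlog : (1 : ℝ) / 2 ≤ n * (Real.log n) ^ 3 := by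
        have h4 : Real.log 2 ≤ Real.log n := Real.log_le_log (by norm_num) hnr
        have h5 := Real.log_two_gt_d9
        have h6 : (0.69 : ℝ) ≤ Real.log n := by linarith
        have h7 : (0.69 : ℝ) ^ 3 ≤ (Real.log n) ^ 3 := by gcongr
        have h8 : (0.3 : ℝ) ≤ (Real.log n) ^ 3 := by
          refine le_trans ?_ h7; norm_num
        nlinarith
      have h9 : (2 * (n : ℝ)) ^ n ≤ (2 * (n₀ : ℝ)) ^ n₀ := by
        calc (2 * (n : ℝ)) ^ n ≤ (2 * (n₀ : ℝ)) ^ n := by gcongr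
          _ ≤ (2 * (n₀ : ℝ)) ^ n₀ := pow_le_pow_right₀ (by linarith) hnn.le
      have h10 : (2 : ℝ) ^ n = (2 * (n : ℝ)) ^ n * (1 / (n : ℝ)) ^ n := by
        rw [← mul_pow]; congr 1; field_simp
      rw [h10]
      have h11 : (2 * (n : ℝ)) ^ n ≤ max C (2 * (2 * (n₀ : ℝ)) ^ n₀) * n * (Real.log n) ^ 3 := by
        have h12 := le_max_right C (2 * (2 * (n₀ : ℝ)) ^ n₀)
        calc (2 * (n : ℝ)) ^ n ≤ (2 * (n₀ : ℝ)) ^ n₀ := h9
          _ = 2 * (2 * (n₀ : ℝ)) ^ n₀ * (1 / 2) := by ring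
          _ ≤ max C (2 * (2 * (n₀ : ℝ)) ^ n₀) * (n * (Real.log n) ^ 3) := by gcongr
          _ = _ := by ring
      gcongr

theorem body_cover : ∃ C : ℝ, 0 < C ∧ ∀ n : ℕ, 2 ≤ n → ∀ K : Set (Fin n → ℝ),
    Convex ℝ K → IsCompact K → (interior K).Nonempty →
    ∃ M : Matrix (Fin n) (Fin n) ℝ, M.det ≠ 0 ∧
      (∀ y, ∃ k ∈ K, ∃ z : Fin n → ℤ, y = k + M.mulVec (fun i => (z i : ℝ))) ∧
      (volume K).toReal ≤ C * n * (Real.log n) ^ 3 * |M.det| := by
  obtain ⟨C, hC, hall⟩ := all_norm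
  refine ⟨C, hC, ?_⟩
  intro n hn K hc hk hi
  obtain ⟨T, v, hT, hT1, hT2⟩ := normalise (by omega) hc hk hi
  set K₀ : Set (Fin n → ℝ) := {x | T.mulVec x + v ∈ K} with hK₀
  have hTu : IsUnit T.det := isUnit_iff_ne_zero.2 hT
  have hK₀im : K₀ = (fun y => T⁻¹.mulVec (y - v)) '' K := by
    ext x
    simp only [hK₀, mem_image]
    constructor
    · intro h
      refine ⟨_, h, ?_⟩
      rw [add_sub_cancel_right, Matrix.mulVec_mulVec, Matrix.nonsing_inv_mul _ hTu,
        Matrix.one_mulVec]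
    · rintro ⟨y, hy, rfl⟩
      change T.mulVec _ + v ∈ K
      rw [Matrix.mulVec_mulVec, Matrix.mul_nonsing_inv _ hTu, Matrix.one_mulVec, sub_add_cancel]
      exact hy
  have hc₀ : Convex ℝ K₀ := by
    intro x hx y hy a b ha hb hab
    have : T.mulVec (a • x + b • y) + v = a • (T.mulVec x + v) + b • (T.mulVec y + v) := by
      rw [Matrix.mulVec_add, Matrix.mulVec_smul, Matrix.mulVec_smul]
      have h1 : v = a • v + b • v := by rw [← add_smul, hab, one_smul]
      nth_rewrite 1 [h1]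
      rw [smul_add, smul_add]
      abel
    change T.mulVec (a • x + b • y) + v ∈ K
    rw [this]
    exact hc hx hy ha hb hab
  have hk₀ : IsCompact K₀ := by
    rw [hK₀im]
    refine hk.image ?_
    exact (Continuous.matrix_mulVec continuous_const (by fun_prop))
  obtain ⟨M, h1, h2, h3⟩ := hall n hn K₀ hc₀ hk₀ (fun x hx => hT1 x hx)
    (fun x hx => hT2 x hx)
  have hvol : (volume K).toReal = |T.det| * (volume K₀).toReal := by
    have e1 : K = (fun x => x + v) '' ((Matrix.toLin' T) '' K₀) := by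
      ext y
      simp only [mem_image]
      constructor
      · intro hy
        refine ⟨y - v, ⟨T⁻¹.mulVec (y - v), ?_, ?_⟩, by abel⟩
        · rw [hK₀im]; exact ⟨y, hy, rfl⟩
        · rw [Matrix.toLin'_apply, Matrix.mulVec_mulVec, Matrix.mul_nonsing_inv _ hTu,
            Matrix.one_mulVec]
      · rintro ⟨_, ⟨x, hx, rfl⟩, rfl⟩
        exact hx
    have e2 : volume K = ENNReal.ofReal |T.det| * volume K₀ := by
      rw [e1]
      have : (fun x : Fin n → ℝ => x + v) '' ((Matrix.toLin' T) '' K₀) =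
          (fun x : Fin n → ℝ => x + (-v)) ⁻¹' ((Matrix.toLin' T) '' K₀) := by
        ext x; simp
      rw [this, measure_preimage_add_right, Measure.addHaar_image_linearMap]
      rw [LinearMap.det_toLin']
    rw [e2, ENNReal.toReal_mul, ENNReal.toReal_ofReal (abs_nonneg _)]
  refine ⟨T * M, ?_, ?_, ?_⟩
  · rw [Matrix.det_mul]; exact mul_ne_zero hT h1
  · intro y
    obtain ⟨k, hk, z, hz⟩ := h2 (T⁻¹.mulVec (y - v))
    refine ⟨T.mulVec k + v, hk, z, ?_⟩
    have h4 : y - v = T.mulVec (T⁻¹.mulVec (y - v)) := by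
      rw [Matrix.mulVec_mulVec, Matrix.mul_nonsing_inv _ hTu, Matrix.one_mulVec]
    rw [hz, Matrix.mulVec_add, Matrix.mulVec_mulVec] at h4
    have : y = (y - v) + v := by abel
    rw [this, h4]
    abel
  · rw [hvol, Matrix.det_mul, abs_mul]
    have := mul_le_mul_of_nonneg_left h3 (abs_nonneg T.det)
    calc |T.det| * (volume K₀).toReal ≤ |T.det| * (C * n * (Real.log n) ^ 3 * |M.det|) := this
      _ = _ := by ring

end Vale.Agent.P230
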