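import Vale.Agent.P230.Params

namespace Vale.Agent.P230

namespace Params2Aux

open ParamsAux

theorem sq_le_two_pow (s : ℕ) : (s : ℝ) ^ 2 ≤ 2 * 2 ^ s := by
  have h : ∀ s : ℕ, s ^ 2 ≤ 2 * 2 ^ s := by
    intro s
    rcases Nat.lt_or_ge s 4 with h | h
    · interval_cases s <;> norm_num
    · induction s, h using Nat.le_induction with
      | base => norm_num
      | succ s hs ih =>
        have h1 : (s + 1) ^ 2 ≤ 2 * s ^ 2 := by nlinarith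
        calc (s + 1) ^ 2 ≤ 2 * s ^ 2 := h1
          _ ≤ 2 * (2 * 2 ^ s) := by omega
          _ = 2 * 2 ^ (s + 1) := by ring
  exact_mod_cast h s

theorem ev2 : ∀ᶠ n : ℕ in Filter.atTop,
    10 ^ 8 ≤ Real.log (Real.log n) ∧
    10 ^ 40 * Real.log (Real.log n) ^ 4 ≤ Real.log n ∧ 10 ^ 60 * Real.log n ^ 4 ≤ (n : ℝ) := by
  have h1 : ∀ᶠ x : ℝ in Filter.atTop, ‖Real.log x ^ 4‖ ≤ (1 / 10 ^ 60) * ‖id x‖ :=
    (Real.isLittleO_pow_log_id_atTop (n := 4)).bound (by positivity)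
  have h2 : ∀ᶠ x : ℝ in Filter.atTop, (10 : ℝ) ^ 8 ≤ Real.log x :=
    Real.tendsto_log_atTop.eventually_ge_atTop _
  have h3 : ∀ᶠ x : ℝ in Filter.atTop, (0 : ℝ) ≤ x := Filter.eventually_ge_atTop 0
  have h4 := Real.tendsto_log_atTop.eventually (h1.and (h2.and h3))
  have h := (tendsto_natCast_atTop_atTop (R := ℝ)).eventually (h4.and (h1.and (h2.and h3)))
  filter_upwards [h] with n hn
  obtain ⟨⟨a, b, c⟩, ⟨a', b', c'⟩⟩ := hn
  refine ⟨b, ?_, ?_⟩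
  · have hL : 0 ≤ Real.log (Real.log (n : ℝ)) ^ 4 := by positivity
    rw [Real.norm_of_nonneg hL, id, Real.norm_of_nonneg c] at a
    have : (10 : ℝ) ^ 60 * Real.log (Real.log n) ^ 4 ≤ Real.log n := by linarith
    have h5 : (10 : ℝ) ^ 40 * Real.log (Real.log n) ^ 4 ≤ 10 ^ 60 * Real.log (Real.log n) ^ 4 := by
      gcongr <;> norm_num
    linarith
  · have hL : 0 ≤ Real.log (n : ℝ) ^ 4 := by positivity
    rw [Real.norm_of_nonneg hL, id, Real.norm_of_nonneg c'] at a'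
    linarith

/-- the basic inequalities between the parameters -/
structure Par (n k s e d m : ℕ) (L y ℓ : ℝ) : Prop where
  hL : L = Real.log n
  hy : y = Real.log L
  hl : ℓ = Real.log k
  y8 : 10 ^ 8 ≤ y
  yL : 10 ^ 40 * y ^ 4 ≤ L
  Ln : 10 ^ 60 * L ^ 4 ≤ n
  k1 : 10 ^ 10 * L * y ≤ k
  k2 : (k : ℝ) ≤ 2 * 10 ^ 10 * L * y
  l1 : y ≤ ℓ
  l2 : ℓ ≤ 3 * y
  s1 : 10 ^ 6 * ℓ ≤ 2 ^ s
  s2 : (2 : ℝ) ^ s ≤ 2 * 10 ^ 6 * ℓ
  sy : (s : ℝ) ≤ y
  ke : k = e + s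
  nd : n = d + k
  e1 : 9 / 10 * (k : ℝ) ≤ e
  d1 : 9 / 10 * (n : ℝ) ≤ d
  m1 : (m : ℝ) ≤ e / 10 ^ 5
  m2 : 8 * 10 ^ 4 * L * y ≤ m

theorem exists_par {n : ℕ} {L y : ℝ} (hL : L = Real.log n) (hy : y = Real.log L)
    (y8 : 10 ^ 8 ≤ y) (yL : 10 ^ 40 * y ^ 4 ≤ L) (Ln : 10 ^ 60 * L ^ 4 ≤ n) :
    ∃ (k s e d m : ℕ) (ℓ : ℝ), Par n k s e d m L y ℓ := by
  have hy1 : (1 : ℝ) ≤ y := by linarith
  have hy4 : y ≤ y ^ 4 := by
    calc y = y ^ 1 := (pow_one y).symm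
      _ ≤ y ^ 4 := pow_le_pow_right₀ hy1 (by norm_num)
  have hLy : 10 ^ 40 * y ≤ L := by linarith
  have hL1 : (1 : ℝ) ≤ L := by linarith
  have hL4 : L ≤ L ^ 4 := by
    calc L = L ^ 1 := (pow_one L).symm
      _ ≤ L ^ 4 := pow_le_pow_right₀ hL1 (by norm_num)
  have hL2 : L ^ 2 ≤ L ^ 4 := pow_le_pow_right₀ hL1 (by norm_num)
  have hLy1 : 10 ^ 8 ≤ L * y := by nlinarith
  obtain ⟨k, hk⟩ : ∃ k : ℕ, k = ⌈10 ^ 10 * L * y⌉₊ := ⟨_, rfl⟩
  have k1 : 10 ^ 10 * L * y ≤ k := by rw [hk]; exact Nat.le_ceil _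
  have k2 : (k : ℝ) ≤ 2 * 10 ^ 10 * L * y := by
    have := Nat.ceil_lt_add_one (show (0 : ℝ) ≤ 10 ^ 10 * L * y by positivity)
    rw [← hk] at this
    linarith
  have hk0 : (0 : ℝ) < k := by linarith
  have hLk : L ≤ k := by
    have : L * 1 ≤ L * y := by gcongr
    linarith
  have l1 : y ≤ Real.log k := by
    rw [hy]
    exact Real.log_le_log (by linarith) hLk
  have l2 : Real.log k ≤ 3 * y := by
    have h1 : (k : ℝ) ≤ L * L := by
      have h2 : 2 * 10 ^ 10 * y ≤ L := by linarith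
      calc (k : ℝ) ≤ 2 * 10 ^ 10 * L * y := k2
        _ = L * (2 * 10 ^ 10 * y) := by ring
        _ ≤ L * L := by gcongr
    have h2 : Real.log k ≤ Real.log (L * L) := Real.log_le_log hk0 h1
    rw [Real.log_mul (by linarith) (by linarith), ← hy] at h2
    linarith
  obtain ⟨s, hs1, hs2⟩ := exists_s (L := Real.log k) (by linarith)
  have sy : (s : ℝ) ≤ y := by
    have h1 := sq_le_two_pow s
    have h2 : (s : ℝ) ^ 2 ≤ y ^ 2 := by
      have : (2 : ℝ) * 2 ^ s ≤ 12 * 10 ^ 6 * y := by linarith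
      nlinarith
    exact (sq_le_sq₀ (by positivity) (by linarith)).1 h2
  have hsk : (10 : ℝ) ^ 10 * s ≤ k := by
    calc (10 : ℝ) ^ 10 * s ≤ 10 ^ 10 * y := by gcongr
      _ = 10 ^ 10 * 1 * y := by ring
      _ ≤ 10 ^ 10 * L * y := by gcongr
      _ ≤ k := k1
  have hskn : s ≤ k := by
    have h0 : (0 : ℝ) ≤ s := Nat.cast_nonneg _
    have : (s : ℝ) ≤ k := by linarith
    exact_mod_cast this
  have hkn : (10 : ℝ) ^ 40 * k ≤ n := by
    calc (10 : ℝ) ^ 40 * k ≤ 10 ^ 40 * (2 * 10 ^ 10 * L * y) := by gcongr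
      _ ≤ 10 ^ 60 * L ^ 4 := by
        have : L * y ≤ L ^ 4 := by
          calc L * y ≤ L * L := by
                gcongr
                linarith
            _ = L ^ 2 := by ring
            _ ≤ L ^ 4 := hL2
        have h0 : 0 ≤ L ^ 4 := by positivity
        linarith
      _ ≤ n := Ln
  have hknn : k ≤ n := by
    have : (k : ℝ) ≤ n := by linarith
    exact_mod_cast this
  have he : ((k - s : ℕ) : ℝ) = k - s := by rw [Nat.cast_sub hskn]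
  have hd : ((n - k : ℕ) : ℝ) = n - k := by rw [Nat.cast_sub hknn]
  have he1 : 9 / 10 * (k : ℝ) ≤ ((k - s : ℕ) : ℝ) := by
    rw [he]
    have h0 : (0 : ℝ) ≤ s := Nat.cast_nonneg _
    linarith
  refine ⟨k, s, k - s, n - k, ⌊((k - s : ℕ) : ℝ) / 10 ^ 5⌋₊, Real.log k,
    ⟨hL, hy, rfl, y8, yL, Ln, k1, k2, l1, l2, hs1, hs2, sy, by omega, by omega, he1, ?_, ?_, ?_⟩⟩
  · rw [hd]; linarith
  · exact Nat.floor_le (by positivity)
  · have h1 := Nat.lt_floor_add_one (((k - s : ℕ) : ℝ) / 10 ^ 5)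
    have h2 : 9 / 10 * (10 ^ 10 * L * y) / 10 ^ 5 ≤ ((k - s : ℕ) : ℝ) / 10 ^ 5 := by
      gcongr
      linarith
    linarith

variable {n k s e d m : ℕ} {L y ℓ : ℝ}

theorem Par.y1 (h : Par n k s e d m L y ℓ) : 1 ≤ y := by linarith [h.y8]

theorem Par.Ly (h : Par n k s e d m L y ℓ) : 10 ^ 40 * y ≤ L := by
  have hy4 : y ≤ y ^ 4 := by
    calc y = y ^ 1 := (pow_one y).symm
      _ ≤ y ^ 4 := pow_le_pow_right₀ h.y1 (by norm_num)
  linarith [h.yL]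

theorem Par.Ly2 (h : Par n k s e d m L y ℓ) : 10 ^ 40 * y ^ 2 ≤ L := by
  have hy4 : y ^ 2 ≤ y ^ 4 := pow_le_pow_right₀ h.y1 (by norm_num)
  linarith [h.yL]

theorem Par.L1 (h : Par n k s e d m L y ℓ) : 10 ^ 8 ≤ L := by linarith [h.Ly, h.y8]

theorem Par.n0 (h : Par n k s e d m L y ℓ) : (0 : ℝ) < n := by
  have := h.Ln
  have h1 := h.L1
  have : (0 : ℝ) < 10 ^ 60 * L ^ 4 := by positivity
  linarith

theorem Par.Ln1 (h : Par n k s e d m L y ℓ) : 10 ^ 60 * L ≤ n := by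
  have h1 := h.L1
  have hL4 : L ≤ L ^ 4 := by
    calc L = L ^ 1 := (pow_one L).symm
      _ ≤ L ^ 4 := pow_le_pow_right₀ (by linarith) (by norm_num)
  linarith [h.Ln]

theorem Par.Ln3 (h : Par n k s e d m L y ℓ) : 10 ^ 60 * L ^ 3 ≤ n := by
  have h1 := h.L1
  have hL4 : L ^ 3 ≤ L ^ 4 := pow_le_pow_right₀ (by linarith) (by norm_num)
  linarith [h.Ln]

theorem Par.k0 (h : Par n k s e d m L y ℓ) : (10 : ℝ) ^ 18 ≤ k := by
  have h1 := h.L1
  have h2 := h.y1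
  have h3 := h.k1
  have : L * 1 ≤ L * y := by gcongr
  linarith

theorem Par.expL (h : Par n k s e d m L y ℓ) : Real.exp L = n := by
  rw [h.hL, Real.exp_log h.n0]

theorem Par.expl (h : Par n k s e d m L y ℓ) : Real.exp ℓ = k := by
  rw [h.hl, Real.exp_log (by linarith [h.k0])]

theorem Par.kL2 (h : Par n k s e d m L y ℓ) : (k : ℝ) ≤ 2 * 10 ^ 10 * L ^ 2 := by
  have h1 := h.k2
  have h2 := h.Ly
  have h3 := h.L1
  have h5 := h.y1
  have h4 : L * y ≤ L * L := by gcongr; linarith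
  nlinarith

/-- (4) -/
theorem Par.c4 (h : Par n k s e d m L y ℓ) : 8 * k ^ 2 ≤ n := by
  have h1 := h.kL2
  have h2 := h.Ln
  have h3 := h.L1
  have h4 : 8 * (k : ℝ) ^ 2 ≤ n := by
    calc 8 * (k : ℝ) ^ 2 ≤ 8 * (2 * 10 ^ 10 * L ^ 2) ^ 2 := by gcongr
      _ = 32 * 10 ^ 20 * L ^ 4 := by ring
      _ ≤ 10 ^ 60 * L ^ 4 := by gcongr; norm_num
      _ ≤ n := h2
  exact_mod_cast h4

theorem Par.ekR (h : Par n k s e d m L y ℓ) : (e : ℝ) + s = k := by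
  rw [h.ke]; push_cast; ring

theorem Par.dkR (h : Par n k s e d m L y ℓ) : (d : ℝ) + k = n := by
  rw [h.nd]; push_cast; ring

theorem Par.e2 (h : Par n k s e d m L y ℓ) : 9 * 10 ^ 9 * L * y ≤ e := by
  have h1 := h.e1
  have h2 := h.k1
  linarith

theorem log16 : Real.log 16 ≤ 3 := by
  have : Real.log 16 = 4 * Real.log 2 := by
    rw [show (16 : ℝ) = 2 ^ 4 by norm_num, Real.log_pow]; norm_num
  rw [this]
  have := Real.log_two_lt_d9
  linarith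

theorem log4 : Real.log 4 ≤ 2 := by
  have : Real.log 4 = 2 * Real.log 2 := by
    rw [show (4 : ℝ) = 2 ^ 2 by norm_num, Real.log_pow]; norm_num
  rw [this]
  have := Real.log_two_lt_d9
  linarith

/-- bounds for the powers of 32 k^2 -/
theorem Par.log32k (h : Par n k s e d m L y ℓ) :
    (32 * (k : ℝ) ^ 2) ^ s ≤ Real.exp (10 * y ^ 2) ∧
    (32 * (k : ℝ) ^ 2) ^ (s + 1) ≤ Real.exp (20 * y ^ 2) := by
  have hk := h.k0
  have hk0 : (0 : ℝ) < k := by linarith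
  have h1 : 32 * (k : ℝ) ^ 2 = Real.exp (Real.log 32 + 2 * ℓ) := by
    rw [Real.exp_add, Real.exp_log (by norm_num), two_mul, Real.exp_add, h.expl]
    ring
  have h2 := h.l2
  have h3 := log32
  have hy := h.y8
  have hl1 := h.l1
  have h4 : Real.log 32 + 2 * ℓ ≤ 10 * y := by linarith
  have hs := h.sy
  have h5 : (0 : ℝ) ≤ s := Nat.cast_nonneg _
  have h6 : 0 ≤ Real.log 32 + 2 * ℓ := by
    have : 0 ≤ Real.log 32 := Real.log_nonneg (by norm_num)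
    linarith
  constructor
  · rw [h1, ← Real.exp_nat_mul]
    refine Real.exp_le_exp.2 ?_
    calc (s : ℝ) * (Real.log 32 + 2 * ℓ) ≤ y * (10 * y) := by gcongr
      _ = 10 * y ^ 2 := by ring
  · rw [h1, ← Real.exp_nat_mul]
    refine Real.exp_le_exp.2 ?_
    push_cast
    have h7 : (s : ℝ) + 1 ≤ 2 * y := by linarith
    calc ((s : ℝ) + 1) * (Real.log 32 + 2 * ℓ) ≤ (2 * y) * (10 * y) := by gcongr
      _ = 20 * y ^ 2 := by ring

/-- (10) -/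
theorem Par.c10 (h : Par n k s e d m L y ℓ) : 600 * (n : ℝ) ^ 8 ≤ 2 ^ e := by
  have hn := h.n0
  have h1 : Real.log (600 * (n : ℝ) ^ 8) ≤ Real.log (2 ^ e) := by
    rw [Real.log_mul (by norm_num) (by positivity), Real.log_pow, Real.log_pow, ← h.hL]
    have h2 := Real.log_two_gt_d9
    have h3 := h.e2
    have h4 := h.L1
    have h5 := h.y8
    have h6 : Real.log 600 ≤ 10 := by
      have : Real.log 600 ≤ Real.log (2 ^ 10) := Real.log_le_log (by norm_num) (by norm_num)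
      rw [Real.log_pow] at this
      have := Real.log_two_lt_d9
      push_cast at *
      linarith
    have h7 : L * 1 ≤ L * y := by gcongr; linarith
    have h8 : (0.69 : ℝ) * e ≤ e * Real.log 2 := by
      have : (0 : ℝ) ≤ e := Nat.cast_nonneg _
      nlinarith
    push_cast
    linarith
  exact (Real.log_le_log_iff (by positivity) (by positivity)).1 h1

/-- (11) -/
theorem Par.c11 (h : Par n k s e d m L y ℓ) : 600 * (n : ℝ) ^ 8 ≤ (d : ℝ) ^ 20 := by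
  have hn := h.n0
  have h1 := h.d1
  have h2 : (n : ℝ) / 2 ≤ d := by linarith
  have h3 : ((n : ℝ) / 2) ^ 20 ≤ (d : ℝ) ^ 20 := by gcongr
  have h4 : (10 : ℝ) ^ 60 ≤ n := by
    have := h.Ln1
    have h5 := h.L1
    linarith
  refine le_trans ?_ h3
  have h5 : ((n : ℝ) / 2) ^ 20 = (n : ℝ) ^ 8 * ((n : ℝ) ^ 12 / 2 ^ 20) := by ring
  rw [h5, mul_comm]
  refine mul_le_mul_of_nonneg_left ?_ (by positivity)
  rw [le_div_iff₀ (by norm_num)]
  have h6 : (n : ℝ) ≤ (n : ℝ) ^ 12 := by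
    calc (n : ℝ) = (n : ℝ) ^ 1 := (pow_one _).symm
      _ ≤ (n : ℝ) ^ 12 := pow_le_pow_right₀ (by linarith) (by norm_num)
  linarith

/-- (12) -/
theorem Par.c12 (h : Par n k s e d m L y ℓ) :
    16 * (32 * (k : ℝ) ^ 2) ^ s ≤ Real.exp (e / 10 ^ 5) := by
  have h1 := h.log32k.1
  have h2 : (16 : ℝ) ≤ Real.exp 3 := log_le_of_exp (by norm_num) log16
  have h3 : 16 * (32 * (k : ℝ) ^ 2) ^ s ≤ Real.exp 3 * Real.exp (10 * y ^ 2) := by gcongr
  rw [← Real.exp_add] at h3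
  refine h3.trans (Real.exp_le_exp.2 ?_)
  have h4 := h.e2
  have h5 := h.Ly2
  have h6 := h.y8
  have h7 := h.L1
  have h8 : 9 * 10 ^ 9 * L * y / 10 ^ 5 ≤ (e : ℝ) / 10 ^ 5 := by gcongr
  have h9 : L * 1 ≤ L * y := by gcongr; linarith
  have h10 : 0 ≤ y ^ 2 := by positivity
  linarith

/-- (13) -/
theorem Par.c13 (h : Par n k s e d m L y ℓ) : 4 * (32 * (k : ℝ) ^ 2) ^ s ≤ (n : ℝ) ^ 2 := by
  have h1 := h.log32k.1
  have h2 : (4 : ℝ) ≤ Real.exp 2 := log_le_of_exp (by norm_num) log4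
  have h3 : 4 * (32 * (k : ℝ) ^ 2) ^ s ≤ Real.exp 2 * Real.exp (10 * y ^ 2) := by gcongr
  rw [← Real.exp_add] at h3
  have h4 : (n : ℝ) ^ 2 = Real.exp (2 * L) := by
    rw [two_mul, Real.exp_add, h.expL]; ring
  rw [h4]
  refine h3.trans (Real.exp_le_exp.2 ?_)
  have h5 := h.Ly2
  have h7 := h.L1
  have h10 : 0 ≤ y ^ 2 := by positivity
  linarith

/-- (14) -/
theorem Par.c14 (h : Par n k s e d m L y ℓ) :
    (((n ^ 3 * (32 * k ^ 2) ^ (s + 1)) ^ s : ℕ) *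
      (50 * ((n ^ 3 * (32 * k ^ 2) ^ (s + 1)) ^ s : ℕ) *
        Real.exp (-(e : ℝ) / 10 ^ 5))) ^ (2 ^ s) * (10 ^ 4 * 2 ^ e * (4 * (k : ℝ) ^ 2) ^ k) < 1 := by
  have hk0 : (0 : ℝ) < k := by linarith [h.k0]
  have hn := h.n0
  have hy := h.y8
  have hL := h.L1
  have hLy2 := h.Ly2
  have hLy : L * 1 ≤ L * y := by gcongr; linarith
  have hs := h.sy
  have hs0 : (0 : ℝ) ≤ s := Nat.cast_nonneg _
  -- M
  have hM : (((n ^ 3 * (32 * k ^ 2) ^ (s + 1)) ^ s : ℕ) : ℝ) ≤ Real.exp (4 * (L * y)) := by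
    push_cast
    have h1 : (n : ℝ) ^ 3 = Real.exp (3 * L) := by
      have : 3 * L = L + L + L := by ring
      rw [this, Real.exp_add, Real.exp_add, h.expL]; ring
    have h2 : (n : ℝ) ^ 3 * (32 * (k : ℝ) ^ 2) ^ (s + 1) ≤ Real.exp (3 * L + 20 * y ^ 2) := by
      rw [Real.exp_add, h1]
      gcongr
      exact h.log32k.2
    calc ((n : ℝ) ^ 3 * (32 * (k : ℝ) ^ 2) ^ (s + 1)) ^ s
        ≤ (Real.exp (3 * L + 20 * y ^ 2)) ^ s := by gcongr
      _ = Real.exp (s * (3 * L + 20 * y ^ 2)) := by rw [← Real.exp_nat_mul]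
      _ ≤ Real.exp (4 * (L * y)) := by
        refine Real.exp_le_exp.2 ?_
        have h3 : 3 * L + 20 * y ^ 2 ≤ 4 * L := by
          have h10 : 0 ≤ y ^ 2 := by positivity
          linarith
        calc (s : ℝ) * (3 * L + 20 * y ^ 2) ≤ y * (4 * L) := by
              gcongr
          _ = 4 * (L * y) := by ring
  have hM0 : (0 : ℝ) ≤ (((n ^ 3 * (32 * k ^ 2) ^ (s + 1)) ^ s : ℕ) : ℝ) := Nat.cast_nonneg _
  generalize (((n ^ 3 * (32 * k ^ 2) ^ (s + 1)) ^ s : ℕ) : ℝ) = M at hM hM0 ⊢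
  have he := h.e2
  have h50 : (50 : ℝ) ≤ Real.exp 5 := by
    refine log_le_of_exp (by norm_num) ?_
    have : Real.log 50 ≤ Real.log (2 ^ 6) := Real.log_le_log (by norm_num) (by norm_num)
    rw [Real.log_pow] at this
    have := Real.log_two_lt_d9
    push_cast at *
    linarith
  have hX1 : M * (50 * M * Real.exp (-(e : ℝ) / 10 ^ 5)) ≤ Real.exp (-(9 / 10 * e / 10 ^ 5)) := by
    calc M * (50 * M * Real.exp (-(e : ℝ) / 10 ^ 5))
        ≤ Real.exp (4 * (L * y)) * (Real.exp 5 * Real.exp (4 * (L * y)) *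
          Real.exp (-(e : ℝ) / 10 ^ 5)) := by gcongr
      _ = Real.exp (4 * (L * y) + (5 + 4 * (L * y) + -(e : ℝ) / 10 ^ 5)) := by
        rw [Real.exp_add, Real.exp_add, Real.exp_add]
      _ ≤ Real.exp (-(9 / 10 * e / 10 ^ 5)) := by
        refine Real.exp_le_exp.2 ?_
        have h1 : 10 ^ 4 * (L * y) ≤ (e : ℝ) / 10 ^ 5 := by
          rw [le_div_iff₀ (by norm_num)]; linarith
        have h2 : -(e : ℝ) / 10 ^ 5 = -((e : ℝ) / 10 ^ 5) := by ring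
        have h3 : -(9 / 10 * (e : ℝ) / 10 ^ 5) = -(9 / 10 * ((e : ℝ) / 10 ^ 5)) := by ring
        rw [h2, h3]
        linarith
  have hX0 : 0 ≤ M * (50 * M * Real.exp (-(e : ℝ) / 10 ^ 5)) := by positivity
  have he0 : (0 : ℝ) ≤ e := Nat.cast_nonneg _
  have hX2 : (M * (50 * M * Real.exp (-(e : ℝ) / 10 ^ 5))) ^ (2 ^ s) ≤
      Real.exp (-(9 * ℓ * e)) := by
    calc (M * (50 * M * Real.exp (-(e : ℝ) / 10 ^ 5))) ^ (2 ^ s)
        ≤ (Real.exp (-(9 / 10 * e / 10 ^ 5))) ^ (2 ^ s) := by gcongr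
      _ = Real.exp ((2 ^ s : ℕ) * (-(9 / 10 * e / 10 ^ 5))) := by rw [← Real.exp_nat_mul]
      _ ≤ Real.exp (-(9 * ℓ * e)) := by
        refine Real.exp_le_exp.2 ?_
        push_cast
        have h1 := h.s1
        have h2 : (10 ^ 6 * ℓ) * (9 / 10 * e / 10 ^ 5) ≤ (2 : ℝ) ^ s * (9 / 10 * e / 10 ^ 5) := by
          gcongr
        have h3 : (10 ^ 6 * ℓ) * (9 / 10 * (e : ℝ) / 10 ^ 5) = 9 * ℓ * e := by ring
        linarith
  have hY : 10 ^ 4 * 2 ^ e * (4 * (k : ℝ) ^ 2) ^ k ≤ Real.exp (10 + e + k * (2 + 2 * ℓ)) := by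
    have h1 : (10 : ℝ) ^ 4 ≤ Real.exp 10 := by
      refine log_le_of_exp (by norm_num) ?_
      have h3 : Real.log (10 ^ 4) ≤ Real.log (2 ^ 14) :=
        Real.log_le_log (by norm_num) (by norm_num)
      have h4 : Real.log ((2 : ℝ) ^ 14) = 14 * Real.log 2 := by rw [Real.log_pow]; norm_num
      have h5 := Real.log_two_lt_d9
      linarith
    have h2 : (2 : ℝ) ^ e ≤ Real.exp e := by
      have h3 : (2 : ℝ) ≤ Real.exp 1 := by
        refine log_le_of_exp (by norm_num) ?_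
        have := Real.log_two_lt_d9
        linarith
      calc (2 : ℝ) ^ e ≤ (Real.exp 1) ^ e := by gcongr
        _ = Real.exp e := by rw [← Real.exp_nat_mul, mul_one]
    have h4 : 4 * (k : ℝ) ^ 2 ≤ Real.exp (2 + 2 * ℓ) := by
      rw [Real.exp_add, two_mul ℓ, Real.exp_add, h.expl]
      have := log_le_of_exp (by norm_num) log4
      have h5 : 0 ≤ (k : ℝ) * k := by positivity
      nlinarith
    have h6 : (4 * (k : ℝ) ^ 2) ^ k ≤ Real.exp (k * (2 + 2 * ℓ)) := by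
      rw [Real.exp_nat_mul]
      gcongr
    rw [Real.exp_add, Real.exp_add]
    gcongr
  calc (M * (50 * M * Real.exp (-(e : ℝ) / 10 ^ 5))) ^ (2 ^ s) *
        (10 ^ 4 * 2 ^ e * (4 * (k : ℝ) ^ 2) ^ k)
      ≤ Real.exp (-(9 * ℓ * e)) * Real.exp (10 + e + k * (2 + 2 * ℓ)) := by gcongr
    _ = Real.exp (-(9 * ℓ * e) + (10 + e + k * (2 + 2 * ℓ))) :=
      (Real.exp_add _ _).symm
    _ < 1 := by
      rw [Real.exp_lt_one_iff]
      have h1 := h.e1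
      have h2 : (k : ℝ) ≤ 10 / 9 * e := by linarith
      have hl : 1 ≤ ℓ := by linarith [h.l1]
      have h3 : (k : ℝ) * (2 + 2 * ℓ) ≤ (10 / 9 * e) * (4 * ℓ) := by
        gcongr
        linarith
      have h4 : (10 : ℝ) ≤ e := by
        have := h.k0
        linarith
      have h5 : (e : ℝ) * 1 ≤ e * ℓ := by gcongr
      linarith

/-- (15) -/
theorem Par.c15 (h : Par n k s e d m L y ℓ) :
    160 * √k * (8 * (n : ℝ) ^ 2) ^ k ≤ Real.exp (d / 10 ^ 5) := by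
  have hk0 : (1 : ℝ) ≤ k := by linarith [h.k0]
  have hn := h.n0
  have hL := h.L1
  have h160 : (160 : ℝ) ≤ Real.exp 6 := by
    refine log_le_of_exp (by norm_num) ?_
    have : Real.log 160 ≤ Real.log (2 ^ 8) := Real.log_le_log (by norm_num) (by norm_num)
    rw [Real.log_pow] at this
    have := Real.log_two_lt_d9
    push_cast at *
    linarith
  have hkn : (k : ℝ) ≤ n := by
    have := h.dkR
    have h0 : (0 : ℝ) ≤ d := Nat.cast_nonneg _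
    linarith
  have hsq : √(k : ℝ) ≤ Real.exp L := by
    rw [h.expL]
    refine le_trans ?_ hkn
    rw [Real.sqrt_le_left (by linarith)]
    nlinarith
  have h8 : 8 * (n : ℝ) ^ 2 ≤ Real.exp (3 * L) := by
    have h1 : 3 * L = L + L + L := by ring
    rw [h1, Real.exp_add, Real.exp_add, h.expL]
    have h2 := h.Ln1
    have h3 : (8 : ℝ) ≤ n := by linarith
    calc 8 * (n : ℝ) ^ 2 ≤ (n : ℝ) * (n : ℝ) ^ 2 := by gcongr
      _ = (n : ℝ) * n * n := by ring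
  calc 160 * √k * (8 * (n : ℝ) ^ 2) ^ k ≤ Real.exp 6 * Real.exp L * (Real.exp (3 * L)) ^ k := by
        gcongr
    _ = Real.exp (6 + L + k * (3 * L)) := by
      rw [← Real.exp_nat_mul, ← Real.exp_add, ← Real.exp_add]
    _ ≤ Real.exp (d / 10 ^ 5) := by
      refine Real.exp_le_exp.2 ?_
      have h1 := h.kL2
      have h2 := h.Ln3
      have h3 := h.d1
      have h4 : (k : ℝ) * (3 * L) ≤ (2 * 10 ^ 10 * L ^ 2) * (3 * L) := by gcongr
      have h5 : L ≤ L ^ 3 := by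
        calc L = L ^ 1 := (pow_one L).symm
          _ ≤ L ^ 3 := pow_le_pow_right₀ (by linarith) (by norm_num)
      have h6 : (2 * 10 ^ 10 * L ^ 2) * (3 * L) = 6 * 10 ^ 10 * L ^ 3 := by ring
      rw [le_div_iff₀ (by norm_num)]
      rw [h6] at h4
      have h7 : 6 + L + k * (3 * L) ≤ 10 ^ 11 * L ^ 3 := by linarith
      calc (6 + L + k * (3 * L)) * 10 ^ 5 ≤ (10 ^ 11 * L ^ 3) * 10 ^ 5 := by gcongr
        _ ≤ 9 / 10 * (10 ^ 60 * L ^ 3) := by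
          have : 0 ≤ L ^ 3 := by positivity
          linarith
        _ ≤ d := by linarith

/-- (16) -/
theorem Par.c16 (h : Par n k s e d m L y ℓ) : ∀ q s' : ℕ, (q : ℝ) ≤ 600 * (n : ℝ) ^ 8 → 1 ≤ q →
    s' ≤ d → (q : ℝ) ^ e * ((n : ℝ) ^ 3) ^ s * (q : ℝ) ^ s' *
      (8 * (n : ℝ) ^ (6 * k) * Real.exp (-(d : ℝ) / 10 ^ 4)) ^ m < 1 := by
  intro q s' hq hq1 hs'
  have hn := h.n0
  have hL := h.L1
  have hy := h.y8
  have hq1r : (1 : ℝ) ≤ q := by exact_mod_cast hq1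
  have hqe : (q : ℝ) ≤ Real.exp (9 * L) := by
    have h1 : (600 : ℝ) ≤ n := by
      have := h.Ln1
      linarith
    have h2 : Real.exp (9 * L) = (n : ℝ) ^ 9 := by
      have : (9 : ℝ) * L = ((9 : ℕ) : ℝ) * L := by norm_num
      rw [this, Real.exp_nat_mul, h.expL]
    rw [h2]
    calc (q : ℝ) ≤ 600 * (n : ℝ) ^ 8 := hq
      _ ≤ n * (n : ℝ) ^ 8 := by gcongr
      _ = (n : ℝ) ^ 9 := by ring
  have hs'r : (s' : ℝ) ≤ d := by exact_mod_cast hs'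
  have a1 : (q : ℝ) ^ e ≤ Real.exp (e * (9 * L)) := by
    rw [Real.exp_nat_mul]; gcongr
  have a2 : (q : ℝ) ^ s' ≤ Real.exp (d * (9 * L)) := by
    calc (q : ℝ) ^ s' ≤ (q : ℝ) ^ d := pow_le_pow_right₀ hq1r hs'
      _ ≤ (Real.exp (9 * L)) ^ d := by gcongr
      _ = Real.exp (d * (9 * L)) := by rw [Real.exp_nat_mul]
  have a3 : ((n : ℝ) ^ 3) ^ s = Real.exp (s * (3 * L)) := by
    rw [Real.exp_nat_mul]
    congr 1
    have : (3 : ℝ) * L = ((3 : ℕ) : ℝ) * L := by norm_num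
    rw [this, Real.exp_nat_mul, h.expL]
  have a4 : 8 * (n : ℝ) ^ (6 * k) * Real.exp (-(d : ℝ) / 10 ^ 4) ≤
      Real.exp (-(8 / 10 * n / 10 ^ 4)) := by
    have h8 : (8 : ℝ) ≤ Real.exp 3 := by
      refine log_le_of_exp (by norm_num) ?_
      rw [show (8 : ℝ) = 2 ^ 3 by norm_num, Real.log_pow]
      have := Real.log_two_lt_d9
      push_cast
      linarith
    have h9 : (n : ℝ) ^ (6 * k) = Real.exp ((6 * k : ℕ) * L) := by
      rw [Real.exp_nat_mul, h.expL]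
    rw [h9]
    calc 8 * Real.exp ((6 * k : ℕ) * L) * Real.exp (-(d : ℝ) / 10 ^ 4)
        ≤ Real.exp 3 * Real.exp ((6 * k : ℕ) * L) * Real.exp (-(d : ℝ) / 10 ^ 4) := by gcongr
      _ = Real.exp (3 + (6 * k : ℕ) * L + -(d : ℝ) / 10 ^ 4) := by
        rw [← Real.exp_add, ← Real.exp_add]
      _ ≤ Real.exp (-(8 / 10 * n / 10 ^ 4)) := by
        refine Real.exp_le_exp.2 ?_
        push_cast
        have h1 := h.kL2
        have h2 := h.Ln3
        have h3 := h.d1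
        have h4 : 6 * (k : ℝ) * L ≤ 6 * (2 * 10 ^ 10 * L ^ 2) * L := by gcongr
        have h5 : L ≤ L ^ 3 := by
          calc L = L ^ 1 := (pow_one L).symm
            _ ≤ L ^ 3 := pow_le_pow_right₀ (by linarith) (by norm_num)
        have h6 : 6 * (2 * 10 ^ 10 * L ^ 2) * L = 12 * 10 ^ 10 * L ^ 3 := by ring
        have h7 : 3 + 6 * (k : ℝ) * L ≤ 10 ^ 12 * L ^ 3 := by linarith
        have h10 : (10 : ℝ) ^ 12 * L ^ 3 ≤ 1 / 10 * n / 10 ^ 4 := by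
          rw [le_div_iff₀ (by norm_num)]
          linarith
        have h11 : -(d : ℝ) / 10 ^ 4 ≤ -(9 / 10 * n / 10 ^ 4) := by
          rw [neg_div, neg_le_neg_iff]
          gcongr
        have h12 : 9 / 10 * (n : ℝ) / 10 ^ 4 = 8 / 10 * n / 10 ^ 4 + 1 / 10 * n / 10 ^ 4 := by ring
        linarith
  have a5 : (8 * (n : ℝ) ^ (6 * k) * Real.exp (-(d : ℝ) / 10 ^ 4)) ^ m ≤
      Real.exp (m * (-(8 / 10 * n / 10 ^ 4))) := by
    rw [Real.exp_nat_mul]; gcongr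
  calc (q : ℝ) ^ e * ((n : ℝ) ^ 3) ^ s * (q : ℝ) ^ s' *
        (8 * (n : ℝ) ^ (6 * k) * Real.exp (-(d : ℝ) / 10 ^ 4)) ^ m
      ≤ Real.exp (e * (9 * L)) * Real.exp (s * (3 * L)) * Real.exp (d * (9 * L)) *
        Real.exp (m * (-(8 / 10 * n / 10 ^ 4))) := by rw [a3]; gcongr
    _ = Real.exp (e * (9 * L) + s * (3 * L) + d * (9 * L) + m * (-(8 / 10 * n / 10 ^ 4))) := by
      rw [Real.exp_add, Real.exp_add, Real.exp_add]
    _ < 1 := by
      rw [Real.exp_lt_one_iff]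
      have h1 := h.m2
      have h2 := h.dkR
      have h3 := h.ekR
      have h4 := h.sy
      have h5 := h.Ly
      have h6 := h.Ln1
      have h7 : (e : ℝ) * (9 * L) + d * (9 * L) ≤ n * (9 * L) := by
        rw [← add_mul]
        have h0 : (0 : ℝ) ≤ s := Nat.cast_nonneg _
        have : (e : ℝ) + d ≤ n := by linarith
        gcongr
      have h8 : (s : ℝ) * (3 * L) ≤ n * (3 * L) := by
        have : (s : ℝ) ≤ n := by linarith
        gcongr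
      have h9 : (8 * 10 ^ 4 * L * y) * (8 / 10 * n / 10 ^ 4) ≤ m * (8 / 10 * n / 10 ^ 4) := by
        gcongr
      have h10 : (8 * 10 ^ 4 * L * y) * (8 / 10 * (n : ℝ) / 10 ^ 4) = 6.4 * (n * L) * y := by
        ring
      have h11 : 0 < (n : ℝ) * L := by positivity
      have h12 : 6.4 * ((n : ℝ) * L) * 10 ^ 8 ≤ 6.4 * (n * L) * y := by gcongr
      linarith

/-- (17) -/
theorem Par.c17 (h : Par n k s e d m L y ℓ) :
    640 / 10 ^ 8 * √k * 8 ^ s * e * d ≤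
      (640 / 10 ^ 8 * (2 * 10 ^ 5) * (6 * 10 ^ 6) ^ 3 * (2 * 10 ^ 10)) * n *
        L ^ (3 / 2 : ℝ) * y ^ (9 / 2 : ℝ) := by
  have hy := h.y8
  have hL := h.L1
  have hy0 : (0 : ℝ) < y := by linarith
  have hL0 : (0 : ℝ) < L := by linarith
  have e1 : L ^ (3 / 2 : ℝ) = L * √L := by
    rw [show (3 / 2 : ℝ) = 1 + 1 / 2 by norm_num, Real.rpow_add hL0, Real.rpow_one,
      Real.sqrt_eq_rpow]
  have e2 : y ^ (9 / 2 : ℝ) = y ^ 4 * √y := by
    rw [show (9 / 2 : ℝ) = ((4 : ℕ) : ℝ) + 1 / 2 by norm_num, Real.rpow_add hy0,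
      Real.rpow_natCast, Real.sqrt_eq_rpow]
  have h1 : √(k : ℝ) ≤ 2 * 10 ^ 5 * (√L * √y) := by
    rw [← Real.sqrt_mul hL0.le]
    have h2 : (2 : ℝ) * 10 ^ 5 = √((2 * 10 ^ 5) ^ 2) := by
      rw [Real.sqrt_sq (by norm_num)]
    rw [h2, ← Real.sqrt_mul (by positivity)]
    refine Real.sqrt_le_sqrt ?_
    have h3 := h.k2
    have h4 : 0 ≤ L * y := by positivity
    linarith
  have h2 : (8 : ℝ) ^ s ≤ (6 * 10 ^ 6) ^ 3 * y ^ 3 := by
    have h3 : (8 : ℝ) ^ s = ((2 : ℝ) ^ s) ^ 3 := by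
      rw [← pow_mul, mul_comm, pow_mul]; norm_num
    rw [h3, ← mul_pow]
    have h4 := h.s2
    have h5 := h.l2
    gcongr
    linarith
  have h3 : (e : ℝ) ≤ 2 * 10 ^ 10 * L * y := by
    have h4 := h.ekR
    have h5 := h.k2
    have h0 : (0 : ℝ) ≤ s := Nat.cast_nonneg _
    linarith
  have h4 : (d : ℝ) ≤ n := by
    have := h.dkR
    have h0 : (0 : ℝ) ≤ k := Nat.cast_nonneg _
    linarith
  calc 640 / 10 ^ 8 * √k * 8 ^ s * e * d
      ≤ 640 / 10 ^ 8 * (2 * 10 ^ 5 * (√L * √y)) * ((6 * 10 ^ 6) ^ 3 * y ^ 3) *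
        (2 * 10 ^ 10 * L * y) * n := by gcongr
    _ = _ := by rw [e1, e2]; ring

end Params2Aux

open Params2Aux

theorem params2 (d₁ : ℕ) : ∃ n₀ : ℕ, 3 ≤ n₀ ∧ ∀ n : ℕ, n₀ ≤ n → ∃ d e s k m : ℕ,
    k = e + s ∧ n = d + k ∧ 600 ≤ k ∧ 8 * k ^ 2 ≤ n ∧ d₁ ≤ e ∧ 1 ≤ e ∧ 4 * s < e ∧ 4 * k ≤ d ∧
    (m : ℝ) ≤ e / 10 ^ 5 ∧ 600 * (n : ℝ) ^ 8 ≤ 2 ^ e ∧ 600 * (n : ℝ) ^ 8 ≤ (d : ℝ) ^ 20 ∧
    16 * (32 * (k : ℝ) ^ 2) ^ s ≤ Real.exp (e / 10 ^ 5) ∧
    4 * (32 * (k : ℝ) ^ 2) ^ s ≤ (n : ℝ) ^ 2 ∧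
    (((n ^ 3 * (32 * k ^ 2) ^ (s + 1)) ^ s : ℕ) * (50 * ((n ^ 3 * (32 * k ^ 2) ^ (s + 1)) ^ s : ℕ) *
        Real.exp (-(e : ℝ) / 10 ^ 5))) ^ (2 ^ s) * (10 ^ 4 * 2 ^ e * (4 * (k : ℝ) ^ 2) ^ k) < 1 ∧
    160 * √k * (8 * (n : ℝ) ^ 2) ^ k ≤ Real.exp (d / 10 ^ 5) ∧
    (∀ q s' : ℕ, (q : ℝ) ≤ 600 * (n : ℝ) ^ 8 → 1 ≤ q → s' ≤ d →
      (q : ℝ) ^ e * ((n : ℝ) ^ 3) ^ s * (q : ℝ) ^ s' *
        (8 * (n : ℝ) ^ (6 * k) * Real.exp (-(d : ℝ) / 10 ^ 4)) ^ m < 1) ∧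
    640 / 10 ^ 8 * √k * 8 ^ s * e * d ≤
      (640 / 10 ^ 8 * (2 * 10 ^ 5) * (6 * 10 ^ 6) ^ 3 * (2 * 10 ^ 10)) * n *
        Real.log n ^ (3 / 2 : ℝ) * Real.log (Real.log n) ^ (9 / 2 : ℝ) := by
  have hd : ∀ᶠ n : ℕ in Filter.atTop, (d₁ : ℝ) ≤ Real.log n :=
    (tendsto_natCast_atTop_atTop (R := ℝ)).eventually
      (Real.tendsto_log_atTop.eventually_ge_atTop _)
  obtain ⟨N, hN⟩ := Filter.eventually_atTop.1 (ev2.and hd)
  refine ⟨max N 3, le_max_right _ _, ?_⟩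
  intro n hn
  obtain ⟨⟨h1, h2, h3⟩, h4⟩ := hN n (le_trans (le_max_left _ _) hn)
  obtain ⟨k, s, e, d, m, ℓ, h⟩ := exists_par (n := n) rfl rfl h1 h2 h3
  have hk0 := h.k0
  have hs := h.sy
  have he1 := h.e1
  have hLy := h.Ly
  have hk1 := h.k1
  have hy := h.y8
  have hL := h.L1
  have hd1 := h.d1
  have hkL := h.kL2
  refine ⟨d, e, s, k, m, h.ke, h.nd, ?_, h.c4, ?_, ?_, ?_, ?_, h.m1, h.c10, h.c11, h.c12, h.c13,
    h.c14, h.c15, h.c16, ?_⟩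
  · have : (600 : ℝ) ≤ k := by linarith
    exact_mod_cast this
  · have h5 : Real.log n * 1 ≤ Real.log n * Real.log (Real.log n) := by gcongr; linarith
    have : (d₁ : ℝ) ≤ e := by
      have := h.e2
      linarith
    exact_mod_cast this
  · have : (1 : ℝ) ≤ e := by linarith
    exact_mod_cast this
  · have h5 : Real.log n * 1 ≤ Real.log n * Real.log (Real.log n) := by gcongr; linarith
    have : 4 * (s : ℝ) < e := by
      have := h.e2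
      linarith
    exact_mod_cast this
  · have h6 : 8 * (k : ℝ) ^ 2 ≤ n := by exact_mod_cast h.c4
    have : 4 * (k : ℝ) ≤ d := by nlinarith
    exact_mod_cast this
  · exact h.c17

end Vale.Agent.P230
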