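import Vale.Agent.P230.GLevel2
import Vale.Agent.P230.Params2
import Vale.Agent.P230.Final

open MeasureTheory Set
open scoped ENNReal Pointwise

namespace Vale.Agent.P230

open GLevelAux

theorem large2 : ∃ (C : ℝ) (n₀ : ℕ), 0 < C ∧ 3 ≤ n₀ ∧ ∀ n : ℕ, n₀ ≤ n → ∀ K : Set (Fin n → ℝ),
    Convex ℝ K → IsCompact K →
    (∀ x : Fin n → ℝ, (∀ i, 0 ≤ x i ∧ x i ≤ 1 / (n : ℝ)) → x ∈ K) →
    (∀ x ∈ K, ∀ i, |x i| ≤ 1) →
    ∃ M : Matrix (Fin n) (Fin n) ℝ, M.det ≠ 0 ∧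
      (∀ y, ∃ k ∈ K, ∃ z : Fin n → ℤ, y = k + M.mulVec (fun i => (z i : ℝ))) ∧
      (volume K).toReal ≤ C * n * Real.log n ^ (3 / 2 : ℝ) *
        Real.log (Real.log n) ^ (9 / 2 : ℝ) * |M.det| := by
  obtain ⟨d₁, hg⟩ := glevel
  obtain ⟨n₀, hn₀, hpar⟩ := params2 d₁
  refine ⟨640 / 10 ^ 8 * (2 * 10 ^ 5) * (6 * 10 ^ 6) ^ 3 * (2 * 10 ^ 10), n₀, by norm_num, hn₀, ?_⟩
  intro n hn
  obtain ⟨d, e, s, k, m, p1, p2, p3, p4, p5, p6, p7, p8, p9, p10, p11, p12, p13, p14, p15, p16,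
    p17⟩ := hpar n hn
  have hnd : n = d + (e + s) := by omega
  subst hnd
  intro K hc hk hcube hbox
  obtain ⟨M, h1, h2, h3⟩ := hg d e s k (d + (e + s)) m p1 p2 p3 p4 p5 p6 p7 p8 p9 p10 p11 p12 p13
    p14 p15 p16 K hc hk hcube hbox
  refine ⟨M, h1, h2, h3.trans ?_⟩
  exact mul_le_mul_of_nonneg_right p17 (abs_nonneg _)

/-- dimensions `n ≥ n₀`, general bodies -/
theorem body_large : ∃ (C : ℝ) (n₀ : ℕ), 0 < C ∧ 3 ≤ n₀ ∧ ∀ n : ℕ, n₀ ≤ n →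
    ∀ K : Set (Fin n → ℝ), Convex ℝ K → IsCompact K → (interior K).Nonempty →
    ∃ M : Matrix (Fin n) (Fin n) ℝ, M.det ≠ 0 ∧
      (∀ y, ∃ k ∈ K, ∃ z : Fin n → ℤ, y = k + M.mulVec (fun i => (z i : ℝ))) ∧
      (volume K).toReal ≤ C * n * Real.log n ^ (3 / 2 : ℝ) *
        Real.log (Real.log n) ^ (9 / 2 : ℝ) * |M.det| := by
  obtain ⟨C, n₀, hC, hn₀, hlarge⟩ := large2
  refine ⟨C, n₀, hC, hn₀, ?_⟩
  intro n hn K hc hk hi
  obtain ⟨T, v, hT, hT1, hT2⟩ := normalise (by omega) hc hk hi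
  obtain ⟨M, h1, h2, h3⟩ := hlarge n hn {x | T.mulVec x + v ∈ K} (aff_convex hc T v)
    (aff_compact hk hT v) (fun x hx => hT1 x hx) (fun x hx => hT2 x hx)
  refine ⟨T * M, ?_, transfer hT v h2, ?_⟩
  · rw [Matrix.det_mul]; exact mul_ne_zero hT h1
  · rw [vol_affine (K := K) hT v, Matrix.det_mul, abs_mul]
    have := mul_le_mul_of_nonneg_left h3 (abs_nonneg T.det)
    calc |T.det| * (volume {x | T.mulVec x + v ∈ K}).toReal
        ≤ |T.det| * (C * n * Real.log n ^ (3 / 2 : ℝ) *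
          Real.log (Real.log n) ^ (9 / 2 : ℝ) * |M.det|) := this
      _ = _ := by ring

/-- `log 3 > 1` -/
theorem one_lt_log {n : ℕ} (hn : 3 ≤ n) : 1 < Real.log n := by
  have hnr : (3 : ℝ) ≤ n := by exact_mod_cast hn
  rw [Real.lt_log_iff_exp_lt (by linarith)]
  have := Real.exp_one_lt_d9
  linarith

theorem body_cover2 : ∃ C : ℝ, 0 < C ∧ ∀ n : ℕ, 3 ≤ n → ∀ K : Set (Fin n → ℝ),
    Convex ℝ K → IsCompact K → (interior K).Nonempty →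
    ∃ M : Matrix (Fin n) (Fin n) ℝ, M.det ≠ 0 ∧
      (∀ y, ∃ k ∈ K, ∃ z : Fin n → ℤ, y = k + M.mulVec (fun i => (z i : ℝ))) ∧
      (volume K).toReal ≤ C * n * Real.log n ^ (3 / 2 : ℝ) *
        Real.log (Real.log n) ^ (9 / 2 : ℝ) * |M.det| := by
  obtain ⟨C, n₀, hC, hn₀, hlarge⟩ := body_large
  obtain ⟨C₁, hC₁, hall⟩ := body_cover
  have hl3 := one_lt_log (le_refl 3)
  have hll3 : 0 < Real.log (Real.log (3 : ℕ)) := Real.log_pos hl3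
  set a : ℝ := Real.log (3 : ℕ) ^ (3 / 2 : ℝ) * Real.log (Real.log (3 : ℕ)) ^ (9 / 2 : ℝ) with ha
  have ha0 : 0 < a := by positivity
  set C₂ : ℝ := C₁ * Real.log n₀ ^ 3 / a with hC₂
  refine ⟨max C C₂, lt_max_of_lt_left hC, ?_⟩
  intro n hn K hc hk hi
  have hl := one_lt_log hn
  have hll : 0 < Real.log (Real.log n) := Real.log_pos hl
  rcases le_or_gt n₀ n with hnn | hnn
  · obtain ⟨M, h1, h2, h3⟩ := hlarge n hnn K hc hk hi
    refine ⟨M, h1, h2, h3.trans ?_⟩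
    have := le_max_left C C₂
    gcongr
  · obtain ⟨M, h1, h2, h3⟩ := hall n (by omega) K hc hk hi
    refine ⟨M, h1, h2, h3.trans ?_⟩
    have hnr : (3 : ℝ) ≤ n := by exact_mod_cast hn
    have hn0 : (n : ℝ) ≤ n₀ := by exact_mod_cast hnn.le
    have b1 : Real.log n ≤ Real.log n₀ := Real.log_le_log (by linarith) hn0
    have b2 : Real.log (3 : ℕ) ≤ Real.log n := Real.log_le_log (by norm_num) (by exact_mod_cast hnr)
    have b3 : Real.log (Real.log (3 : ℕ)) ≤ Real.log (Real.log n) :=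
      Real.log_le_log (by linarith) b2
    have b4 : a ≤ Real.log n ^ (3 / 2 : ℝ) * Real.log (Real.log n) ^ (9 / 2 : ℝ) := by
      rw [ha]; gcongr
    have b5 : C₁ * Real.log n ^ 3 ≤ C₂ * a := by
      rw [hC₂, div_mul_cancel₀ _ ha0.ne']
      gcongr
    have b6 : C₂ ≤ max C C₂ := le_max_right _ _
    have b7 : 0 ≤ max C C₂ := (lt_max_of_lt_left hC).le
    have b8 : C₁ * Real.log n ^ 3 ≤ max C C₂ *
        (Real.log n ^ (3 / 2 : ℝ) * Real.log (Real.log n) ^ (9 / 2 : ℝ)) := by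
      refine b5.trans ?_
      gcongr
    calc C₁ * n * Real.log n ^ 3 * |M.det| = (C₁ * Real.log n ^ 3) * (n * |M.det|) := by ring
      _ ≤ (max C C₂ * (Real.log n ^ (3 / 2 : ℝ) * Real.log (Real.log n) ^ (9 / 2 : ℝ))) *
          (n * |M.det|) := by gcongr
      _ = _ := by ring

end Vale.Agent.P230
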