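import Vale.Agent.P230.SliceData
import Vale.Agent.P230.Vrand

open MeasureTheory Set
open scoped ENNReal Pointwise

namespace Vale.Agent.P230

open CoreAux

theorem g_core : ∃ d₀ : ℕ, ∀ (d k q s' m : ℕ) [Fact q.Prime] (H τ w₀ R Mf : ℝ)
    (h : Fin k → ℝ) (K : Set ((Fin d → ℝ) × (Fin k → ℝ)))
    (G₂ : Type) [AddCommGroup G₂] [Finite G₂] (ψ₂ : (Fin k → ℤ) →+ G₂),
    d₀ ≤ d → Convex ℝ K → IsCompact K →
    (∀ p ∈ thick K w₀, ∀ i, |p.1 i| ≤ 1) → 0 < τ →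
    (∀ z, volume {u : Fin d → ℝ | (u, z) ∈ thick K w₀} ≤ ENNReal.ofReal (R * τ)) →
    0 < H → 1 ≤ H * w₀ → (d : ℝ) ^ 2 ≤ H * w₀ →
    H ^ d * τ = d / 10 ^ 4 * (q : ℝ) ^ s' →
    d < 2 * ⌈H⌉₊ → 3 * (2 * ⌈H⌉₊) ^ 2 < q → (q : ℝ) ≤ (d : ℝ) ^ 20 →
    (d : ℝ) / 100 ≤ s' → s' < d → 1 ≤ R → R ≤ Real.exp (d / 10 ^ 5) →
    Function.Surjective ψ₂ →
    {y : Fin k → ℤ | ENNReal.ofReal τ ≤
      volume {u : Fin d → ℝ | (u, fun i => h i * (y i : ℝ)) ∈ K}}.Finite →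
    ({y : Fin k → ℤ | ENNReal.ofReal τ ≤
      volume {u : Fin d → ℝ | (u, fun i => h i * (y i : ℝ)) ∈ K}}.ncard : ℝ) ≤ Mf →
    (∀ g, ∃ y : Fin m → Fin k → ℤ, (∀ j, ψ₂ (y j) = g ∧ ENNReal.ofReal τ ≤
      volume {u : Fin d → ℝ | (u, fun i => h i * (y j i : ℝ)) ∈ K}) ∧
      AffineIndependent (ZMod q) (fun j l => (y j l : ZMod q))) →
    Nat.card G₂ * (q : ℝ) ^ s' * (8 * Mf * Real.exp (-(d : ℝ) / 10 ^ 4)) ^ m < 1 →
    ∃ (G : Type) (_ : AddCommGroup G) (_ : Finite G) (ψ : (Fin d → ℤ) × (Fin k → ℤ) →+ G),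
      Function.Surjective ψ ∧ Nat.card G = q ^ s' * Nat.card G₂ ∧
      ∀ g, ∃ (x : Fin d → ℤ) (z : Fin k → ℤ),
        ((fun i => (x i : ℝ) / H), (fun i => h i * (z i : ℝ))) ∈ thick K w₀ ∧
        ψ (x, z) = g := by
  classical
  obtain ⟨d₀, hbase⟩ := base
  refine ⟨max d₀ 1, ?_⟩
  intro d k q s' m _ H τ w₀ R Mf h K G₂ _ _ ψ₂ hd hc hk hbox1 hτ hvol
    hH hHw hHw2 hHτ hdB hBq hq20 hs1 hs2 hR1 hR2 hψ₂ hYfin hYcard hclass hlt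
  have hd0 : d₀ ≤ d := le_trans (le_max_left _ _) hd
  have hd1 : 1 ≤ d := le_trans (le_max_right _ _) hd
  set Yf : Set (Fin k → ℤ) := {y : Fin k → ℤ | ENNReal.ofReal τ ≤
      volume {u : Fin d → ℝ | (u, fun i => h i * (y i : ℝ)) ∈ K}} with hYf
  haveI : Fintype Yf := hYfin.fintype
  let pt : Yf → (Fin k → ℝ) := fun z => fun i => h i * (z.1 i : ℝ)
  obtain ⟨A, J, c, hJ1, hJ2, hJ3, hJ4, hJ5, hJ6, hA1, hA2, hA3⟩ :=
    slice_data (N := ⌈H ^ d * τ⌉₊) hc hk hbox1 hτ pt (fun z => z.2) (fun z => hvol _) hH hHw hR1 rfl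
  have hqpos : (0 : ℝ) < (q : ℝ) := by
    have := (Fact.out : q.Prime).pos
    exact_mod_cast this
  have hqs : (1 : ℝ) ≤ (q : ℝ) ^ s' := by
    refine one_le_pow₀ ?_
    have := (Fact.out : q.Prime).one_lt
    exact_mod_cast this.le
  have hN1 : (d : ℝ) / 10 ^ 4 * (q : ℝ) ^ s' ≤ (⌈H ^ d * τ⌉₊ : ℕ) := by
    rw [← hHτ]; exact Nat.le_ceil _
  have hN2 : ((⌈H ^ d * τ⌉₊ : ℕ) : ℝ) ≤ (d / 10 ^ 4 + 1) * (q : ℝ) ^ s' := by
    have := Nat.ceil_lt_add_one (show (0 : ℝ) ≤ H ^ d * τ by positivity)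
    rw [hHτ] at this ⊢
    linarith
  obtain ⟨ψ, hψs, hψu⟩ := hbase d hd0 q s' (2 * ⌈H⌉₊) ⌈H ^ d * τ⌉₊ R (H * w₀) Yf A J c
    hdB hBq hq20 hs1 hs2 hHw2 hR1 hR2 hJ1 hJ2 hJ3 hJ4 hJ5 hJ6 hA1 hA2 hN1 hN2
  have hcardY : (Fintype.card Yf : ℝ) ≤ Mf := by
    have : Fintype.card Yf = Yf.ncard := by
      rw [← Nat.card_eq_fintype_card, Nat.card_coe_set_eq]
    rw [this]
    exact hYcard
  set u : ℝ := 8 * Mf * Real.exp (-(d : ℝ) / 10 ^ 4) with hu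
  have hMf0 : 0 ≤ Mf := le_trans (by positivity) hcardY
  have hu0 : 0 ≤ u := by positivity
  have hψu' : ∀ i, unc ψ (A i : Set (Fin d → ℤ)) ≤ u := by
    intro i
    refine (hψu i).trans ?_
    rw [hu]
    gcongr
  have hcG : (Nat.card (Fin s' → ZMod q) : ℝ) = (q : ℝ) ^ s' := by
    rw [Nat.card_eq_fintype_card, Fintype.card_fun, Fintype.card_fin, ZMod.card]
    push_cast
    rfl
  let U : (Fin k → ℤ) → Finset (Fin s' → ZMod q) := fun y =>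
    if hy : y ∈ Yf then Finset.univ.filter fun b => ∀ x ∈ (A ⟨y, hy⟩ : Set (Fin d → ℤ)), ψ x ≠ b
    else ∅
  have hUmem : ∀ (y : Fin k → ℤ) (hy : y ∈ Yf) (b : Fin s' → ZMod q), b ∉ U y →
      ∃ x ∈ A ⟨y, hy⟩, ψ x = b := by
    intro y hy b hb
    simp only [U, dif_pos hy, Finset.mem_filter, Finset.mem_univ, true_and] at hb
    push Not at hb
    obtain ⟨x, hx, hxb⟩ := hb
    exact ⟨x, hx, hxb⟩
  have hUcard : ∀ y : Fin k → ℤ, ((U y).card : ℝ) ≤ u * (q : ℝ) ^ s' := by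
    intro y
    by_cases hy : y ∈ Yf
    · have h1 := hψu' ⟨y, hy⟩
      unfold unc at h1
      rw [hcG, div_le_iff₀ (by positivity)] at h1
      have h2 : (U y).card = Nat.card {g : Fin s' → ZMod q //
          ∀ x ∈ (A ⟨y, hy⟩ : Set (Fin d → ℤ)), ψ x ≠ g} := by
        rw [Nat.card_eq_fintype_card, Fintype.card_subtype]
        simp only [U, dif_pos hy]
      rw [h2]; exact h1
    · simp only [U, dif_neg hy, Finset.card_empty]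
      push_cast
      positivity
  choose y hy1 hy2 using hclass
  obtain ⟨V, hV⟩ := vrand (q := q) (k := k) (s := s') (m := m) (G₂ := G₂) U hu0 y hy2
    (fun g j => hUcard _) hlt
  -- the homomorphism
  let L : (Fin k → ℤ) →+ (Fin s' → ZMod q) := BaseAux.hom V
  have hL : ∀ y, L y = V.mulVec (fun l => (y l : ZMod q)) := fun y => rfl
  refine ⟨(Fin s' → ZMod q) × G₂, inferInstance, inferInstance,
    ((ψ.comp (AddMonoidHom.fst _ _)) + (L.comp (AddMonoidHom.snd _ _))).prod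
      (ψ₂.comp (AddMonoidHom.snd _ _)), ?_, ?_, ?_⟩
  · rintro ⟨b, g⟩
    obtain ⟨y, hy⟩ := hψ₂ g
    obtain ⟨x, hx⟩ := hψs (b - L y)
    refine ⟨(x, y), ?_⟩
    refine Prod.ext ?_ ?_
    · simp [hx]
    · simp [hy]
  · rw [Nat.card_prod]
    congr 1
    rw [Nat.card_eq_fintype_card, Fintype.card_fun, ZMod.card, Fintype.card_fin]
  · rintro ⟨b, g⟩
    obtain ⟨j, hj⟩ := hV g b
    have hyj : y g j ∈ Yf := (hy1 g j).2
    obtain ⟨x, hx, hxb⟩ := hUmem _ hyj _ hj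
    refine ⟨x, y g j, (hA3 ⟨y g j, hyj⟩ x).1 hx, ?_⟩
    refine Prod.ext ?_ ?_
    · simp [hxb, hL]
    · simpa using (hy1 g j).1

end Vale.Agent.P230
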