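import Vale.Agent.P230.Geo
import Vale.Agent.P230.VolAppend
import Vale.Agent.P230.Core

open MeasureTheory Set
open scoped ENNReal Pointwise

namespace Vale.Agent.P230

namespace GeomAux

theorem RStep_nonempty : ∀ (s : ℕ) (δ : Fin s → ℝ) (Z : Set (Fin s → ℝ)), (∀ i, 0 < δ i) →
    RStep s δ Z → Z.Nonempty
  | 0, _, _, _, h => h
  | s + 1, δ, Z, hδ, h => by
    obtain ⟨Z', h1, h2⟩ := h
    obtain ⟨z, hz⟩ := RStep_nonempty s (Fin.tail δ) Z' (fun i => hδ i.succ) h1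
    obtain ⟨a, ha⟩ := h2 z hz
    exact ⟨_, ha a ⟨le_refl _, by linarith [hδ 0]⟩⟩

theorem c_pow {n : ℕ} (hn : 600 ≤ n) : (1 : ℝ) / 4 ≤ (1 - 1 / (n : ℝ)) ^ n := by
  have hnr : (600 : ℝ) ≤ n := by exact_mod_cast hn
  have hn1 : (0 : ℝ) < (n : ℝ) - 1 := by linarith
  have h1 : (1 - 1 / (n : ℝ)) = (1 + 1 / ((n : ℝ) - 1))⁻¹ := by
    field_simp
    ring
  rw [h1, inv_pow, one_div]
  refine inv_anti₀ (by positivity) ?_
  have h2 : n = (n - 1) + 1 := by omega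
  have h3 : (1 + 1 / ((n : ℝ) - 1)) ^ (n - 1) ≤ Real.exp 1 := by
    have h4 : 1 + 1 / ((n : ℝ) - 1) ≤ Real.exp (1 / ((n : ℝ) - 1)) := by
      have := Real.add_one_le_exp (1 / ((n : ℝ) - 1))
      linarith
    calc (1 + 1 / ((n : ℝ) - 1)) ^ (n - 1) ≤ (Real.exp (1 / ((n : ℝ) - 1))) ^ (n - 1) :=
          pow_le_pow_left₀ (by positivity) h4 _
      _ = Real.exp 1 := by
        rw [← Real.exp_nat_mul]
        congr 1
        have : ((n - 1 : ℕ) : ℝ) = (n : ℝ) - 1 := by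
          rw [Nat.cast_sub (by omega)]; norm_num
        rw [this]
        field_simp
  have h5 : 1 + 1 / ((n : ℝ) - 1) ≤ 1.1 := by
    have : 1 / ((n : ℝ) - 1) ≤ 1 / 10 := by
      apply one_div_le_one_div_of_le (by norm_num) (by linarith)
    linarith
  have h6 := Real.exp_one_lt_d9
  calc (1 + 1 / ((n : ℝ) - 1)) ^ n = (1 + 1 / ((n : ℝ) - 1)) ^ (n - 1) * (1 + 1 / ((n : ℝ) - 1)) := by
        rw [← pow_succ, ← h2]
    _ ≤ Real.exp 1 * 1.1 := by gcongr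
    _ ≤ 4 := by linarith

/-- shrunken copy of `K` as a set of pairs -/
def shr (d s : ℕ) (K : Set (Fin (d + s) → ℝ)) (c : ℝ) : Set ((Fin d → ℝ) × (Fin s → ℝ)) :=
  {p | (Fin.append p.1 p.2 : Fin (d + s) → ℝ) ∈ c • K}

variable {d s : ℕ} {K : Set (Fin (d + s) → ℝ)} {n : ℕ}

theorem shr_convex (hc : Convex ℝ K) (c : ℝ) : Convex ℝ (shr d s K c) :=
  VA.convex_append (hc.smul c)

theorem shr_compact (hk : IsCompact K) (c : ℝ) : IsCompact (shr d s K c) :=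
  VA.isCompact_append (hk.smul c)

theorem shr_volume {c : ℝ} (hc : 0 ≤ c) (K : Set (Fin (d + s) → ℝ)) :
    volume (shr d s K c) = ENNReal.ofReal (c ^ (d + s)) * volume K := by
  unfold shr
  rw [VA.volume_append, Measure.addHaar_smul]
  congr 2
  rw [Module.finrank_fin_fun, abs_of_nonneg (by positivity)]

/-- adding a small nonnegative vector stays in `K` -/
theorem add_small (hn : 2 ≤ n) (hc : Convex ℝ K)
    (hcube : ∀ x : Fin (d + s) → ℝ, (∀ i, 0 ≤ x i ∧ x i ≤ 1 / (n : ℝ)) → x ∈ K)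
    {x e : Fin (d + s) → ℝ} (hx : x ∈ (1 - 1 / (n : ℝ)) • K)
    (he : ∀ i, 0 ≤ e i ∧ e i ≤ 1 / (n : ℝ) ^ 2) : x + e ∈ K := by
  obtain ⟨k, hk, rfl⟩ := hx
  have hnr : (2 : ℝ) ≤ n := by exact_mod_cast hn
  have h1 : e = (1 / (n : ℝ)) • ((n : ℝ) • e) := by
    rw [smul_smul]
    have : 1 / (n : ℝ) * n = 1 := by field_simp
    rw [this, one_smul]
  rw [h1]
  have h2 : 1 / (n : ℝ) ≤ 1 := by
    rw [div_le_one (by linarith)]; linarith
  refine hc hk (hcube _ fun i => ?_) (by linarith) (by positivity) (by ring)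
  obtain ⟨h3, h4⟩ := he i
  simp only [Pi.smul_apply, smul_eq_mul]
  refine ⟨by positivity, ?_⟩
  have : (n : ℝ) * e i ≤ n * (1 / (n : ℝ) ^ 2) := by gcongr
  refine this.trans (le_of_eq ?_)
  field_simp

theorem thick_sub (hn : 2 ≤ n) (hc : Convex ℝ K)
    (hcube : ∀ x : Fin (d + s) → ℝ, (∀ i, 0 ≤ x i ∧ x i ≤ 1 / (n : ℝ)) → x ∈ K)
    {w₀ : ℝ} {p : (Fin d → ℝ) × (Fin s → ℝ)}
    (hp : p ∈ CoreAux.thick (shr d s K (1 - 1 / (n : ℝ))) w₀)
    {c : (Fin d → ℝ) × (Fin s → ℝ)} (h1 : ∀ i, 0 ≤ c.1 i ∧ c.1 i + w₀ ≤ 1 / (n : ℝ) ^ 2)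
    (h2 : ∀ i, 0 ≤ c.2 i ∧ c.2 i ≤ 1 / (n : ℝ) ^ 2) :
    (Fin.append (p.1 + c.1) (p.2 + c.2) : Fin (d + s) → ℝ) ∈ K := by
  obtain ⟨u, hu, hu2⟩ := hp
  have h3 : (Fin.append (p.1 + c.1) (p.2 + c.2) : Fin (d + s) → ℝ) =
      Fin.append u p.2 + Fin.append (p.1 - u + c.1) c.2 := by
    ext i
    refine Fin.addCases (fun i => ?_) (fun i => ?_) i
    · simp; ring
    · simp
  rw [h3]
  refine add_small hn hc hcube hu fun i => ?_
  refine Fin.addCases (fun i => ?_) (fun i => ?_) i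
  · simp only [Fin.append_left, Pi.add_apply, Pi.sub_apply]
    have := hu2 i
    have := h1 i
    constructor <;> linarith
  · simp only [Fin.append_right]
    exact h2 i

theorem slice_thick (hn : 600 ≤ n) (hnd : n = d + s) (hc : Convex ℝ K)
    (hcube : ∀ x : Fin (d + s) → ℝ, (∀ i, 0 ≤ x i ∧ x i ≤ 1 / (n : ℝ)) → x ∈ K) {V : ℝ}
    (hV : ∀ z, volume {u : Fin d → ℝ | (u, z) ∈ shr d s K (1 - 1 / (n : ℝ))} ≤ ENNReal.ofReal V)
    {w₀ : ℝ} (hw0 : w₀ ≤ 1 / (n : ℝ) ^ 2) (z : Fin s → ℝ) :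
    volume {u : Fin d → ℝ | (u, z) ∈ CoreAux.thick (shr d s K (1 - 1 / (n : ℝ))) w₀} ≤
      ENNReal.ofReal (4 * V) := by
  set c : ℝ := 1 - 1 / (n : ℝ) with hcdef
  have hnr : (600 : ℝ) ≤ n := by exact_mod_cast hn
  have hc1 : 1 / (n : ℝ) ≤ 1 / 600 := one_div_le_one_div_of_le (by norm_num) hnr
  have hcpos : 0 < c := by rw [hcdef]; linarith
  have hcle : c ≤ 1 := by
    rw [hcdef]
    have : 0 < 1 / (n : ℝ) := by positivity
    linarith
  have hsub : {u : Fin d → ℝ | (u, z) ∈ CoreAux.thick (shr d s K c) w₀} ⊆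
      c⁻¹ • {u : Fin d → ℝ | (u, c • z) ∈ shr d s K c} := by
    intro u hu
    rw [Set.mem_smul_set_iff_inv_smul_mem₀ (inv_ne_zero hcpos.ne'), inv_inv]
    have h1 := thick_sub (n := n) (by omega) hc hcube hu (c := (0, 0))
      (fun i => ⟨le_refl _, by simpa using hw0⟩)
      (fun i => ⟨le_refl _, by simp⟩)
    simp only [add_zero] at h1
    change Fin.append (c • u) (c • z) ∈ c • K
    refine ⟨_, h1, ?_⟩
    ext i
    refine Fin.addCases (fun i => ?_) (fun i => ?_) i <;> simp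
  refine (measure_mono hsub).trans ?_
  rw [Measure.addHaar_smul, Module.finrank_fin_fun]
  have h2 : |c⁻¹ ^ d| ≤ 4 := by
    rw [abs_of_nonneg (by positivity), inv_pow]
    have h3 := c_pow hn
    rw [← hcdef] at h3
    have h4 : c ^ n ≤ c ^ d := pow_le_pow_of_le_one hcpos.le hcle (by omega)
    rw [inv_le_comm₀ (by positivity) (by norm_num)]
    linarith
  calc ENNReal.ofReal |c⁻¹ ^ d| * volume {u : Fin d → ℝ | (u, c • z) ∈ shr d s K c}
      ≤ ENNReal.ofReal 4 * ENNReal.ofReal V := by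
        gcongr
        exact hV _
    _ = ENNReal.ofReal (4 * V) := by rw [← ENNReal.ofReal_mul (by norm_num)]

end GeomAux

open GeomAux

theorem prism2 {d s n : ℕ} (hn : 600 ≤ n) (hnd : n = d + s) (hd : 1 ≤ d)
    {K : Set (Fin (d + s) → ℝ)} (hc : Convex ℝ K) (hk : IsCompact K)
    (hcube : ∀ x : Fin (d + s) → ℝ, (∀ i, 0 ≤ x i ∧ x i ≤ 1 / (n : ℝ)) → x ∈ K)
    (hbox : ∀ x ∈ K, ∀ i, |x i| ≤ 1) {w₀ : ℝ} (hw0 : w₀ ≤ 1 / (n : ℝ) ^ 2) :
    ∃ (τ : ℝ) (δ : Fin s → ℝ), 0 < τ ∧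
      RStep s δ {z | ENNReal.ofReal τ ≤
        volume {u : Fin d → ℝ | (u, z) ∈ shr d s K (1 - 1 / (n : ℝ))}} ∧
      (∀ i, 0 < δ i ∧ δ i ≤ 1) ∧ (∀ i, 1 / (4 * (32 * (n : ℝ) ^ 2) ^ s) ≤ δ i) ∧
      (∀ z, volume {u : Fin d → ℝ | (u, z) ∈ CoreAux.thick (shr d s K (1 - 1 / (n : ℝ)))
        w₀} ≤ ENNReal.ofReal (16 * (32 * (n : ℝ) ^ 2) ^ s * τ)) ∧
      (volume K).toReal ≤ 8 * 8 ^ s * τ * ∏ i, δ i ∧
      1 / ((2 * (n : ℝ)) ^ n * 8 ^ s) ≤ τ ∧ τ ≤ 2 ^ d := by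
  set c : ℝ := 1 - 1 / (n : ℝ) with hcdef
  have hnr : (600 : ℝ) ≤ n := by exact_mod_cast hn
  have hdn : (d : ℝ) ≤ n := by
    have : d ≤ n := by omega
    exact_mod_cast this
  have hdr : (1 : ℝ) ≤ d := by exact_mod_cast hd
  have hn0 : 0 < 1 / (n : ℝ) := by positivity
  have hc1 : 1 / (n : ℝ) ≤ 1 / 600 := one_div_le_one_div_of_le (by norm_num) hnr
  have hcpos : 0 < c := by rw [hcdef]; linarith
  have hchalf : 1 / 2 ≤ c := by rw [hcdef]; linarith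
  have hcle : c ≤ 1 := by rw [hcdef]; linarith
  have hcn : 1 / 4 ≤ c ^ n := c_pow hn
  -- box
  have hboxS : ∀ x ∈ shr d s K c, (∀ i, |x.1 i| ≤ 1) ∧ (∀ i, |x.2 i| ≤ 1) := by
    rintro x ⟨k, hk, hkx⟩
    have h1 : ∀ j, |(Fin.append x.1 x.2 : Fin (d + s) → ℝ) j| ≤ 1 := by
      intro j
      rw [← hkx]
      simp only [Pi.smul_apply, smul_eq_mul, abs_mul, abs_of_pos hcpos]
      have := hbox k hk j
      nlinarith [abs_nonneg (k j)]
    constructor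
    · intro i
      have := h1 (Fin.castAdd s i)
      rwa [Fin.append_left] at this
    · intro i
      have := h1 (Fin.natAdd d i)
      rwa [Fin.append_right] at this
  -- cube
  have hcubeS : ∀ x : (Fin d → ℝ) × (Fin s → ℝ), (∀ i, |x.1 i - c / (2 * n)| ≤ 1 / (4 * n)) →
      (∀ i, |x.2 i - c / (2 * n)| ≤ 1 / (4 * n)) → x ∈ shr d s K c := by
    intro x h1 h2
    change Fin.append x.1 x.2 ∈ c • K
    rw [Set.mem_smul_set_iff_inv_smul_mem₀ hcpos.ne']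
    refine hcube _ fun i => ?_
    have key : ∀ t : ℝ, |t - c / (2 * n)| ≤ 1 / (4 * n) → 0 ≤ c⁻¹ * t ∧ c⁻¹ * t ≤ 1 / n := by
      intro t ht
      rw [abs_le] at ht
      have e1 : 1 / (4 * (n : ℝ)) ≤ c / (2 * n) := by
        rw [div_le_div_iff₀ (by positivity) (by positivity)]
        nlinarith
      have e2 : c / (2 * (n : ℝ)) + c / (2 * n) = c / n := by ring
      have e3 : 0 ≤ t := by linarith
      have e4 : t ≤ c / n := by linarith
      refine ⟨by positivity, ?_⟩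
      rw [inv_mul_le_iff₀ hcpos]
      calc t ≤ c / n := e4
        _ = c * (1 / n) := by ring
    refine Fin.addCases (fun i => ?_) (fun i => ?_) i
    · simp only [Pi.smul_apply, Fin.append_left, smul_eq_mul]
      exact key _ (h1 i)
    · simp only [Pi.smul_apply, Fin.append_right, smul_eq_mul]
      exact key _ (h2 i)
  obtain ⟨τ, δ, hτ, hR, hδ, hvol, hslice, hδlow⟩ := geo hd (shr_convex hc c) (shr_compact hk c)
    hboxS (a := 1 / (4 * n)) (by positivity) ((fun _ => c / (2 * n)), (fun _ => c / (2 * n))) hcubeS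
  have hfrac : 8 * (d : ℝ) / (1 / (4 * n)) ≤ 32 * (n : ℝ) ^ 2 := by
    have : 8 * (d : ℝ) / (1 / (4 * n)) = 32 * n * d := by field_simp; ring
    rw [this]
    nlinarith
  have hfrac0 : 0 ≤ 8 * (d : ℝ) / (1 / (4 * n)) := by positivity
  have hVle : 4 * (8 * (d : ℝ) / (1 / (4 * n))) ^ s * τ ≤ 4 * (32 * (n : ℝ) ^ 2) ^ s * τ := by
    gcongr
  have hprod : ∏ i, (2 * δ i) = 2 ^ s * ∏ i, δ i := by
    rw [Finset.prod_mul_distrib]; simp
  have hprod1 : ∏ i, δ i ≤ 1 := Finset.prod_le_one (fun i _ => (hδ i).1.le) (fun i _ => (hδ i).2)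
  have hKfin : volume K ≠ ∞ := hk.measure_ne_top
  have hvolS : (volume (shr d s K c)).toReal = c ^ n * (volume K).toReal := by
    rw [shr_volume hcpos.le, ENNReal.toReal_mul, ENNReal.toReal_ofReal (by positivity), hnd]
  have h48 : (2 : ℝ) * 4 ^ s * τ * (2 ^ s * ∏ i, δ i) = 2 * 8 ^ s * τ * ∏ i, δ i := by
    have : (8 : ℝ) ^ s = 4 ^ s * 2 ^ s := by rw [← mul_pow]; norm_num
    rw [this]; ring
  rw [hprod, h48, hvolS] at hvol
  refine ⟨τ, δ, hτ, hR, hδ, ?_, ?_, ?_, ?_, ?_⟩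
  · intro i
    refine le_trans ?_ (hδlow i)
    have e1 : (1 / (4 * (n : ℝ)) / d) ^ s / (4 * 8 ^ s) = 1 / (4 * (32 * n * d) ^ s) := by
      have : (32 * (n : ℝ) * d) ^ s = (4 * (n : ℝ) * d) ^ s * 8 ^ s := by
        rw [← mul_pow]; congr 1; ring
      rw [this, div_div, div_pow, one_pow]
      field_simp
    rw [e1]
    refine one_div_le_one_div_of_le (by positivity) ?_
    have e2 : 32 * (n : ℝ) * d ≤ 32 * (n : ℝ) ^ 2 := by nlinarith
    gcongr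
  · intro z
    have h1 := slice_thick hn hnd hc hcube (V := 4 * (32 * (n : ℝ) ^ 2) ^ s * τ)
      (fun z => (hslice z).trans (ENNReal.ofReal_le_ofReal hVle))
      (w₀ := w₀) hw0 z
    refine h1.trans (le_of_eq ?_)
    congr 1; ring
  · have h1 : (1 : ℝ) / 4 * (volume K).toReal ≤ c ^ n * (volume K).toReal := by
      gcongr
    linarith
  · -- lower bound for τ
    have h1 : ENNReal.ofReal ((1 / (n : ℝ)) ^ n) ≤ volume K := by
      have h2 : (Set.univ.pi fun _ : Fin (d + s) => Set.Icc (0 : ℝ) (1 / (n : ℝ))) ⊆ K := by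
        intro x hx
        exact hcube x fun i => hx i (Set.mem_univ i)
      refine le_trans (le_of_eq ?_) (measure_mono h2)
      rw [Set.pi_univ_Icc, Real.volume_Icc_pi]
      simp only [sub_zero, Finset.prod_const, Finset.card_univ, Fintype.card_fin]
      rw [← ENNReal.ofReal_pow (by positivity), hnd]
    have h2 : (1 / (n : ℝ)) ^ n ≤ (volume K).toReal := by
      rw [← ENNReal.ofReal_le_iff_le_toReal hKfin]
      exact h1
    have h3 : c ^ n * (1 / (n : ℝ)) ^ n ≤ 2 * 8 ^ s * τ := by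
      calc c ^ n * (1 / (n : ℝ)) ^ n ≤ c ^ n * (volume K).toReal := by gcongr
        _ ≤ 2 * 8 ^ s * τ * ∏ i, δ i := hvol
        _ ≤ 2 * 8 ^ s * τ * 1 := by gcongr
        _ = 2 * 8 ^ s * τ := by ring
    rw [div_le_iff₀ (by positivity)]
    have h4 : (8 : ℝ) ≤ 2 ^ n := by
      calc (8 : ℝ) = 2 ^ 3 := by norm_num
        _ ≤ 2 ^ n := pow_le_pow_right₀ (by norm_num) (by omega)
    have h5 : (2 * (n : ℝ)) ^ n * (1 / (n : ℝ)) ^ n = 2 ^ n := by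
      rw [← mul_pow]; congr 1; field_simp
    have h6 : (2 * (n : ℝ)) ^ n * (c ^ n * (1 / (n : ℝ)) ^ n) ≤ (2 * (n : ℝ)) ^ n * (2 * 8 ^ s * τ) := by
      gcongr
    have h7 : (2 * (n : ℝ)) ^ n * (c ^ n * (1 / (n : ℝ)) ^ n) = c ^ n * 2 ^ n := by
      rw [← h5]; ring
    rw [h7] at h6
    nlinarith
  · -- upper bound for τ
    obtain ⟨z, hz⟩ := RStep_nonempty s δ _ (fun i => (hδ i).1) hR
    have h1 : {u : Fin d → ℝ | (u, z) ∈ shr d s K c} ⊆
        (Set.univ.pi fun _ : Fin d => Set.Icc (-1 : ℝ) 1) := by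
      intro u hu i _
      exact abs_le.1 ((hboxS _ hu).1 i)
    have h2 : ENNReal.ofReal τ ≤ ENNReal.ofReal (2 ^ d) := by
      refine (le_trans hz (measure_mono h1)).trans (le_of_eq ?_)
      rw [Set.pi_univ_Icc, Real.volume_Icc_pi]
      simp only [Finset.prod_const, Finset.card_univ, Fintype.card_fin]
      rw [← ENNReal.ofReal_pow (by norm_num)]
      norm_num
    exact (ENNReal.ofReal_le_ofReal_iff (by positivity)).1 h2

theorem prism {d s n : ℕ} (hn : 600 ≤ n) (hnd : n = d + s) (hd : 1 ≤ d)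
    {K : Set (Fin (d + s) → ℝ)} (hc : Convex ℝ K) (hk : IsCompact K)
    (hcube : ∀ x : Fin (d + s) → ℝ, (∀ i, 0 ≤ x i ∧ x i ≤ 1 / (n : ℝ)) → x ∈ K)
    (hbox : ∀ x ∈ K, ∀ i, |x i| ≤ 1) :
    ∃ (τ : ℝ) (δ : Fin s → ℝ), 0 < τ ∧
      RStep s δ {z | ENNReal.ofReal τ ≤
        volume {u : Fin d → ℝ | (u, z) ∈ shr d s K (1 - 1 / (n : ℝ))}} ∧
      (∀ i, 0 < δ i ∧ δ i ≤ 1) ∧ (∀ i, 1 / (4 * (32 * (n : ℝ) ^ 2) ^ s) ≤ δ i) ∧
      (∀ z, volume {u : Fin d → ℝ | (u, z) ∈ CoreAux.thick (shr d s K (1 - 1 / (n : ℝ)))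
        (1 / (2 * (n : ℝ) ^ 2))} ≤ ENNReal.ofReal (16 * (32 * (n : ℝ) ^ 2) ^ s * τ)) ∧
      (volume K).toReal ≤ 8 * 8 ^ s * τ * ∏ i, δ i ∧
      1 / ((2 * (n : ℝ)) ^ n * 8 ^ s) ≤ τ ∧ τ ≤ 2 ^ d := by
  have hnr : (600 : ℝ) ≤ n := by exact_mod_cast hn
  exact prism2 hn hnd hd hc hk hcube hbox (w₀ := 1 / (2 * (n : ℝ) ^ 2)) (by
    apply one_div_le_one_div_of_le (by positivity)
    nlinarith)

end Vale.Agent.P230
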