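import Vale.Agent.P230.Lattice

open MeasureTheory Set
open scoped ENNReal

namespace Vale.Agent.P230

namespace RLAux

/-- append as an additive homomorphism, inverse direction -/
def split (d s : ℕ) : (Fin (d + s) → ℤ) →+ (Fin d → ℤ) × (Fin s → ℤ) where
  toFun f := (fun i => f (Fin.castAdd s i), fun i => f (Fin.natAdd d i))
  map_zero' := rfl
  map_add' _ _ := rfl

theorem split_append {d s : ℕ} (x : Fin d → ℤ) (z : Fin s → ℤ) :
    split d s (Fin.append x z) = (x, z) := by
  unfold split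
  ext i <;> simp

theorem append_split {d s : ℕ} (f : Fin (d + s) → ℤ) :
    Fin.append (split d s f).1 (split d s f).2 = f := by
  ext i
  refine Fin.addCases (fun i => ?_) (fun i => ?_) i <;> simp [split]

end RLAux

open RLAux

theorem real_lattice {d s : ℕ} {G : Type} [AddCommGroup G] [Finite G]
    (ψ : (Fin d → ℤ) × (Fin s → ℤ) →+ G) (hψ : Function.Surjective ψ) {H : ℝ} (hH : 0 < H)
    {h : Fin s → ℝ} (hh : ∀ i, 0 < h i) (S : Set ((Fin d → ℝ) × (Fin s → ℝ)))
    (hcov : ∀ g, ∃ (x : Fin d → ℤ) (z : Fin s → ℤ),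
      ((fun i => (x i : ℝ) / H), (fun i => h i * (z i : ℝ))) ∈ S ∧ ψ (x, z) = g)
    (K : Set (Fin (d + s) → ℝ))
    (hSK : ∀ p ∈ S, ∀ c : (Fin d → ℝ) × (Fin s → ℝ), (∀ i, 0 ≤ c.1 i ∧ c.1 i ≤ 1 / H) →
      (∀ i, 0 ≤ c.2 i ∧ c.2 i ≤ h i) → Fin.append (p.1 + c.1) (p.2 + c.2) ∈ K) :
    ∃ M : Matrix (Fin (d + s)) (Fin (d + s)) ℝ,
      |M.det| = (Nat.card G : ℝ) / H ^ d * ∏ i, h i ∧
      ∀ y, ∃ k ∈ K, ∃ z : Fin (d + s) → ℤ, y = k + M.mulVec (fun i => (z i : ℝ)) := by
  classical
  obtain ⟨M₀, hdet, hker⟩ := lattice_of_hom (ψ.comp (split d s))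
    (hψ.comp (fun p => ⟨Fin.append p.1 p.2, by rw [split_append]⟩))
  let D : Fin (d + s) → ℝ := Fin.append (fun _ => 1 / H) h
  refine ⟨Matrix.diagonal D * M₀.map (Int.cast : ℤ → ℝ), ?_, ?_⟩
  · rw [Matrix.det_mul, Matrix.det_diagonal, abs_mul]
    have h1 : ∏ i, D i = (1 / H) ^ d * ∏ i, h i := by
      rw [Fin.prod_univ_add]
      simp [D]
    have h2 : |(M₀.map (Int.cast : ℤ → ℝ)).det| = (Nat.card G : ℝ) := by
      have : (M₀.map (Int.cast : ℤ → ℝ)).det = ((M₀.det : ℤ) : ℝ) := by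
        have := (Int.cast_det (R := ℝ) M₀)
        rw [this]
      rw [this, ← Int.cast_abs, Int.abs_eq_natAbs, hdet]
      simp
    rw [h1, h2, abs_of_pos (by
      have : 0 < ∏ i, h i := Finset.prod_pos fun i _ => hh i
      positivity)]
    rw [div_pow, one_pow]
    field_simp
  · intro y
    -- integer parts
    let x : Fin d → ℤ := fun i => ⌊H * y (Fin.castAdd s i)⌋
    let z : Fin s → ℤ := fun i => ⌊y (Fin.natAdd d i) / h i⌋
    obtain ⟨a, b, hab, hψab⟩ := hcov (ψ (x, z))
    have hk : (ψ.comp (split d s)) (Fin.append (x - a) (z - b)) = 0 := by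
      simp only [AddMonoidHom.comp_apply, split_append]
      have : ((x - a, z - b) : (Fin d → ℤ) × (Fin s → ℤ)) = (x, z) - (a, b) := rfl
      rw [this, map_sub, hψab, sub_self]
    obtain ⟨v, hv⟩ := (hker _).1 hk
    let c1 : Fin d → ℝ := fun i => y (Fin.castAdd s i) - (x i : ℝ) / H
    let c2 : Fin s → ℝ := fun i => y (Fin.natAdd d i) - h i * (z i : ℝ)
    refine ⟨_, hSK _ hab (c1, c2) ?_ ?_, v, ?_⟩
    · intro i
      have h1 := Int.floor_le (H * y (Fin.castAdd s i))
      have h2 := Int.lt_floor_add_one (H * y (Fin.castAdd s i))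
      have h3 : c1 i = (H * y (Fin.castAdd s i) - (x i : ℝ)) / H := by
        simp only [c1]; field_simp
      change 0 ≤ c1 i ∧ c1 i ≤ 1 / H
      rw [h3]
      constructor
      · exact div_nonneg (by simp only [x]; linarith) hH.le
      · exact div_le_div_of_nonneg_right (by simp only [x]; linarith) hH.le
    · intro i
      have hi := hh i
      have h1 := Int.floor_le (y (Fin.natAdd d i) / h i)
      have h2 := Int.lt_floor_add_one (y (Fin.natAdd d i) / h i)
      rw [le_div_iff₀ hi] at h1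
      rw [div_lt_iff₀ hi] at h2
      simp only [c2, z]
      constructor
      · linarith [mul_comm (h i) ((⌊y (Fin.natAdd d i) / h i⌋ : ℤ) : ℝ)]
      · nlinarith [mul_comm (h i) ((⌊y (Fin.natAdd d i) / h i⌋ : ℤ) : ℝ)]
    · rw [← Matrix.mulVec_mulVec]
      have hv' : (M₀.map (Int.cast : ℤ → ℝ)).mulVec (fun i => (v i : ℝ)) =
          fun i => ((Fin.append (x - a) (z - b) : Fin (d + s) → ℤ) i : ℝ) := by
        rw [hv]
        ext i
        simp [Matrix.mulVec, dotProduct]
      rw [hv']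
      ext i
      rw [Pi.add_apply, Matrix.mulVec_diagonal]
      refine Fin.addCases (fun i => ?_) (fun i => ?_) i
      · simp only [Fin.append_left, Pi.add_apply, D, c1, Pi.sub_apply]
        push_cast
        field_simp
        ring
      · simp only [Fin.append_right, Pi.add_apply, D, c2, Pi.sub_apply]
        push_cast
        ring

end Vale.Agent.P230
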