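import Vale.Agent.P230.ClassCore
import Vale.Agent.P230.Scale2
import Vale.Agent.P230.Geom
import Vale.Agent.P230.RealLattice

open MeasureTheory Set
open scoped ENNReal Pointwise

namespace Vale.Agent.P230

open CoreAux GeomAux

namespace MultiAux

/-- the numerical bound on the number of layers -/
theorem layers_num2 {n k s : ℕ} (hk : 600 ≤ k) (hn : 1 ≤ n) :
    (2 * ((n ^ 3 : ℕ) : ℝ) / (1 / (4 * (32 * (k : ℝ) ^ 2) ^ s)) + 3) ^ s ≤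
      (((n ^ 3 * (32 * k ^ 2) ^ (s + 1)) ^ s : ℕ) : ℝ) := by
  have hkr : (600 : ℝ) ≤ k := by exact_mod_cast hk
  have hnr : (1 : ℝ) ≤ n := by exact_mod_cast hn
  push_cast
  refine pow_le_pow_left₀ (by positivity) ?_ s
  have h2 : 1 ≤ (32 * (k : ℝ) ^ 2) ^ s := one_le_pow₀ (by nlinarith)
  have h3 : 2 * (n : ℝ) ^ 3 / (1 / (4 * (32 * (k : ℝ) ^ 2) ^ s)) =
      8 * (n : ℝ) ^ 3 * (32 * (k : ℝ) ^ 2) ^ s := by
    field_simp; ring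
  have h5 : (32 * (k : ℝ) ^ 2) ^ (s + 1) = (32 * (k : ℝ) ^ 2) ^ s * (32 * (k : ℝ) ^ 2) :=
    pow_succ _ _
  rw [h3, h5]
  have h4 : (11 : ℝ) ≤ 32 * (k : ℝ) ^ 2 := by nlinarith
  have h6 : (1 : ℝ) ≤ (n : ℝ) ^ 3 := one_le_pow₀ hnr
  have h7 : 1 ≤ (n : ℝ) ^ 3 * (32 * (k : ℝ) ^ 2) ^ s := by nlinarith
  calc 8 * (n : ℝ) ^ 3 * (32 * (k : ℝ) ^ 2) ^ s + 3
      ≤ 8 * ((n : ℝ) ^ 3 * (32 * (k : ℝ) ^ 2) ^ s) + 3 * ((n : ℝ) ^ 3 * (32 * (k : ℝ) ^ 2) ^ s) := by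
        nlinarith
    _ = ((n : ℝ) ^ 3 * (32 * (k : ℝ) ^ 2) ^ s) * 11 := by ring
    _ ≤ ((n : ℝ) ^ 3 * (32 * (k : ℝ) ^ 2) ^ s) * (32 * (k : ℝ) ^ 2) := by gcongr
    _ = _ := by ring

/-- numerical bound for the separation radius -/
theorem radius_num {d s k : ℕ} (hk : k = d + s) (hk6 : 600 ≤ k) (hs : 4 * s < d) {τ : ℝ}
    (hτ : 1 / ((2 * (k : ℝ)) ^ k * 8 ^ s) ≤ τ) :
    8 * (3 / (4 * (k : ℝ) ^ 2)) ^ d ≤ τ * 10 ^ 4 / d := by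
  have hkr : (600 : ℝ) ≤ k := by exact_mod_cast hk6
  have hk0 : (0 : ℝ) < k := by linarith
  have hd0 : 0 < d := by omega
  have hdr : (0 : ℝ) < d := by exact_mod_cast hd0
  have hdk : (d : ℝ) ≤ k := by
    have : d ≤ k := by omega
    exact_mod_cast this
  rw [le_div_iff₀ hdr]
  refine le_trans ?_ (mul_le_mul_of_nonneg_right hτ (by norm_num))
  rw [div_mul_eq_mul_div, one_mul, le_div_iff₀ (by positivity)]
  obtain ⟨e, he⟩ : ∃ e, d = 4 * s + (e + 1) := ⟨d - 4 * s - 1, by omega⟩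
  have h1 : (2 * (k : ℝ)) ^ k = (2 * (k : ℝ)) ^ d * (2 * (k : ℝ)) ^ s := by
    nth_rewrite 2 [hk]
    rw [pow_add]
  have h2 : (3 / (4 * (k : ℝ) ^ 2)) ^ d * (2 * (k : ℝ)) ^ d = (3 / (2 * (k : ℝ))) ^ d := by
    rw [← mul_pow]
    congr 1
    field_simp
    norm_num
  have h3 : (2 * (k : ℝ)) ^ s * 8 ^ s = (16 * (k : ℝ)) ^ s := by
    rw [← mul_pow]; congr 1; ring
  have h4 : (3 / (2 * (k : ℝ))) ^ d = ((3 / (2 * (k : ℝ))) ^ 4) ^ s * ((3 / (2 * (k : ℝ))) ^ e *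
      (3 / (2 * (k : ℝ)))) := by
    rw [he, pow_add, pow_mul, pow_succ _ e]
  have h5 : ((3 / (2 * (k : ℝ))) ^ 4) ^ s * (16 * (k : ℝ)) ^ s ≤ 1 := by
    rw [← mul_pow]
    refine pow_le_one₀ (by positivity) ?_
    have : (3 / (2 * (k : ℝ))) ^ 4 * (16 * k) = 81 / (k : ℝ) ^ 3 := by
      field_simp; ring
    rw [this, div_le_one (by positivity)]
    have h6 : (600 : ℝ) ^ 3 ≤ (k : ℝ) ^ 3 := by gcongr
    linarith
  have h6 : (3 / (2 * (k : ℝ))) ^ e ≤ 1 := by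
    refine pow_le_one₀ (by positivity) ?_
    rw [div_le_one (by positivity)]
    linarith
  have h7 : (3 / (2 * (k : ℝ))) * d ≤ 3 / 2 := by
    rw [div_mul_eq_mul_div, div_le_iff₀ (by positivity)]
    nlinarith
  have h8 : 0 ≤ (3 / (2 * (k : ℝ))) * d := by positivity
  have h9 : 0 ≤ (3 / (2 * (k : ℝ))) ^ e := by positivity
  have h10 : 0 ≤ ((3 / (2 * (k : ℝ))) ^ 4) ^ s * (16 * (k : ℝ)) ^ s := by positivity
  calc 8 * (3 / (4 * (k : ℝ) ^ 2)) ^ d * d * ((2 * (k : ℝ)) ^ k * 8 ^ s)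
      = 8 * ((3 / (4 * (k : ℝ) ^ 2)) ^ d * (2 * (k : ℝ)) ^ d) * d * ((2 * (k : ℝ)) ^ s * 8 ^ s) := by
        rw [h1]; ring
    _ = 8 * (((3 / (2 * (k : ℝ))) ^ 4) ^ s * (16 * (k : ℝ)) ^ s) * ((3 / (2 * (k : ℝ))) ^ e) *
        ((3 / (2 * (k : ℝ))) * d) := by rw [h2, h3, h4]; ring
    _ ≤ 8 * 1 * 1 * (3 / 2) := by gcongr
    _ ≤ 10 ^ 4 := by norm_num


/-- numerical facts, I -/
theorem num_a {d k n q : ℕ} {H w : ℝ} (hk600 : 600 ≤ k) (hkn : 3 * k ≤ n) (hdk : d ≤ k)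
    (hq1 : 300 * n ^ 8 < q) (hH1 : 2 * (n : ℝ) ^ 4 ≤ H) (hH2 : H ≤ 4 * (n : ℝ) ^ 4)
    (hw : w = 1 / (4 * (k : ℝ) ^ 2)) :
    0 < w ∧ w < 1 ∧ w ≤ 1 / (k : ℝ) ^ 2 ∧ w + w ≤ 1 / (k : ℝ) ^ 2 ∧ 40 * (k : ℝ) ^ 2 ≤ H * w ∧
    d < 2 * ⌈H⌉₊ ∧ 3 * (2 * ⌈H⌉₊) ^ 2 < q ∧ ((2 * ⌈H⌉₊ : ℕ) : ℝ) ≤ (H * w) ^ 2 := by
  have hkr : (600 : ℝ) ≤ k := by exact_mod_cast hk600
  have hkpos : (0 : ℝ) < k := by linarith
  have hknr : 3 * (k : ℝ) ≤ n := by exact_mod_cast hkn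
  have hnr : (1800 : ℝ) ≤ n := by linarith
  have hn1 : (1 : ℝ) ≤ n := by linarith
  have hk2 : (0 : ℝ) < (k : ℝ) ^ 2 := by positivity
  have hk21 : (1 : ℝ) ≤ (k : ℝ) ^ 2 := one_le_pow₀ (by linarith)
  have hdkr : (d : ℝ) ≤ k := by exact_mod_cast hdk
  have hn4 : (1 : ℝ) ≤ (n : ℝ) ^ 4 := one_le_pow₀ hn1
  have hHpos : 0 < H := by linarith
  have hceil : ⌈H⌉₊ ≤ 4 * n ^ 4 := by
    rw [Nat.ceil_le]; push_cast; exact hH2
  have h81k : 81 * (k : ℝ) ^ 4 ≤ (n : ℝ) ^ 4 := by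
    have h1 : (3 * (k : ℝ)) ^ 4 ≤ (n : ℝ) ^ 4 := pow_le_pow_left₀ (by positivity) hknr 4
    have h2 : (3 * (k : ℝ)) ^ 4 = 81 * (k : ℝ) ^ 4 := by ring
    linarith
  have hHw' : (n : ℝ) ^ 4 / (2 * (k : ℝ) ^ 2) ≤ H * w := by
    rw [hw, mul_one_div, div_le_div_iff₀ (by positivity) (by positivity)]
    have := mul_le_mul_of_nonneg_right hH1 (show 0 ≤ 2 * (k : ℝ) ^ 2 by positivity)
    linarith
  have hw0 : 0 < w := by rw [hw]; positivity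
  have e1 : w + w = (1 / 2) * (1 / (k : ℝ) ^ 2) := by
    rw [hw]; field_simp; norm_num
  have e2 : 0 < 1 / (k : ℝ) ^ 2 := by positivity
  refine ⟨hw0, ?_, by linarith, by linarith, ?_, ?_, ?_, ?_⟩
  · rw [hw, div_lt_one (by positivity)]
    linarith
  · refine le_trans ?_ hHw'
    rw [le_div_iff₀ (by positivity)]
    have : 40 * (k : ℝ) ^ 2 * (2 * (k : ℝ) ^ 2) = 80 * (k : ℝ) ^ 4 := by ring
    have h4 : 0 ≤ (k : ℝ) ^ 4 := by positivity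
    linarith
  · have h1 : (d : ℝ) < 2 * (⌈H⌉₊ : ℝ) := by
      have h2 : H ≤ ⌈H⌉₊ := Nat.le_ceil H
      have h3 : (n : ℝ) ≤ (n : ℝ) ^ 4 := by
        calc (n : ℝ) = (n : ℝ) ^ 1 := (pow_one _).symm
          _ ≤ (n : ℝ) ^ 4 := pow_le_pow_right₀ hn1 (by norm_num)
      linarith
    exact_mod_cast h1
  · calc 3 * (2 * ⌈H⌉₊) ^ 2 ≤ 3 * (2 * (4 * n ^ 4)) ^ 2 := by gcongr
      _ = 192 * n ^ 8 := by ring
      _ ≤ 300 * n ^ 8 := by gcongr; norm_num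
      _ < q := hq1
  · have h1 : ((2 * ⌈H⌉₊ : ℕ) : ℝ) ≤ 8 * (n : ℝ) ^ 4 := by
      have : (⌈H⌉₊ : ℝ) ≤ ((4 * n ^ 4 : ℕ) : ℝ) := by exact_mod_cast hceil
      push_cast at this ⊢
      linarith
    refine h1.trans ?_
    have h2 : ((n : ℝ) ^ 4 / (2 * (k : ℝ) ^ 2)) ^ 2 ≤ (H * w) ^ 2 := by gcongr
    refine le_trans ?_ h2
    rw [div_pow, le_div_iff₀ (by positivity)]
    have h3 : 8 * (n : ℝ) ^ 4 * (2 * (k : ℝ) ^ 2) ^ 2 = (n : ℝ) ^ 4 * (32 * (k : ℝ) ^ 4) := by ring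
    have h4 : ((n : ℝ) ^ 4) ^ 2 = (n : ℝ) ^ 4 * (n : ℝ) ^ 4 := by ring
    rw [h3, h4]
    refine mul_le_mul_of_nonneg_left ?_ (by positivity)
    have : 0 ≤ (k : ℝ) ^ 4 := by positivity
    linarith

/-- numerical facts, II -/
theorem num_b {d s k n q D s' : ℕ} {H w τ X : ℝ} (hkd : k = d + s) (hk600 : 600 ≤ k)
    (hd0 : 1 ≤ d) (hsd : 4 * s < d) (hn1 : (1 : ℝ) ≤ n)
    (hq1 : 300 * n ^ 8 < q) (hH1 : 2 * (n : ℝ) ^ 4 ≤ H) (hH2 : H ≤ 4 * (n : ℝ) ^ 4)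
    (hw : w = 1 / (4 * (k : ℝ) ^ 2)) (hw0 : 0 < w) (hw1 : w < 1) (hHw : 40 * (k : ℝ) ^ 2 ≤ H * w)
    (hqs : (q : ℝ) ^ s' = H ^ d * (τ * 10 ^ 4 / d)) (hD : 1 ≤ D) (hτ : 0 < τ)
    (hτlow : 1 / ((2 * (k : ℝ)) ^ k * 8 ^ s) ≤ τ) (hτup : τ ≤ 2 ^ d)
    (hfin : X * (10 ^ 4 * 2 ^ d * (4 * (k : ℝ) ^ 2) ^ k) < 1) :
    ∃ r D₁ : ℕ, r < q ∧ 8 * (2 * r + 1) ^ d ≤ q ^ s' ∧ (r : ℝ) ≤ H * w ∧ (D₁ : ℝ) ≤ D * w ∧
      D₁ < D ∧ X * ((q : ℝ) ^ s' * (D : ℝ) ^ s) < (r + 1 : ℝ) ^ d * (D₁ + 1 : ℝ) ^ s := by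
  have hkr : (600 : ℝ) ≤ k := by exact_mod_cast hk600
  have hkpos : (0 : ℝ) < k := by linarith
  have hk21 : (1 : ℝ) ≤ (k : ℝ) ^ 2 := one_le_pow₀ (by linarith)
  have hdr : (1 : ℝ) ≤ d := by exact_mod_cast hd0
  have hn4 : (1 : ℝ) ≤ (n : ℝ) ^ 4 := one_le_pow₀ hn1
  have hHpos : 0 < H := by linarith
  obtain ⟨r, hr⟩ : ∃ r : ℕ, r = ⌊H * w⌋₊ := ⟨_, rfl⟩
  have hrle : (r : ℝ) ≤ H * w := by rw [hr]; exact Nat.floor_le (by positivity)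
  have hrlt : H * w < r + 1 := by rw [hr]; exact Nat.lt_floor_add_one _
  obtain ⟨D₁, hD₁⟩ : ∃ D₁ : ℕ, D₁ = ⌊(D : ℝ) * w⌋₊ := ⟨_, rfl⟩
  have hDrp : (1 : ℝ) ≤ (D : ℝ) := by exact_mod_cast hD
  have hD₁le : (D₁ : ℝ) ≤ (D : ℝ) * w := by rw [hD₁]; exact Nat.floor_le (by positivity)
  have hD₁lt : (D : ℝ) * w < D₁ + 1 := by rw [hD₁]; exact Nat.lt_floor_add_one _
  refine ⟨r, D₁, ?_, ?_, hrle, hD₁le, ?_, ?_⟩
  · have h1 : (r : ℝ) < q := by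
      have h2 : (r : ℝ) ≤ 4 * (n : ℝ) ^ 4 := by
        refine hrle.trans ?_
        calc H * w ≤ H * 1 := by gcongr
          _ ≤ 4 * (n : ℝ) ^ 4 := by linarith
      have h3 : (300 * (n : ℝ) ^ 8) < q := by exact_mod_cast hq1
      have h4 : (n : ℝ) ^ 4 ≤ (n : ℝ) ^ 8 := pow_le_pow_right₀ hn1 (by norm_num)
      linarith
    exact_mod_cast h1
  · have h1 : (8 * (2 * (r : ℝ) + 1) ^ d) ≤ (q : ℝ) ^ s' := by
      have h2 : 2 * (r : ℝ) + 1 ≤ 3 * (H * w) := by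
        linarith
      have h3 : (3 * (H * w)) ^ d = H ^ d * (3 / (4 * (k : ℝ) ^ 2)) ^ d := by
        rw [← mul_pow, hw]; congr 1; ring
      calc 8 * (2 * (r : ℝ) + 1) ^ d ≤ 8 * (3 * (H * w)) ^ d := by gcongr
        _ = H ^ d * (8 * (3 / (4 * (k : ℝ) ^ 2)) ^ d) := by rw [h3]; ring
        _ ≤ H ^ d * (τ * 10 ^ 4 / d) := by
          refine mul_le_mul_of_nonneg_left ?_ (by positivity)
          exact radius_num hkd hk600 hsd hτlow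
        _ = (q : ℝ) ^ s' := hqs.symm
    exact_mod_cast h1
  · have h1 : (D₁ : ℝ) < (D : ℝ) := by
      refine lt_of_le_of_lt hD₁le ?_
      calc (D : ℝ) * w < D * 1 := by gcongr
        _ = D := mul_one _
    exact_mod_cast h1
  · have h1 : (H * w) ^ d * ((D : ℝ) * w) ^ s ≤
        ((r : ℝ) + 1) ^ d * ((D₁ : ℝ) + 1) ^ s := by gcongr
    refine lt_of_lt_of_le ?_ h1
    have h2 : (H * w) ^ d * ((D : ℝ) * w) ^ s = (H ^ d * (D : ℝ) ^ s) * w ^ k := by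
      rw [mul_pow, mul_pow, hkd, pow_add]; ring
    have h3 : w ^ k = 1 / (4 * (k : ℝ) ^ 2) ^ k := by
      rw [hw, div_pow, one_pow]
    rw [h2, h3, mul_one_div, lt_div_iff₀ (by positivity)]
    have h5 : τ * 10 ^ 4 / d ≤ 10 ^ 4 * 2 ^ d := by
      rw [div_le_iff₀ (by linarith)]
      have h51 : τ * 10 ^ 4 ≤ 2 ^ d * 10 ^ 4 := by gcongr
      have h6 : (0 : ℝ) ≤ 10 ^ 4 * 2 ^ d := by positivity
      have h7 : (10 : ℝ) ^ 4 * 2 ^ d * 1 ≤ 10 ^ 4 * 2 ^ d * d := by gcongr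
      linarith
    have h7 : 0 < H ^ d * (D : ℝ) ^ s := by positivity
    rcases le_or_gt X 0 with hX | hX
    · have : X * ((q : ℝ) ^ s' * (D : ℝ) ^ s) * (4 * (k : ℝ) ^ 2) ^ k ≤ 0 := by
        rw [mul_assoc]
        exact mul_nonpos_of_nonpos_of_nonneg hX (by positivity)
      linarith
    · rw [hqs]
      calc X * (H ^ d * (τ * 10 ^ 4 / d) * (D : ℝ) ^ s) * (4 * (k : ℝ) ^ 2) ^ k
          = (H ^ d * (D : ℝ) ^ s) * (X * ((τ * 10 ^ 4 / d) * (4 * (k : ℝ) ^ 2) ^ k)) := by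
            ring
        _ ≤ (H ^ d * (D : ℝ) ^ s) *
            (X * (10 ^ 4 * 2 ^ d * (4 * (k : ℝ) ^ 2) ^ k)) := by gcongr
        _ < (H ^ d * (D : ℝ) ^ s) * 1 := mul_lt_mul_of_pos_left hfin h7
        _ = H ^ d * (D : ℝ) ^ s := mul_one _

end MultiAux

open MultiAux

/-- the class level, with abstract parameters -/
theorem multi_core : ∃ d₁ : ℕ, ∀ (d s k n m q D M : ℕ) [Fact q.Prime], k = d + s → 600 ≤ k →
    3 * k ≤ n → d₁ ≤ d → 1 ≤ d → 4 * s < d → (m : ℝ) ≤ d / 10 ^ 5 → 300 * n ^ 8 < q →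
    q ≤ 600 * n ^ 8 → 600 * (n : ℝ) ^ 8 ≤ 2 ^ d →
    16 * (32 * (k : ℝ) ^ 2) ^ s ≤ Real.exp (d / 10 ^ 5) → 1 ≤ D → 1 ≤ M →
    (2 * (D : ℝ) / (1 / (4 * (32 * (k : ℝ) ^ 2) ^ s)) + 3) ^ s ≤ M →
    (M * (50 * M * Real.exp (-(d : ℝ) / 10 ^ 5))) ^ (2 ^ s) *
      (10 ^ 4 * 2 ^ d * (4 * (k : ℝ) ^ 2) ^ k) < 1 →
    ∀ B : Set (Fin (d + s) → ℝ), Convex ℝ B → IsCompact B →
    (∀ x : Fin (d + s) → ℝ, (∀ i, 0 ≤ x i ∧ x i ≤ 1 / (k : ℝ)) → x ∈ B) →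
    (∀ x ∈ B, ∀ i, |x i| ≤ 1) →
    ∃ (H τ : ℝ) (δ : Fin s → ℝ) (s' : ℕ) (G : Type) (_ : AddCommGroup G) (_ : Finite G)
      (ψ : (Fin d → ℤ) × (Fin s → ℤ) →+ G),
      2 * (n : ℝ) ^ 4 ≤ H ∧ H ≤ 4 * (n : ℝ) ^ 4 ∧ 0 < τ ∧
      (∀ i, 0 < δ i ∧ δ i ≤ 1) ∧ (∀ i, 1 / (4 * (32 * (k : ℝ) ^ 2) ^ s) ≤ δ i) ∧
      s' < d ∧ H ^ d * τ = d / 10 ^ 4 * (q : ℝ) ^ s' ∧
      Function.Surjective ψ ∧ Nat.card G = q ^ s' * D ^ s ∧
      (volume B).toReal ≤ 8 * 8 ^ s * τ * ∏ i, δ i ∧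
      ∀ g, ∃ (x : Fin m → Fin d → ℤ) (z : Fin s → ℤ),
        (∀ j, ψ (x j, z) = g) ∧ AffineIndependent (ZMod q) (fun j l => (x j l : ZMod q)) ∧
        ∀ j, (Fin.append (fun i => (x j i : ℝ) / H) (fun i => δ i / D * (z i : ℝ)) :
          Fin (d + s) → ℝ) ∈ B := by
  obtain ⟨d₁, hcore⟩ := class_core
  refine ⟨d₁, ?_⟩
  intro d s k n m q D M _ hkd hk600 hkn hdd1 hd0 hsd hm hq1 hq2' hq2d hRexp hD hM hMs hfin
    B hc hk hcube hbox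
  have hkr : (600 : ℝ) ≤ k := by exact_mod_cast hk600
  have hdk : d ≤ k := by omega
  have hdkr : (d : ℝ) ≤ k := by exact_mod_cast hdk
  have hn1 : (1 : ℝ) ≤ n := by
    have : 1 ≤ n := by omega
    exact_mod_cast this
  obtain ⟨w, hw⟩ : ∃ w : ℝ, w = 1 / (4 * (k : ℝ) ^ 2) := ⟨_, rfl⟩
  have hwk2 : w ≤ 1 / (k : ℝ) ^ 2 := by
    rw [hw]
    refine one_div_le_one_div_of_le (by positivity) ?_
    linarith [sq_nonneg (k : ℝ)]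
  obtain ⟨τ, δ, hτ, hR, hδ, hδlow, hthick, hvol, hτlow, hτup⟩ :=
    prism2 (n := k) (w₀ := w) hk600 hkd hd0 hc hk hcube hbox hwk2
  have hq2r : (q : ℝ) ≤ 600 * (n : ℝ) ^ 8 := by exact_mod_cast hq2'
  obtain ⟨s', H, hH1, hH2, hHτ, hs'1, hs'2⟩ :=
    scale2 (n := n) hkd hk600 (by omega) hsd.le hq1 hq2' (hq2r.trans hq2d) hτlow hτup
  obtain ⟨hw0, hw1, -, hwk, hHw, a1, a2, a3⟩ := num_a hk600 hkn hdk hq1 hH1 hH2 hw
  have hHpos : 0 < H := by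
    have : (1 : ℝ) ≤ (n : ℝ) ^ 4 := one_le_pow₀ hn1
    linarith
  have hqs : (q : ℝ) ^ s' = H ^ d * (τ * 10 ^ 4 / d) := by
    have : (d : ℝ) ≠ 0 := by positivity
    field_simp at hHτ ⊢
    linarith
  obtain ⟨r, D₁, a4, a5, hrle, hD₁le, a6, a7⟩ := num_b hkd hk600 hd0 hsd hn1 hq1 hH1 hH2 hw hw0 hw1
    hHw hqs hD hτ hτlow hτup hfin
  have hboxS : ∀ x ∈ shr d s B (1 - 1 / (k : ℝ)), ∀ i, |x.2 i| ≤ 1 := by
    intro x hx i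
    have h1 := add_small (n := k) (by omega) hc hcube hx (e := 0)
      (fun i => ⟨le_refl _, by simp⟩)
    rw [add_zero] at h1
    have := hbox _ h1 (Fin.natAdd d i)
    rwa [Fin.append_right] at this
  have hboxT : ∀ p ∈ thick (shr d s B (1 - 1 / (k : ℝ))) w, ∀ i, |p.1 i| ≤ 1 := by
    intro p hp i
    have h1 := thick_sub (n := k) (by omega) hc hcube hp (c := (0, 0))
      (fun i => ⟨le_refl _, by simp only [Pi.zero_apply, Prod.mk_zero_zero, Prod.fst_zero]; linarith⟩)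
      (fun i => ⟨le_refl _, by simp⟩)
    simp only [add_zero] at h1
    have := hbox _ h1 (Fin.castAdd s i)
    rwa [Fin.append_left] at this
  have hk21 : (1 : ℝ) ≤ (k : ℝ) ^ 2 := one_le_pow₀ (by linarith)
  have hδ₀pos : 0 < 1 / (4 * (32 * (k : ℝ) ^ 2) ^ s) := by positivity
  have h32 : 1 ≤ (32 * (k : ℝ) ^ 2) ^ s := one_le_pow₀ (by linarith)
  have a8 : 1 ≤ H * w := by linarith
  have a9 : (d : ℝ) ^ 2 ≤ H * w := by
    have : (d : ℝ) ^ 2 ≤ (k : ℝ) ^ 2 := by gcongr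
    linarith
  have a10 : 1 ≤ 16 * (32 * (k : ℝ) ^ 2) ^ s := by linarith
  obtain ⟨G, iG, fG, ψ, hψ, hcard, hcov⟩ := hcore d s D M q s' m r D₁
    H τ w w (16 * (32 * (k : ℝ) ^ 2) ^ s) (1 / (4 * (32 * (k : ℝ) ^ 2) ^ s)) δ
    (shr d s B (1 - 1 / (k : ℝ))) hdd1 hD hM hδ₀pos (shr_convex hc _) (shr_compact hk _) hboxT hboxS
    hτ hR hδlow (fun i => (hδ i).2) hthick hHpos a8 a9 hHτ hm a1 a2 a3 hs'1 hs'2 a10 hRexp
    a4 a5 hrle hD₁le a6 hMs a7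
  refine ⟨H, τ, δ, s', G, iG, fG, ψ, hH1, hH2, hτ, hδ, hδlow, hs'2, hHτ, hψ, hcard, hvol, ?_⟩
  intro g
  obtain ⟨x, z, hx1, hx2, hx3⟩ := hcov g
  refine ⟨x, z, hx1, hx2, fun j => ?_⟩
  obtain ⟨p, hp, hp1, hp2⟩ := hx3 j
  have h1 : (Fin.append (fun i => (x j i : ℝ) / H) (fun i => δ i / D * (z i : ℝ)) :
      Fin (d + s) → ℝ) =
      Fin.append p.1 p.2 + Fin.append (fun i => (x j i : ℝ) / H - p.1 i)
        (fun i => δ i / D * (z i : ℝ) - p.2 i) := by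
    ext i
    refine Fin.addCases (fun i => ?_) (fun i => ?_) i
    · simp only [Fin.append_left, Pi.add_apply]
      ring
    · simp only [Fin.append_right, Pi.add_apply]
      ring
  rw [h1]
  refine add_small (n := k) (by omega) hc hcube hp fun i => ?_
  refine Fin.addCases (fun i => ?_) (fun i => ?_) i
  · rw [Fin.append_left]
    have := hp1 i
    constructor <;> linarith [this.1, this.2]
  · rw [Fin.append_right]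
    have := hp2 i
    constructor <;> linarith [this.1, this.2]

theorem multi : ∃ d₁ : ℕ, ∀ (d s k n m q : ℕ) [Fact q.Prime], k = d + s → 600 ≤ k → 3 * k ≤ n →
    d₁ ≤ d → 1 ≤ d → 4 * s < d → (m : ℝ) ≤ d / 10 ^ 5 → 300 * n ^ 8 < q → q ≤ 600 * n ^ 8 →
    600 * (n : ℝ) ^ 8 ≤ 2 ^ d → 16 * (32 * (k : ℝ) ^ 2) ^ s ≤ Real.exp (d / 10 ^ 5) →
    4 * (32 * (k : ℝ) ^ 2) ^ s ≤ (n : ℝ) ^ 2 →
    (((n ^ 3 * (32 * k ^ 2) ^ (s + 1)) ^ s : ℕ) * (50 * ((n ^ 3 * (32 * k ^ 2) ^ (s + 1)) ^ s : ℕ) *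
        Real.exp (-(d : ℝ) / 10 ^ 5))) ^ (2 ^ s) * (10 ^ 4 * 2 ^ d * (4 * (k : ℝ) ^ 2) ^ k) < 1 →
    ∀ B : Set (Fin (d + s) → ℝ), Convex ℝ B → IsCompact B →
    (∀ x : Fin (d + s) → ℝ, (∀ i, 0 ≤ x i ∧ x i ≤ 1 / (k : ℝ)) → x ∈ B) →
    (∀ x ∈ B, ∀ i, |x i| ≤ 1) →
    ∃ (h : Fin (d + s) → ℝ) (G : Type) (_ : AddCommGroup G) (_ : Finite G)
      (ψ : (Fin (d + s) → ℤ) →+ G),
      Function.Surjective ψ ∧ (∀ i, 0 < h i ∧ h i ≤ 1 / (n : ℝ) ^ 3) ∧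
      (∀ i, 1 / (n : ℝ) ^ 5 ≤ h i) ∧ Nat.card G ≤ q ^ d * (n ^ 3) ^ s ∧
      (volume B).toReal ≤ 8 * 8 ^ s * (d / 10 ^ 4) * Nat.card G * ∏ i, h i ∧
      ∀ g, ∃ y : Fin m → Fin (d + s) → ℤ, (∀ j, ψ (y j) = g ∧ (fun i => h i * (y j i : ℝ)) ∈ B) ∧
        AffineIndependent (ZMod q) (fun j l => (y j l : ZMod q)) := by
  obtain ⟨d₁, hcore⟩ := multi_core
  refine ⟨d₁, ?_⟩
  intro d s k n m q _ hkd hk600 hkn hdd1 hd0 hsd hm hq1 hq2' hq2d hRexp h32n hfin B hc hk hcube hbox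
  have hn0 : 0 < n := by omega
  obtain ⟨M, hM⟩ : ∃ M : ℕ, M = (n ^ 3 * (32 * k ^ 2) ^ (s + 1)) ^ s := ⟨_, rfl⟩
  have hM1 : 1 ≤ M := by rw [hM]; exact Nat.one_le_pow _ _ (by positivity)
  obtain ⟨D, hD⟩ : ∃ D : ℕ, D = n ^ 3 := ⟨_, rfl⟩
  have hD1 : 1 ≤ D := by rw [hD]; exact Nat.one_le_pow _ _ hn0
  have hMs : (2 * (D : ℝ) / (1 / (4 * (32 * (k : ℝ) ^ 2) ^ s)) + 3) ^ s ≤ M := by
    rw [hD, hM]
    exact layers_num2 hk600 (by omega)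
  rw [← hM] at hfin
  obtain ⟨H, τ, δ, s', G, iG, fG, ψ, hH1, hH2, hτ, hδ, hδlow, hs'2, hHτ, hψ, hcard, hvol, hcov⟩ :=
    hcore d s k n m q D M hkd hk600 hkn hdd1 hd0 hsd hm hq1 hq2' hq2d hRexp hD1 hM1 hMs hfin
      B hc hk hcube hbox
  have hnr : (1800 : ℝ) ≤ n := by
    have : 1800 ≤ n := by omega
    exact_mod_cast this
  have hn1 : (1 : ℝ) ≤ n := by linarith
  have hn3 : (0 : ℝ) < (n : ℝ) ^ 3 := by positivity
  have hn4 : (1 : ℝ) ≤ (n : ℝ) ^ 4 := one_le_pow₀ hn1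
  have hHpos : 0 < H := by linarith
  have hDn : (D : ℝ) = (n : ℝ) ^ 3 := by rw [hD]; push_cast; rfl
  have hqp : q.Prime := Fact.out
  refine ⟨Fin.append (fun _ => 1 / H) (fun i => δ i / D), G, iG, fG,
    ψ.comp (RLAux.split d s), ?_, ?_, ?_, ?_, ?_, ?_⟩
  · exact hψ.comp (fun p => ⟨Fin.append p.1 p.2, by rw [RLAux.split_append]⟩)
  · intro i
    refine Fin.addCases (fun i => ?_) (fun i => ?_) i
    · rw [Fin.append_left]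
      refine ⟨by positivity, one_div_le_one_div_of_le (by positivity) ?_⟩
      have : (n : ℝ) ^ 3 ≤ (n : ℝ) ^ 4 := pow_le_pow_right₀ hn1 (by norm_num)
      linarith
    · rw [Fin.append_right, hDn]
      exact ⟨div_pos (hδ i).1 hn3, div_le_div_of_nonneg_right (hδ i).2 hn3.le⟩
  · intro i
    refine Fin.addCases (fun i => ?_) (fun i => ?_) i
    · rw [Fin.append_left]
      refine one_div_le_one_div_of_le (by positivity) ?_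
      calc H ≤ 4 * (n : ℝ) ^ 4 := hH2
        _ ≤ n * (n : ℝ) ^ 4 := by gcongr; linarith
        _ = (n : ℝ) ^ 5 := by ring
    · rw [Fin.append_right, hDn]
      rw [div_le_div_iff₀ (by positivity) hn3, one_mul]
      have h1 := hδlow i
      rw [div_le_iff₀ (by positivity)] at h1
      have h2 : 1 ≤ δ i * (n : ℝ) ^ 2 := h1.trans (by
        refine mul_le_mul_of_nonneg_left h32n (hδ i).1.le)
      calc (n : ℝ) ^ 3 = 1 * (n : ℝ) ^ 3 := (one_mul _).symm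
        _ ≤ (δ i * (n : ℝ) ^ 2) * (n : ℝ) ^ 3 := by gcongr
        _ = δ i * (n : ℝ) ^ 5 := by ring
  · rw [hcard, ← hD]
    refine Nat.mul_le_mul_right _ ?_
    exact Nat.pow_le_pow_right hqp.pos hs'2.le
  · have hqs : (q : ℝ) ^ s' = H ^ d * (τ * 10 ^ 4 / d) := by
      have : (d : ℝ) ≠ 0 := by positivity
      field_simp at hHτ ⊢
      linarith
    have hprod : ∏ i, (Fin.append (fun _ => 1 / H) (fun i => δ i / D) :
        Fin (d + s) → ℝ) i = (1 / H) ^ d * ((∏ i, δ i) / (D : ℝ) ^ s) := by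
      rw [Fin.prod_univ_add]
      simp only [Fin.append_left, Fin.append_right, Finset.prod_const, Finset.card_univ,
        Fintype.card_fin, Finset.prod_div_distrib]
    rw [hprod, hcard]
    push_cast
    rw [hqs]
    refine hvol.trans (le_of_eq ?_)
    have : (d : ℝ) ≠ 0 := by positivity
    have h2 : (D : ℝ) ≠ 0 := by rw [hDn]; positivity
    have h3 : H ≠ 0 := hHpos.ne'
    rw [div_pow, one_pow]
    field_simp
  · intro g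
    obtain ⟨x, z, hx1, hx2, hx3⟩ := hcov g
    refine ⟨fun j => Fin.append (x j) z, fun j => ⟨?_, ?_⟩, ?_⟩
    · rw [AddMonoidHom.comp_apply, RLAux.split_append]
      exact hx1 j
    · have h1 : (fun i => (Fin.append (fun _ => 1 / H) (fun i => δ i / D) :
          Fin (d + s) → ℝ) i * ((Fin.append (x j) z : Fin (d + s) → ℤ) i : ℝ)) =
          Fin.append (fun i => (x j i : ℝ) / H) (fun i => δ i / D * (z i : ℝ)) := by
        ext i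
        refine Fin.addCases (fun i => ?_) (fun i => ?_) i
        · simp only [Fin.append_left]
          ring
        · simp only [Fin.append_right]
      rw [h1]
      exact hx3 j
    · -- affine independence
      let f : (Fin (d + s) → ZMod q) →ₗ[ZMod q] (Fin d → ZMod q) :=
        LinearMap.funLeft (ZMod q) (ZMod q) (Fin.castAdd s)
      refine AffineIndependent.of_comp f.toAffineMap ?_
      have h1 : (⇑f.toAffineMap ∘ fun j l => ((Fin.append (x j) z : Fin (d + s) → ℤ) l : ZMod q)) =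
          fun j l => (x j l : ZMod q) := by
        funext j l
        simp [f, LinearMap.funLeft_apply]
      rw [h1]
      exact hx2

end Vale.Agent.P230
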