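import Mathlib

namespace Vale.Agent.P230

/-- choice of the scale `H` and of the number `s'` of linear constraints -/
theorem scale {n d s q : ℕ} {τ : ℝ} (hn : n = d + s) (hn0 : 600 ≤ n) (hs : 4 * s ≤ d)
    (hq1 : 300 * n ^ 8 < q) (hq2 : q ≤ 600 * n ^ 8) (hq3 : (q : ℝ) ≤ 2 ^ d)
    (hτ1 : 1 / ((2 * (n : ℝ)) ^ n * 8 ^ s) ≤ τ) (hτ2 : τ ≤ 2 ^ d) :
    ∃ (s' : ℕ) (H : ℝ), 2 * (n : ℝ) ^ 4 ≤ H ∧ H ≤ 4 * (n : ℝ) ^ 4 ∧
      H ^ d * τ = d / 10 ^ 4 * (q : ℝ) ^ s' ∧ (d : ℝ) / 100 ≤ s' ∧ s' < d := by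
  have hnr : (600 : ℝ) ≤ n := by exact_mod_cast hn0
  have hn1 : (1 : ℝ) ≤ n := by linarith
  have hd : 480 ≤ d := by omega
  have hdr : (480 : ℝ) ≤ d := by exact_mod_cast hd
  have hdn : (d : ℝ) ≤ n := by rw [hn]; push_cast; linarith [Nat.cast_nonneg (α := ℝ) s]
  have hτ0 : 0 < τ := lt_of_lt_of_le (by positivity) hτ1
  have hq1r : 300 * (n : ℝ) ^ 8 < q := by exact_mod_cast hq1
  have hq2r : (q : ℝ) ≤ 600 * (n : ℝ) ^ 8 := by exact_mod_cast hq2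
  have hqpos : (0 : ℝ) < q := lt_trans (by positivity) hq1r
  have hqone : (1 : ℝ) < q := by
    refine lt_of_le_of_lt ?_ hq1r
    nlinarith [one_le_pow₀ hn1 (n := 8)]
  have hlogq : 0 < Real.log q := Real.log_pos hqone
  set T : ℝ := (2 * (n : ℝ) ^ 4) ^ d * τ * 10 ^ 4 / d with hT
  have hTpos : 0 < T := by positivity
  -- lower bound of T
  have hTlow : (n : ℝ) ^ (2 * d) ≤ T := by
    have h1 : (2 * (n : ℝ) ^ 4) ^ d * (1 / ((2 * (n : ℝ)) ^ n * 8 ^ s)) * 10 ^ 4 / d ≤ T := by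
      rw [hT]; gcongr
    refine le_trans ?_ h1
    have h2 : (2 * (n : ℝ)) ^ n = (2 * (n : ℝ)) ^ d * (2 * (n : ℝ)) ^ s := by
      rw [← pow_add]; congr 1
    rw [h2]
    have h3 : (2 * (n : ℝ) ^ 4) ^ d = (2 * (n : ℝ)) ^ d * ((n : ℝ) ^ 3) ^ d := by
      rw [← mul_pow]; congr 1; ring
    rw [h3]
    have h4 : (2 * (n : ℝ)) ^ d * ((n : ℝ) ^ 3) ^ d *
        (1 / ((2 * (n : ℝ)) ^ d * (2 * (n : ℝ)) ^ s * 8 ^ s)) * 10 ^ 4 / d =
        (n : ℝ) ^ (2 * d) * ((n : ℝ) ^ d * 10 ^ 4 / ((16 * (n : ℝ)) ^ s * d)) := by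
      have e1 : ((n : ℝ) ^ 3) ^ d = (n : ℝ) ^ (2 * d) * (n : ℝ) ^ d := by
        rw [← pow_mul, ← pow_add]; congr 1; ring
      have e2 : (16 * (n : ℝ)) ^ s = (2 * (n : ℝ)) ^ s * 8 ^ s := by
        rw [← mul_pow]; congr 1; ring
      rw [e1, e2]
      field_simp
    rw [h4]
    refine le_mul_of_one_le_right (by positivity) ?_
    rw [one_le_div (by positivity)]
    have h5 : (16 * (n : ℝ)) ^ s ≤ ((n : ℝ) ^ 2) ^ s := by
      refine pow_le_pow_left₀ (by positivity) ?_ s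
      nlinarith
    have h6 : ((n : ℝ) ^ 2) ^ s * (n : ℝ) ≤ (n : ℝ) ^ d := by
      rw [← pow_mul, ← pow_succ]
      exact pow_le_pow_right₀ hn1 (by omega)
    calc (16 * (n : ℝ)) ^ s * d ≤ ((n : ℝ) ^ 2) ^ s * n := by gcongr
      _ ≤ (n : ℝ) ^ d := h6
      _ ≤ (n : ℝ) ^ d * 10 ^ 4 := le_mul_of_one_le_right (by positivity) (by norm_num)
  have hT1 : 1 ≤ T := le_trans (one_le_pow₀ hn1) hTlow
  have hlogT : 0 ≤ Real.log T := Real.log_nonneg hT1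
  -- choice of s'
  set s' : ℕ := ⌈Real.log T / Real.log q⌉₊ with hs'
  have hs1 : T ≤ (q : ℝ) ^ s' := by
    have h1 : Real.log T / Real.log q ≤ s' := Nat.le_ceil _
    rw [div_le_iff₀ hlogq] at h1
    rw [← Real.log_le_log_iff hTpos (by positivity), Real.log_pow]
    exact h1
  have hs2 : (q : ℝ) ^ s' ≤ q * T := by
    have h1 : (s' : ℝ) < Real.log T / Real.log q + 1 :=
      Nat.ceil_lt_add_one (div_nonneg hlogT hlogq.le)
    have h2 : (s' : ℝ) * Real.log q < Real.log T + Real.log q := by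
      have := mul_lt_mul_of_pos_right h1 hlogq
      rw [add_mul, div_mul_cancel₀ _ hlogq.ne', one_mul] at this
      exact this
    rw [← Real.log_le_log_iff (by positivity) (by positivity), Real.log_pow,
      Real.log_mul hqpos.ne' hTpos.ne']
    linarith
  have hdne : d ≠ 0 := by omega
  set Hd : ℝ := (q : ℝ) ^ s' * d / (10 ^ 4 * τ) with hHd
  have hHdpos : 0 < Hd := by positivity
  set H : ℝ := Hd ^ ((1 : ℝ) / d) with hH
  have hHpow : H ^ d = Hd := by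
    rw [hH, ← Real.rpow_natCast, ← Real.rpow_mul hHdpos.le, one_div,
      inv_mul_cancel₀ (by positivity), Real.rpow_one]
  have hH0 : 0 ≤ H := by positivity
  refine ⟨s', H, ?_, ?_, ?_, ?_, ?_⟩
  · refine le_of_pow_le_pow_left₀ hdne hH0 ?_
    rw [hHpow, hHd, le_div_iff₀ (by positivity)]
    have : (2 * (n : ℝ) ^ 4) ^ d * (10 ^ 4 * τ) = T * d := by
      rw [hT]; field_simp
    rw [this]
    gcongr
  · refine le_of_pow_le_pow_left₀ hdne (by positivity) ?_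
    rw [hHpow, hHd, div_le_iff₀ (by positivity)]
    have h1 : (4 * (n : ℝ) ^ 4) ^ d = 2 ^ d * (2 * (n : ℝ) ^ 4) ^ d := by
      rw [← mul_pow]; congr 1; ring
    calc (q : ℝ) ^ s' * d ≤ (q * T) * d := by gcongr
      _ = q * ((2 * (n : ℝ) ^ 4) ^ d * (10 ^ 4 * τ)) := by
        rw [hT]; field_simp
      _ ≤ 2 ^ d * ((2 * (n : ℝ) ^ 4) ^ d * (10 ^ 4 * τ)) := by gcongr
      _ = (4 * (n : ℝ) ^ 4) ^ d * (10 ^ 4 * τ) := by rw [h1]; ring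
  · rw [hHpow, hHd]; field_simp
  · -- s' ≥ d / 100
    have h1 : (q : ℝ) ≤ (n : ℝ) ^ 9 := by
      refine hq2r.trans ?_
      have : (n : ℝ) ^ 9 = n * (n : ℝ) ^ 8 := by ring
      rw [this]; gcongr
    have h2 : (n : ℝ) ^ (2 * d) ≤ (n : ℝ) ^ (9 * s') := by
      calc (n : ℝ) ^ (2 * d) ≤ T := hTlow
        _ ≤ (q : ℝ) ^ s' := hs1
        _ ≤ ((n : ℝ) ^ 9) ^ s' := by gcongr
        _ = (n : ℝ) ^ (9 * s') := by rw [← pow_mul]
    have h3 : 2 * d ≤ 9 * s' := (pow_le_pow_iff_right₀ (by linarith)).1 h2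
    have h4 : (2 : ℝ) * d ≤ 9 * s' := by exact_mod_cast h3
    linarith
  · -- s' < d
    by_contra hcon
    push Not at hcon
    have h1 : (q : ℝ) ^ d ≤ q * T := le_trans (pow_le_pow_right₀ hqone.le hcon) hs2
    have h2 : T ≤ (2 * (n : ℝ) ^ 4) ^ d * 2 ^ d * 10 ^ 4 := by
      rw [hT, div_le_iff₀ (by positivity)]
      calc (2 * (n : ℝ) ^ 4) ^ d * τ * 10 ^ 4 ≤ (2 * (n : ℝ) ^ 4) ^ d * 2 ^ d * 10 ^ 4 := by gcongr
        _ ≤ (2 * (n : ℝ) ^ 4) ^ d * 2 ^ d * 10 ^ 4 * d :=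
          le_mul_of_one_le_right (by positivity) (by linarith)
    have h3 : (300 * (n : ℝ) ^ 8) ^ (d - 1) ≤ (q : ℝ) ^ (d - 1) :=
      pow_le_pow_left₀ (by positivity) hq1r.le _
    have h4 : (q : ℝ) ^ d = (q : ℝ) ^ (d - 1) * q := by
      rw [← pow_succ]; congr 1; omega
    rw [h4] at h1
    have h5 : (q : ℝ) ^ (d - 1) ≤ T := by
      have : (q : ℝ) ^ (d - 1) * q ≤ T * q := by linarith [mul_comm (q : ℝ) T]
      exact le_of_mul_le_mul_right this hqpos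
    have h6 : (300 * (n : ℝ) ^ 8) ^ (d - 1) ≤ (4 * (n : ℝ) ^ 4) ^ (d - 1) * (4 * (n : ℝ) ^ 4) * 10 ^ 4 := by
      refine h3.trans (h5.trans (h2.trans (le_of_eq ?_)))
      have e1 : (4 * (n : ℝ) ^ 4) ^ (d - 1) * (4 * (n : ℝ) ^ 4) = (4 * (n : ℝ) ^ 4) ^ d := by
        rw [← pow_succ]; congr 1; omega
      rw [e1, ← mul_pow]; congr 2; ring
    have h7 : (300 * (n : ℝ) ^ 8) ^ (d - 1) = (4 * (n : ℝ) ^ 4) ^ (d - 1) * (75 * (n : ℝ) ^ 4) ^ (d - 1) := by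
      rw [← mul_pow]; congr 1; ring
    rw [h7, mul_assoc] at h6
    have h8 : (75 * (n : ℝ) ^ 4) ^ (d - 1) ≤ 4 * (n : ℝ) ^ 4 * 10 ^ 4 :=
      le_of_mul_le_mul_left h6 (by positivity)
    have h9 : (75 * (n : ℝ) ^ 4) ^ 3 ≤ (75 * (n : ℝ) ^ 4) ^ (d - 1) := by
      refine pow_le_pow_right₀ ?_ (by omega)
      nlinarith [one_le_pow₀ hn1 (n := 4)]
    have h10 : (75 * (n : ℝ) ^ 4) ^ 3 = 421875 * ((n : ℝ) ^ 4 * (n : ℝ) ^ 8) := by ring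
    have h11 : (1 : ℝ) ≤ (n : ℝ) ^ 8 := one_le_pow₀ hn1
    have h12 : (0 : ℝ) < (n : ℝ) ^ 4 := by positivity
    nlinarith [mul_le_mul_of_nonneg_left h11 h12.le]

end Vale.Agent.P230
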