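import Vale.Agent.P230.Block
import Vale.Agent.P230.GCore
import Vale.Agent.P230.Multi
import Vale.Agent.P230.Norm
import Vale.Agent.P230.Scale

open MeasureTheory Set
open scoped ENNReal NNReal Pointwise

namespace Vale.Agent.P230

open CoreAux GeomAux

namespace GLevelAux

theorem aff_convex {n : ℕ} {K : Set (Fin n → ℝ)} (hc : Convex ℝ K) (T : Matrix (Fin n) (Fin n) ℝ)
    (v : Fin n → ℝ) : Convex ℝ {x : Fin n → ℝ | T.mulVec x + v ∈ K} := by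
  intro x hx y hy a b ha hb hab
  have : T.mulVec (a • x + b • y) + v = a • (T.mulVec x + v) + b • (T.mulVec y + v) := by
    rw [Matrix.mulVec_add, Matrix.mulVec_smul, Matrix.mulVec_smul]
    have h1 : v = a • v + b • v := by rw [← add_smul, hab, one_smul]
    nth_rewrite 1 [h1]
    rw [smul_add, smul_add]
    abel
  change T.mulVec (a • x + b • y) + v ∈ K
  rw [this]
  exact hc hx hy ha hb hab

theorem aff_compact {n : ℕ} {K : Set (Fin n → ℝ)} (hk : IsCompact K)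
    {T : Matrix (Fin n) (Fin n) ℝ} (hT : T.det ≠ 0) (v : Fin n → ℝ) :
    IsCompact {x : Fin n → ℝ | T.mulVec x + v ∈ K} := by
  have hTu : IsUnit T.det := isUnit_iff_ne_zero.2 hT
  have hK₀im : {x : Fin n → ℝ | T.mulVec x + v ∈ K} = (fun y => T⁻¹.mulVec (y - v)) '' K := by
    ext x
    simp only [mem_image]
    constructor
    · intro h
      refine ⟨_, h, ?_⟩
      rw [add_sub_cancel_right, Matrix.mulVec_mulVec, Matrix.nonsing_inv_mul _ hTu,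
        Matrix.one_mulVec]
    · rintro ⟨y, hy, rfl⟩
      change T.mulVec _ + v ∈ K
      rw [Matrix.mulVec_mulVec, Matrix.mul_nonsing_inv _ hTu, Matrix.one_mulVec, sub_add_cancel]
      exact hy
  rw [hK₀im]
  refine hk.image ?_
  exact (Continuous.matrix_mulVec continuous_const (by fun_prop))

/-- few grid points in the unit box -/
theorem count_box {n k : ℕ} {h : Fin k → ℝ} (hn : 3 ≤ n) (hh : ∀ i, 1 / (n : ℝ) ^ 5 ≤ h i)
    {Y : Set (Fin k → ℤ)} (hY : ∀ y ∈ Y, ∀ i, |h i * (y i : ℝ)| ≤ 1) :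
    Y.Finite ∧ (Y.ncard : ℝ) ≤ (n : ℝ) ^ (6 * k) := by
  have hn0 : (0 : ℝ) < n := by
    have : 0 < n := by omega
    exact_mod_cast this
  have hsub : Y ⊆ ((Fintype.piFinset fun _ : Fin k => Finset.Icc (-((n ^ 5 : ℕ) : ℤ)) (n ^ 5 : ℕ) :
      Finset (Fin k → ℤ)) : Set (Fin k → ℤ)) := by
    intro y hy
    simp only [Finset.mem_coe, Fintype.mem_piFinset, Finset.mem_Icc]
    intro i
    have h1 := hY y hy i
    have h2 := hh i
    have h3 : 0 < h i := lt_of_lt_of_le (by positivity) h2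
    rw [abs_mul, abs_of_pos h3] at h1
    have h4 : 1 / (n : ℝ) ^ 5 * |(y i : ℝ)| ≤ 1 := by
      refine le_trans ?_ h1
      gcongr
    have h5 : |(y i : ℝ)| ≤ (n : ℝ) ^ 5 := by
      rw [div_mul_eq_mul_div, one_mul, div_le_one (by positivity)] at h4
      exact h4
    have h6 : ((y i).natAbs : ℝ) ≤ ((n ^ 5 : ℕ) : ℝ) := by
      rw [Nat.cast_natAbs, Int.cast_abs]
      push_cast
      exact h5
    have h7 : (y i).natAbs ≤ n ^ 5 := by exact_mod_cast h6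
    generalize n ^ 5 = N at h7 ⊢
    omega
  have hfin1 : Y.Finite := (Finset.finite_toSet _).subset hsub
  refine ⟨hfin1, ?_⟩
  have h6 : Y.ncard ≤ (Fintype.piFinset fun _ : Fin k =>
      Finset.Icc (-((n ^ 5 : ℕ) : ℤ)) (n ^ 5 : ℕ)).card := by
    rw [← Set.ncard_coe_finset]
    exact Set.ncard_le_ncard hsub (Finset.finite_toSet _)
  have h7 : (Fintype.piFinset fun _ : Fin k =>
      Finset.Icc (-((n ^ 5 : ℕ) : ℤ)) (n ^ 5 : ℕ)).card = (2 * n ^ 5 + 1) ^ k := by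
    rw [Fintype.card_piFinset]
    simp only [Int.card_Icc, Finset.prod_const, Finset.card_univ, Fintype.card_fin]
    congr 1
    generalize n ^ 5 = N
    omega
  rw [h7] at h6
  have h8 : (2 * n ^ 5 + 1) ^ k ≤ (n ^ 6) ^ k := by
    refine Nat.pow_le_pow_left ?_ k
    have : 1 ≤ n ^ 5 := Nat.one_le_pow _ _ (by omega)
    calc 2 * n ^ 5 + 1 ≤ 3 * n ^ 5 := by omega
      _ ≤ n * n ^ 5 := Nat.mul_le_mul_right _ hn
      _ = n ^ 6 := by ring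
  have h9 : Y.ncard ≤ n ^ (6 * k) := by
    rw [pow_mul]
    exact h6.trans h8
  exact_mod_cast h9

/-- box and cube for the shrunken body -/
theorem shr_box {d s n : ℕ} {K : Set (Fin (d + s) → ℝ)} (hn : 600 ≤ n)
    (hcube : ∀ x : Fin (d + s) → ℝ, (∀ i, 0 ≤ x i ∧ x i ≤ 1 / (n : ℝ)) → x ∈ K)
    (hbox : ∀ x ∈ K, ∀ i, |x i| ≤ 1) :
    (∀ x ∈ shr d s K (1 - 1 / (n : ℝ)), (∀ i, |x.1 i| ≤ 1) ∧ (∀ i, |x.2 i| ≤ 1)) ∧
    (∀ x : (Fin d → ℝ) × (Fin s → ℝ),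
      (∀ i, |x.1 i - (1 - 1 / (n : ℝ)) / (2 * n)| ≤ 1 / (4 * n)) →
      (∀ i, |x.2 i - (1 - 1 / (n : ℝ)) / (2 * n)| ≤ 1 / (4 * n)) →
      x ∈ shr d s K (1 - 1 / (n : ℝ))) := by
  set c : ℝ := 1 - 1 / (n : ℝ) with hcdef
  have hnr : (600 : ℝ) ≤ n := by exact_mod_cast hn
  have hn0 : 0 < 1 / (n : ℝ) := by positivity
  have hc1 : 1 / (n : ℝ) ≤ 1 / 600 := one_div_le_one_div_of_le (by norm_num) hnr
  have hcpos : 0 < c := by rw [hcdef]; linarith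
  have hchalf : 1 / 2 ≤ c := by rw [hcdef]; linarith
  have hcle : c ≤ 1 := by rw [hcdef]; linarith
  refine ⟨?_, ?_⟩
  · rintro x ⟨k, hk, hkx⟩
    have h1 : ∀ j, |(Fin.append x.1 x.2 : Fin (d + s) → ℝ) j| ≤ 1 := by
      intro j
      rw [← hkx]
      simp only [Pi.smul_apply, smul_eq_mul, abs_mul, abs_of_pos hcpos]
      have := hbox k hk j
      nlinarith [abs_nonneg (k j)]
    constructor
    · intro i
      have := h1 (Fin.castAdd s i)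
      rwa [Fin.append_left] at this
    · intro i
      have := h1 (Fin.natAdd d i)
      rwa [Fin.append_right] at this
  · intro x h1 h2
    change Fin.append x.1 x.2 ∈ c • K
    rw [Set.mem_smul_set_iff_inv_smul_mem₀ hcpos.ne']
    refine hcube _ fun i => ?_
    have key : ∀ t : ℝ, |t - c / (2 * n)| ≤ 1 / (4 * n) → 0 ≤ c⁻¹ * t ∧ c⁻¹ * t ≤ 1 / n := by
      intro t ht
      rw [abs_le] at ht
      have e1 : 1 / (4 * (n : ℝ)) ≤ c / (2 * n) := by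
        rw [div_le_div_iff₀ (by positivity) (by positivity)]
        nlinarith
      have e2 : c / (2 * (n : ℝ)) + c / (2 * n) = c / n := by ring
      have e3 : 0 ≤ t := by linarith
      have e4 : t ≤ c / n := by linarith
      refine ⟨by positivity, ?_⟩
      rw [inv_mul_le_iff₀ hcpos]
      calc t ≤ c / n := e4
        _ = c * (1 / n) := by ring
    refine Fin.addCases (fun i => ?_) (fun i => ?_) i
    · simp only [Pi.smul_apply, Fin.append_left, smul_eq_mul]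
      exact key _ (h1 i)
    · simp only [Pi.smul_apply, Fin.append_right, smul_eq_mul]
      exact key _ (h2 i)

/-- volume of the shrunken body -/
theorem shr_vol4 {d s n : ℕ} (hn : 600 ≤ n) (hnd : n = d + s) (K : Set (Fin (d + s) → ℝ)) :
    (volume K).toReal ≤ 4 * (volume (shr d s K (1 - 1 / (n : ℝ)))).toReal := by
  have hnr : (600 : ℝ) ≤ n := by exact_mod_cast hn
  have hc1 : 1 / (n : ℝ) ≤ 1 / 600 := one_div_le_one_div_of_le (by norm_num) hnr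
  have hcpos : 0 < 1 - 1 / (n : ℝ) := by linarith
  have h1 : (1 : ℝ) / 4 ≤ (1 - 1 / (n : ℝ)) ^ (d + s) := by rw [← hnd]; exact c_pow hn
  rw [shr_volume hcpos.le, ENNReal.toReal_mul, ENNReal.toReal_ofReal (by positivity)]
  have h2 : 0 ≤ (volume K).toReal := ENNReal.toReal_nonneg
  nlinarith

/-- lower bound for the volume of the shrunken body -/
theorem shr_vol_low {d s n : ℕ} (hn : 600 ≤ n) (hnd : n = d + s) {K : Set (Fin (d + s) → ℝ)}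
    (hk : IsCompact K)
    (hcube : ∀ x : Fin (d + s) → ℝ, (∀ i, 0 ≤ x i ∧ x i ≤ 1 / (n : ℝ)) → x ∈ K) :
    (1 : ℝ) / 4 * (1 / (n : ℝ)) ^ n ≤ (volume (shr d s K (1 - 1 / (n : ℝ)))).toReal := by
  have hnr : (600 : ℝ) ≤ n := by exact_mod_cast hn
  have hc1 : 1 / (n : ℝ) ≤ 1 / 600 := one_div_le_one_div_of_le (by norm_num) hnr
  have hcpos : 0 < 1 - 1 / (n : ℝ) := by linarith
  have h1 : ENNReal.ofReal ((1 / (n : ℝ)) ^ n) ≤ volume K := by
    have h2 : (Set.univ.pi fun _ : Fin (d + s) => Set.Icc (0 : ℝ) (1 / (n : ℝ))) ⊆ K := by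
      intro x hx
      exact hcube x fun i => hx i (Set.mem_univ i)
    refine le_trans (le_of_eq ?_) (measure_mono h2)
    rw [Set.pi_univ_Icc, Real.volume_Icc_pi]
    simp only [sub_zero, Finset.prod_const, Finset.card_univ, Fintype.card_fin]
    rw [← ENNReal.ofReal_pow (by positivity), hnd]
  have h2 : (1 / (n : ℝ)) ^ n ≤ (volume K).toReal := by
    rw [← ENNReal.ofReal_le_iff_le_toReal hk.measure_ne_top]
    exact h1
  have h3 : (1 : ℝ) / 4 ≤ (1 - 1 / (n : ℝ)) ^ (d + s) := by rw [← hnd]; exact c_pow hn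
  rw [shr_volume hcpos.le, ENNReal.toReal_mul, ENNReal.toReal_ofReal (by positivity)]
  gcongr


/-- numerical lower bound for the level -/
theorem tau_low {d k n : ℕ} (hn : 600 ≤ n) (hnd : n = d + k) (hk1 : 1 ≤ k) {τ V X : ℝ}
    (hτ : 0 < τ) (hX0 : 0 ≤ X) (hX : X ≤ 2 ^ k) (hV : V ≤ 20 * √k * τ * X)
    (hV1 : (1 : ℝ) / 4 * (1 / (n : ℝ)) ^ n ≤ V) : 1 / ((2 * (n : ℝ)) ^ n * 8 ^ k) ≤ τ := by
  have hnr : (600 : ℝ) ≤ n := by exact_mod_cast hn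
  have hn0 : (0 : ℝ) < n := by linarith
  have hk0 : (1 : ℝ) ≤ k := by exact_mod_cast hk1
  have hsq : √(k : ℝ) ≤ k := by
    rw [Real.sqrt_le_left (by linarith)]
    nlinarith
  have hk2 : (k : ℝ) ≤ 2 ^ k := by exact_mod_cast Nat.lt_two_pow_self.le
  have hsq0 : 0 ≤ √(k : ℝ) := Real.sqrt_nonneg _
  have h1 : (1 : ℝ) / 4 * (1 / (n : ℝ)) ^ n ≤ 20 * 4 ^ k * τ := by
    calc (1 : ℝ) / 4 * (1 / (n : ℝ)) ^ n ≤ V := hV1
      _ ≤ 20 * √k * τ * X := hV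
      _ ≤ 20 * 2 ^ k * τ * 2 ^ k := by
        have : √(k : ℝ) ≤ 2 ^ k := hsq.trans hk2
        gcongr
      _ = 20 * 4 ^ k * τ := by
        have : (4 : ℝ) ^ k = 2 ^ k * 2 ^ k := by rw [← mul_pow]; norm_num
        rw [this]; ring
  rw [div_le_iff₀ (by positivity)]
  have h2 : (2 * (n : ℝ)) ^ n * (1 / (n : ℝ)) ^ n = 2 ^ n := by
    rw [← mul_pow]; congr 1; field_simp
  have h3 : (80 : ℝ) ≤ 2 ^ n := by
    calc (80 : ℝ) ≤ 2 ^ 7 := by norm_num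
      _ ≤ 2 ^ n := pow_le_pow_right₀ (by norm_num) (by omega)
  have h4 : (4 : ℝ) ^ k ≤ 8 ^ k := by gcongr; norm_num
  have h5 : (2 * (n : ℝ)) ^ n * ((1 : ℝ) / 4 * (1 / (n : ℝ)) ^ n) ≤
      (2 * (n : ℝ)) ^ n * (20 * 4 ^ k * τ) := by gcongr
  have h6 : (2 * (n : ℝ)) ^ n * ((1 : ℝ) / 4 * (1 / (n : ℝ)) ^ n) = 1 / 4 * 2 ^ n := by
    rw [← h2]; ring
  rw [h6] at h5
  have h7 : (2 * (n : ℝ)) ^ n * (20 * 4 ^ k * τ) ≤ (2 * (n : ℝ)) ^ n * (20 * 8 ^ k * τ) := by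
    gcongr
  have h8 : τ * ((2 * (n : ℝ)) ^ n * 8 ^ k) = (2 * (n : ℝ)) ^ n * (20 * 8 ^ k * τ) / 20 := by ring
  rw [h8]
  linarith

end GLevelAux

open GLevelAux

/-- the class level applied to the level set of a body -/
theorem class_data : ∃ d₁ : ℕ, ∀ (d e s k n m q : ℕ) [Fact q.Prime], k = e + s → n = d + k →
    600 ≤ k → 3 * k ≤ n → d₁ ≤ e → 1 ≤ e → 1 ≤ d → 4 * s < e → (m : ℝ) ≤ e / 10 ^ 5 →
    300 * n ^ 8 < q →
    q ≤ 600 * n ^ 8 → 600 * (n : ℝ) ^ 8 ≤ 2 ^ e →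
    16 * (32 * (k : ℝ) ^ 2) ^ s ≤ Real.exp (e / 10 ^ 5) →
    4 * (32 * (k : ℝ) ^ 2) ^ s ≤ (n : ℝ) ^ 2 →
    (((n ^ 3 * (32 * k ^ 2) ^ (s + 1)) ^ s : ℕ) * (50 * ((n ^ 3 * (32 * k ^ 2) ^ (s + 1)) ^ s : ℕ) *
        Real.exp (-(e : ℝ) / 10 ^ 5))) ^ (2 ^ s) * (10 ^ 4 * 2 ^ e * (4 * (k : ℝ) ^ 2) ^ k) < 1 →
    ∀ K : Set (Fin (d + (e + s)) → ℝ), Convex ℝ K → IsCompact K →
    (∀ x : Fin (d + (e + s)) → ℝ, (∀ i, 0 ≤ x i ∧ x i ≤ 1 / (n : ℝ)) → x ∈ K) →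
    (∀ x ∈ K, ∀ i, |x i| ≤ 1) →
    ∃ (τ : ℝ) (T : Matrix (Fin (e + s)) (Fin (e + s)) ℝ) (v h : Fin (e + s) → ℝ) (G : Type)
      (_ : AddCommGroup G) (_ : Finite G) (ψ : (Fin (e + s) → ℤ) →+ G),
      0 < τ ∧ T.det ≠ 0 ∧ (∀ i j, |T i j| ≤ 2 * k) ∧ Function.Surjective ψ ∧
      (∀ i, 0 < h i ∧ h i ≤ 1 / (n : ℝ) ^ 3) ∧ Nat.card G ≤ q ^ e * (n ^ 3) ^ s ∧
      {y : Fin (e + s) → ℤ | ENNReal.ofReal τ ≤ volume {u : Fin d → ℝ |
        (u, fun i => h i * (y i : ℝ)) ∈ pull (shr d (e + s) K (1 - 1 / (n : ℝ))) T v}}.Finite ∧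
      ({y : Fin (e + s) → ℤ | ENNReal.ofReal τ ≤ volume {u : Fin d → ℝ |
        (u, fun i => h i * (y i : ℝ)) ∈ pull (shr d (e + s) K (1 - 1 / (n : ℝ))) T v}}.ncard : ℝ) ≤
        (n : ℝ) ^ (6 * k) ∧
      (∀ g, ∃ y : Fin m → Fin (e + s) → ℤ, (∀ j, ψ (y j) = g ∧ ENNReal.ofReal τ ≤
        volume {u : Fin d → ℝ | (u, fun i => h i * (y j i : ℝ)) ∈
          pull (shr d (e + s) K (1 - 1 / (n : ℝ))) T v}) ∧
        AffineIndependent (ZMod q) (fun j l => (y j l : ZMod q))) ∧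
      (volume K).toReal ≤ 4 * (20 * √k * τ * (|T.det| *
        (8 * 8 ^ s * (e / 10 ^ 4) * Nat.card G * ∏ i, h i))) ∧
      (∀ z, volume {u : Fin d → ℝ | (u, z) ∈ shr d (e + s) K (1 - 1 / (n : ℝ))} ≤
        ENNReal.ofReal (40 * √k * (8 * (n : ℝ) ^ 2) ^ k * τ)) ∧
      1 / ((2 * (n : ℝ)) ^ n * 8 ^ k) ≤ τ ∧ τ ≤ 2 ^ d := by
  obtain ⟨d₁, hmulti⟩ := multi
  refine ⟨d₁, ?_⟩
  intro d e s k n m q _ hk hn hk600 hkn hd1 he1 hdd hse hm hq1 hq2 hq2e hRexp h32 hfin K hc hcpt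
    hcube hbox
  have hn600 : 600 ≤ n := by omega
  have hnr : (600 : ℝ) ≤ n := by exact_mod_cast hn600
  have hn0 : (0 : ℝ) < n := by linarith
  have hk1 : 1 ≤ e + s := by omega
  have hkc : ((e + s : ℕ) : ℝ) = k := by rw [hk]
  have hnds : n = d + (e + s) := by omega
  obtain ⟨hSbox, hScube⟩ := shr_box (d := d) (s := e + s) hn600 hcube hbox
  obtain ⟨S, hS⟩ : ∃ S : Set ((Fin d → ℝ) × (Fin (e + s) → ℝ)),
      S = shr d (e + s) K (1 - 1 / (n : ℝ)) := ⟨_, rfl⟩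
  have hSc : Convex ℝ S := by rw [hS]; exact shr_convex hc _
  have hSk : IsCompact S := by rw [hS]; exact shr_compact hcpt _
  have hV4 := shr_vol4 hn600 hnds K
  have hVlow := shr_vol_low hn600 hnds hcpt hcube
  rw [← hS] at hSbox hScube hV4 hVlow ⊢
  obtain ⟨τ, hτ, hBc, hBk, hBi, hBbox, hBvol, hBvol2, hsl, hτup⟩ :=
    level_set hdd hk1 hSc hSk hSbox (a := 1 / (4 * n)) (by positivity)
      ((fun _ => (1 - 1 / (n : ℝ)) / (2 * n)), (fun _ => (1 - 1 / (n : ℝ)) / (2 * n))) hScube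
  obtain ⟨B, hB⟩ : ∃ B : Set (Fin (e + s) → ℝ), B = {z | ENNReal.ofReal τ ≤
      volume {u : Fin d → ℝ | (u, z) ∈ S}} := ⟨_, rfl⟩
  have hBm : ∀ z, z ∈ B ↔ ENNReal.ofReal τ ≤ volume {u : Fin d → ℝ | (u, z) ∈ S} := by
    intro z; rw [hB]; rfl
  rw [← hB] at hBc hBk hBi hBvol hBvol2
  rw [hkc] at hBvol
  obtain ⟨T, v, hT, hT1, hT2⟩ := normalise hk1 hBc hBk hBi
  have hB₀c := aff_convex hBc T v
  have hB₀k := aff_compact hBk hT v
  have hent := norm_entries hk1 hT1 (fun z hz => hBbox z ((hBm z).1 hz))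
  rw [hkc] at hent
  have hT1' : ∀ x : Fin (e + s) → ℝ, (∀ i, 0 ≤ x i ∧ x i ≤ 1 / (k : ℝ)) →
      x ∈ {x : Fin (e + s) → ℝ | T.mulVec x + v ∈ B} := by
    intro x hx
    refine hT1 x ?_
    rw [hkc]; exact hx
  obtain ⟨h, G, iG, fG, ψ, hψ, hh1, hh2, hGc, hvol, hcls⟩ := hmulti e s k n m q hk hk600 hkn hd1 he1
    hse hm hq1 hq2 hq2e hRexp h32 hfin {x | T.mulVec x + v ∈ B} hB₀c hB₀k hT1' (fun x hx => hT2 x hx)
  have hpull : ∀ y : Fin (e + s) → ℤ, (ENNReal.ofReal τ ≤ volume {u : Fin d → ℝ |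
      (u, fun i => h i * (y i : ℝ)) ∈ pull S T v}) ↔
      T.mulVec (fun i => h i * (y i : ℝ)) + v ∈ B := by
    intro y
    rw [hBm]
    exact Iff.rfl
  have hcnt := count_box (n := n) (k := e + s) (by omega) hh2
    (Y := {y : Fin (e + s) → ℤ | ENNReal.ofReal τ ≤ volume {u : Fin d → ℝ |
        (u, fun i => h i * (y i : ℝ)) ∈ pull S T v}}) (by
      intro y hy i
      exact hT2 _ ((hpull y).1 hy) i)
  refine ⟨τ, T, v, h, G, iG, fG, ψ, hτ, hT, hent, hψ, hh1, hGc, hcnt.1,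
    by rw [hk]; exact hcnt.2, ?_, ?_, ?_, ?_, hτup⟩
  · intro g
    obtain ⟨y, hy1, hy2⟩ := hcls g
    exact ⟨y, fun j => ⟨(hy1 j).1, (hpull (y j)).2 (hy1 j).2⟩, hy2⟩
  · have h1 := vol_affine (K := B) hT v
    rw [h1] at hBvol
    have h2 : 0 ≤ |T.det| := abs_nonneg _
    calc (volume K).toReal ≤ 4 * (volume S).toReal := hV4
      _ ≤ 4 * (20 * √k * τ * (|T.det| * (volume {x | T.mulVec x + v ∈ B}).toReal)) := by gcongr
      _ ≤ _ := by gcongr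
  · intro z
    refine (hsl z).trans (ENNReal.ofReal_le_ofReal ?_)
    rw [hkc, ← hk]
    have e1 : 2 * (d : ℝ) / (1 / (4 * n)) = 8 * n * d := by field_simp; ring
    have e2 : (d : ℝ) ≤ n := by
      have : d ≤ n := by omega
      exact_mod_cast this
    rw [e1]
    have e3 : 8 * (n : ℝ) * d ≤ 8 * (n : ℝ) ^ 2 := by nlinarith
    gcongr
  · exact tau_low hn600 hn (by omega) hτ ENNReal.toReal_nonneg (by rw [hk]; exact hBvol2) hBvol
      hVlow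

end Vale.Agent.P230
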