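import Vale.Agent.P230.GLevel

open MeasureTheory Set
open scoped ENNReal NNReal Pointwise

namespace Vale.Agent.P230

open CoreAux GeomAux

namespace GLevelAux

/-- transfer of a lattice covering under an affine change of variables -/
theorem transfer {n : ℕ} {K : Set (Fin n → ℝ)} {T M : Matrix (Fin n) (Fin n) ℝ} (hT : T.det ≠ 0)
    (v : Fin n → ℝ) (h : ∀ y, ∃ k ∈ {x : Fin n → ℝ | T.mulVec x + v ∈ K}, ∃ z : Fin n → ℤ,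
      y = k + M.mulVec (fun i => (z i : ℝ))) :
    ∀ y, ∃ k ∈ K, ∃ z : Fin n → ℤ, y = k + (T * M).mulVec (fun i => (z i : ℝ)) := by
  have hTu : IsUnit T.det := isUnit_iff_ne_zero.2 hT
  intro y
  obtain ⟨k, hk, z, hz⟩ := h (T⁻¹.mulVec (y - v))
  refine ⟨T.mulVec k + v, hk, z, ?_⟩
  have h4 : y - v = T.mulVec (T⁻¹.mulVec (y - v)) := by
    rw [Matrix.mulVec_mulVec, Matrix.mul_nonsing_inv _ hTu, Matrix.one_mulVec]
  rw [hz, Matrix.mulVec_add, Matrix.mulVec_mulVec] at h4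
  have : y = (y - v) + v := by abel
  rw [this, h4]
  abel

/-- the image of a small cell under the normalising matrix is small -/
theorem small_cell {k n : ℕ} {T : Matrix (Fin k) (Fin k) ℝ} {c : Fin k → ℝ} {B : ℝ}
    (hn0 : (0 : ℝ) < n) (hkB : (k : ℝ) ≤ B) (hT : ∀ i j, |T i j| ≤ 2 * B)
    (hc : ∀ i, 0 ≤ c i ∧ c i ≤ 1 / (n : ℝ) ^ 3) (hn : 8 * B ^ 2 ≤ n) (i : Fin k) :
    |T.mulVec c i| ≤ 1 / (4 * (n : ℝ) ^ 2) := by
  have hk0 : (0 : ℝ) ≤ k := Nat.cast_nonneg _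
  have h1 : |T.mulVec c i| ≤ ∑ j, |T i j| * |c j| := by
    unfold Matrix.mulVec dotProduct
    refine (Finset.abs_sum_le_sum_abs _ _).trans (le_of_eq ?_)
    refine Finset.sum_congr rfl fun j _ => abs_mul _ _
  have h2 : ∑ j, |T i j| * |c j| ≤ ∑ _j : Fin k, 2 * B * (1 / (n : ℝ) ^ 3) := by
    refine Finset.sum_le_sum fun j _ => ?_
    have := hc j
    rw [abs_of_nonneg this.1]
    have h3 := hT i j
    have h4 : 0 ≤ |T i j| := abs_nonneg _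
    exact mul_le_mul h3 this.2 this.1 (by linarith)
  rw [Finset.sum_const, Finset.card_univ, Fintype.card_fin, nsmul_eq_mul] at h2
  refine h1.trans (h2.trans ?_)
  have hB0 : 0 ≤ B := hk0.trans hkB
  have h5 : (k : ℝ) * (2 * B * (1 / (n : ℝ) ^ 3)) ≤ B * (2 * B * (1 / (n : ℝ) ^ 3)) := by
    gcongr
  refine h5.trans ?_
  have h6 : B * (2 * B * (1 / (n : ℝ) ^ 3)) = 2 * B ^ 2 / (n : ℝ) ^ 3 := by ring
  rw [h6, div_le_div_iff₀ (by positivity) (by positivity)]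
  have h7 : 2 * B ^ 2 * (4 * (n : ℝ) ^ 2) = (8 * B ^ 2) * (n : ℝ) ^ 2 := by ring
  rw [h7]
  calc (8 * B ^ 2) * (n : ℝ) ^ 2 ≤ n * (n : ℝ) ^ 2 := by gcongr
    _ = 1 * (n : ℝ) ^ 3 := by ring

/-- numerical facts for the top level -/
theorem num_c {d n q : ℕ} {H : ℝ} (hn600 : 600 ≤ n) (hdn : d ≤ n)
    (hq1 : 300 * n ^ 8 < q) (hH1 : 2 * (n : ℝ) ^ 4 ≤ H) (hH2 : H ≤ 4 * (n : ℝ) ^ 4) :
    0 < H ∧ 1 ≤ H * (1 / (2 * (n : ℝ) ^ 2)) ∧ (d : ℝ) ^ 2 ≤ H * (1 / (2 * (n : ℝ) ^ 2)) ∧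
    d < 2 * ⌈H⌉₊ ∧ 3 * (2 * ⌈H⌉₊) ^ 2 < q ∧ 1 / H ≤ 1 / (4 * (n : ℝ) ^ 2) ∧
    0 < 1 / (4 * (n : ℝ) ^ 2) ∧
    1 / (4 * (n : ℝ) ^ 2) + 1 / (4 * (n : ℝ) ^ 2) + 1 / (2 * (n : ℝ) ^ 2) = 1 / (n : ℝ) ^ 2 := by
  have hnr : (600 : ℝ) ≤ n := by exact_mod_cast hn600
  have hn1 : (1 : ℝ) ≤ n := by linarith
  have hdnr : (d : ℝ) ≤ n := by exact_mod_cast hdn
  have hn4 : (1 : ℝ) ≤ (n : ℝ) ^ 4 := one_le_pow₀ hn1
  have hHpos : 0 < H := by linarith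
  have hceil : ⌈H⌉₊ ≤ 4 * n ^ 4 := by
    rw [Nat.ceil_le]; push_cast; exact hH2
  have hn2 : (1 : ℝ) ≤ (n : ℝ) ^ 2 := one_le_pow₀ hn1
  have hHw : (n : ℝ) ^ 2 ≤ H * (1 / (2 * (n : ℝ) ^ 2)) := by
    have : (2 * (n : ℝ) ^ 4) * (1 / (2 * (n : ℝ) ^ 2)) ≤ H * (1 / (2 * (n : ℝ) ^ 2)) := by gcongr
    refine le_trans (le_of_eq ?_) this
    field_simp
  refine ⟨hHpos, by linarith, ?_, ?_, ?_, ?_, by positivity, ?_⟩
  · have : (d : ℝ) ^ 2 ≤ (n : ℝ) ^ 2 := by gcongr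
    linarith
  · have h1 : (d : ℝ) < 2 * (⌈H⌉₊ : ℝ) := by
      have h2 : H ≤ ⌈H⌉₊ := Nat.le_ceil H
      have h3 : (n : ℝ) ≤ (n : ℝ) ^ 4 := by
        calc (n : ℝ) = (n : ℝ) ^ 1 := (pow_one _).symm
          _ ≤ (n : ℝ) ^ 4 := pow_le_pow_right₀ hn1 (by norm_num)
      linarith
    exact_mod_cast h1
  · calc 3 * (2 * ⌈H⌉₊) ^ 2 ≤ 3 * (2 * (4 * n ^ 4)) ^ 2 := by gcongr
      _ = 192 * n ^ 8 := by ring
      _ ≤ 300 * n ^ 8 := by gcongr; norm_num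
      _ < q := hq1
  · refine one_div_le_one_div_of_le (by positivity) ?_
    have h1 : (600 : ℝ) ^ 2 ≤ (n : ℝ) ^ 2 := by gcongr
    have h2 : (n : ℝ) ^ 4 = (n : ℝ) ^ 2 * (n : ℝ) ^ 2 := by ring
    have : 4 * (n : ℝ) ^ 2 ≤ (n : ℝ) ^ 4 := by rw [h2]; gcongr; linarith
    linarith
  · field_simp
    norm_num

theorem alg1 {d s' : ℕ} {H τ q P G : ℝ} (hHτ : H ^ d * τ = d / 10 ^ 4 * q ^ s') (hH : 0 < H)
    (hd : (0 : ℝ) < d) : q ^ s' * G / H ^ d * P = 10 ^ 4 * τ / d * (G * P) := by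
  have h1 : q ^ s' = H ^ d * τ * 10 ^ 4 / d := by
    rw [hHτ]; field_simp
  have h2 : 0 < H ^ d := by positivity
  rw [h1]
  field_simp

theorem alg2 {d s : ℕ} {k e t τ P G : ℝ} (hd : (0 : ℝ) < d) :
    4 * (20 * k * τ * (t * (8 * 8 ^ s * (e / 10 ^ 4) * G * P))) =
      640 / 10 ^ 8 * k * 8 ^ s * e * d * (t * (10 ^ 4 * τ / d * (G * P))) := by
  field_simp
  ring

end GLevelAux

open GLevelAux

/-- the top level, as a covering statement for the pulled back body -/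
theorem gcover : ∃ d₁ : ℕ, ∀ (d k n m q : ℕ) [Fact q.Prime], n = d + k →
    600 ≤ k → 8 * k ^ 2 ≤ n → d₁ ≤ d → 4 * k ≤ d →
    300 * n ^ 8 < q → q ≤ 600 * n ^ 8 →
    600 * (n : ℝ) ^ 8 ≤ 2 ^ d → 600 * (n : ℝ) ^ 8 ≤ (d : ℝ) ^ 20 →
    160 * √k * (8 * (n : ℝ) ^ 2) ^ k ≤ Real.exp (d / 10 ^ 5) →
    ∀ K : Set (Fin (d + k) → ℝ), Convex ℝ K → IsCompact K →
    (∀ x : Fin (d + k) → ℝ, (∀ i, 0 ≤ x i ∧ x i ≤ 1 / (n : ℝ)) → x ∈ K) →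
    (∀ x ∈ K, ∀ i, |x i| ≤ 1) → 
    ∀ (τ : ℝ) (T : Matrix (Fin k) (Fin k) ℝ) (v h : Fin k → ℝ) (G₂ : Type)
      [AddCommGroup G₂] [Finite G₂] (ψ₂ : (Fin k → ℤ) →+ G₂),
      0 < τ → T.det ≠ 0 → (∀ i j, |T i j| ≤ 2 * k) → Function.Surjective ψ₂ →
      (∀ i, 0 < h i ∧ h i ≤ 1 / (n : ℝ) ^ 3) →
      {y : Fin k → ℤ | ENNReal.ofReal τ ≤ volume {u : Fin d → ℝ |
        (u, fun i => h i * (y i : ℝ)) ∈ pull (shr d k K (1 - 1 / (n : ℝ))) T v}}.Finite →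
      ({y : Fin k → ℤ | ENNReal.ofReal τ ≤ volume {u : Fin d → ℝ |
        (u, fun i => h i * (y i : ℝ)) ∈ pull (shr d k K (1 - 1 / (n : ℝ))) T v}}.ncard : ℝ) ≤
        (n : ℝ) ^ (6 * k) →
      (∀ g, ∃ y : Fin m → Fin k → ℤ, (∀ j, ψ₂ (y j) = g ∧ ENNReal.ofReal τ ≤
        volume {u : Fin d → ℝ | (u, fun i => h i * (y j i : ℝ)) ∈
          pull (shr d k K (1 - 1 / (n : ℝ))) T v}) ∧
        AffineIndependent (ZMod q) (fun j l => (y j l : ZMod q))) →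
      (∀ z, volume {u : Fin d → ℝ | (u, z) ∈ shr d k K (1 - 1 / (n : ℝ))} ≤
        ENNReal.ofReal (40 * √k * (8 * (n : ℝ) ^ 2) ^ k * τ)) →
      1 / ((2 * (n : ℝ)) ^ n * 8 ^ k) ≤ τ → τ ≤ 2 ^ d →
      (∀ s' ≤ d, Nat.card G₂ * (q : ℝ) ^ s' *
        (8 * (n : ℝ) ^ (6 * k) * Real.exp (-(d : ℝ) / 10 ^ 4)) ^ m < 1) →
    ∃ (H : ℝ) (s' : ℕ) (G : Type) (_ : AddCommGroup G) (_ : Finite G)
      (ψ : (Fin d → ℤ) × (Fin k → ℤ) →+ G),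
      0 < H ∧ H ^ d * τ = d / 10 ^ 4 * (q : ℝ) ^ s' ∧
      1 / H ≤ 1 / (4 * (n : ℝ) ^ 2) ∧ Function.Surjective ψ ∧
      Nat.card G = q ^ s' * Nat.card G₂ ∧
      ∀ g, ∃ (x : Fin d → ℤ) (z : Fin k → ℤ),
        ((fun i => (x i : ℝ) / H), (fun i => h i * (z i : ℝ))) ∈
          thick (pull (shr d k K (1 - 1 / (n : ℝ))) T v) (1 / (2 * (n : ℝ) ^ 2)) ∧
        ψ (x, z) = g := by
  obtain ⟨d₀, hg⟩ := g_core
  refine ⟨d₀, ?_⟩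
  intro d k n m q _ hn hk600 hkn hd0 hkd hq1 hq2' hq2d' hqd20 hR2 K hc hcpt hcube hbox
    τ T v h G₂ _ _ ψ₂ hτ hT hent hψ₂ hh hYfin hYcard hcls hsl hτlow hτup hlt
  have hn600 : 600 ≤ n := by omega
  have hnr : (600 : ℝ) ≤ n := by exact_mod_cast hn600
  have hn1 : (1 : ℝ) ≤ n := by linarith
  have hn0 : (0 : ℝ) < n := by linarith
  have hdn : d ≤ n := by omega
  have hq2r : (q : ℝ) ≤ 600 * (n : ℝ) ^ 8 := by exact_mod_cast hq2'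
  obtain ⟨s', H, hH1, hH2, hHτ, hs'1, hs'2⟩ :=
    scale hn hn600 hkd hq1 hq2' (hq2r.trans hq2d') hτlow hτup
  obtain ⟨hHpos, b1, b2, b3, b4, b5, b6, b7⟩ := num_c hn600 hdn hq1 hH1 hH2
  have hw2 : 1 / (2 * (n : ℝ) ^ 2) ≤ 1 / (n : ℝ) ^ 2 := by linarith
  have hboxT : ∀ p ∈ thick (pull (shr d k K (1 - 1 / (n : ℝ))) T v) (1 / (2 * (n : ℝ) ^ 2)),
      ∀ i, |p.1 i| ≤ 1 := by
    intro p hp i
    rw [thick_pull] at hp
    have h1 := thick_sub (n := n) (by omega) hc hcube hp (c := (0, 0))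
      (fun i => ⟨le_refl _, by simp only [Pi.zero_apply]; linarith⟩)
      (fun i => ⟨le_refl _, by simp⟩)
    simp only [add_zero] at h1
    have := hbox _ h1 (Fin.castAdd k i)
    rwa [Fin.append_left] at this
  have hthick : ∀ z, volume {u : Fin d → ℝ | (u, z) ∈
      thick (pull (shr d k K (1 - 1 / (n : ℝ))) T v) (1 / (2 * (n : ℝ) ^ 2))} ≤
      ENNReal.ofReal (160 * √k * (8 * (n : ℝ) ^ 2) ^ k * τ) := by
    intro z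
    have h1 := slice_thick hn600 hn hc hcube (V := 40 * √k * (8 * (n : ℝ) ^ 2) ^ k * τ) hsl
      (w₀ := 1 / (2 * (n : ℝ) ^ 2)) hw2 (T.mulVec z + v)
    refine h1.trans (le_of_eq ?_)
    congr 1; ring
  have hR1 : 1 ≤ 160 * √(k : ℝ) * (8 * (n : ℝ) ^ 2) ^ k := by
    have h1 : (1 : ℝ) ≤ √k := by
      rw [Real.one_le_sqrt]
      have : (600 : ℝ) ≤ k := by exact_mod_cast hk600
      linarith
    have h2 : (1 : ℝ) ≤ (8 * (n : ℝ) ^ 2) ^ k := one_le_pow₀ (by nlinarith)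
    nlinarith
  obtain ⟨G, jG, gG, ψ, hψ, hcard, hcov⟩ := hg d k q s' m H τ (1 / (2 * (n : ℝ) ^ 2))
    (160 * √k * (8 * (n : ℝ) ^ 2) ^ k) ((n : ℝ) ^ (6 * k)) h
    (pull (shr d k K (1 - 1 / (n : ℝ))) T v) G₂ ψ₂ hd0 (pull_convex (shr_convex hc _) T v)
    (pull_compact (shr_compact hcpt _) hT v) hboxT hτ hthick hHpos b1 b2 hHτ b3 b4
    (hq2r.trans hqd20) hs'1 hs'2 hR1 hR2 hψ₂ hYfin hYcard hcls (hlt s' hs'2.le)
  exact ⟨H, s', G, jG, gG, ψ, hHpos, hHτ, b5, hψ, hcard, hcov⟩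

/-- from the group covering to a lattice covering of the body -/
theorem glattice {d k n : ℕ} (hn : n = d + k) (hk600 : 600 ≤ k) (hkn : 8 * k ^ 2 ≤ n)
    {K : Set (Fin (d + k) → ℝ)} (hc : Convex ℝ K)
    (hcube : ∀ x : Fin (d + k) → ℝ, (∀ i, 0 ≤ x i ∧ x i ≤ 1 / (n : ℝ)) → x ∈ K)
    {T : Matrix (Fin k) (Fin k) ℝ} {v h : Fin k → ℝ} (hT : T.det ≠ 0)
    (hent : ∀ i j, |T i j| ≤ 2 * k) (hh : ∀ i, 0 < h i ∧ h i ≤ 1 / (n : ℝ) ^ 3)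
    {G : Type} [AddCommGroup G] [Finite G] {ψ : (Fin d → ℤ) × (Fin k → ℤ) →+ G} {H : ℝ}
    (hH : 0 < H) (hH2 : 1 / H ≤ 1 / (4 * (n : ℝ) ^ 2)) (hψ : Function.Surjective ψ)
    (hcov : ∀ g, ∃ (x : Fin d → ℤ) (z : Fin k → ℤ),
        ((fun i => (x i : ℝ) / H), (fun i => h i * (z i : ℝ))) ∈
          thick (pull (shr d k K (1 - 1 / (n : ℝ))) T v) (1 / (2 * (n : ℝ) ^ 2)) ∧
        ψ (x, z) = g) :
    ∃ M : Matrix (Fin (d + k)) (Fin (d + k)) ℝ, M.det ≠ 0 ∧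
      (∀ y, ∃ p ∈ K, ∃ z : Fin (d + k) → ℤ, y = p + M.mulVec (fun i => (z i : ℝ))) ∧
      |M.det| = |T.det| * ((Nat.card G : ℝ) / H ^ d * ∏ i, h i) := by
  have hn600 : 600 ≤ n := by omega
  have hnr : (600 : ℝ) ≤ n := by exact_mod_cast hn600
  have hn0 : (0 : ℝ) < n := by linarith
  have b6 : 0 < 1 / (4 * (n : ℝ) ^ 2) := by positivity
  have b7 : 1 / (4 * (n : ℝ) ^ 2) + 1 / (4 * (n : ℝ) ^ 2) + 1 / (2 * (n : ℝ) ^ 2) =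
      1 / (n : ℝ) ^ 2 := by
    field_simp
    norm_num
  have b8 : 0 < 1 / (2 * (n : ℝ) ^ 2) := by positivity
  have hTblk : (blk d k T).det ≠ 0 := by rw [blk_det]; exact hT
  obtain ⟨M, hdet, hMcov⟩ := real_lattice ψ hψ hH (h := h) (fun i => (hh i).1) _ hcov
    {x | (blk d k T).mulVec x + Fin.append (fun _ => 1 / (4 * (n : ℝ) ^ 2))
      (v + fun _ => 1 / (4 * (n : ℝ) ^ 2)) ∈ K} (by
      intro p hp c hc1 hc2
      rw [thick_pull] at hp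
      have h1 : (blk d k T).mulVec (Fin.append (p.1 + c.1) (p.2 + c.2)) +
          Fin.append (fun _ => 1 / (4 * (n : ℝ) ^ 2)) (v + fun _ => 1 / (4 * (n : ℝ) ^ 2)) =
          Fin.append (p.1 + (c.1 + fun _ => 1 / (4 * (n : ℝ) ^ 2)))
            ((T.mulVec p.2 + v) + (T.mulVec c.2 + fun _ => 1 / (4 * (n : ℝ) ^ 2))) := by
        rw [blk_mulVec]
        ext i
        refine Fin.addCases (fun i => ?_) (fun i => ?_) i
        · simp only [Pi.add_apply, Fin.append_left]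
          ring
        · simp only [Pi.add_apply, Fin.append_right, Matrix.mulVec_add]
          ring
      change (blk d k T).mulVec (Fin.append (p.1 + c.1) (p.2 + c.2)) +
          Fin.append (fun _ => 1 / (4 * (n : ℝ) ^ 2)) (v + fun _ => 1 / (4 * (n : ℝ) ^ 2)) ∈ K
      rw [h1]
      refine thick_sub (n := n) (by omega) hc hcube hp
        (c := (c.1 + fun _ => 1 / (4 * (n : ℝ) ^ 2), T.mulVec c.2 + fun _ => 1 / (4 * (n : ℝ) ^ 2)))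
        (fun i => ?_) (fun i => ?_)
      · have := hc1 i
        simp only [Pi.add_apply]
        constructor <;> linarith [this.1, this.2]
      · have h2 := small_cell (n := n) (B := k) hn0 le_rfl hent
          (fun i => ⟨(hc2 i).1, (hc2 i).2.trans (hh i).2⟩) (by exact_mod_cast hkn) i
        rw [abs_le] at h2
        simp only [Pi.add_apply]
        constructor <;> linarith [h2.1, h2.2])
  have hprodpos : 0 < ∏ i, h i := Finset.prod_pos fun i _ => (hh i).1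
  have hGpos : (0 : ℝ) < Nat.card G := by exact_mod_cast Nat.card_pos
  refine ⟨blk d k T * M, ?_, transfer hTblk _ hMcov, ?_⟩
  · rw [Matrix.det_mul]
    refine mul_ne_zero hTblk fun h0 => ?_
    rw [h0, abs_zero] at hdet
    have : 0 < (Nat.card G : ℝ) / H ^ d * ∏ i, h i := by positivity
    linarith
  · rw [Matrix.det_mul, blk_det, abs_mul, hdet]

theorem glevel : ∃ d₁ : ℕ, ∀ (d e s k n m : ℕ), k = e + s → n = d + k →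
    600 ≤ k → 8 * k ^ 2 ≤ n → d₁ ≤ e → 1 ≤ e → 4 * s < e → 4 * k ≤ d → (m : ℝ) ≤ e / 10 ^ 5 →
    600 * (n : ℝ) ^ 8 ≤ 2 ^ e → 600 * (n : ℝ) ^ 8 ≤ (d : ℝ) ^ 20 →
    16 * (32 * (k : ℝ) ^ 2) ^ s ≤ Real.exp (e / 10 ^ 5) →
    4 * (32 * (k : ℝ) ^ 2) ^ s ≤ (n : ℝ) ^ 2 →
    (((n ^ 3 * (32 * k ^ 2) ^ (s + 1)) ^ s : ℕ) * (50 * ((n ^ 3 * (32 * k ^ 2) ^ (s + 1)) ^ s : ℕ) *
        Real.exp (-(e : ℝ) / 10 ^ 5))) ^ (2 ^ s) * (10 ^ 4 * 2 ^ e * (4 * (k : ℝ) ^ 2) ^ k) < 1 →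
    160 * √k * (8 * (n : ℝ) ^ 2) ^ k ≤ Real.exp (d / 10 ^ 5) →
    (∀ q s' : ℕ, (q : ℝ) ≤ 600 * (n : ℝ) ^ 8 → 1 ≤ q → s' ≤ d →
      (q : ℝ) ^ e * ((n : ℝ) ^ 3) ^ s * (q : ℝ) ^ s' *
        (8 * (n : ℝ) ^ (6 * k) * Real.exp (-(d : ℝ) / 10 ^ 4)) ^ m < 1) →
    ∀ K : Set (Fin (d + (e + s)) → ℝ), Convex ℝ K → IsCompact K →
    (∀ x : Fin (d + (e + s)) → ℝ, (∀ i, 0 ≤ x i ∧ x i ≤ 1 / (n : ℝ)) → x ∈ K) →
    (∀ x ∈ K, ∀ i, |x i| ≤ 1) →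
    ∃ M : Matrix (Fin (d + (e + s))) (Fin (d + (e + s))) ℝ, M.det ≠ 0 ∧
      (∀ y, ∃ k ∈ K, ∃ z : Fin (d + (e + s)) → ℤ, y = k + M.mulVec (fun i => (z i : ℝ))) ∧
      (volume K).toReal ≤ 640 / 10 ^ 8 * √k * 8 ^ s * e * d * |M.det| := by
  obtain ⟨d₁, hclass⟩ := class_data
  obtain ⟨d₀, hg⟩ := gcover
  refine ⟨max d₁ d₀, ?_⟩
  intro d e s k n m hk hn hk600 hkn hde he1 hse hkd hm hqe hqd20 hRexp h32 hfin hR2 hlt K hc hcpt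
    hcube hbox
  have hn600 : 600 ≤ n := by omega
  have h3k : 3 * k ≤ n := by
    have : 3 * k ≤ 8 * k ^ 2 := by nlinarith
    omega
  have hd0 : d₀ ≤ d := by
    have := le_max_right d₁ d₀
    omega
  have hd1e : d₁ ≤ e := le_trans (le_max_left _ _) hde
  have hkc : ((e + s : ℕ) : ℝ) = k := by rw [hk]
  -- the prime
  obtain ⟨q, hqp, hq1, hq2⟩ := Nat.exists_prime_lt_and_le_two_mul (300 * n ^ 8) (by positivity)
  have hqf : Fact q.Prime := ⟨hqp⟩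
  have hq2' : q ≤ 600 * n ^ 8 := by
    calc q ≤ 2 * (300 * n ^ 8) := hq2
      _ = 600 * n ^ 8 := by ring
  have hq2r : (q : ℝ) ≤ 600 * (n : ℝ) ^ 8 := by exact_mod_cast hq2'
  obtain ⟨τ, T, v, h, G₂, iG, fG, ψ₂, hτ, hT, hent, hψ₂, hh, hGc, hYfin, hYcard, hcls, hvol, hsl,
    hτlow, hτup⟩ := hclass d e s k n m q hk hn hk600 h3k hd1e he1 (by omega) hse hm hq1 hq2' hqe
      hRexp h32 hfin K hc hcpt hcube hbox
  have hqd : 600 * (n : ℝ) ^ 8 ≤ 2 ^ d := by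
    refine hqe.trans ?_
    exact pow_le_pow_right₀ (by norm_num) (by omega)
  have hlt' : ∀ s' ≤ d, (Nat.card G₂ : ℝ) * (q : ℝ) ^ s' *
      (8 * (n : ℝ) ^ (6 * k) * Real.exp (-(d : ℝ) / 10 ^ 4)) ^ m < 1 := by
    intro s' hs'
    refine lt_of_le_of_lt ?_ (hlt q s' hq2r hqp.one_lt.le hs')
    have h1 : (Nat.card G₂ : ℝ) ≤ (q : ℝ) ^ e * ((n : ℝ) ^ 3) ^ s := by exact_mod_cast hGc
    gcongr
  obtain ⟨H, s', G, jG, gG, ψ, hH, hHτ, hH2, hψ, hcard, hcov⟩ := hg d (e + s) n m q (by omega)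
    (by omega) (by rw [← hk]; exact hkn) hd0 (by omega) hq1 hq2' hqd hqd20
    (by rw [hkc, ← hk]; exact hR2) K hc hcpt hcube hbox τ T v h G₂ ψ₂ hτ hT
    (by rw [hkc]; exact hent) hψ₂ hh hYfin (hYcard.trans_eq (by rw [hk])) hcls
    (fun z => (hsl z).trans_eq (by rw [hk])) (by rw [← hk]; exact hτlow) hτup
    (by rw [← hk]; exact hlt')
  obtain ⟨M, hM, hMcov, hMdet⟩ := glattice (by omega) (by omega) (by rw [← hk]; exact hkn) hc hcube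
    hT (by rw [hkc]; exact hent) hh hH hH2 hψ hcov
  refine ⟨M, hM, hMcov, ?_⟩
  have hdr : (0 : ℝ) < d := by
    have : 0 < d := by omega
    exact_mod_cast this
  rw [hMdet, hcard]
  push_cast
  rw [alg1 hHτ hH hdr, ← alg2 hdr]
  exact hvol

end Vale.Agent.P230
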