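import Vale.Agent.P230.Params
import Vale.Agent.P230.VolAppend
import Vale.Agent.P230.Core
import Vale.Agent.P230.RealLattice
import Vale.Agent.P230.Scale
import Vale.Agent.P230.Geom

open MeasureTheory Set
open scoped ENNReal Pointwise

namespace Vale.Agent.P230

open CoreAux GeomAux

/-- the numerical bound on the number of layers -/
theorem layers_num {n s : ℕ} (hn : 600 ≤ n) :
    (2 * ((2 * n ^ 2 : ℕ) : ℝ) / (1 / (4 * (32 * (n : ℝ) ^ 2) ^ s)) + 3) ^ s ≤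
      (((32 * n ^ 2) ^ (s * (s + 1)) : ℕ) : ℝ) := by
  have hnr : (600 : ℝ) ≤ n := by exact_mod_cast hn
  push_cast
  have h1 : (32 * (n : ℝ) ^ 2) ^ (s * (s + 1)) = ((32 * (n : ℝ) ^ 2) ^ (s + 1)) ^ s := by
    rw [← pow_mul, mul_comm s (s + 1)]
  rw [h1]
  refine pow_le_pow_left₀ (by positivity) ?_ s
  have h2 : 1 ≤ (32 * (n : ℝ) ^ 2) ^ s := one_le_pow₀ (by nlinarith)
  have h3 : 2 * (2 * (n : ℝ) ^ 2) / (1 / (4 * (32 * (n : ℝ) ^ 2) ^ s)) =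
      16 * (n : ℝ) ^ 2 * (32 * (n : ℝ) ^ 2) ^ s := by
    field_simp; ring
  have h5 : (32 * (n : ℝ) ^ 2) ^ (s + 1) = (32 * (n : ℝ) ^ 2) ^ s * (32 * (n : ℝ) ^ 2) :=
    pow_succ _ _
  rw [h3, h5]
  have h4 : (3 : ℝ) ≤ 16 * (n : ℝ) ^ 2 := by nlinarith
  generalize (32 * (n : ℝ) ^ 2) ^ s = X at *
  nlinarith

theorem large_aux : ∃ d₁ : ℕ, ∀ (d s n : ℕ), n = d + s → 600 ≤ n → d₁ ≤ d → 1 ≤ d → 4 * s ≤ d →
    (2 : ℝ) ^ s ≤ 2 * 10 ^ 6 * Real.log n →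
    600 * (n : ℝ) ^ 8 ≤ 2 ^ d → 600 * (n : ℝ) ^ 8 ≤ (d : ℝ) ^ 20 →
    16 * (32 * (n : ℝ) ^ 2) ^ s ≤ Real.exp (d / 10 ^ 5) →
    (∀ (q s' : ℕ), (q : ℝ) ≤ 600 * (n : ℝ) ^ 8 → s' ≤ d →
      (((32 * n ^ 2) ^ (s * (s + 1)) : ℕ) * (8 * ((32 * n ^ 2) ^ (s * (s + 1)) : ℕ) *
        Real.exp (-(d : ℝ) / 10 ^ 4))) ^ (2 ^ s) *
          ((q : ℝ) ^ s' * ((2 * n ^ 2 : ℕ) : ℝ) ^ s) < 1) →
    ∀ K : Set (Fin (d + s) → ℝ), Convex ℝ K → IsCompact K →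
    (∀ x : Fin (d + s) → ℝ, (∀ i, 0 ≤ x i ∧ x i ≤ 1 / (n : ℝ)) → x ∈ K) →
    (∀ x ∈ K, ∀ i, |x i| ≤ 1) →
    ∃ M : Matrix (Fin (d + s)) (Fin (d + s)) ℝ, M.det ≠ 0 ∧
      (∀ y, ∃ k ∈ K, ∃ z : Fin (d + s) → ℤ, y = k + M.mulVec (fun i => (z i : ℝ))) ∧
      (volume K).toReal ≤ 8 * (2 * 10 ^ 6) ^ 3 / 10 ^ 4 * n * (Real.log n) ^ 3 * |M.det| := by
  obtain ⟨d₁, hcore⟩ := core
  refine ⟨d₁, ?_⟩
  intro d s n hnd hn600 hdd1 hd0 hsd h2s hq2d hqd20 hRexp hfin K hc hk hcube hbox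
  have hnr : (600 : ℝ) ≤ n := by exact_mod_cast hn600
  have hnpos : (0 : ℝ) < n := by linarith
  have hn1 : (1 : ℝ) ≤ n := by linarith
  have hdn : d ≤ n := by omega
  have hdnr : (d : ℝ) ≤ n := by exact_mod_cast hdn
  have hdr : (1 : ℝ) ≤ d := by exact_mod_cast hd0
  obtain ⟨τ, δ, hτ, hR, hδ, hδlow, hthick, hvol, hτlow, hτup⟩ :=
    prism (n := n) hn600 hnd hd0 hc hk hcube hbox
  -- the prime
  obtain ⟨q, hqp, hq1, hq2⟩ := Nat.exists_prime_lt_and_le_two_mul (300 * n ^ 8) (by positivity)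
  haveI : Fact q.Prime := ⟨hqp⟩
  have hq2' : q ≤ 600 * n ^ 8 := by
    calc q ≤ 2 * (300 * n ^ 8) := hq2
      _ = 600 * n ^ 8 := by ring
  have hq2r : (q : ℝ) ≤ 600 * (n : ℝ) ^ 8 := by exact_mod_cast hq2'
  have hqpos : (0 : ℝ) < q := by exact_mod_cast hqp.pos
  obtain ⟨s', H, hH1, hH2, hHτ, hs'1, hs'2⟩ :=
    scale hnd hn600 hsd hq1 hq2' (hq2r.trans hq2d) hτlow hτup
  have hn4 : (1 : ℝ) ≤ (n : ℝ) ^ 4 := one_le_pow₀ hn1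
  have hHpos : 0 < H := by linarith
  have hceil : ⌈H⌉₊ ≤ 4 * n ^ 4 := by
    rw [Nat.ceil_le]; push_cast; exact hH2
  have hn2 : (0 : ℝ) < (n : ℝ) ^ 2 := by positivity
  have hHw : (n : ℝ) ^ 2 ≤ H * (1 / (2 * (n : ℝ) ^ 2)) := by
    have : (2 * (n : ℝ) ^ 4) * (1 / (2 * (n : ℝ) ^ 2)) ≤ H * (1 / (2 * (n : ℝ) ^ 2)) := by gcongr
    refine le_trans (le_of_eq ?_) this
    field_simp
  have hw2 : 1 / (2 * (n : ℝ) ^ 2) + 1 / (2 * (n : ℝ) ^ 2) = 1 / (n : ℝ) ^ 2 := by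
    field_simp; norm_num
  have hw2' : 0 < 1 / (2 * (n : ℝ) ^ 2) := by positivity
  have hboxS : ∀ x ∈ shr d s K (1 - 1 / (n : ℝ)), ∀ i, |x.2 i| ≤ 1 := by
    intro x hx i
    have h1 := add_small (n := n) (by omega) hc hcube hx (e := 0)
      (fun i => ⟨le_refl _, by simp⟩)
    rw [add_zero] at h1
    have := hbox _ h1 (Fin.natAdd d i)
    rwa [Fin.append_right] at this
  have hboxT : ∀ p ∈ thick (shr d s K (1 - 1 / (n : ℝ))) (1 / (2 * (n : ℝ) ^ 2)),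
      ∀ i, |p.1 i| ≤ 1 := by
    intro p hp i
    have h1 := thick_sub (n := n) (by omega) hc hcube hp (c := (0, 0))
      (fun i => ⟨le_refl _, by simp only [Pi.zero_apply, Prod.mk_zero_zero, Prod.fst_zero]; linarith⟩)
      (fun i => ⟨le_refl _, by simp⟩)
    simp only [add_zero] at h1
    have := hbox _ h1 (Fin.castAdd s i)
    rwa [Fin.append_left] at this
  have hδ₀pos : 0 < 1 / (4 * (32 * (n : ℝ) ^ 2) ^ s) := by positivity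
  have h32 : 1 ≤ (32 * (n : ℝ) ^ 2) ^ s := one_le_pow₀ (by nlinarith)
  obtain ⟨G, iG, fG, ψ, hψ, hcard, hcov⟩ := hcore d s (2 * n ^ 2) ((32 * n ^ 2) ^ (s * (s + 1))) q s'
    H τ (1 / (2 * (n : ℝ) ^ 2)) (16 * (32 * (n : ℝ) ^ 2) ^ s) (1 / (4 * (32 * (n : ℝ) ^ 2) ^ s)) δ
    (shr d s K (1 - 1 / (n : ℝ))) hdd1 (by nlinarith [Nat.pos_of_ne_zero (n := n) (by omega)])
    (Nat.one_le_pow _ _ (by positivity)) hδ₀pos hw2' (shr_convex hc _) (shr_compact hk _) hboxT hboxS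
    hτ hR hδlow hthick hHpos (by nlinarith) (by nlinarith)
    hHτ (by
      have h1 : (d : ℝ) < 2 * (⌈H⌉₊ : ℝ) := by
        have h2 : H ≤ ⌈H⌉₊ := Nat.le_ceil H
        have h3 : (n : ℝ) ≤ (n : ℝ) ^ 4 := by
          calc (n : ℝ) = (n : ℝ) ^ 1 := (pow_one _).symm
            _ ≤ (n : ℝ) ^ 4 := pow_le_pow_right₀ hn1 (by norm_num)
        linarith
      exact_mod_cast h1) (by
      calc 3 * (2 * ⌈H⌉₊) ^ 2 ≤ 3 * (2 * (4 * n ^ 4)) ^ 2 := by gcongr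
        _ = 192 * n ^ 8 := by ring
        _ ≤ 300 * n ^ 8 := by gcongr; norm_num
        _ < q := hq1) (hq2r.trans hqd20) hs'1 hs'2 (by linarith) hRexp
    (layers_num hn600) (hfin q s' hq2r hs'2.le)
  have hDr : (0 : ℝ) < ((2 * n ^ 2 : ℕ) : ℝ) := by positivity
  obtain ⟨M, hdet, hMcov⟩ := real_lattice ψ hψ hHpos (h := fun i => δ i / ((2 * n ^ 2 : ℕ) : ℝ))
    (fun i => div_pos (hδ i).1 hDr) _ hcov K (by
      intro p hp c hc1 hc2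
      have e1 : 1 / H ≤ 1 / (2 * (n : ℝ) ^ 2) := by
        refine one_div_le_one_div_of_le (by positivity) ?_
        have : (n : ℝ) ^ 2 ≤ (n : ℝ) ^ 4 := pow_le_pow_right₀ hn1 (by norm_num)
        linarith
      refine thick_sub (n := n) (by omega) hc hcube hp (fun i => ⟨(hc1 i).1, ?_⟩)
        (fun i => ⟨(hc2 i).1, ?_⟩)
      · have := (hc1 i).2
        linarith
      · have h1 := (hc2 i).2
        have h2 : δ i / ((2 * n ^ 2 : ℕ) : ℝ) ≤ 1 / (2 * (n : ℝ) ^ 2) := by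
          push_cast
          gcongr
          exact (hδ i).2
        linarith)
  have hprodpos : 0 < ∏ i, δ i := Finset.prod_pos fun i _ => (hδ i).1
  have hdet2 : |M.det| = 10 ^ 4 * τ / d * ∏ i, δ i := by
    rw [hdet, hcard]
    push_cast
    rw [Finset.prod_div_distrib]
    simp only [Finset.prod_const, Finset.card_univ, Fintype.card_fin]
    have h1 : (q : ℝ) ^ s' = H ^ d * τ * 10 ^ 4 / d := by
      rw [hHτ]; field_simp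
    rw [h1]
    have h2 : (0 : ℝ) < (2 * (n : ℝ) ^ 2) ^ s := by positivity
    field_simp
  refine ⟨M, ?_, hMcov, ?_⟩
  · intro h0
    rw [h0, abs_zero] at hdet2
    have : 0 < 10 ^ 4 * τ / d * ∏ i, δ i := by positivity
    linarith
  · rw [hdet2]
    have hlog : 0 ≤ Real.log n := Real.log_nonneg hn1
    have h8 : (8 : ℝ) ^ s = ((2 : ℝ) ^ s) ^ 3 := by
      rw [← pow_mul, mul_comm, pow_mul]; norm_num
    have h9 : (8 : ℝ) ^ s ≤ (2 * 10 ^ 6 * Real.log n) ^ 3 := by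
      rw [h8]; gcongr
    calc (volume K).toReal ≤ 8 * 8 ^ s * τ * ∏ i, δ i := hvol
      _ ≤ 8 * (2 * 10 ^ 6 * Real.log n) ^ 3 * τ * ∏ i, δ i := by gcongr
      _ ≤ 8 * (2 * 10 ^ 6 * Real.log n) ^ 3 * τ * (∏ i, δ i) * (n / d) := by
        refine le_mul_of_one_le_right (by positivity) ?_
        rw [one_le_div (by linarith)]; exact hdnr
      _ = 8 * (2 * 10 ^ 6) ^ 3 / 10 ^ 4 * n * (Real.log n) ^ 3 * (10 ^ 4 * τ / d * ∏ i, δ i) := by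
        field_simp

theorem large : ∃ (C : ℝ) (n₀ : ℕ), 0 < C ∧ ∀ n : ℕ, n₀ ≤ n → ∀ K : Set (Fin n → ℝ),
    Convex ℝ K → IsCompact K →
    (∀ x : Fin n → ℝ, (∀ i, 0 ≤ x i ∧ x i ≤ 1 / (n : ℝ)) → x ∈ K) →
    (∀ x ∈ K, ∀ i, |x i| ≤ 1) →
    ∃ M : Matrix (Fin n) (Fin n) ℝ, M.det ≠ 0 ∧
      (∀ y, ∃ k ∈ K, ∃ z : Fin n → ℤ, y = k + M.mulVec (fun i => (z i : ℝ))) ∧
      (volume K).toReal ≤ C * n * (Real.log n) ^ 3 * |M.det| := by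
  obtain ⟨d₁, haux⟩ := large_aux
  obtain ⟨n₀, hn₀, hpar⟩ := params (max d₁ 1)
  refine ⟨8 * (2 * 10 ^ 6) ^ 3 / 10 ^ 4, n₀, by norm_num, ?_⟩
  intro n hn
  obtain ⟨d, s, hnd, hd1, hsd, h2s, hq2d, hqd20, hRexp, hfin⟩ := hpar n hn
  subst hnd
  intro K hc hk hcube hbox
  exact haux d s (d + s) rfl (hn₀.trans hn) ((le_max_left _ _).trans hd1)
    ((le_max_right _ _).trans hd1) hsd h2s hq2d hqd20 hRexp hfin K hc hk hcube hbox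

end Vale.Agent.P230
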