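import Vale.Agent.P230.Defs

open MeasureTheory Set
open scoped ENNReal

namespace Vale.Agent.P230

theorem lattice_of_hom {n : ℕ} {G : Type} [AddCommGroup G] [Finite G]
    (ψ : (Fin n → ℤ) →+ G) (hψ : Function.Surjective ψ) :
    ∃ M : Matrix (Fin n) (Fin n) ℤ, M.det.natAbs = Nat.card G ∧
      ∀ x, ψ x = 0 ↔ ∃ z, x = M.mulVec z := by
  classical
  set L : (Fin n → ℤ) →ₗ[ℤ] G := ψ.toIntLinearMap with hL
  have hLs : Function.Surjective L := hψ
  set N : Submodule ℤ (Fin n → ℤ) := LinearMap.ker L with hN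
  have eq : ((Fin n → ℤ) ⧸ N) ≃ₗ[ℤ] G := L.quotKerEquivOfSurjective hLs
  have hcard : Nat.card ((Fin n → ℤ) ⧸ N) = Nat.card G := Nat.card_congr eq.toEquiv
  have hfin : Finite ((Fin n → ℤ) ⧸ N) := Finite.of_equiv G eq.toEquiv.symm
  have hrank : Module.finrank ℤ N = Module.finrank ℤ (Fin n → ℤ) :=
    (Submodule.finiteQuotient_iff N).1 hfin
  have e : (Fin n → ℤ) ≃ₗ[ℤ] N :=
    LinearEquiv.ofFinrankEq (Fin n → ℤ) N hrank.symm
  set f : (Fin n → ℤ) →ₗ[ℤ] (Fin n → ℤ) := N.subtype ∘ₗ (e : (Fin n → ℤ) →ₗ[ℤ] N) with hf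
  refine ⟨LinearMap.toMatrix' f, ?_, ?_⟩
  · rw [LinearMap.det_toMatrix']
    have h := Submodule.natAbs_det_equiv N e
    rw [← hcard, ← h]
    rfl
  · intro x
    constructor
    · intro hx
      have hxN : x ∈ N := by
        rw [hN, LinearMap.mem_ker]
        exact hx
      refine ⟨e.symm ⟨x, hxN⟩, ?_⟩
      rw [← Matrix.toLin'_apply, Matrix.toLin'_toMatrix']
      simp [hf]
    · rintro ⟨z, rfl⟩
      rw [← Matrix.toLin'_apply, Matrix.toLin'_toMatrix']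
      have : (e z : Fin n → ℤ) ∈ N := (e z).2
      exact LinearMap.mem_ker.1 this

end Vale.Agent.P230
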