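import Vale.Agent.P230.BMAdd
import Vale.Agent.P230.StairB

/-! P230 [LV2]: the superlevel set of a log-concave function carrying a `1/√s` part of the
integral. -/

open MeasureTheory Set Filter
open scoped ENNReal NNReal Topology

namespace Vale.Agent.P230

namespace LevelAux

/-- Stirling upper bound -/
theorem fact_le {s : ℕ} (hs : 1 ≤ s) :
    (s.factorial : ℝ) ≤ Real.exp 1 * √s * ((s : ℝ) / Real.exp 1) ^ s := by
  obtain ⟨k, rfl⟩ := Nat.exists_eq_add_of_le' hs
  have h := Stirling.stirlingSeq'_antitone (Nat.zero_le k)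
  simp only [Function.comp, Nat.succ_eq_add_one, zero_add] at h
  rw [Stirling.stirlingSeq_one] at h
  unfold Stirling.stirlingSeq at h
  have h2 : (0 : ℝ) < √2 := by positivity
  have hk : (0 : ℝ) < ((k + 1 : ℕ) : ℝ) := by positivity
  have hpos : (0 : ℝ) < √(2 * ((k + 1 : ℕ) : ℝ)) * (((k + 1 : ℕ) : ℝ) / Real.exp 1) ^ (k + 1) := by
    positivity
  rw [div_le_iff₀ hpos, Real.sqrt_mul (by norm_num)] at h
  refine h.trans (le_of_eq ?_)
  field_simp

/-- the one-dimensional integral -/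
theorem int_h {s : ℕ} (hs : 1 ≤ s) {σ : ℝ} (hσ : 0 < σ) :
    ∫⁻ y in Ioi (0 : ℝ), ENNReal.ofReal ((max 0 (1 + Real.log (σ / y) / s)) ^ s) ≤
      ENNReal.ofReal (20 * √s * σ) := by
  have hs0 : (0 : ℝ) < s := by exact_mod_cast hs
  have him : (fun z : ℝ => σ * Real.exp (s - z)) '' univ = Ioi (0 : ℝ) := by
    ext y
    simp only [mem_image, mem_univ, true_and, mem_Ioi]
    constructor
    · rintro ⟨z, rfl⟩; positivity
    · intro hy
      refine ⟨s - Real.log (y / σ), ?_⟩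
      have : Real.exp (s - (s - Real.log (y / σ))) = y / σ := by
        rw [sub_sub_cancel, Real.exp_log (by positivity)]
      rw [this]; field_simp
  have hder : ∀ z ∈ (univ : Set ℝ), HasDerivWithinAt (fun z : ℝ => σ * Real.exp (s - z))
      (-(σ * Real.exp (s - z))) univ z := by
    intro z _
    have h1 : HasDerivAt (fun z : ℝ => (s : ℝ) - z) (-1) z := by
      simpa using (hasDerivAt_id z).const_sub (s : ℝ)
    have h2 := (h1.exp).const_mul σ
    have h3 : σ * (Real.exp (s - z) * -1) = -(σ * Real.exp (s - z)) := by ring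
    rw [h3] at h2
    exact h2.hasDerivWithinAt
  have hinj : InjOn (fun z : ℝ => σ * Real.exp (s - z)) univ := by
    intro a _ b _ hab
    have h1 : Real.exp (s - a) = Real.exp (s - b) := mul_left_cancel₀ hσ.ne' hab
    have h2 := Real.exp_injective h1
    linarith
  rw [← him, lintegral_image_eq_lintegral_abs_deriv_mul MeasurableSet.univ hder hinj,
    setLIntegral_univ]
  have hpt : ∀ z : ℝ, ENNReal.ofReal |-(σ * Real.exp (s - z))| *
      ENNReal.ofReal ((max 0 (1 + Real.log (σ / (σ * Real.exp (s - z))) / s)) ^ s) =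
      (Ioi (0 : ℝ)).indicator (fun z => ENNReal.ofReal
        (σ * Real.exp s / (s : ℝ) ^ s * (Real.exp (-z) * z ^ (((s : ℝ) + 1) - 1)))) z := by
    intro z
    have h1 : σ / (σ * Real.exp (s - z)) = Real.exp (z - s) := by
      rw [← div_div, div_self hσ.ne', one_div, ← Real.exp_neg, neg_sub]
    have h2 : 1 + (z - s) / (s : ℝ) = z / s := by field_simp; ring
    rw [h1, Real.log_exp, h2, abs_neg, abs_of_pos (by positivity),
      ← ENNReal.ofReal_mul (by positivity)]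
    by_cases hz : 0 < z
    · rw [indicator_of_mem (mem_Ioi.2 hz), max_eq_right (by positivity)]
      congr 1
      rw [add_sub_cancel_right, Real.rpow_natCast, div_pow, sub_eq_add_neg, Real.exp_add]
      field_simp
    · rw [indicator_of_notMem (by simpa using hz), max_eq_left
        (div_nonpos_of_nonpos_of_nonneg (not_lt.1 hz) hs0.le)]
      rw [zero_pow (by omega), mul_zero, ENNReal.ofReal_zero]
  rw [lintegral_congr hpt, lintegral_indicator measurableSet_Ioi]
  have hG := Real.GammaIntegral_convergent (s := (s : ℝ) + 1) (by positivity)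
  rw [← ofReal_integral_eq_lintegral_ofReal (hG.const_mul _)
    ((ae_restrict_iff' measurableSet_Ioi).2 (Eventually.of_forall fun z hz => by
      have : (0 : ℝ) < z := hz
      positivity))]
  refine ENNReal.ofReal_le_ofReal ?_
  rw [integral_const_mul, ← Real.Gamma_eq_integral (by positivity), Real.Gamma_nat_eq_factorial]
  have hf := fact_le hs
  have he : Real.exp (s : ℝ) = Real.exp 1 ^ s := by rw [← Real.exp_nat_mul, mul_one]
  calc σ * Real.exp s / (s : ℝ) ^ s * (s.factorial : ℝ)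
      ≤ σ * Real.exp s / (s : ℝ) ^ s * (Real.exp 1 * √s * ((s : ℝ) / Real.exp 1) ^ s) :=
        mul_le_mul_of_nonneg_left hf (by positivity)
    _ = σ * √s * Real.exp 1 := by rw [he, div_pow]; field_simp
    _ ≤ 20 * √s * σ := by
        have : Real.exp 1 ≤ 20 := by have := Real.exp_one_lt_d9; linarith
        have h0 : 0 ≤ σ * √s := by positivity
        nlinarith

theorem compact_S {s : ℕ} {g : (Fin s → ℝ) → ℝ≥0∞} {Q : ℝ≥0} (h : StairAux.LC s g Q) {τ : ℝ}
    (hτ : 0 < τ) : IsCompact {z | ENNReal.ofReal τ ≤ g z} := by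
  refine (isCompact_Icc (a := fun _ : Fin s => (-1 : ℝ)) (b := fun _ => 1)).of_isClosed_subset
    (h.closed _ (ENNReal.ofReal_pos.2 hτ)) fun z hz => ?_
  have h0 : g z ≠ 0 := fun h0 => by
    have h1 : ENNReal.ofReal τ ≤ g z := hz
    rw [h0] at h1
    exact absurd h1 (not_le.2 (ENNReal.ofReal_pos.2 hτ))
  exact ⟨fun i => (abs_le.1 (h.box z h0 i)).1, fun i => (abs_le.1 (h.box z h0 i)).2⟩

/-- volume of the superlevel set -/
noncomputable def V {s : ℕ} (g : (Fin s → ℝ) → ℝ≥0∞) (τ : ℝ) : ℝ :=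
  (volume {z | ENNReal.ofReal τ ≤ g z}).toReal

theorem V_nonneg {s : ℕ} (g : (Fin s → ℝ) → ℝ≥0∞) (τ : ℝ) : 0 ≤ V g τ := ENNReal.toReal_nonneg

theorem V_anti {s : ℕ} {g : (Fin s → ℝ) → ℝ≥0∞} {Q : ℝ≥0} (h : StairAux.LC s g Q) {τ τ' : ℝ}
    (hτ : 0 < τ) (hle : τ ≤ τ') : V g τ' ≤ V g τ :=
  ENNReal.toReal_mono (compact_S h hτ).measure_lt_top.ne
    (measure_mono fun _ hz => (ENNReal.ofReal_le_ofReal hle).trans hz)

theorem V_le {s : ℕ} {g : (Fin s → ℝ) → ℝ≥0∞} {Q : ℝ≥0} (h : StairAux.LC s g Q) {τ : ℝ}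
    (hτ : 0 < τ) : V g τ ≤ (volume (Icc (fun _ : Fin s => (-1 : ℝ)) (fun _ => 1))).toReal := by
  refine ENNReal.toReal_mono isCompact_Icc.measure_lt_top.ne (measure_mono fun z hz => ?_)
  have h0 : g z ≠ 0 := fun h0 => by
    have h1 : ENNReal.ofReal τ ≤ g z := hz
    rw [h0] at h1
    exact absurd h1 (not_le.2 (ENNReal.ofReal_pos.2 hτ))
  exact ⟨fun i => (abs_le.1 (h.box z h0 i)).1, fun i => (abs_le.1 (h.box z h0 i)).2⟩

theorem V_left {s : ℕ} {g : (Fin s → ℝ) → ℝ≥0∞} {Q : ℝ≥0} (h : StairAux.LC s g Q) {x : ℝ}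
    (hx : 0 < x) : Tendsto (fun n : ℕ => V g (x - x / (n + 2))) atTop (𝓝 (V g x)) := by
  have hn : ∀ n : ℕ, 0 < x - x / ((n : ℝ) + 2) := fun n => by
    have h1 : x / ((n : ℝ) + 2) < x := by
      rw [div_lt_iff₀ (by positivity)]
      have : (0 : ℝ) ≤ n := by positivity
      nlinarith
    linarith
  have hcap : (⋂ n : ℕ, {z | ENNReal.ofReal (x - x / ((n : ℝ) + 2)) ≤ g z}) =
      {z | ENNReal.ofReal x ≤ g z} := by
    ext z
    simp only [mem_iInter, mem_ofPred_eq]
    constructor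
    · intro hz
      have hlim : Tendsto (fun n : ℕ => ENNReal.ofReal (x - x / ((n : ℝ) + 2))) atTop
          (𝓝 (ENNReal.ofReal (x - 0))) := by
        refine (ENNReal.continuous_ofReal.tendsto _).comp (tendsto_const_nhds.sub ?_)
        refine Tendsto.div_atTop tendsto_const_nhds ?_
        exact tendsto_atTop_add_const_right _ _ tendsto_natCast_atTop_atTop
      rw [sub_zero] at hlim
      exact le_of_tendsto' hlim hz
    · intro hz n
      refine (ENNReal.ofReal_le_ofReal ?_).trans hz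
      have : 0 ≤ x / ((n : ℝ) + 2) := by positivity
      linarith
  have hanti : Antitone (fun n : ℕ => {z | ENNReal.ofReal (x - x / ((n : ℝ) + 2)) ≤ g z}) := by
    intro n m hnm z hz
    refine le_trans (ENNReal.ofReal_le_ofReal ?_) hz
    have hnm' : (n : ℝ) ≤ m := by exact_mod_cast hnm
    have : x / ((m : ℝ) + 2) ≤ x / ((n : ℝ) + 2) :=
      div_le_div_of_nonneg_left hx.le (by positivity) (by linarith)
    linarith
  have ht := tendsto_measure_iInter_atTop (μ := volume)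
    (s := fun n : ℕ => {z | ENNReal.ofReal (x - x / ((n : ℝ) + 2)) ≤ g z})
    (fun n => (compact_S h (hn n)).isClosed.measurableSet.nullMeasurableSet) hanti
    ⟨0, (compact_S h (hn 0)).measure_lt_top.ne⟩
  rw [hcap] at ht
  exact (ENNReal.tendsto_toReal (compact_S h hx).measure_lt_top.ne).comp ht

theorem exists_max {s : ℕ} {g : (Fin s → ℝ) → ℝ≥0∞} {Q : ℝ≥0} (h : StairAux.LC s g Q)
    {τ₁ : ℝ} (hτ₁ : 0 < τ₁) (hV : 0 < V g τ₁) :
    ∃ σ : ℝ, 0 < σ ∧ 0 < V g σ ∧ ∀ τ, 0 < τ → τ * V g τ ≤ σ * V g σ := by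
  set β := (volume (Icc (fun _ : Fin s => (-1 : ℝ)) (fun _ => 1))).toReal with hβ
  have hβ0 : 0 ≤ β := ENNReal.toReal_nonneg
  set c := τ₁ * V g τ₁ with hc
  have hc0 : 0 < c := by positivity
  set a := min τ₁ (c / (β + 1)) with ha
  have ha0 : 0 < a := lt_min hτ₁ (by positivity)
  set b := max τ₁ (Q : ℝ) with hb
  have hab : τ₁ ∈ Icc a b := ⟨min_le_left _ _, le_max_left _ _⟩
  have husc : UpperSemicontinuousOn (fun τ => τ * V g τ) (Icc a b) := by
    intro x hx y hy
    have hx0 : 0 < x := lt_of_lt_of_le ha0 hx.1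
    have hlim : Tendsto (fun n : ℕ => (x + x / ((n : ℝ) + 2)) * V g (x - x / (n + 2))) atTop
        (𝓝 ((x + 0) * V g x)) := by
      refine Tendsto.mul (tendsto_const_nhds.add ?_) (V_left h hx0)
      refine Tendsto.div_atTop tendsto_const_nhds ?_
      exact tendsto_atTop_add_const_right _ _ tendsto_natCast_atTop_atTop
    rw [add_zero] at hlim
    obtain ⟨n, hn⟩ := (hlim.eventually_lt_const hy).exists
    have hδ : 0 < x / ((n : ℝ) + 2) := by positivity
    have hlt : x / ((n : ℝ) + 2) < x := by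
      rw [div_lt_iff₀ (by positivity)]
      have : (0 : ℝ) ≤ n := by positivity
      nlinarith
    have hev : ∀ᶠ x' in 𝓝 x, x' ∈ Ioo (x - x / ((n : ℝ) + 2)) (x + x / ((n : ℝ) + 2)) :=
      Ioo_mem_nhds (by linarith) (by linarith)
    refine (hev.filter_mono nhdsWithin_le_nhds).mono fun x' hx' => lt_of_le_of_lt ?_ hn
    have hx'0 : 0 < x' := by linarith [hx'.1]
    exact mul_le_mul hx'.2.le (V_anti h (by linarith) hx'.1.le) (V_nonneg _ _) (by linarith)
  obtain ⟨σ, hσ, hmax⟩ := husc.exists_isMaxOn ⟨τ₁, hab⟩ isCompact_Icc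
  have hσ0 : 0 < σ := lt_of_lt_of_le ha0 hσ.1
  have hcs : c ≤ σ * V g σ := hmax hab
  refine ⟨σ, hσ0, ?_, fun τ hτ => ?_⟩
  · have : 0 < σ * V g σ := lt_of_lt_of_le hc0 hcs
    exact pos_of_mul_pos_right this hσ0.le
  · by_cases h1 : τ < a
    · refine le_trans ?_ hcs
      have h2 : τ ≤ c / (β + 1) := h1.le.trans (min_le_right _ _)
      calc τ * V g τ ≤ c / (β + 1) * (β + 1) :=
            mul_le_mul h2 ((V_le h hτ).trans (by linarith)) (V_nonneg _ _) (by positivity)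
        _ = c := by field_simp
    · by_cases h2 : τ ≤ b
      · exact hmax (mem_Icc.2 ⟨not_lt.1 h1, h2⟩)
      · have hz : V g τ = 0 := by
          have : {z | ENNReal.ofReal τ ≤ g z} = ∅ := by
            ext z
            simp only [mem_ofPred_eq, mem_empty_iff_false, iff_false, not_le]
            refine lt_of_le_of_lt (h.bd z) ?_
            have h3 : (Q : ℝ) < τ := lt_of_le_of_lt (le_max_right _ _) (not_le.1 h2)
            rw [← ENNReal.ofReal_coe_nnreal]
            exact (ENNReal.ofReal_lt_ofReal_iff hτ).2 h3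
          rw [V, this]; simp
        rw [hz, mul_zero]
        exact mul_nonneg hσ0.le (V_nonneg _ _)

theorem V_bound {s : ℕ} (hs : 1 ≤ s) {g : (Fin s → ℝ) → ℝ≥0∞} {Q : ℝ≥0}
    (h : StairAux.LC s g Q) {σ : ℝ} (hσ : 0 < σ) (hVσ : 0 < V g σ)
    (hmax : ∀ τ, 0 < τ → τ * V g τ ≤ σ * V g σ) {τ : ℝ} (hτ : 0 < τ) :
    V g τ ≤ V g σ * (max 0 (1 + Real.log (σ / τ) / s)) ^ s := by
  have hs0 : (0 : ℝ) < s := by exact_mod_cast hs
  rcases (V_nonneg g τ).eq_or_lt with h0 | hVτ
  · rw [← h0]; positivity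
  set y := Real.log (σ / τ) / s with hy
  set a := V g σ with ha
  set b := V g τ with hb
  have hA0 : volume {z | ENNReal.ofReal σ ≤ g z} ≠ 0 := fun h0 => by
    rw [ha, V, h0] at hVσ; simp at hVσ
  have hB0 : volume {z | ENNReal.ofReal τ ≤ g z} ≠ 0 := fun h0 => by
    rw [hb, V, h0] at hVτ; simp at hVτ
  have hap : 0 < a ^ (1 / (s : ℝ)) := by positivity
  have hbp : 0 < b ^ (1 / (s : ℝ)) := by positivity
  set ρ := b ^ (1 / (s : ℝ)) / a ^ (1 / (s : ℝ)) with hρ
  have hρ0 : 0 < ρ := by positivity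
  have key : ∀ t : ℝ, 0 < t → t < 1 → (1 - t) + t * ρ ≤ Real.exp (t * y) := by
    intro t ht0 ht1
    have h1t : 0 < 1 - t := by linarith
    set ξ := σ ^ (1 - t) * τ ^ t with hξ
    have hξ0 : 0 < ξ := by positivity
    have hbm := bm_add hs (compact_S h hσ) (compact_S h hτ) (compact_S h hξ0) hA0 hB0 ht0 ht1
      (fun x hx y hy => by
        have hx' : ENNReal.ofReal σ ≤ g x := hx
        have hy' : ENNReal.ofReal τ ≤ g y := hy
        change ENNReal.ofReal ξ ≤ g ((1 - t) • x + t • y)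
        refine le_trans ?_ (h.lc t ht0 ht1 x y)
        rw [hξ, ENNReal.ofReal_mul (by positivity), ← ENNReal.ofReal_rpow_of_pos hσ,
          ← ENNReal.ofReal_rpow_of_pos hτ]
        exact mul_le_mul' (ENNReal.rpow_le_rpow hx' h1t.le) (ENNReal.rpow_le_rpow hy' ht0.le))
    have hbm' : (1 - t) * a ^ (1 / (s : ℝ)) + t * b ^ (1 / (s : ℝ)) ≤
        V g ξ ^ (1 / (s : ℝ)) := hbm
    have hVξ : V g ξ ≤ a * Real.exp (t * Real.log (σ / τ)) := by
      have h1 := hmax ξ hξ0
      have h2 : σ = ξ * Real.exp (t * Real.log (σ / τ)) := by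
        have h3 : Real.exp (t * Real.log (σ / τ)) = (σ / τ) ^ t := by
          rw [Real.rpow_def_of_pos (by positivity), mul_comm]
        rw [h3, hξ, Real.div_rpow hσ.le hτ.le, mul_comm (σ ^ (1 - t)), mul_assoc,
          ← mul_div_assoc, ← Real.rpow_add hσ, sub_add_cancel, Real.rpow_one]
        field_simp
      have h4 : ξ * V g ξ ≤ ξ * (a * Real.exp (t * Real.log (σ / τ))) := by
        calc ξ * V g ξ ≤ σ * a := h1
          _ = (ξ * Real.exp (t * Real.log (σ / τ))) * a := by rw [← h2]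
          _ = _ := by ring
      exact le_of_mul_le_mul_left h4 hξ0
    have h5 : V g ξ ^ (1 / (s : ℝ)) ≤ a ^ (1 / (s : ℝ)) * Real.exp (t * y) := by
      calc V g ξ ^ (1 / (s : ℝ)) ≤ (a * Real.exp (t * Real.log (σ / τ))) ^ (1 / (s : ℝ)) :=
            Real.rpow_le_rpow (V_nonneg _ _) hVξ (by positivity)
        _ = a ^ (1 / (s : ℝ)) * Real.exp (t * y) := by
            rw [Real.mul_rpow hVσ.le (Real.exp_pos _).le, ← Real.exp_mul, hy]
            congr 2; ring
    have h6 : (1 - t) * a ^ (1 / (s : ℝ)) + t * b ^ (1 / (s : ℝ)) ≤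
        a ^ (1 / (s : ℝ)) * Real.exp (t * y) := hbm'.trans h5
    have h7 : a ^ (1 / (s : ℝ)) * ((1 - t) + t * ρ) ≤ a ^ (1 / (s : ℝ)) * Real.exp (t * y) := by
      refine le_trans (le_of_eq ?_) h6
      rw [hρ]; field_simp
    exact le_of_mul_le_mul_left h7 hap
  have hρy : ρ ≤ 1 + y := by
    by_contra hcon
    have hcon' : 1 + y < ρ := not_le.1 hcon
    set ε := ρ - (1 + y) with hε
    have hε0 : 0 < ε := by linarith
    obtain ⟨t, ht0, ht⟩ : ∃ t : ℝ, 0 < t ∧ t ≤ 1 / 2 ∧ t ≤ 1 / (|y| + 1) ∧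
        t ≤ ε / (2 * (y ^ 2 + 1)) :=
      ⟨min (1 / 2) (min (1 / (|y| + 1)) (ε / (2 * (y ^ 2 + 1)))), by positivity,
        min_le_left _ _, (min_le_right _ _).trans (min_le_left _ _),
        (min_le_right _ _).trans (min_le_right _ _)⟩
    obtain ⟨ht1, ht2, ht3⟩ := ht
    have hk := key t ht0 (by linarith)
    have hty : |t * y| ≤ 1 := by
      rw [abs_mul, abs_of_pos ht0]
      calc t * |y| ≤ 1 / (|y| + 1) * (|y| + 1) :=
            mul_le_mul ht2 (by linarith) (abs_nonneg _) (by positivity)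
        _ = 1 := by field_simp
    have hexp := Real.abs_exp_sub_one_sub_id_le hty
    have hexp' := (abs_le.1 hexp).2
    have h1 : t * ρ ≤ t * (1 + y + t * y ^ 2) := by nlinarith
    have h2 : ρ ≤ 1 + y + t * y ^ 2 := le_of_mul_le_mul_left h1 ht0
    have h3 : t * y ^ 2 ≤ ε / 2 := by
      calc t * y ^ 2 ≤ ε / (2 * (y ^ 2 + 1)) * (y ^ 2 + 1) :=
            mul_le_mul ht3 (by linarith) (sq_nonneg _) (by positivity)
        _ = ε / 2 := by field_simp
    linarith
  have hb' : b = a * ρ ^ s := by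
    have h1 : (b ^ (1 / (s : ℝ))) ^ s = b := by
      rw [← Real.rpow_natCast, ← Real.rpow_mul hVτ.le, one_div_mul_cancel hs0.ne', Real.rpow_one]
    have h2 : (a ^ (1 / (s : ℝ))) ^ s = a := by
      rw [← Real.rpow_natCast, ← Real.rpow_mul hVσ.le, one_div_mul_cancel hs0.ne', Real.rpow_one]
    rw [hρ, div_pow, h1, h2]; field_simp
  rw [hb']
  refine mul_le_mul_of_nonneg_left ?_ hVσ.le
  exact pow_le_pow_left₀ hρ0.le (hρy.trans (le_max_right _ _)) s

end LevelAux

open LevelAux in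
theorem level_lc {s : ℕ} (hs : 1 ≤ s) {g : (Fin s → ℝ) → ℝ≥0∞} {Q : ℝ≥0}
    (h : StairAux.LC s g Q) (h0 : ∫⁻ z, g z ≠ 0) :
    ∃ τ : ℝ, 0 < τ ∧
      ∫⁻ z, g z ≤ ENNReal.ofReal (20 * √s * τ) * volume {z | ENNReal.ofReal τ ≤ g z} := by
  have hfin : ∀ z, g z ≠ ∞ := fun z => ne_top_of_le_ne_top ENNReal.coe_ne_top (h.bd z)
  have hlay : ∫⁻ z, g z = ∫⁻ τ in Ioi (0 : ℝ), volume {z | ENNReal.ofReal τ ≤ g z} := by
    have h1 := lintegral_eq_lintegral_meas_le (volume : Measure (Fin s → ℝ))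
      (f := fun z => (g z).toReal) (Eventually.of_forall fun _ => ENNReal.toReal_nonneg)
      h.meas.ennreal_toReal.aemeasurable
    rw [show (∫⁻ z, g z) = ∫⁻ z, ENNReal.ofReal (g z).toReal from
      lintegral_congr fun z => (ENNReal.ofReal_toReal (hfin z)).symm, h1]
    refine lintegral_congr fun τ => ?_
    congr 1
    ext z
    simp only [mem_ofPred_eq]
    exact (ENNReal.ofReal_le_iff_le_toReal (hfin z)).symm
  obtain ⟨τ₁, hτ₁, hVτ₁⟩ : ∃ τ₁ : ℝ, 0 < τ₁ ∧ 0 < V g τ₁ := by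
    by_contra hcon
    refine h0 ?_
    rw [hlay]
    refine (setLIntegral_congr_fun measurableSet_Ioi (g := fun _ => 0) fun τ hτ => ?_).trans
      lintegral_zero
    have hτ0 : (0 : ℝ) < τ := hτ
    by_contra hne
    exact hcon ⟨τ, hτ0, ENNReal.toReal_pos hne (compact_S h hτ0).measure_lt_top.ne⟩
  obtain ⟨σ, hσ, hVσ, hmax⟩ := exists_max h hτ₁ hVτ₁
  refine ⟨σ, hσ, ?_⟩
  rw [hlay]
  calc ∫⁻ τ in Ioi (0 : ℝ), volume {z | ENNReal.ofReal τ ≤ g z}
      ≤ ∫⁻ τ in Ioi (0 : ℝ), ENNReal.ofReal (V g σ) *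
          ENNReal.ofReal ((max 0 (1 + Real.log (σ / τ) / s)) ^ s) := by
        refine setLIntegral_mono' measurableSet_Ioi fun τ hτ => ?_
        have hτ0 : (0 : ℝ) < τ := hτ
        rw [← ENNReal.ofReal_mul (V_nonneg _ _),
          ← ENNReal.ofReal_toReal (compact_S h hτ0).measure_lt_top.ne]
        exact ENNReal.ofReal_le_ofReal (V_bound hs h hσ hVσ hmax hτ0)
    _ = ENNReal.ofReal (V g σ) *
          ∫⁻ τ in Ioi (0 : ℝ), ENNReal.ofReal ((max 0 (1 + Real.log (σ / τ) / s)) ^ s) :=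
        lintegral_const_mul' _ _ ENNReal.ofReal_ne_top
    _ ≤ ENNReal.ofReal (V g σ) * ENNReal.ofReal (20 * √s * σ) :=
        mul_le_mul_right (int_h hs hσ) _
    _ = ENNReal.ofReal (20 * √s * σ) * volume {z | ENNReal.ofReal σ ≤ g z} := by
        rw [mul_comm, V, ENNReal.ofReal_toReal (compact_S h hσ).measure_lt_top.ne]

end Vale.Agent.P230
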