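import Mathlib

namespace Vale.Agent.P230

namespace ParamsAux

theorem ev : ∀ᶠ n : ℕ in Filter.atTop,
    10 ^ 30 * Real.log n ^ 3 ≤ (n : ℝ) ∧ 100 ≤ Real.log n := by
  have h1 : ∀ᶠ x : ℝ in Filter.atTop, ‖Real.log x ^ 3‖ ≤ (1 / 10 ^ 30) * ‖id x‖ :=
    (Real.isLittleO_pow_log_id_atTop (n := 3)).bound (by positivity)
  have h2 : ∀ᶠ x : ℝ in Filter.atTop, 100 ≤ Real.log x :=
    Real.tendsto_log_atTop.eventually_ge_atTop 100
  have h3 : ∀ᶠ x : ℝ in Filter.atTop, (0 : ℝ) ≤ x := Filter.eventually_ge_atTop 0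
  have h := (tendsto_natCast_atTop_atTop (R := ℝ)).eventually (h1.and (h2.and h3))
  filter_upwards [h] with n hn
  obtain ⟨a, b, c⟩ := hn
  refine ⟨?_, b⟩
  have hL : 0 ≤ Real.log (n : ℝ) ^ 3 := by
    have : 0 ≤ Real.log (n : ℝ) := by linarith
    positivity
  rw [Real.norm_of_nonneg hL, id, Real.norm_of_nonneg c] at a
  linarith

/-- the exponent `s`. -/
theorem exists_s {L : ℝ} (hL : 100 ≤ L) :
    ∃ s : ℕ, 10 ^ 6 * L ≤ (2 : ℝ) ^ s ∧ (2 : ℝ) ^ s ≤ 2 * 10 ^ 6 * L := by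
  have hex : ∃ s : ℕ, 10 ^ 6 * L ≤ (2 : ℝ) ^ s := by
    obtain ⟨s, hs⟩ := pow_unbounded_of_one_lt (10 ^ 6 * L) (by norm_num : (1 : ℝ) < 2)
    exact ⟨s, hs.le⟩
  classical
  refine ⟨Nat.find hex, Nat.find_spec hex, ?_⟩
  have hpos : Nat.find hex ≠ 0 := by
    intro h0
    have := Nat.find_spec hex
    rw [h0] at this
    norm_num at this
    linarith
  obtain ⟨k, hk⟩ := Nat.exists_eq_succ_of_ne_zero hpos
  have hmin := Nat.find_min hex (m := k) (by omega)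
  rw [hk]
  push Not at hmin
  rw [Nat.succ_eq_add_one, pow_succ]
  linarith

theorem log32 : Real.log 32 ≤ 4 := by
  have : Real.log 32 = 5 * Real.log 2 := by
    rw [show (32 : ℝ) = 2 ^ 5 by norm_num, Real.log_pow]; norm_num
  rw [this]
  have := Real.log_two_lt_d9
  linarith

theorem log_le_of_exp {x y : ℝ} (hx : 0 < x) (h : Real.log x ≤ y) : x ≤ Real.exp y := by
  rw [← Real.exp_log hx]; exact Real.exp_le_exp.2 h

theorem exp_pow_aux (n : ℕ) (L : ℝ) :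
    (Real.exp (12 * L)) ^ n = Real.exp (12 * n * L) := by
  rw [← Real.exp_nat_mul]
  congr 1
  ring

end ParamsAux

open ParamsAux

theorem params (d₁ : ℕ) : ∃ n₀ : ℕ, 600 ≤ n₀ ∧ ∀ n : ℕ, n₀ ≤ n → ∃ d s : ℕ,
    n = d + s ∧ d₁ ≤ d ∧ 4 * s ≤ d ∧ (2 : ℝ) ^ s ≤ 2 * 10 ^ 6 * Real.log n ∧
    600 * (n : ℝ) ^ 8 ≤ 2 ^ d ∧ 600 * (n : ℝ) ^ 8 ≤ (d : ℝ) ^ 20 ∧
    16 * (32 * (n : ℝ) ^ 2) ^ s ≤ Real.exp (d / 10 ^ 5) ∧
    ∀ (q s' : ℕ), (q : ℝ) ≤ 600 * (n : ℝ) ^ 8 → s' ≤ d →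
      (((32 * n ^ 2) ^ (s * (s + 1)) : ℕ) * (8 * ((32 * n ^ 2) ^ (s * (s + 1)) : ℕ) *
        Real.exp (-(d : ℝ) / 10 ^ 4))) ^ (2 ^ s) * ((q : ℝ) ^ s' * ((2 * n ^ 2 : ℕ) : ℝ) ^ s) < 1 := by
  obtain ⟨N, hN⟩ := Filter.eventually_atTop.1 ev
  refine ⟨max N (max 600 (2 * d₁)), by omega, ?_⟩
  intro n hn
  obtain ⟨hA, hB⟩ := hN n (by omega)
  have hn600 : 600 ≤ n := by omega
  have hnd : 2 * d₁ ≤ n := by omega
  set L := Real.log (n : ℝ) with hL
  obtain ⟨s, hs1, hs2⟩ := exists_s hB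
  have hn0 : (0 : ℝ) < n := by
    have : (600 : ℝ) ≤ n := by exact_mod_cast hn600
    linarith
  have hn600' : (600 : ℝ) ≤ n := by exact_mod_cast hn600
  have hsL : (s : ℝ) ≤ 2 * 10 ^ 6 * L := by
    have h1 : (s : ℝ) ≤ (2 : ℝ) ^ s := by exact_mod_cast Nat.lt_two_pow_self.le
    linarith
  have hL2 : L ≤ L ^ 3 := by nlinarith [sq_nonneg L, mul_self_nonneg L]
  have hL22 : L ^ 2 ≤ L ^ 3 := by nlinarith [sq_nonneg L, mul_self_nonneg L]
  have hLL : 100 * L ≤ L ^ 2 := by nlinarith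
  have hL3 : 10000 * L ≤ L ^ 3 := by nlinarith
  have hL31 : 1000000 ≤ L ^ 3 := by linarith
  have hL32 : 100 * L ^ 2 ≤ L ^ 3 := by nlinarith
  have h5s : 5 * (s : ℝ) ≤ n := by
    have : 10 ^ 30 * L ^ 3 ≤ (n : ℝ) := hA
    nlinarith
  have h5s' : 5 * s ≤ n := by exact_mod_cast h5s
  refine ⟨n - s, s, by omega, by omega, by omega, hs2, ?_⟩
  set d := n - s with hd
  have hdr : (d : ℝ) = n - s := by rw [hd, Nat.cast_sub (by omega)]
  have hdn : (n : ℝ) / 2 ≤ d := by rw [hdr]; linarith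
  have hdn' : (d : ℝ) ≤ n := by rw [hdr]; have : (0 : ℝ) ≤ s := Nat.cast_nonneg _; linarith
  have hlog600 : Real.log 600 ≤ L := by
    rw [hL]; exact Real.log_le_log (by norm_num) hn600'
  have hs0 : (0 : ℝ) ≤ s := Nat.cast_nonneg _
  have hs22 : (s : ℝ) ^ 2 ≤ (2 * 10 ^ 6 * L) ^ 2 := pow_le_pow_left₀ hs0 hsL 2
  -- common logs
  have hlog1 : Real.log (600 * (n : ℝ) ^ 8) ≤ 9 * L := by
    rw [Real.log_mul (by norm_num) (by positivity), Real.log_pow]
    push_cast; linarith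
  have hlog2 : Real.log (32 * (n : ℝ) ^ 2) ≤ 3 * L := by
    rw [Real.log_mul (by norm_num) (by positivity), Real.log_pow]
    push_cast
    have := log32
    linarith
  refine ⟨?_, ?_, ?_, ?_⟩
  · -- 600 n^8 ≤ 2^d
    have h1 : (2 : ℝ) ^ d = Real.exp (Real.log 2 * d) := by
      rw [mul_comm, Real.exp_nat_mul, Real.exp_log (by norm_num)]
    rw [h1]
    apply log_le_of_exp (by positivity)
    have h2 := Real.log_two_gt_d9
    have h3 : 9 * L ≤ 0.6931471803 * (n / 2) := by nlinarith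
    have h4 : 0.6931471803 * ((n : ℝ) / 2) ≤ Real.log 2 * d := by
      apply mul_le_mul h2.le hdn (by positivity) (by linarith)
    linarith
  · -- 600 n^8 ≤ d^20
    have h1 : ((n : ℝ) / 2) ^ 20 ≤ (d : ℝ) ^ 20 := pow_le_pow_left₀ (by positivity) hdn 20
    refine le_trans ?_ h1
    have h2 : ((n : ℝ) / 2) ^ 20 = n ^ 8 * (n ^ 12 / 2 ^ 20) := by ring
    rw [h2, mul_comm]
    apply mul_le_mul_of_nonneg_left _ (by positivity)
    rw [le_div_iff₀ (by norm_num)]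
    calc (600 : ℝ) * 2 ^ 20 ≤ 600 ^ 12 := by norm_num
      _ ≤ (n : ℝ) ^ 12 := pow_le_pow_left₀ (by norm_num) hn600' 12
  · -- 16 * (32 n^2)^s ≤ exp (d/10^5)
    apply log_le_of_exp (by positivity)
    rw [Real.log_mul (by norm_num) (by positivity), Real.log_pow]
    have h16 : Real.log 16 ≤ 4 := by
      refine le_trans (Real.log_le_log (by norm_num) (by norm_num : (16 : ℝ) ≤ 32)) log32
    have h1 : (s : ℝ) * Real.log (32 * (n : ℝ) ^ 2) ≤ (2 * 10 ^ 6 * L) * (3 * L) := by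
      apply mul_le_mul hsL hlog2 _ (by positivity)
      apply Real.log_nonneg
      nlinarith
    have h2 : 4 + (2 * 10 ^ 6 * L) * (3 * L) ≤ ((n : ℝ) / 2) / 10 ^ 5 := by
      have : (2 * 10 ^ 6 * L) * (3 * L) = 6 * 10 ^ 6 * L ^ 2 := by ring
      rw [this]
      linarith
    have h3 : ((n : ℝ) / 2) / 10 ^ 5 ≤ d / 10 ^ 5 := by
      apply div_le_div_of_nonneg_right hdn (by positivity)
    linarith
  · intro q s' hq hs'
    set M : ℝ := (((32 * n ^ 2) ^ (s * (s + 1)) : ℕ) : ℝ) with hM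
    have hMe : M = (32 * (n : ℝ) ^ 2) ^ (s * (s + 1)) := by rw [hM]; push_cast; ring
    have hMpos : 0 < M := by rw [hMe]; positivity
    have hlogM : Real.log M ≤ (s * (s + 1)) * (3 * L) := by
      rw [hMe, Real.log_pow]; push_cast
      apply mul_le_mul_of_nonneg_left hlog2 (by positivity)
    have hss : (s : ℝ) * (s + 1) ≤ 10 ^ 13 * L ^ 2 := by
      nlinarith
    have hlog8 : Real.log 8 ≤ 4 := by
      refine le_trans (Real.log_le_log (by norm_num) (by norm_num : (8 : ℝ) ≤ 32)) log32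
    have h8M : 8 * M ^ 2 ≤ Real.exp (d / (2 * 10 ^ 4)) := by
      apply log_le_of_exp (by positivity)
      rw [Real.log_mul (by norm_num) (by positivity), Real.log_pow]
      push_cast
      have h1 : ((s : ℝ) * (s + 1)) * (3 * L) ≤ (10 ^ 13 * L ^ 2) * (3 * L) :=
        mul_le_mul_of_nonneg_right hss (by linarith)
      have h2 : (10 ^ 13 * L ^ 2) * (3 * L) = 3 * 10 ^ 13 * L ^ 3 := by ring
      have h3 : ((n : ℝ) / 2) / (2 * 10 ^ 4) ≤ d / (2 * 10 ^ 4) := by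
        apply div_le_div_of_nonneg_right hdn (by positivity)
      linarith
    have hbase : M * (8 * M * Real.exp (-(d : ℝ) / 10 ^ 4)) ≤ Real.exp (-(d / (2 * 10 ^ 4))) := by
      have h1 : M * (8 * M * Real.exp (-(d : ℝ) / 10 ^ 4)) =
          (8 * M ^ 2) * Real.exp (-(d : ℝ) / 10 ^ 4) := by ring
      rw [h1]
      calc (8 * M ^ 2) * Real.exp (-(d : ℝ) / 10 ^ 4)
          ≤ Real.exp (d / (2 * 10 ^ 4)) * Real.exp (-(d : ℝ) / 10 ^ 4) :=
            mul_le_mul_of_nonneg_right h8M (Real.exp_pos _).le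
        _ = Real.exp (-(d / (2 * 10 ^ 4))) := by
            rw [← Real.exp_add]; congr 1; ring
    have hpow : (M * (8 * M * Real.exp (-(d : ℝ) / 10 ^ 4))) ^ (2 ^ s) ≤
        Real.exp (-(25 * n * L)) := by
      calc (M * (8 * M * Real.exp (-(d : ℝ) / 10 ^ 4))) ^ (2 ^ s)
          ≤ (Real.exp (-(d / (2 * 10 ^ 4)))) ^ (2 ^ s) :=
            pow_le_pow_left₀ (by positivity) hbase _
        _ = Real.exp ((2 : ℝ) ^ s * (-(d / (2 * 10 ^ 4)))) := by
            rw [← Real.exp_nat_mul]; push_cast; rfl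
        _ ≤ Real.exp (-(25 * n * L)) := by
            apply Real.exp_le_exp.2
            have h1 : 10 ^ 6 * L * ((n / 2) / (2 * 10 ^ 4)) ≤ (2 : ℝ) ^ s * (d / (2 * 10 ^ 4)) := by
              apply mul_le_mul hs1 _ (by positivity) (by positivity)
              exact div_le_div_of_nonneg_right hdn (by positivity)
            have h2 : 10 ^ 6 * L * (((n : ℝ) / 2) / (2 * 10 ^ 4)) = 25 * n * L := by ring
            linarith
    have hq1 : (q : ℝ) ^ s' ≤ (600 * (n : ℝ) ^ 8) ^ n := by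
      have h1 : (1 : ℝ) ≤ 600 * (n : ℝ) ^ 8 := by
        have : (1 : ℝ) ≤ (n : ℝ) ^ 8 := one_le_pow₀ (by linarith)
        linarith
      calc (q : ℝ) ^ s' ≤ (600 * (n : ℝ) ^ 8) ^ s' := pow_le_pow_left₀ (Nat.cast_nonneg _) hq _
        _ ≤ (600 * (n : ℝ) ^ 8) ^ n := pow_le_pow_right₀ h1 (by omega)
    have hq2 : ((2 * n ^ 2 : ℕ) : ℝ) ^ s ≤ (2 * (n : ℝ) ^ 2) ^ n := by
      push_cast
      apply pow_le_pow_right₀ _ (by omega)
      nlinarith
    have hprod : (q : ℝ) ^ s' * ((2 * n ^ 2 : ℕ) : ℝ) ^ s ≤ Real.exp (12 * n * L) := by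
      calc (q : ℝ) ^ s' * ((2 * n ^ 2 : ℕ) : ℝ) ^ s
          ≤ (600 * (n : ℝ) ^ 8) ^ n * (2 * (n : ℝ) ^ 2) ^ n :=
            mul_le_mul hq1 hq2 (by positivity) (by positivity)
        _ = (600 * (n : ℝ) ^ 8 * (2 * (n : ℝ) ^ 2)) ^ n := (mul_pow _ _ _).symm
        _ ≤ (Real.exp (12 * L)) ^ n := by
            apply pow_le_pow_left₀ (by positivity)
            apply log_le_of_exp (by positivity)
            rw [Real.log_mul (by positivity) (by positivity)]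
            have : Real.log (2 * (n : ℝ) ^ 2) ≤ 3 * L := by
              refine le_trans (Real.log_le_log (by positivity) ?_) hlog2
              linarith [sq_nonneg (n : ℝ)]
            linarith
        _ = Real.exp (12 * n * L) := exp_pow_aux n L
    calc (M * (8 * M * Real.exp (-(d : ℝ) / 10 ^ 4))) ^ (2 ^ s) *
          ((q : ℝ) ^ s' * ((2 * n ^ 2 : ℕ) : ℝ) ^ s)
        ≤ Real.exp (-(25 * n * L)) * Real.exp (12 * n * L) :=
          mul_le_mul hpow hprod (by positivity) (Real.exp_pos _).le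
      _ = Real.exp (-(13 * n * L)) := by rw [← Real.exp_add]; congr 1; ring
      _ < 1 := by
          rw [Real.exp_lt_one_iff]
          have : 0 < (n : ℝ) * L := by positivity
          linarith

end Vale.Agent.P230
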