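import Vale.Agent.P230.Core

open MeasureTheory Set
open scoped ENNReal Pointwise

namespace Vale.Agent.P230

open CoreAux

/-- the integer points of the scaled slices of a thickened convex body -/
theorem slice_data {d s : ℕ} {ι : Type} {H τ w₀ R : ℝ} {K : Set ((Fin d → ℝ) × (Fin s → ℝ))}
    (hc : Convex ℝ K) (hk : IsCompact K) (hbox1 : ∀ p ∈ thick K w₀, ∀ i, |p.1 i| ≤ 1)
    (hτ : 0 < τ) (pt : ι → Fin s → ℝ)
    (hpt : ∀ i, ENNReal.ofReal τ ≤ volume {u : Fin d → ℝ | (u, pt i) ∈ K})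
    (hvol : ∀ i, volume {u : Fin d → ℝ | (u, pt i) ∈ thick K w₀} ≤ ENNReal.ofReal (R * τ))
    (hH : 0 < H) (hHw : 1 ≤ H * w₀) (hR1 : 1 ≤ R) {N : ℕ} (hN : N = ⌈H ^ d * τ⌉₊) :
    ∃ (A : ι → Finset (Fin d → ℤ)) (J : ι → Set (Fin d → ℝ)) (c : ι → Fin d → ℝ),
      (∀ i, Convex ℝ (J i)) ∧ (∀ i, MeasurableSet (J i)) ∧ (∀ i, volume (J i) ≠ ∞) ∧
      (∀ i, ∀ x : Fin d → ℝ, (∀ l, c i l ≤ x l ∧ x l ≤ c i l + H * w₀) → x ∈ J i) ∧
      (∀ i, ∀ a ∈ A i, (fun l => (a l : ℝ)) ∈ J i) ∧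
      (∀ i, (volume (J i)).toReal ≤ R * N) ∧
      (∀ i, ∀ a ∈ A i, ∀ b ∈ A i, ∀ l, |a l - b l| ≤ ((2 * ⌈H⌉₊ : ℕ) : ℤ)) ∧
      (∀ i, N ≤ (A i).card) ∧
      (∀ i a, a ∈ A i ↔ ((fun l => (a l : ℝ) / H), pt i) ∈ thick K w₀) := by
  classical
  have hZne : ∀ i, ∃ u, (u, pt i) ∈ K := by
    intro i
    by_contra hne
    push Not at hne
    have : {u : Fin d → ℝ | (u, pt i) ∈ K} = ∅ := by
      ext u; simp [hne u]
    have h1 := hpt i
    rw [this, measure_empty] at h1
    exact absurd (ENNReal.ofReal_pos.2 hτ) (by simpa using h1)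
  let J : ι → Set (Fin d → ℝ) := fun z => {u | ((fun i => u i / H), pt z) ∈ thick K w₀}
  let box : Finset (Fin d → ℤ) := Fintype.piFinset fun _ => Finset.Icc (-(⌈H⌉₊ : ℤ)) ⌈H⌉₊
  let A : ι → Finset (Fin d → ℤ) := fun z => box.filter (fun a => (fun l => (a l : ℝ)) ∈ J z)
  have hJbox : ∀ (z : ι) (u : Fin d → ℝ), u ∈ J z → ∀ i, |u i| ≤ H := by
    intro z u hu i
    have := hbox1 _ hu i
    simp only at this
    rw [abs_div, abs_of_pos hH, div_le_one hH] at this
    exact this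
  have hAmem : ∀ (z : ι) (a : Fin d → ℤ), a ∈ A z ↔ (fun l => (a l : ℝ)) ∈ J z := by
    intro z a
    simp only [A, Finset.mem_filter, and_iff_right_iff_imp]
    intro ha
    simp only [box, Fintype.mem_piFinset, Finset.mem_Icc]
    intro i
    have h1 := hJbox z _ ha i
    have h2 : (((a i).natAbs : ℕ) : ℝ) ≤ ⌈H⌉₊ := by
      rw [Nat.cast_natAbs, Int.cast_abs]
      exact h1.trans (Nat.le_ceil H)
    have h3 : (a i).natAbs ≤ ⌈H⌉₊ := by exact_mod_cast h2
    omega
  have hN1 : H ^ d * τ ≤ N := by rw [hN]; exact Nat.le_ceil _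
  -- scaling of slices
  have hJ_eq : ∀ z : ι, J z = H • {u : Fin d → ℝ | (u, pt z) ∈ thick K w₀} := by
    intro z
    ext u
    rw [Set.mem_smul_set_iff_inv_smul_mem₀ hH.ne']
    simp only [J, Set.mem_setOf_eq]
    have : (fun i => u i / H) = H⁻¹ • u := by
      ext i; simp [div_eq_inv_mul]
    rw [this]
  -- compactness of the thickened set slices
  have hthick : ∀ z : Fin s → ℝ, {u : Fin d → ℝ | (u, z) ∈ thick K w₀} =
      {u : Fin d → ℝ | (u, z) ∈ K} + {c : Fin d → ℝ | ∀ i, 0 ≤ c i ∧ c i ≤ w₀} := by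
    intro z
    ext u
    rw [Set.mem_add]
    constructor
    · rintro ⟨v, hv, hvi⟩
      refine ⟨v, hv, u - v, fun i => ?_, by abel⟩
      have := hvi i
      simp only at this
      constructor <;> simp only [Pi.sub_apply] <;> linarith
    · rintro ⟨v, hv, c, hc', rfl⟩
      refine ⟨v, hv, fun i => ?_⟩
      have := hc' i
      simp only [Pi.add_apply]
      constructor <;> linarith
  have hslice_cpt : ∀ z : Fin s → ℝ, IsCompact {u : Fin d → ℝ | (u, z) ∈ K} := by
    intro z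
    have h1 : {u : Fin d → ℝ | (u, z) ∈ K} = (fun u => (u, z)) ⁻¹' K := rfl
    rw [h1]
    have h2 : IsClosed ((fun u : Fin d → ℝ => (u, z)) ⁻¹' K) :=
      hk.isClosed.preimage (by fun_prop)
    refine IsCompact.of_isClosed_subset (hk.image continuous_fst) h2 ?_
    intro u hu
    exact ⟨(u, z), hu, rfl⟩
  have hslice_conv : ∀ z : Fin s → ℝ, Convex ℝ {u : Fin d → ℝ | (u, z) ∈ K} := by
    intro z u hu v hv a b ha hb hab
    have := hc hu hv ha hb hab
    have h2 : a • (u, z) + b • (v, z) = (a • u + b • v, z) := by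
      ext i
      · rfl
      · simp only [Prod.snd_add, Prod.smul_snd, Pi.add_apply, Pi.smul_apply, smul_eq_mul]
        rw [← add_mul, hab, one_mul]
    rw [h2] at this
    exact this
  have hcube_eq : {c : Fin d → ℝ | ∀ i, 0 ≤ c i ∧ c i ≤ w₀} = Set.Icc 0 (fun _ => w₀) := by
    ext c
    simp only [Set.mem_setOf_eq, Set.mem_Icc, Pi.le_def, Pi.zero_apply]
    constructor
    · intro h; exact ⟨fun i => (h i).1, fun i => (h i).2⟩
    · rintro ⟨h1, h2⟩ i; exact ⟨h1 i, h2 i⟩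
  have hth_cpt : ∀ z : Fin s → ℝ, IsCompact {u : Fin d → ℝ | (u, z) ∈ thick K w₀} := by
    intro z
    rw [hthick, hcube_eq]
    exact (hslice_cpt z).add isCompact_Icc
  have hth_conv : ∀ z : Fin s → ℝ, Convex ℝ {u : Fin d → ℝ | (u, z) ∈ thick K w₀} := by
    intro z
    rw [hthick, hcube_eq]
    exact (hslice_conv z).add (convex_Icc _ _)
  have hJcpt : ∀ z, IsCompact (J z) := fun z => by rw [hJ_eq]; exact (hth_cpt _).smul H
  have hJvol : ∀ z, (volume (J z)).toReal ≤ R * N := by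
    intro z
    rw [hJ_eq, Measure.addHaar_smul, ENNReal.toReal_mul]
    have h1 : (volume {u : Fin d → ℝ | (u, pt z) ∈ thick K w₀}).toReal ≤ R * τ := by
      refine ENNReal.toReal_le_of_le_ofReal (by positivity) (hvol _)
    have h2 : (ENNReal.ofReal |H ^ Module.finrank ℝ (Fin d → ℝ)|).toReal = H ^ d := by
      rw [ENNReal.toReal_ofReal (abs_nonneg _), Module.finrank_fin_fun, abs_of_pos (by positivity)]
    rw [h2]
    calc H ^ d * (volume {u : Fin d → ℝ | (u, pt z) ∈ thick K w₀}).toReal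
        ≤ H ^ d * (R * τ) := by gcongr
      _ = R * (H ^ d * τ) := by ring
      _ ≤ R * N := by gcongr
  have hAcard : ∀ z : ι, N ≤ (A z).card := by
    intro z
    have h1 : (volume (H • {u : Fin d → ℝ | (u, pt z) ∈ K})).toReal ≤ (A z).card := by
      refine count_lower ((hslice_cpt _).smul H).measurableSet (A z) ?_
      rintro a ⟨u, hu, hua⟩
      rw [hAmem]
      rw [Set.mem_smul_set_iff_inv_smul_mem₀ hH.ne'] at hu
      refine ⟨H⁻¹ • u, hu, fun i => ?_⟩
      obtain ⟨h1, h2⟩ := hua i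
      simp only [Pi.smul_apply, smul_eq_mul]
      have h3 : H⁻¹ * u i = u i / H := by rw [div_eq_inv_mul]
      rw [h3]
      constructor
      · exact div_le_div_of_nonneg_right h1 hH.le
      · rw [div_le_iff₀ hH]
        have h4 : (u i / H + w₀) * H = u i + H * w₀ := by field_simp
        rw [h4]; linarith
    rw [Measure.addHaar_smul, ENNReal.toReal_mul] at h1
    have h2 : (ENNReal.ofReal |H ^ Module.finrank ℝ (Fin d → ℝ)|).toReal = H ^ d := by
      rw [ENNReal.toReal_ofReal (abs_nonneg _), Module.finrank_fin_fun, abs_of_pos (by positivity)]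
    rw [h2] at h1
    have h3 : τ ≤ (volume {u : Fin d → ℝ | (u, pt z) ∈ K}).toReal :=
      (ENNReal.ofReal_le_iff_le_toReal (hslice_cpt _).measure_lt_top.ne).1 (hpt z)
    rw [hN]
    refine Nat.ceil_le.2 ?_
    refine le_trans ?_ h1
    gcongr
  have hB1 : ∀ z : ι, ∀ a ∈ A z, ∀ b ∈ A z, ∀ l, |a l - b l| ≤ ((2 * ⌈H⌉₊ : ℕ) : ℤ) := by
    intro z a ha b hb l
    simp only [A, box, Finset.mem_filter, Fintype.mem_piFinset, Finset.mem_Icc] at ha hb
    have h1 := ha.1 l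
    have h2 := hb.1 l
    rw [abs_le]
    push_cast
    constructor <;> omega
  choose u₀ hu₀ using hZne
  refine ⟨A, J, fun z => H • u₀ z, ?_, ?_, ?_, ?_, ?_, hJvol, hB1, hAcard, fun i a => hAmem i a⟩
  · exact fun z => by rw [hJ_eq]; exact (hth_conv _).smul H
  · exact fun z => (hJcpt z).measurableSet
  · exact fun z => (hJcpt z).measure_lt_top.ne
  · intro z x hx
    refine ⟨u₀ z, hu₀ z, fun i => ?_⟩
    obtain ⟨h1, h2⟩ := hx i
    simp only [Pi.smul_apply, smul_eq_mul] at h1 h2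
    simp only
    constructor
    · rw [le_div_iff₀ hH]; linarith
    · rw [div_le_iff₀ hH]; nlinarith
  · exact fun z a ha => (hAmem z a).1 ha

end Vale.Agent.P230
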