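import Vale.Agent.P230.Defs

open Set

namespace Vale.Agent.P230

namespace SquareAux

variable {X G : Type} [AddCommGroup X] [AddCommGroup G]

/-- the subgroup generated by ` (γ, D)` -/
def Ng (γ : G) (D : ℕ) : AddSubgroup (G × ℤ) := AddSubgroup.zmultiples (γ, (D : ℤ))

/-- representatives -/
def rep (γ : G) (D : ℕ) (p : G × Fin D) : (G × ℤ) ⧸ (Ng γ D) :=
  QuotientAddGroup.mk (p.1, ((p.2 : ℕ) : ℤ))

theorem mem_Ng {γ : G} {D : ℕ} {p : G × ℤ} :
    p ∈ Ng γ D ↔ ∃ j : ℤ, p = (j • γ, j * D) := by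
  unfold Ng
  rw [AddSubgroup.mem_zmultiples_iff]
  constructor
  · rintro ⟨j, rfl⟩; exact ⟨j, by simp⟩
  · rintro ⟨j, rfl⟩; exact ⟨j, by simp⟩

theorem rep_bij (γ : G) {D : ℕ} (hD : 1 ≤ D) : Function.Bijective (rep γ D) := by
  constructor
  · rintro ⟨g, a⟩ ⟨g', b⟩ h
    unfold rep at h
    rw [QuotientAddGroup.eq, mem_Ng] at h
    obtain ⟨j, hj⟩ := h
    simp only [Prod.neg_mk, Prod.mk_add_mk, Prod.mk.injEq] at hj
    obtain ⟨h1, h2⟩ := hj
    have ha := a.2
    have hb := b.2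
    have hj0 : j = 0 := by
      by_contra hne
      have hDpos : (0 : ℤ) < D := by exact_mod_cast hD
      rcases lt_or_gt_of_ne hne with h | h
      · have : j * (D : ℤ) ≤ -1 * D := mul_le_mul_of_nonneg_right (by omega) hDpos.le
        omega
      · have : 1 * (D : ℤ) ≤ j * D := mul_le_mul_of_nonneg_right (by omega) hDpos.le
        omega
    subst hj0
    have h3 : (b : ℕ) = (a : ℕ) := by
      have : -((a : ℕ) : ℤ) + ((b : ℕ) : ℤ) = 0 := by simpa using h2
      omega
    have h4 : g = g' := by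
      have : -g + g' = 0 := by simpa using h1
      exact (neg_add_eq_zero.1 this)
    exact Prod.ext h4 (Fin.ext h3.symm)
  · intro x
    obtain ⟨⟨g, k⟩, rfl⟩ := QuotientAddGroup.mk_surjective x
    have hDpos : (0 : ℤ) < D := by exact_mod_cast hD
    have h1 := Int.emod_nonneg k hDpos.ne'
    have h2 := Int.emod_lt_of_pos k hDpos
    refine ⟨(g - (k / D) • γ, ⟨(k % D).toNat, by omega⟩), ?_⟩
    unfold rep
    rw [QuotientAddGroup.eq, mem_Ng]
    refine ⟨k / D, ?_⟩
    have h3 : (((k % D).toNat : ℕ) : ℤ) = k % D := by omega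
    have h4 := Int.emod_add_mul_ediv k D
    ext
    · simp
    · simp only [Prod.neg_mk, Prod.mk_add_mk, h3]
      linarith [h4, mul_comm (D : ℤ) (k / D)]

/-- the homomorphism -/
def hom (ψ : X →+ G) (γ : G) (D : ℕ) : X × ℤ →+ (G × ℤ) ⧸ (Ng γ D) :=
  (QuotientAddGroup.mk' (Ng γ D)).comp (ψ.prodMap (AddMonoidHom.id ℤ))

theorem hom_apply (ψ : X →+ G) (γ : G) (D : ℕ) (x : X) (k : ℤ) :
    hom ψ γ D (x, k) = QuotientAddGroup.mk (ψ x, k) := rfl

theorem hom_surj {ψ : X →+ G} (hψ : Function.Surjective ψ) (γ : G) (D : ℕ) :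
    Function.Surjective (hom ψ γ D) := by
  intro y
  obtain ⟨⟨g, k⟩, rfl⟩ := QuotientAddGroup.mk_surjective y
  obtain ⟨x, rfl⟩ := hψ g
  exact ⟨(x, k), rfl⟩

theorem hom_eq_rep (ψ : X →+ G) (γ : G) (D : ℕ) (x : X) (k : ℤ) (p : G × Fin D) :
    hom ψ γ D (x, k) = rep γ D p ↔
      ∃ j : ℤ, ψ x = p.1 + j • γ ∧ k = ((p.2 : ℕ) : ℤ) + j * D := by
  rw [hom_apply]
  unfold rep
  rw [eq_comm, QuotientAddGroup.eq, mem_Ng]
  simp only [Prod.neg_mk, Prod.mk_add_mk, Prod.mk.injEq]
  refine exists_congr fun j => ?_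
  constructor
  · rintro ⟨h1, h2⟩
    exact ⟨by rw [← h1]; abel, by rw [← h2]; ring⟩
  · rintro ⟨h1, h2⟩
    exact ⟨by rw [h1]; abel, by rw [h2]; ring⟩

end SquareAux

open SquareAux

/-- choice of the shift `γ` -/
theorem squaring_hom {X G : Type} [AddCommGroup X] [AddCommGroup G] [Finite G] (ψ : X →+ G)
    {D : ℕ} (hD : 1 ≤ D) {ι : Type} [Finite ι]
    (A : ι → Set (X × ℤ)) {β : ℝ}
    (hβ : ∀ i, ∃ k₀ : ℤ, ∀ j : ℕ, j < 2 * D → unc ψ {x | (x, k₀ + (j : ℤ)) ∈ A i} ≤ β) :
    ∃ γ : G, Nat.card ((G × ℤ) ⧸ (Ng γ D)) = Nat.card G * D ∧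
      ∀ i, unc (hom ψ γ D) (A i) ≤ Nat.card ι * β ^ 2 := by
  classical
  haveI : Fintype G := Fintype.ofFinite G
  haveI : Fintype ι := Fintype.ofFinite ι
  have hDpos : (0 : ℤ) < D := by exact_mod_cast hD
  -- uncovered sets of a slice
  let U : ι → ℤ → Finset G := fun i k => Finset.univ.filter (fun g => ∀ x, (x, k) ∈ A i → ψ x ≠ g)
  have hG : (0 : ℝ) < Fintype.card G := by exact_mod_cast Fintype.card_pos
  have hU : ∀ i k, unc ψ {x | (x, k) ∈ A i} = ((U i k).card : ℝ) / Fintype.card G := by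
    intro i k
    unfold unc
    rw [Nat.card_eq_fintype_card, Nat.card_eq_fintype_card, Fintype.card_subtype]
    rfl
  -- bad pairs
  let bad : G → ι → Finset (G × Fin D) := fun γ i => Finset.univ.filter
    (fun p => ∀ x k, (x, k) ∈ A i → ¬ ∃ j : ℤ, ψ x = p.1 + j • γ ∧ k = ((p.2 : ℕ) : ℤ) + j * D)
  have hcard : ∀ γ : G, Nat.card ((G × ℤ) ⧸ (Ng γ D)) = Fintype.card G * D := by
    intro γ
    rw [← Nat.card_congr (Equiv.ofBijective _ (rep_bij γ hD)), Nat.card_eq_fintype_card]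
    simp
  have hunc : ∀ γ i, unc (hom ψ γ D) (A i) = ((bad γ i).card : ℝ) / (Fintype.card G * D) := by
    intro γ i
    unfold unc
    rw [hcard γ]
    have : Nat.card {g : (G × ℤ) ⧸ (Ng γ D) // ∀ x ∈ A i, hom ψ γ D x ≠ g} = (bad γ i).card := by
      rw [← Nat.card_eq_finsetCard]
      refine Nat.card_congr ?_
      refine (Equiv.subtypeEquiv (Equiv.ofBijective _ (rep_bij γ hD)) ?_).symm
      intro p
      simp only [bad, Finset.mem_filter, Finset.mem_univ, true_and, Equiv.ofBijective_apply]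
      constructor
      · rintro h ⟨x, k⟩ hx heq
        exact h x k hx ((hom_eq_rep ψ γ D x k p).1 heq)
      · intro h x k hx hj
        exact h (x, k) hx ((hom_eq_rep ψ γ D x k p).2 hj)
    rw [this]
    push_cast
    rfl
  -- key count
  have key : ∀ i, (∑ γ, ((bad γ i).card : ℝ)) ≤ D * (β ^ 2 * (Fintype.card G : ℝ) ^ 2) := by
    intro i
    obtain ⟨k₀, hk₀⟩ := hβ i
    have hβ0 : 0 ≤ β := by
      refine le_trans ?_ (hk₀ 0 (by omega))
      unfold unc
      positivity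
    have hUle : ∀ j : ℕ, j < 2 * D → ((U i (k₀ + j)).card : ℝ) ≤ β * Fintype.card G := by
      intro j hj
      have := hk₀ j hj
      rw [hU, div_le_iff₀ hG] at this
      exact this
    -- the layer index
    let jj : Fin D → ℤ := fun a => -((((a : ℕ) : ℤ) - k₀) / D)
    have hjj : ∀ a : Fin D, k₀ ≤ ((a : ℕ) : ℤ) + jj a * D ∧ ((a : ℕ) : ℤ) + jj a * D < k₀ + D := by
      intro a
      have h1 := Int.emod_nonneg (((a : ℕ) : ℤ) - k₀) hDpos.ne'
      have h2 := Int.emod_lt_of_pos (((a : ℕ) : ℤ) - k₀) hDpos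
      have h3 := Int.emod_add_mul_ediv (((a : ℕ) : ℤ) - k₀) D
      have h4 : jj a * D = -((D : ℤ) * ((((a : ℕ) : ℤ) - k₀) / D)) := by
        simp only [jj]; ring
      rw [h4]
      constructor <;> linarith
    have hlay : ∀ a : Fin D, ∑ γ : G, (((Finset.univ.filter (fun g : G => (g, a) ∈ bad γ i)).card : ℕ) : ℝ)
        ≤ β ^ 2 * (Fintype.card G : ℝ) ^ 2 := by
      intro a
      obtain ⟨h1, h2⟩ := hjj a
      set k₁ := ((a : ℕ) : ℤ) + jj a * D with hk₁
      -- natural indices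
      obtain ⟨r, hr⟩ := Int.eq_ofNat_of_zero_le (sub_nonneg.2 h1)
      have hr1 : k₁ = k₀ + (r : ℤ) := by
        have : (Int.ofNat r) = (r : ℤ) := rfl
        omega
      have hr2 : r < D := by omega
      have hb1 := hUle r (by omega)
      have hb2 := hUle (r + D) (by omega)
      rw [← hr1] at hb1
      have hk2 : k₀ + ((r + D : ℕ) : ℤ) = k₁ + D := by push_cast; omega
      rw [hk2] at hb2
      -- the union as a finset of pairs
      have hsum : ∑ γ : G, (((Finset.univ.filter (fun g : G => (g, a) ∈ bad γ i)).card : ℕ) : ℝ) =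
          (((Finset.univ : Finset (G × G)).filter (fun p => (p.2, a) ∈ bad p.1 i)).card : ℝ) := by
        rw [← Nat.cast_sum]
        congr 1
        rw [← Finset.univ_product_univ, Finset.card_filter, Finset.sum_product]
        refine Finset.sum_congr rfl fun γ _ => ?_
        rw [Finset.card_filter]
      rw [hsum]
      have hinj : (((Finset.univ : Finset (G × G)).filter (fun p => (p.2, a) ∈ bad p.1 i)).card) ≤
          ((U i k₁) ×ˢ (U i (k₁ + D))).card := by
        refine Finset.card_le_card_of_injOn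
          (fun p => (p.2 + jj a • p.1, p.2 + (jj a + 1) • p.1)) ?_ ?_
        · rintro ⟨γ, g⟩ hp
          simp only [bad, Finset.coe_filter, Finset.mem_filter, Finset.mem_univ, true_and,
            Set.mem_setOf_eq] at hp
          simp only [Finset.coe_product, Set.mem_prod, Finset.mem_coe, U, Finset.mem_filter,
            Finset.mem_univ, true_and]
          constructor
          · intro x hx heq
            exact hp x _ hx ⟨jj a, heq, rfl⟩
          · intro x hx heq
            exact hp x _ hx ⟨jj a + 1, heq, by rw [hk₁]; ring⟩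
        · rintro ⟨γ, g⟩ _ ⟨γ', g'⟩ _ h
          simp only [Prod.mk.injEq] at h
          obtain ⟨e1, e2⟩ := h
          rw [add_smul, add_smul, one_smul, one_smul, ← add_assoc, ← add_assoc, e1] at e2
          have e3 : γ = γ' := add_left_cancel e2
          subst e3
          have e4 : g = g' := add_right_cancel e1
          rw [e4]
      calc (((Finset.univ : Finset (G × G)).filter (fun p => (p.2, a) ∈ bad p.1 i)).card : ℝ)
          ≤ (((U i k₁) ×ˢ (U i (k₁ + D))).card : ℝ) := by exact_mod_cast hinj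
        _ = ((U i k₁).card : ℝ) * ((U i (k₁ + D)).card : ℝ) := by
            rw [Finset.card_product]; push_cast; rfl
        _ ≤ (β * Fintype.card G) * (β * Fintype.card G) := by
            refine mul_le_mul hb1 hb2 (by positivity) (by positivity)
        _ = β ^ 2 * (Fintype.card G : ℝ) ^ 2 := by ring
    have hsplit : ∀ γ : G, ((bad γ i).card : ℝ) =
        ∑ a : Fin D, (((Finset.univ.filter (fun g : G => (g, a) ∈ bad γ i)).card : ℕ) : ℝ) := by
      intro γ
      rw [← Nat.cast_sum]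
      congr 1
      have : (bad γ i).card = ((Finset.univ : Finset (G × Fin D)).filter
          (fun p => p ∈ bad γ i)).card := by
        rw [Finset.filter_mem_eq_inter, Finset.univ_inter]
      rw [this, ← Finset.univ_product_univ, Finset.card_filter, Finset.sum_product_right]
      refine Finset.sum_congr rfl fun a _ => ?_
      rw [Finset.card_filter]
    simp_rw [hsplit]
    rw [Finset.sum_comm]
    calc ∑ a : Fin D, ∑ γ : G, (((Finset.univ.filter (fun g : G => (g, a) ∈ bad γ i)).card : ℕ) : ℝ)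
        ≤ ∑ a : Fin D, β ^ 2 * (Fintype.card G : ℝ) ^ 2 := Finset.sum_le_sum fun a _ => hlay a
      _ = D * (β ^ 2 * (Fintype.card G : ℝ) ^ 2) := by simp
  have hDr : (0 : ℝ) < D := by exact_mod_cast hD
  have hsumunc : ∑ γ : G, ∑ i, unc (hom ψ γ D) (A i) ≤
      ∑ _γ : G, (Fintype.card ι : ℝ) * β ^ 2 := by
    rw [Finset.sum_comm]
    calc ∑ i, ∑ γ : G, unc (hom ψ γ D) (A i)
        ≤ ∑ _i : ι, (Fintype.card G : ℝ) * β ^ 2 := by
          refine Finset.sum_le_sum fun i _ => ?_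
          simp_rw [hunc]
          rw [← Finset.sum_div, div_le_iff₀ (by positivity)]
          refine (key i).trans (le_of_eq ?_)
          ring
      _ = ∑ _γ : G, (Fintype.card ι : ℝ) * β ^ 2 := by
          simp only [Finset.sum_const, Finset.card_univ, nsmul_eq_mul]
          ring
  obtain ⟨γ, _, hγ⟩ := Finset.exists_le_of_sum_le (Finset.univ_nonempty) hsumunc
  refine ⟨γ, ?_, ?_⟩
  · rw [hcard γ, Nat.card_eq_fintype_card]
  · intro i
    rw [Nat.card_eq_fintype_card]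
    refine le_trans ?_ hγ
    refine Finset.single_le_sum (f := fun i => unc (hom ψ γ D) (A i)) (fun j _ => ?_)
      (Finset.mem_univ i)
    unfold unc
    positivity

theorem squaring {X G : Type} [AddCommGroup X] [AddCommGroup G] [Finite G] (ψ : X →+ G)
    (hψ : Function.Surjective ψ) {D : ℕ} (hD : 1 ≤ D) {ι : Type} [Finite ι]
    (A : ι → Set (X × ℤ)) {β : ℝ}
    (hβ : ∀ i, ∃ k₀ : ℤ, ∀ j : ℕ, j < 2 * D → unc ψ {x | (x, k₀ + (j : ℤ)) ∈ A i} ≤ β) :
    ∃ (G' : Type) (_ : AddCommGroup G') (_ : Finite G') (ψ' : X × ℤ →+ G'),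
      Function.Surjective ψ' ∧ Nat.card G' = Nat.card G * D ∧
      ∀ i, unc ψ' (A i) ≤ Nat.card ι * β ^ 2 := by
  obtain ⟨γ, h1, h2⟩ := squaring_hom ψ hD A hβ
  exact ⟨(G × ℤ) ⧸ (Ng γ D), inferInstance,
    Finite.of_equiv _ (Equiv.ofBijective _ (rep_bij γ hD)), hom ψ γ D, hom_surj hψ γ D, h1, h2⟩

/-- squaring, with information on the kernel -/
theorem squaring2 {X G : Type} [AddCommGroup X] [AddCommGroup G] [Finite G] (ψ : X →+ G)
    (hψ : Function.Surjective ψ) {D : ℕ} (hD : 1 ≤ D) {ι : Type} [Finite ι]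
    (A : ι → Set (X × ℤ)) {β : ℝ}
    (hβ : ∀ i, ∃ k₀ : ℤ, ∀ j : ℕ, j < 2 * D → unc ψ {x | (x, k₀ + (j : ℤ)) ∈ A i} ≤ β) :
    ∃ (G' : Type) (_ : AddCommGroup G') (_ : Finite G') (ψ' : X × ℤ →+ G'),
      Function.Surjective ψ' ∧ Nat.card G' = Nat.card G * D ∧
      (∀ i, unc ψ' (A i) ≤ Nat.card ι * β ^ 2) ∧
      (∀ x, ψ x = 0 → ψ' (x, 0) = 0) ∧
      (∀ x k, ψ' (x, k) = 0 → |k| < (D : ℤ) → k = 0 ∧ ψ x = 0) := by
  obtain ⟨γ, h1, h2⟩ := squaring_hom ψ hD A hβ
  refine ⟨(G × ℤ) ⧸ (Ng γ D), inferInstance,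
    Finite.of_equiv _ (Equiv.ofBijective _ (rep_bij γ hD)), hom ψ γ D, hom_surj hψ γ D, h1, h2,
    ?_, ?_⟩
  · intro x hx
    rw [hom_apply, hx]
    rfl
  · intro x k h hk
    rw [hom_apply, QuotientAddGroup.eq_zero_iff, mem_Ng] at h
    obtain ⟨j, hj⟩ := h
    rw [Prod.mk.injEq] at hj
    obtain ⟨e1, e2⟩ := hj
    have hDpos : (0 : ℤ) < D := by exact_mod_cast hD
    have hj0 : j = 0 := by
      by_contra hne
      have h3 : (1 : ℤ) ≤ |j| := Int.one_le_abs hne
      rw [e2, abs_mul, abs_of_pos hDpos] at hk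
      nlinarith
    subst hj0
    exact ⟨by simpa using e2, by simpa using e1⟩

end Vale.Agent.P230
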