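import Mathlib
import Vale.Agent.P230.Defs

/-!
# P230, module YOUNG, one-dimensional part

Young's convolution inequality on the real line with a constant smaller than one, for the
exponents `3/2, 3/2, 3/2`.
-/

namespace Vale.Agent.P230

open MeasureTheory Set Filter Topology
open scoped ENNReal

namespace Yg

/-- quantiles of a probability measure without atoms on the line -/
theorem exists_quantile (ν : Measure ℝ) [NullSingletonClass ν] [IsProbabilityMeasure ν] (c : ℝ≥0∞)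
    (h0 : 0 < c) (h1 : c < 1) : ∃ t, ν (Iic t) = c := by
  set T : Set ℝ := {t | ν (Iic t) ≤ c} with hT
  have hmono : Monotone (fun t : ℝ => ν (Iic t)) := fun a b hab => measure_mono (Iic_subset_Iic.2 hab)
  have hne : T.Nonempty := by
    have h : Tendsto (fun n : ℕ => ν (Iic (-(n : ℝ)))) atTop (𝓝 (ν (⋂ n : ℕ, Iic (-(n : ℝ))))) := by
      apply tendsto_measure_iInter_atTop
      · intro n; exact measurableSet_Iic.nullMeasurableSet
      · intro a b hab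
        exact Iic_subset_Iic.2 (neg_le_neg (by exact_mod_cast hab))
      · exact ⟨0, measure_ne_top _ _⟩
    have he : (⋂ n : ℕ, Iic (-(n : ℝ))) = (∅ : Set ℝ) := by
      ext x
      simp only [mem_iInter, mem_Iic, mem_empty_iff_false, iff_false, not_forall, not_le]
      obtain ⟨n, hn⟩ := exists_nat_gt (-x)
      exact ⟨n, by linarith⟩
    rw [he, measure_empty] at h
    obtain ⟨n, hn⟩ := (h.eventually (gt_mem_nhds h0)).exists
    exact ⟨-(n : ℝ), le_of_lt hn⟩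
  have hbd : BddAbove T := by
    have h := tendsto_measure_Iic_atTop ν
    rw [measure_univ] at h
    obtain ⟨b, hb⟩ := (h.eventually (lt_mem_nhds h1)).exists
    refine ⟨b, fun t ht => ?_⟩
    by_contra hlt
    push Not at hlt
    have := hmono hlt.le
    exact absurd (lt_of_lt_of_le hb this) (not_lt.2 ht)
  refine ⟨sSup T, le_antisymm ?_ ?_⟩
  · have h1 : ν (Iic (sSup T)) = ν (Iio (sSup T)) := (measure_congr Iio_ae_eq_Iic).symm
    rw [h1]
    have h2 : Iio (sSup T) = ⋃ n : ℕ, Iic (sSup T - 1 / ((n : ℝ) + 1)) := by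
      ext x
      simp only [mem_Iio, mem_iUnion, mem_Iic]
      constructor
      · intro hx
        obtain ⟨n, hn⟩ := exists_nat_one_div_lt (sub_pos.2 hx)
        exact ⟨n, by linarith⟩
      · rintro ⟨n, hn⟩
        have : (0 : ℝ) < 1 / ((n : ℝ) + 1) := by positivity
        linarith
    rw [h2]
    have h3 : Monotone (fun n : ℕ => Iic (sSup T - 1 / ((n : ℝ) + 1))) := by
      intro a b hab
      apply Iic_subset_Iic.2
      have : 1 / ((b : ℝ) + 1) ≤ 1 / ((a : ℝ) + 1) := by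
        apply one_div_le_one_div_of_le (by positivity)
        have : (a : ℝ) ≤ b := by exact_mod_cast hab
        linarith
      linarith
    rw [h3.measure_iUnion]
    apply iSup_le
    intro n
    have hlt : sSup T - 1 / ((n : ℝ) + 1) < sSup T := by
      have : (0 : ℝ) < 1 / ((n : ℝ) + 1) := by positivity
      linarith
    obtain ⟨t, ht, hlt'⟩ := exists_lt_of_lt_csSup hne hlt
    exact le_trans (hmono hlt'.le) ht
  · have h2 : Iic (sSup T) = ⋂ n : ℕ, Iic (sSup T + 1 / ((n : ℝ) + 1)) := by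
      ext x
      simp only [mem_iInter, mem_Iic]
      constructor
      · intro hx n
        have : (0 : ℝ) < 1 / ((n : ℝ) + 1) := by positivity
        linarith
      · intro hx
        by_contra hlt
        push Not at hlt
        obtain ⟨n, hn⟩ := exists_nat_one_div_lt (sub_pos.2 hlt)
        have := hx n
        linarith
    have h : Tendsto (fun n : ℕ => ν (Iic (sSup T + 1 / ((n : ℝ) + 1)))) atTop
        (𝓝 (ν (⋂ n : ℕ, Iic (sSup T + 1 / ((n : ℝ) + 1))))) := by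
      apply tendsto_measure_iInter_atTop
      · intro n; exact measurableSet_Iic.nullMeasurableSet
      · intro a b hab
        apply Iic_subset_Iic.2
        have : 1 / ((b : ℝ) + 1) ≤ 1 / ((a : ℝ) + 1) := by
          apply one_div_le_one_div_of_le (by positivity)
          have : (a : ℝ) ≤ b := by exact_mod_cast hab
          linarith
        linarith
      · exact ⟨0, measure_ne_top _ _⟩
    rw [h2]
    apply ge_of_tendsto h
    filter_upwards with n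
    have hgt : sSup T < sSup T + 1 / ((n : ℝ) + 1) := by
      have : (0 : ℝ) < 1 / ((n : ℝ) + 1) := by positivity
      linarith
    by_contra hlt
    push Not at hlt
    exact absurd (le_csSup hbd (show _ ∈ T from hlt.le)) (not_le.2 hgt)

/-- the real inequality behind the splitting -/
theorem real_split (a : ℝ) (h0 : 0 ≤ a) (h1 : a ≤ 1) (h : a ≤ 1 / 4 ∨ 3 / 4 ≤ a) :
    a ^ (1 / 2 : ℝ) * (1 / 2 : ℝ) ^ (1 / 2 : ℝ) + (1 - a) ^ (1 / 2 : ℝ) * (1 / 2 : ℝ) ^ (1 / 2 : ℝ)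
      ≤ 0.966 := by
  rw [← Real.sqrt_eq_rpow, ← Real.sqrt_eq_rpow, ← Real.sqrt_eq_rpow]
  set u := Real.sqrt a
  set v := Real.sqrt (1 - a)
  set w := Real.sqrt (1 / 2)
  have hu : u ^ 2 = a := Real.sq_sqrt h0
  have hv : v ^ 2 = 1 - a := Real.sq_sqrt (by linarith)
  have hw : w ^ 2 = 1 / 2 := Real.sq_sqrt (by norm_num)
  have hu0 : 0 ≤ u := Real.sqrt_nonneg _
  have hv0 : 0 ≤ v := Real.sqrt_nonneg _
  have hw0 : 0 ≤ w := Real.sqrt_nonneg _
  have huv : (u * v) ^ 2 ≤ 3 / 16 := by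
    rw [mul_pow, hu, hv]
    rcases h with h | h <;> nlinarith
  have huv1 : u * v ≤ 0.4331 := by
    by_contra hlt
    push Not at hlt
    nlinarith
  have hsum : (u + v) ^ 2 ≤ 1.8662 := by nlinarith
  have : ((u + v) * w) ^ 2 ≤ 0.9331 := by
    rw [mul_pow, hw]; linarith
  have h3 : (u + v) * w ≤ 0.966 := by
    by_contra hlt
    push Not at hlt
    nlinarith
  linarith

/-- Cauchy-Schwarz on a set -/
theorem cs_set (G H : ℝ → ℝ≥0∞) (hG : Measurable G) (hH : Measurable H) (A : Set ℝ) :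
    ∫⁻ y in A, (G y * H y) ^ (1 / 2 : ℝ)
      ≤ (∫⁻ y in A, G y) ^ (1 / 2 : ℝ) * (∫⁻ y in A, H y) ^ (1 / 2 : ℝ) := by
  have h := ENNReal.lintegral_mul_le_Lp_mul_Lq (volume.restrict A)
    (Real.HolderConjugate.two_two) (f := fun y => G y ^ (1 / 2 : ℝ))
    (g := fun y => H y ^ (1 / 2 : ℝ)) (hG.pow_const _).aemeasurable (hH.pow_const _).aemeasurable
  have e1 : ∀ x : ℝ≥0∞, (x ^ (1 / 2 : ℝ)) ^ (2 : ℝ) = x := by
    intro x
    rw [← ENNReal.rpow_mul]; norm_num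
  simp only [e1] at h
  refine le_trans (le_of_eq ?_) h
  apply lintegral_congr
  intro y
  simp only [Pi.mul_apply]
  exact ENNReal.mul_rpow_of_nonneg _ _ (by norm_num)

/-- Bhattacharyya coefficient at most one -/
theorem bc_le_one (G H : ℝ → ℝ≥0∞) (hG : Measurable G) (hH : Measurable H)
    (hG1 : ∫⁻ y, G y = 1) (hH1 : ∫⁻ y, H y = 1) :
    ∫⁻ y, (G y * H y) ^ (1 / 2 : ℝ) ≤ 1 := by
  have h := cs_set G H hG hH univ
  simpa [hG1, hH1] using h

/-- Bhattacharyya coefficient when a set separates -/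
theorem bc_split (G H : ℝ → ℝ≥0∞) (hG : Measurable G) (hH : Measurable H)
    (hG1 : ∫⁻ y, G y = 1) (hH1 : ∫⁻ y, H y = 1) (A : Set ℝ) (hA : MeasurableSet A)
    (hHA : ∫⁻ y in A, H y = 1 / 2)
    (hGA : ∫⁻ y in A, G y ≤ 1 / 4 ∨ 3 / 4 ≤ ∫⁻ y in A, G y) :
    ∫⁻ y, (G y * H y) ^ (1 / 2 : ℝ) ≤ ENNReal.ofReal 0.966 := by
  rw [← lintegral_add_compl _ hA]
  have hGc : ∫⁻ y in Aᶜ, G y = 1 - ∫⁻ y in A, G y := by
    have := lintegral_add_compl G hA (μ := volume)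
    rw [hG1] at this
    rw [← this, ENNReal.add_sub_cancel_left]
    refine ne_top_of_le_ne_top ENNReal.one_ne_top ?_
    rw [← this]; exact le_self_add
  have hHc : ∫⁻ y in Aᶜ, H y = 1 / 2 := by
    have := lintegral_add_compl H hA (μ := volume)
    rw [hH1, hHA] at this
    have h2 : (1 : ℝ≥0∞) / 2 + 1 / 2 = 1 := by simp [ENNReal.inv_two_add_inv_two]
    have h3 : (1 : ℝ≥0∞) / 2 + ∫⁻ y in Aᶜ, H y = 1 / 2 + 1 / 2 := this.trans h2.symm
    exact (ENNReal.add_right_inj (a := (1 : ℝ≥0∞) / 2) (by simp)).1 h3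
  have hle : ∫⁻ y in A, G y ≤ 1 := by
    rw [← hG1]; exact setLIntegral_le_lintegral _ _
  set α := (∫⁻ y in A, G y).toReal with hα
  have hαe : ∫⁻ y in A, G y = ENNReal.ofReal α :=
    (ENNReal.ofReal_toReal (ne_top_of_le_ne_top ENNReal.one_ne_top hle)).symm
  have hα0 : 0 ≤ α := ENNReal.toReal_nonneg
  have hα1 : α ≤ 1 := by
    have := ENNReal.toReal_mono ENNReal.one_ne_top hle
    simpa using this
  have hα' : α ≤ 1 / 4 ∨ 3 / 4 ≤ α := by
    rcases hGA with h | h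
    · left
      have := ENNReal.toReal_mono (by norm_num) h
      simpa using this
    · right
      have := ENNReal.toReal_mono (ne_top_of_le_ne_top ENNReal.one_ne_top hle) h
      have e : ((3 : ℝ≥0∞) / 4).toReal = 3 / 4 := by simp
      rw [e] at this
      exact this
  refine le_trans (add_le_add (cs_set G H hG hH A) (cs_set G H hG hH Aᶜ)) ?_
  rw [hGc, hHc, hHA, hαe]
  have e1 : (1 : ℝ≥0∞) - ENNReal.ofReal α = ENNReal.ofReal (1 - α) := by
    rw [ENNReal.ofReal_sub _ hα0, ENNReal.ofReal_one]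
  have e2 : (1 / 2 : ℝ≥0∞) = ENNReal.ofReal (1 / 2) := by
    rw [ENNReal.ofReal_div_of_pos (by norm_num)]; simp
  have hβ0 : 0 ≤ 1 - α := by linarith
  have h20 : (0 : ℝ) ≤ 1 / 2 := by norm_num
  rw [e1, e2, ENNReal.ofReal_rpow_of_nonneg hα0 h20,
    ENNReal.ofReal_rpow_of_nonneg hβ0 h20,
    ENNReal.ofReal_rpow_of_nonneg h20 h20,
    ← ENNReal.ofReal_mul (Real.rpow_nonneg hα0 _),
    ← ENNReal.ofReal_mul (Real.rpow_nonneg hβ0 _),
    ← ENNReal.ofReal_add (mul_nonneg (Real.rpow_nonneg hα0 _) (Real.rpow_nonneg h20 _))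
      (mul_nonneg (Real.rpow_nonneg hβ0 _) (Real.rpow_nonneg h20 _))]
  exact ENNReal.ofReal_le_ofReal (real_split α hα0 hα1 hα')

/-- an open interval of length at most the distance of the quartiles has mass at most 3/4 -/
theorem mass_interval (ν : Measure ℝ) [NullSingletonClass ν] [IsProbabilityMeasure ν]
    (a₁ a₂ u v : ℝ) (h1 : ν (Iic a₁) = 1 / 4) (h2 : ν (Iic a₂) = 3 / 4) (huv : v - u ≤ a₂ - a₁) :
    ν (Ioo u v) ≤ 3 / 4 := by
  rcases le_or_gt a₁ u with h | h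
  · have hs : Ioo u v ⊆ (Iic a₁)ᶜ := by
      intro x hx
      simp only [mem_compl_iff, mem_Iic, not_le]
      exact lt_of_le_of_lt h hx.1
    refine le_trans (measure_mono hs) ?_
    rw [measure_compl measurableSet_Iic (measure_ne_top _ _), measure_univ, h1]
    have h34 : (3 : ℝ≥0∞) / 4 + 1 / 4 = 1 := by
      rw [← ENNReal.add_div]
      norm_num
      rw [ENNReal.div_self (by norm_num) (by norm_num)]
    rw [tsub_le_iff_right, h34]
  · have hs : Ioo u v ⊆ Iic a₂ := by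
      intro x hx
      simp only [mem_Iic]
      have := hx.2
      linarith
    refine le_trans (measure_mono hs) ?_
    rw [h2]

/-- the main one-dimensional estimate for densities -/
theorem bc_avg (F G H : ℝ → ℝ≥0∞) (hF : Measurable F) (hG : Measurable G) (hH : Measurable H)
    (hF1 : ∫⁻ y, F y = 1) (hG1 : ∫⁻ y, G y = 1) (hH1 : ∫⁻ y, H y = 1)
    (a₁ a₂ b₁ b₂ : ℝ) (ha1 : ∫⁻ y in Iic a₁, F y = 1 / 4) (ha2 : ∫⁻ y in Iic a₂, F y = 3 / 4)
    (hb1 : ∫⁻ y in Iic b₁, G y = 1 / 4) (hb2 : ∫⁻ y in Iic b₂, G y = 3 / 4)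
    (hab : b₂ - b₁ ≤ a₂ - a₁) :
    ∫⁻ x, F x * ∫⁻ y, (G y * H (x + y)) ^ (1 / 2 : ℝ) ≤ ENNReal.ofReal 0.9915 := by
  set νH := (volume : Measure ℝ).withDensity H with hνH
  set νF := (volume : Measure ℝ).withDensity F with hνF
  have : IsProbabilityMeasure νH := ⟨by rw [hνH, withDensity_apply _ MeasurableSet.univ]; simpa using hH1⟩
  have : IsProbabilityMeasure νF := ⟨by rw [hνF, withDensity_apply _ MeasurableSet.univ]; simpa using hF1⟩
  have : NullSingletonClass νH := ⟨fun x => by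
    rw [hνH, withDensity_apply _ (measurableSet_singleton x)]; simp⟩
  have : NullSingletonClass νF := ⟨fun x => by
    rw [hνF, withDensity_apply _ (measurableSet_singleton x)]; simp⟩
  obtain ⟨m, hm⟩ := exists_quantile νH (1 / 2) (by simp) (by
    rw [ENNReal.div_lt_iff (by norm_num) (by norm_num)]; norm_num)
  rw [hνH, withDensity_apply _ measurableSet_Iic] at hm
  -- the bound for x outside the interval
  have hHx : ∀ x : ℝ, ∫⁻ y, H (x + y) = 1 := by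
    intro x
    rw [← hH1]
    exact lintegral_add_left_eq_self H x
  have hHm : ∀ x : ℝ, ∫⁻ y in Iic (m - x), H (x + y) = 1 / 2 := by
    intro x
    rw [← hm]
    rw [← lintegral_indicator measurableSet_Iic, ← lintegral_indicator measurableSet_Iic]
    refine Eq.trans ?_ (lintegral_add_left_eq_self (indicator (Iic m) H) x)
    apply lintegral_congr
    intro y
    by_cases hy : y ≤ m - x
    · rw [indicator_of_mem (by exact hy), indicator_of_mem]
      rw [mem_Iic]; linarith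
    · rw [indicator_of_notMem (by exact hy), indicator_of_notMem]
      rw [mem_Iic]; intro h; apply hy; linarith
  have hout : ∀ x : ℝ, x ∉ Ioo (m - b₂) (m - b₁) →
      ∫⁻ y, (G y * H (x + y)) ^ (1 / 2 : ℝ) ≤ ENNReal.ofReal 0.966 := by
    intro x hx
    refine bc_split G (fun y => H (x + y)) hG (by fun_prop) hG1 (hHx x) (Iic (m - x))
      measurableSet_Iic (hHm x) ?_
    simp only [mem_Ioo, not_and_or, not_lt] at hx
    rcases hx with hx | hx
    · right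
      rw [← hb2]
      exact lintegral_mono_set (Iic_subset_Iic.2 (by linarith))
    · left
      rw [← hb1]
      exact lintegral_mono_set (Iic_subset_Iic.2 (by linarith))
  have hin : ∀ x : ℝ, ∫⁻ y, (G y * H (x + y)) ^ (1 / 2 : ℝ) ≤ 1 := fun x =>
    bc_le_one G (fun y => H (x + y)) hG (by fun_prop) hG1 (hHx x)
  set I := Ioo (m - b₂) (m - b₁) with hI
  have hIm : MeasurableSet I := measurableSet_Ioo
  have hmass : ∫⁻ x in I, F x ≤ 3 / 4 := by
    have := mass_interval νF a₁ a₂ (m - b₂) (m - b₁)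
      (by rw [hνF, withDensity_apply _ measurableSet_Iic, ha1])
      (by rw [hνF, withDensity_apply _ measurableSet_Iic, ha2]) (by linarith)
    rwa [hνF, withDensity_apply _ measurableSet_Ioo] at this
  have hpt : ∀ x, F x * ∫⁻ y, (G y * H (x + y)) ^ (1 / 2 : ℝ)
      ≤ ENNReal.ofReal 0.966 * F x + ENNReal.ofReal 0.034 * I.indicator F x := by
    intro x
    by_cases hx : x ∈ I
    · rw [indicator_of_mem hx, ← add_mul, ← ENNReal.ofReal_add (by norm_num) (by norm_num)]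
      norm_num
      calc F x * ∫⁻ y, (G y * H (x + y)) ^ (1 / 2 : ℝ) ≤ F x * 1 := by gcongr; exact hin x
        _ = F x := mul_one _
    · rw [indicator_of_notMem hx, mul_zero, add_zero, mul_comm]
      gcongr
      exact hout x hx
  refine le_trans (lintegral_mono hpt) ?_
  rw [lintegral_add_left (by fun_prop), lintegral_const_mul _ hF, lintegral_const_mul _
    (hF.indicator hIm), lintegral_indicator hIm, hF1, mul_one]
  have h34 : (3 / 4 : ℝ≥0∞) = ENNReal.ofReal (3 / 4) := by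
    rw [ENNReal.ofReal_div_of_pos (by norm_num)]; simp
  calc ENNReal.ofReal 0.966 + ENNReal.ofReal 0.034 * ∫⁻ x in I, F x
      ≤ ENNReal.ofReal 0.966 + ENNReal.ofReal 0.034 * ENNReal.ofReal (3 / 4) := by
        gcongr; rw [← h34]; exact hmass
    _ = ENNReal.ofReal 0.9915 := by
        rw [← ENNReal.ofReal_mul (by norm_num), ← ENNReal.ofReal_add (by norm_num) (by norm_num)]
        norm_num

/-- the product inequality for densities, under the quartile assumption -/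
theorem young_density_aux (F G H : ℝ → ℝ≥0∞) (hF : Measurable F) (hG : Measurable G)
    (hH : Measurable H)
    (hF1 : ∫⁻ y, F y = 1) (hG1 : ∫⁻ y, G y = 1) (hH1 : ∫⁻ y, H y = 1)
    (a₁ a₂ b₁ b₂ : ℝ) (ha1 : ∫⁻ y in Iic a₁, F y = 1 / 4) (ha2 : ∫⁻ y in Iic a₂, F y = 3 / 4)
    (hb1 : ∫⁻ y in Iic b₁, G y = 1 / 4) (hb2 : ∫⁻ y in Iic b₂, G y = 3 / 4)
    (hab : b₂ - b₁ ≤ a₂ - a₁) :
    ∫⁻ x, ∫⁻ y, (F x * G y * H (x + y)) ^ (2 / 3 : ℝ) ≤ ENNReal.ofReal (199 / 200) := by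
  have hpq : Real.HolderConjugate 3 (3 / 2) := by
    rw [Real.holderConjugate_iff]; norm_num
  have key := ENNReal.lintegral_mul_le_Lp_mul_Lq ((volume : Measure ℝ).prod volume) hpq
    (f := fun p : ℝ × ℝ => (G p.2 * H (p.1 + p.2)) ^ (1 / 3 : ℝ))
    (g := fun p : ℝ × ℝ => (F p.1 * (G p.2 * H (p.1 + p.2)) ^ (1 / 2 : ℝ)) ^ (2 / 3 : ℝ))
    (by fun_prop) (by fun_prop)
  have e1 : ∀ x : ℝ≥0∞, (x ^ (1 / 3 : ℝ)) ^ (3 : ℝ) = x := by
    intro x; rw [← ENNReal.rpow_mul]; norm_num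
  have e2 : ∀ x : ℝ≥0∞, (x ^ (2 / 3 : ℝ)) ^ (3 / 2 : ℝ) = x := by
    intro x; rw [← ENNReal.rpow_mul]; norm_num
  simp only [e1, e2] at key
  have hA : ∫⁻ p : ℝ × ℝ, G p.2 * H (p.1 + p.2) ∂((volume : Measure ℝ).prod volume) = 1 := by
    rw [lintegral_prod_symm _ (by fun_prop)]
    have : ∀ y : ℝ, ∫⁻ x : ℝ, G y * H (x + y) = G y := by
      intro y
      rw [lintegral_const_mul _ (by fun_prop), lintegral_add_right_eq_self H y, hH1, mul_one]
    simp only [this, hG1]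
  have hB : ∫⁻ p : ℝ × ℝ, F p.1 * (G p.2 * H (p.1 + p.2)) ^ (1 / 2 : ℝ)
      ∂((volume : Measure ℝ).prod volume) ≤ ENNReal.ofReal 0.9915 := by
    rw [lintegral_prod _ (by fun_prop)]
    have : ∀ x : ℝ, ∫⁻ y : ℝ, F x * (G y * H (x + y)) ^ (1 / 2 : ℝ)
        = F x * ∫⁻ y, (G y * H (x + y)) ^ (1 / 2 : ℝ) := by
      intro x
      rw [lintegral_const_mul _ (by fun_prop)]
    simp only [this]
    exact bc_avg F G H hF hG hH hF1 hG1 hH1 a₁ a₂ b₁ b₂ ha1 ha2 hb1 hb2 hab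
  have hC : ∫⁻ x, ∫⁻ y, (F x * G y * H (x + y)) ^ (2 / 3 : ℝ)
      = ∫⁻ p : ℝ × ℝ, (F p.1 * G p.2 * H (p.1 + p.2)) ^ (2 / 3 : ℝ)
      ∂((volume : Measure ℝ).prod volume) := by
    rw [lintegral_prod _ (by fun_prop)]
  rw [hC]
  calc ∫⁻ p : ℝ × ℝ, (F p.1 * G p.2 * H (p.1 + p.2)) ^ (2 / 3 : ℝ)
      ∂((volume : Measure ℝ).prod volume)
      = ∫⁻ p : ℝ × ℝ, ((fun p : ℝ × ℝ => (G p.2 * H (p.1 + p.2)) ^ (1 / 3 : ℝ)) * (fun p : ℝ × ℝ =>
        (F p.1 * (G p.2 * H (p.1 + p.2)) ^ (1 / 2 : ℝ)) ^ (2 / 3 : ℝ))) p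
        ∂((volume : Measure ℝ).prod volume) := by
        apply lintegral_congr
        intro p
        simp only [Pi.mul_apply]
        rw [mul_assoc, ENNReal.mul_rpow_of_nonneg (F p.1) _ (by norm_num),
          ENNReal.mul_rpow_of_nonneg (F p.1) _ (by norm_num), ← ENNReal.rpow_mul,
          mul_left_comm, ← ENNReal.rpow_add_of_nonneg _ _ (by norm_num) (by norm_num)]
        norm_num
    _ ≤ _ := key
    _ ≤ (1 : ℝ≥0∞) ^ (1 / 3 : ℝ) * (ENNReal.ofReal 0.9915) ^ (1 / (3 / 2) : ℝ) := by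
        rw [hA]
        gcongr
    _ ≤ ENNReal.ofReal (199 / 200) := by
        rw [ENNReal.one_rpow, one_mul, ENNReal.ofReal_rpow_of_nonneg (by norm_num) (by norm_num)]
        apply ENNReal.ofReal_le_ofReal
        have h1 : (0.9915 : ℝ) ^ (1 / (3 / 2) : ℝ) = ((0.9915 : ℝ) ^ 2) ^ (1 / 3 : ℝ) := by
          rw [← Real.rpow_natCast, ← Real.rpow_mul (by norm_num)]; norm_num
        have h2 : (199 / 200 : ℝ) = ((199 / 200 : ℝ) ^ 3) ^ (1 / 3 : ℝ) := by
          rw [← Real.rpow_natCast, ← Real.rpow_mul (by norm_num)]; norm_num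
        rw [h1, h2]
        apply Real.rpow_le_rpow (by norm_num) (by norm_num) (by norm_num)

theorem exists_quartile (F : ℝ → ℝ≥0∞) (hF1 : ∫⁻ y, F y = 1) (c : ℝ≥0∞)
    (h0 : 0 < c) (h1 : c < 1) : ∃ t, ∫⁻ y in Iic t, F y = c := by
  set νF := (volume : Measure ℝ).withDensity F with hνF
  have : IsProbabilityMeasure νF :=
    ⟨by rw [hνF, withDensity_apply _ MeasurableSet.univ]; simpa using hF1⟩
  have : NullSingletonClass νF := ⟨fun x => by
    rw [hνF, withDensity_apply _ (measurableSet_singleton x)]; simp⟩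
  obtain ⟨t, ht⟩ := exists_quantile νF c h0 h1
  exact ⟨t, by rwa [hνF, withDensity_apply _ measurableSet_Iic] at ht⟩

theorem young_density (F G H : ℝ → ℝ≥0∞) (hF : Measurable F) (hG : Measurable G)
    (hH : Measurable H)
    (hF1 : ∫⁻ y, F y = 1) (hG1 : ∫⁻ y, G y = 1) (hH1 : ∫⁻ y, H y = 1) :
    ∫⁻ x, ∫⁻ y, (F x * G y * H (x + y)) ^ (2 / 3 : ℝ) ≤ ENNReal.ofReal (199 / 200) := by
  have h14 : (1 : ℝ≥0∞) / 4 < 1 := by
    rw [ENNReal.div_lt_iff (by norm_num) (by norm_num)]; norm_num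
  have h34 : (3 : ℝ≥0∞) / 4 < 1 := by
    rw [ENNReal.div_lt_iff (by norm_num) (by norm_num)]; norm_num
  obtain ⟨a₁, ha1⟩ := exists_quartile F hF1 (1 / 4) (by simp) h14
  obtain ⟨a₂, ha2⟩ := exists_quartile F hF1 (3 / 4) (by simp) h34
  obtain ⟨b₁, hb1⟩ := exists_quartile G hG1 (1 / 4) (by simp) h14
  obtain ⟨b₂, hb2⟩ := exists_quartile G hG1 (3 / 4) (by simp) h34
  rcases le_total (b₂ - b₁) (a₂ - a₁) with h | h
  · exact young_density_aux F G H hF hG hH hF1 hG1 hH1 a₁ a₂ b₁ b₂ ha1 ha2 hb1 hb2 h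
  · have := young_density_aux G F H hG hF hH hG1 hF1 hH1 b₁ b₂ a₁ a₂ hb1 hb2 ha1 ha2 h
    refine le_trans (le_of_eq ?_) this
    rw [lintegral_lintegral_swap (by fun_prop)]
    apply lintegral_congr; intro x
    apply lintegral_congr; intro y
    rw [mul_comm (F y), add_comm y x]

/-- the `L^{3/2}` norm of a nonnegative function -/
noncomputable def nrm {α : Type*} [MeasurableSpace α] (μ : Measure α) (f : α → ℝ≥0∞) : ℝ≥0∞ :=
  (∫⁻ x, f x ^ (3 / 2 : ℝ) ∂μ) ^ (2 / 3 : ℝ)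

theorem r1 (x : ℝ≥0∞) : (x ^ (3 / 2 : ℝ)) ^ (2 / 3 : ℝ) = x := by
  rw [← ENNReal.rpow_mul]; norm_num

theorem r2 (x : ℝ≥0∞) : (x ^ (2 / 3 : ℝ)) ^ (3 / 2 : ℝ) = x := by
  rw [← ENNReal.rpow_mul]; norm_num

theorem ae_zero_of_nrm {α : Type*} [MeasurableSpace α] (μ : Measure α) (f : α → ℝ≥0∞)
    (hf : Measurable f) (h : ∫⁻ x, f x ^ (3 / 2 : ℝ) ∂μ = 0) : f =ᵐ[μ] 0 := by
  rw [lintegral_eq_zero_iff (by fun_prop)] at h
  filter_upwards [h] with x hx
  simp only [Pi.zero_apply] at hx ⊢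
  rwa [ENNReal.rpow_eq_zero_iff_of_pos (by norm_num)] at hx

theorem rp_ne {x : ℝ≥0∞} (h : x ≠ 0) : x ^ (2 / 3 : ℝ) ≠ 0 := by
  rw [Ne, ENNReal.rpow_eq_zero_iff_of_pos (by norm_num)]; exact h

theorem young_one' (f g h : ℝ → ℝ≥0∞) (hf : Measurable f) (hg : Measurable g)
    (hh : Measurable h) :
    ∫⁻ x, ∫⁻ y, f x * g y * h (x + y)
      ≤ ENNReal.ofReal (199 / 200) * (nrm volume f * nrm volume g * nrm volume h) := by
  set A := ∫⁻ x, f x ^ (3 / 2 : ℝ) with hA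
  set B := ∫⁻ x, g x ^ (3 / 2 : ℝ) with hB
  set C := ∫⁻ x, h x ^ (3 / 2 : ℝ) with hC
  have hnf : nrm volume f = A ^ (2 / 3 : ℝ) := rfl
  have hng : nrm volume g = B ^ (2 / 3 : ℝ) := rfl
  have hnh : nrm volume h = C ^ (2 / 3 : ℝ) := rfl
  by_cases hA0 : A = 0
  · have h0 := ae_zero_of_nrm volume f hf hA0
    have : ∫⁻ x, ∫⁻ y, f x * g y * h (x + y) = 0 := by
      rw [lintegral_eq_zero_iff (by fun_prop)]
      filter_upwards [h0] with x hx
      simp [hx]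
    rw [this]; exact zero_le
  by_cases hB0 : B = 0
  · have h0 := ae_zero_of_nrm volume g hg hB0
    have : ∫⁻ x, ∫⁻ y, f x * g y * h (x + y) = 0 := by
      rw [lintegral_eq_zero_iff (by fun_prop)]
      filter_upwards with x
      rw [Pi.zero_apply, lintegral_eq_zero_iff (by fun_prop)]
      filter_upwards [h0] with y hy
      simp [hy]
    rw [this]; exact zero_le
  by_cases hC0 : C = 0
  · have : ∫⁻ x, ∫⁻ y, f x * g y * h (x + y) = 0 := by
      rw [lintegral_eq_zero_iff (by fun_prop)]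
      filter_upwards with x
      have hC' : ∫⁻ y, h (x + y) ^ (3 / 2 : ℝ) = 0 := by
        rw [lintegral_add_left_eq_self (fun z => h z ^ (3 / 2 : ℝ)) x]
        exact hC0
      have h0 := ae_zero_of_nrm volume (fun y => h (x + y)) (by fun_prop) hC'
      rw [Pi.zero_apply, lintegral_eq_zero_iff (by fun_prop)]
      filter_upwards [h0] with y hy
      simp only [Pi.zero_apply] at hy ⊢
      rw [hy, mul_zero]
    rw [this]; exact zero_le
  have hρ : ENNReal.ofReal (199 / 200) ≠ 0 := by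
    rw [Ne, ENNReal.ofReal_eq_zero]; norm_num
  by_cases hA1 : A = ⊤
  · rw [hnf, hng, hnh, hA1, ENNReal.top_rpow_of_pos (by norm_num), mul_assoc ⊤,
      ENNReal.top_mul (by
        rw [Ne, mul_eq_zero, not_or]
        exact ⟨rp_ne hB0, rp_ne hC0⟩),
      ENNReal.mul_top hρ]
    exact le_top
  by_cases hB1 : B = ⊤
  · rw [hnf, hng, hnh, hB1, ENNReal.top_rpow_of_pos (by norm_num), ENNReal.mul_top (rp_ne hA0),
      ENNReal.top_mul (rp_ne hC0),
      ENNReal.mul_top hρ]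
    exact le_top
  by_cases hC1 : C = ⊤
  · rw [hnf, hng, hnh, hC1, ENNReal.top_rpow_of_pos (by norm_num), ENNReal.mul_top (by
        rw [Ne, mul_eq_zero, not_or]
        exact ⟨rp_ne hA0, rp_ne hB0⟩),
      ENNReal.mul_top hρ]
    exact le_top
  -- the main case
  have norm1 : ∀ (u : ℝ → ℝ≥0∞) (U : ℝ≥0∞), Measurable u → U = ∫⁻ x, u x ^ (3 / 2 : ℝ) → U ≠ 0 →
      U ≠ ⊤ → ∫⁻ x, U⁻¹ * u x ^ (3 / 2 : ℝ) = 1 := by
    intro u U hu hU h0 h1
    rw [lintegral_const_mul _ (by fun_prop), ← hU, ENNReal.inv_mul_cancel h0 h1]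
  have key := young_density (fun x => A⁻¹ * f x ^ (3 / 2 : ℝ)) (fun x => B⁻¹ * g x ^ (3 / 2 : ℝ))
    (fun x => C⁻¹ * h x ^ (3 / 2 : ℝ)) (by fun_prop) (by fun_prop) (by fun_prop)
    (norm1 f A hf hA hA0 hA1) (norm1 g B hg hB hB0 hB1) (norm1 h C hh hC hC0 hC1)
  have e : ∀ x y : ℝ, (A⁻¹ * f x ^ (3 / 2 : ℝ) * (B⁻¹ * g y ^ (3 / 2 : ℝ)) *
      (C⁻¹ * h (x + y) ^ (3 / 2 : ℝ))) ^ (2 / 3 : ℝ)
      = (A⁻¹ ^ (2 / 3 : ℝ) * B⁻¹ ^ (2 / 3 : ℝ) * C⁻¹ ^ (2 / 3 : ℝ)) * (f x * g y * h (x + y)) := by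
    intro x y
    simp only [ENNReal.mul_rpow_of_nonneg _ _ (show (0 : ℝ) ≤ 2 / 3 by norm_num), r1]
    ring
  simp only [e] at key
  have e2 : ∫⁻ x, ∫⁻ y, (A⁻¹ ^ (2 / 3 : ℝ) * B⁻¹ ^ (2 / 3 : ℝ) * C⁻¹ ^ (2 / 3 : ℝ)) *
      (f x * g y * h (x + y)) = (A⁻¹ ^ (2 / 3 : ℝ) * B⁻¹ ^ (2 / 3 : ℝ) * C⁻¹ ^ (2 / 3 : ℝ)) *
      ∫⁻ x, ∫⁻ y, f x * g y * h (x + y) := by
    rw [← lintegral_const_mul _ (by fun_prop)]
    apply lintegral_congr; intro x
    rw [← lintegral_const_mul _ (by fun_prop)]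
  rw [e2] at key
  have hcancel : ∀ U : ℝ≥0∞, U ≠ 0 → U ≠ ⊤ → U ^ (2 / 3 : ℝ) * U⁻¹ ^ (2 / 3 : ℝ) = 1 := by
    intro U h0 h1
    rw [← ENNReal.mul_rpow_of_nonneg _ _ (by norm_num), ENNReal.mul_inv_cancel h0 h1,
      ENNReal.one_rpow]
  calc ∫⁻ x, ∫⁻ y, f x * g y * h (x + y)
      = (A ^ (2 / 3 : ℝ) * A⁻¹ ^ (2 / 3 : ℝ)) * (B ^ (2 / 3 : ℝ) * B⁻¹ ^ (2 / 3 : ℝ)) *
        (C ^ (2 / 3 : ℝ) * C⁻¹ ^ (2 / 3 : ℝ)) * ∫⁻ x, ∫⁻ y, f x * g y * h (x + y) := by
        rw [hcancel A hA0 hA1, hcancel B hB0 hB1, hcancel C hC0 hC1]; ring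
    _ = (A ^ (2 / 3 : ℝ) * B ^ (2 / 3 : ℝ) * C ^ (2 / 3 : ℝ)) *
        ((A⁻¹ ^ (2 / 3 : ℝ) * B⁻¹ ^ (2 / 3 : ℝ) * C⁻¹ ^ (2 / 3 : ℝ)) *
        ∫⁻ x, ∫⁻ y, f x * g y * h (x + y)) := by ring
    _ ≤ (A ^ (2 / 3 : ℝ) * B ^ (2 / 3 : ℝ) * C ^ (2 / 3 : ℝ)) * ENNReal.ofReal (199 / 200) := by
        gcongr
    _ = _ := by rw [hnf, hng, hnh]; ring

end Yg

theorem young_one {f g h : ℝ → ℝ≥0∞} (hf : Measurable f) (hg : Measurable g)
    (hh : Measurable h) :
    ∫⁻ x, ∫⁻ y, f x * g y * h (x + y) ≤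
      ENNReal.ofReal rho * (∫⁻ x, f x ^ (3 / 2 : ℝ)) ^ (2 / 3 : ℝ) *
        (∫⁻ x, g x ^ (3 / 2 : ℝ)) ^ (2 / 3 : ℝ) * (∫⁻ x, h x ^ (3 / 2 : ℝ)) ^ (2 / 3 : ℝ) := by
  refine le_trans (Yg.young_one' f g h hf hg hh) ?_
  have h1 : ENNReal.ofReal (199 / 200) ≤ ENNReal.ofReal rho :=
    ENNReal.ofReal_le_ofReal (by unfold rho; norm_num)
  unfold Yg.nrm
  rw [mul_assoc (ENNReal.ofReal rho), mul_assoc (ENNReal.ofReal rho)]
  gcongr

end Vale.Agent.P230
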