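import Mathlib
import Vale.Agent.P230.Young1

/-!
# P230, module YOUNG: Young's inequality with a constant `< 1` on `ℝⁿ` and its discrete form
-/

namespace Vale.Agent.P230

open MeasureTheory Set Filter Topology
open scoped ENNReal

namespace Yg

/-- Tensorisation. -/
theorem young_prod {G₁ G₂ : Type*} [MeasurableSpace G₁] [MeasurableSpace G₂] [Add G₁] [Add G₂]
    [MeasurableAdd₂ G₁] [MeasurableAdd₂ G₂] (μ₁ : Measure G₁) (μ₂ : Measure G₂) [SFinite μ₁]
    [SFinite μ₂] (c₁ c₂ : ℝ≥0∞)
    (h₁ : ∀ f g h : G₁ → ℝ≥0∞, Measurable f → Measurable g → Measurable h →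
      ∫⁻ x, ∫⁻ y, f x * g y * h (x + y) ∂μ₁ ∂μ₁ ≤ c₁ * (nrm μ₁ f * nrm μ₁ g * nrm μ₁ h))
    (h₂ : ∀ f g h : G₂ → ℝ≥0∞, Measurable f → Measurable g → Measurable h →
      ∫⁻ x, ∫⁻ y, f x * g y * h (x + y) ∂μ₂ ∂μ₂ ≤ c₂ * (nrm μ₂ f * nrm μ₂ g * nrm μ₂ h))
    (f g h : G₁ × G₂ → ℝ≥0∞) (hf : Measurable f) (hg : Measurable g) (hh : Measurable h) :
    ∫⁻ x, ∫⁻ y, f x * g y * h (x + y) ∂(μ₁.prod μ₂) ∂(μ₁.prod μ₂)
      ≤ c₁ * c₂ * (nrm (μ₁.prod μ₂) f * nrm (μ₁.prod μ₂) g * nrm (μ₁.prod μ₂) h) := by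
  -- slices
  set F : G₁ → ℝ≥0∞ := fun x => nrm μ₂ (fun u => f (x, u)) with hF
  set G : G₁ → ℝ≥0∞ := fun x => nrm μ₂ (fun u => g (x, u)) with hG
  set H : G₁ → ℝ≥0∞ := fun x => nrm μ₂ (fun u => h (x, u)) with hH
  have hFm : Measurable F := by
    have : Measurable (fun x => ∫⁻ u, f (x, u) ^ (3 / 2 : ℝ) ∂μ₂) :=
      Measurable.lintegral_prod_right' (f := fun p : G₁ × G₂ => f p ^ (3 / 2 : ℝ)) (by fun_prop)
    exact this.pow_const _
  have hGm : Measurable G := by
    have : Measurable (fun x => ∫⁻ u, g (x, u) ^ (3 / 2 : ℝ) ∂μ₂) :=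
      Measurable.lintegral_prod_right' (f := fun p : G₁ × G₂ => g p ^ (3 / 2 : ℝ)) (by fun_prop)
    exact this.pow_const _
  have hHm : Measurable H := by
    have : Measurable (fun x => ∫⁻ u, h (x, u) ^ (3 / 2 : ℝ) ∂μ₂) :=
      Measurable.lintegral_prod_right' (f := fun p : G₁ × G₂ => h p ^ (3 / 2 : ℝ)) (by fun_prop)
    exact this.pow_const _
  have hnorm : ∀ k : G₁ × G₂ → ℝ≥0∞, Measurable k →
      nrm μ₁ (fun x => nrm μ₂ (fun u => k (x, u))) = nrm (μ₁.prod μ₂) k := by
    intro k hk
    unfold nrm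
    simp only [r2]
    rw [lintegral_prod _ (by fun_prop)]
  have hmm : Measurable (fun q : (G₁ × G₂) × (G₁ × G₂) => f q.1 * g q.2 * h (q.1 + q.2)) := by
    have hadd : Measurable (fun q : (G₁ × G₂) × (G₁ × G₂) => q.1 + q.2) := by
      have h1 : Measurable (fun q : (G₁ × G₂) × (G₁ × G₂) => q.1.1 + q.2.1) := by fun_prop
      have h2 : Measurable (fun q : (G₁ × G₂) × (G₁ × G₂) => q.1.2 + q.2.2) := by fun_prop
      exact h1.prodMk h2
    have := hh.comp hadd
    exact ((hf.comp measurable_fst).mul (hg.comp measurable_snd)).mul this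
  have hm0 : Measurable (fun x : G₁ × G₂ => ∫⁻ y, f x * g y * h (x + y) ∂(μ₁.prod μ₂)) :=
    hmm.lintegral_prod_right'
  have hm1 : ∀ x : G₁ × G₂, Measurable (fun y : G₁ × G₂ => f x * g y * h (x + y)) := fun x =>
    hmm.comp (measurable_const.prodMk measurable_id)
  calc ∫⁻ x, ∫⁻ y, f x * g y * h (x + y) ∂(μ₁.prod μ₂) ∂(μ₁.prod μ₂)
      = ∫⁻ x₁, ∫⁻ x₂, ∫⁻ y₁, ∫⁻ y₂, f (x₁, x₂) * g (y₁, y₂) * h (x₁ + y₁, x₂ + y₂)
          ∂μ₂ ∂μ₁ ∂μ₂ ∂μ₁ := by
        rw [lintegral_prod _ hm0.aemeasurable]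
        apply lintegral_congr; intro x₁
        apply lintegral_congr; intro x₂
        rw [lintegral_prod _ (hm1 (x₁, x₂)).aemeasurable]
        rfl
    _ = ∫⁻ x₁, ∫⁻ y₁, ∫⁻ x₂, ∫⁻ y₂, f (x₁, x₂) * g (y₁, y₂) * h (x₁ + y₁, x₂ + y₂)
          ∂μ₂ ∂μ₂ ∂μ₁ ∂μ₁ := by
        apply lintegral_congr; intro x₁
        have hm : Measurable (fun q : (G₂ × G₁) × G₂ =>
            f (x₁, q.1.1) * g (q.1.2, q.2) * h (x₁ + q.1.2, q.1.1 + q.2)) := by fun_prop
        exact lintegral_lintegral_swap (f := fun (x₂ : G₂) (y₁ : G₁) =>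
          ∫⁻ y₂, f (x₁, x₂) * g (y₁, y₂) * h (x₁ + y₁, x₂ + y₂) ∂μ₂)
          (hm.lintegral_prod_right').aemeasurable
    _ ≤ ∫⁻ x₁, ∫⁻ y₁, c₂ * (F x₁ * G y₁ * H (x₁ + y₁)) ∂μ₁ ∂μ₁ := by
        apply lintegral_mono; intro x₁
        apply lintegral_mono; intro y₁
        exact h₂ (fun u => f (x₁, u)) (fun u => g (y₁, u)) (fun u => h (x₁ + y₁, u))
          (by fun_prop) (by fun_prop) (by fun_prop)
    _ = c₂ * ∫⁻ x₁, ∫⁻ y₁, F x₁ * G y₁ * H (x₁ + y₁) ∂μ₁ ∂μ₁ := by
        rw [← lintegral_const_mul _ (by fun_prop)]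
        apply lintegral_congr; intro x
        rw [← lintegral_const_mul _ (by fun_prop)]
    _ ≤ c₂ * (c₁ * (nrm μ₁ F * nrm μ₁ G * nrm μ₁ H)) := by
        gcongr
        exact h₁ F G H hFm hGm hHm
    _ = _ := by
        rw [hnorm f hf, hnorm g hg, hnorm h hh]; ring

theorem nrm_map {α β : Type*} [MeasurableSpace α] [MeasurableSpace β] (μ : Measure α)
    (ν : Measure β) (e : α ≃ᵐ β) (he : MeasurePreserving e μ ν) (f : α → ℝ≥0∞) :
    nrm ν (fun y => f (e.symm y)) = nrm μ f := by
  unfold nrm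
  congr 1
  rw [← he.lintegral_comp_emb e.measurableEmbedding]
  apply lintegral_congr; intro x
  simp only [e.symm_apply_apply]

theorem young_pi (n : ℕ) (f g h : (Fin n → ℝ) → ℝ≥0∞) (hf : Measurable f) (hg : Measurable g)
    (hh : Measurable h) :
    ∫⁻ x, ∫⁻ y, f x * g y * h (x + y)
      ≤ (ENNReal.ofReal (199 / 200)) ^ n * (nrm volume f * nrm volume g * nrm volume h) := by
  induction n with
  | zero =>
    have hv : (volume : Measure (Fin 0 → ℝ)) = Measure.dirac default :=
      Measure.volume_pi_eq_dirac default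
    unfold nrm
    rw [hv]
    simp only [lintegral_dirac, pow_zero, one_mul, r1]
    have : (default : Fin 0 → ℝ) + default = default := Subsingleton.elim _ _
    rw [this]
  | succ n ih =>
    set e := MeasurableEquiv.piFinSuccAbove (fun _ : Fin (n + 1) => ℝ) 0 with he
    have hp : MeasurePreserving e volume (volume.prod volume) :=
      volume_preserving_piFinSuccAbove (fun _ : Fin (n + 1) => ℝ) 0
    have hadd : ∀ p q, e.symm (p + q) = e.symm p + e.symm q := by
      intro p q
      ext i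
      refine Fin.cases ?_ (fun j => ?_) i <;> simp [e, MeasurableEquiv.piFinSuccAbove]
    have key := young_prod (volume : Measure ℝ) (volume : Measure (Fin n → ℝ))
      (ENNReal.ofReal (199 / 200)) ((ENNReal.ofReal (199 / 200)) ^ n)
      (fun f g h hf hg hh => young_one' f g h hf hg hh)
      (fun f g h hf hg hh => ih f g h hf hg hh)
      (fun p => f (e.symm p)) (fun p => g (e.symm p)) (fun p => h (e.symm p))
      (hf.comp e.symm.measurable) (hg.comp e.symm.measurable) (hh.comp e.symm.measurable)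
    rw [nrm_map volume (volume.prod volume) e hp f, nrm_map volume (volume.prod volume) e hp g,
      nrm_map volume (volume.prod volume) e hp h] at key
    have e1 : ∫⁻ x, ∫⁻ y, f x * g y * h (x + y)
        = ∫⁻ x, ∫⁻ y, f (e.symm x) * g (e.symm y) * h (e.symm (x + y))
          ∂((volume : Measure ℝ).prod (volume : Measure (Fin n → ℝ)))
          ∂((volume : Measure ℝ).prod (volume : Measure (Fin n → ℝ))) := by
      rw [← hp.lintegral_comp_emb e.measurableEmbedding]
      apply lintegral_congr; intro x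
      rw [← hp.lintegral_comp_emb e.measurableEmbedding]
      apply lintegral_congr; intro y
      rw [hadd, e.symm_apply_apply, e.symm_apply_apply]
    rw [e1]
    refine le_trans key (le_of_eq ?_)
    rw [pow_succ]
    ring

/-- the norm of an indicator function -/
theorem nrm_indicator {α : Type*} [MeasurableSpace α] (μ : Measure α) (J : Set α)
    (hJ : MeasurableSet J) : nrm μ (J.indicator 1) = (μ J) ^ (2 / 3 : ℝ) := by
  unfold nrm
  congr 1
  have : ∀ x, (J.indicator (1 : α → ℝ≥0∞) x) ^ (3 / 2 : ℝ) = J.indicator 1 x := by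
    intro x
    by_cases hx : x ∈ J
    · rw [indicator_of_mem hx]; simp
    · rw [indicator_of_notMem hx]; simp
  simp only [this]
  exact lintegral_indicator_one hJ

/-- Young's inequality for sets -/
theorem young_sets (n : ℕ) (J K L : Set (Fin n → ℝ)) (hJ : MeasurableSet J)
    (hK : MeasurableSet K) (hL : MeasurableSet L) :
    ∫⁻ x, ∫⁻ y, J.indicator 1 x * K.indicator 1 y * L.indicator 1 (x + y)
      ≤ (ENNReal.ofReal (199 / 200)) ^ n *
        ((volume J) ^ (2 / 3 : ℝ) * (volume K) ^ (2 / 3 : ℝ) * (volume L) ^ (2 / 3 : ℝ)) := by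
  have := young_pi n (J.indicator 1) (K.indicator 1) (L.indicator 1)
    (measurable_one.indicator hJ) (measurable_one.indicator hK) (measurable_one.indicator hL)
  rwa [nrm_indicator _ _ hJ, nrm_indicator _ _ hK, nrm_indicator _ _ hL] at this

/-- the half-open unit cube with corner `a` -/
def cube {n : ℕ} (a : Fin n → ℤ) : Set (Fin n → ℝ) :=
  Set.pi univ (fun i => Ico (a i : ℝ) (a i + 1))

theorem measurableSet_cube {n : ℕ} (a : Fin n → ℤ) : MeasurableSet (cube a) :=
  MeasurableSet.univ_pi (fun _ => measurableSet_Ico)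

theorem volume_cube {n : ℕ} (a : Fin n → ℤ) : volume (cube a) = 1 := by
  rw [cube, Real.volume_pi_Ico]
  simp

theorem mem_cube {n : ℕ} {a : Fin n → ℤ} {x : Fin n → ℝ} :
    x ∈ cube a ↔ ∀ i, ⌊x i⌋ = a i := by
  simp only [cube, Set.mem_pi, mem_univ, true_implies, mem_Ico, Int.floor_eq_iff]

/-- union of unit cubes -/
def cubes {n : ℕ} (A : Finset (Fin n → ℤ)) : Set (Fin n → ℝ) := {x | (fun i => ⌊x i⌋) ∈ A}

theorem measurableSet_cubes {n : ℕ} (A : Finset (Fin n → ℤ)) : MeasurableSet (cubes A) := by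
  have : Measurable (fun x : Fin n → ℝ => (fun i => ⌊x i⌋ : Fin n → ℤ)) := by
    apply measurable_pi_lambda
    intro i
    exact Int.measurable_floor.comp (measurable_pi_apply i)
  exact this (Finset.measurableSet A)

theorem cubes_eq {n : ℕ} (A : Finset (Fin n → ℤ)) : cubes A = ⋃ a ∈ A, cube a := by
  ext x
  simp only [cubes, Set.mem_ofPred_eq, mem_iUnion, mem_cube, exists_prop]
  constructor
  · intro h; exact ⟨_, h, fun i => rfl⟩
  · rintro ⟨a, ha, h⟩
    have : (fun i => ⌊x i⌋) = a := funext h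
    rwa [this]

theorem volume_cubes {n : ℕ} (A : Finset (Fin n → ℤ)) : volume (cubes A) = A.card := by
  rw [cubes_eq, measure_biUnion_finset]
  · simp [volume_cube]
  · intro a _ b _ hab
    rw [Function.onFun, Set.disjoint_left]
    intro x hx hx'
    rw [mem_cube] at hx hx'
    exact hab (funext (fun i => (hx i).symm.trans (hx' i)))
  · intro a _; exact measurableSet_cube a

/-- **Discrete Young inequality with a constant `< 1`.**  `C'` is any finite set containing all
`c + t` with `c ∈ C` and `t ∈ {0,1}ⁿ`. -/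
theorem young_discrete (n : ℕ) (A B C C' : Finset (Fin n → ℤ))
    (hC : ∀ c ∈ C, ∀ t : Fin n → ℤ, (∀ i, t i = 0 ∨ t i = 1) → c + t ∈ C') :
    ((((A ×ˢ B).filter (fun p => p.1 + p.2 ∈ C)).card : ℝ))
      ≤ (199 / 200) ^ n * ((A.card : ℝ) * B.card * C'.card) ^ (2 / 3 : ℝ) := by
  classical
  have hS := young_sets n (cubes A) (cubes B) (cubes C') (measurableSet_cubes A)
    (measurableSet_cubes B) (measurableSet_cubes C')
  rw [volume_cubes, volume_cubes, volume_cubes] at hS
  set S := (A ×ˢ B).filter (fun p => p.1 + p.2 ∈ C) with hSdef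
  -- lower bound of the left-hand side
  have hlow : (S.card : ℝ≥0∞) ≤ ∫⁻ x : Fin n → ℝ, ∫⁻ y : Fin n → ℝ,
      (cubes A).indicator 1 x * (cubes B).indicator 1 y * (cubes C').indicator 1 (x + y) := by
    have hpt : ∀ x y : Fin n → ℝ, ∑ p ∈ S, (cube p.1).indicator (1 : (Fin n → ℝ) → ℝ≥0∞) x *
        (cube p.2).indicator 1 y
        ≤ (cubes A).indicator 1 x * (cubes B).indicator 1 y * (cubes C').indicator 1 (x + y) := by
      intro x y
      by_cases hp : ((fun i => ⌊x i⌋, fun i => ⌊y i⌋) : (Fin n → ℤ) × (Fin n → ℤ)) ∈ S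
      · have hA : (fun i => ⌊x i⌋) ∈ A := by
          have := (Finset.mem_filter.1 hp).1
          exact (Finset.mem_product.1 this).1
        have hB : (fun i => ⌊y i⌋) ∈ B := by
          have := (Finset.mem_filter.1 hp).1
          exact (Finset.mem_product.1 this).2
        have hCC : (fun i => ⌊(x + y) i⌋) ∈ C' := by
          have h1 := (Finset.mem_filter.1 hp).2
          have h2 := hC _ h1 (fun i => ⌊(x + y) i⌋ - ⌊x i⌋ - ⌊y i⌋) (by
            intro i
            have h3 : ⌊x i⌋ + ⌊y i⌋ ≤ ⌊x i + y i⌋ := Int.le_floor_add _ _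
            have h4 : ⌊x i + y i⌋ ≤ ⌊x i⌋ + ⌊y i⌋ + 1 := by
              have := Int.le_floor_add_floor (x i) (y i)
              omega
            simp only [Pi.add_apply]
            omega)
          convert h2 using 1
          ext i
          simp only [Pi.add_apply]
          ring
        rw [indicator_of_mem (show x ∈ cubes A from hA), indicator_of_mem (show y ∈ cubes B from hB),
          indicator_of_mem (show x + y ∈ cubes C' from hCC)]
        simp only [Pi.one_apply, mul_one]
        rw [Finset.sum_eq_single_of_mem _ hp]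
        · rw [indicator_of_mem (mem_cube.2 (fun i => rfl)), indicator_of_mem
            (mem_cube.2 (fun i => rfl))]
          simp
        · intro q _ hq
          by_cases h1 : x ∈ cube q.1
          · by_cases h2 : y ∈ cube q.2
            · exfalso; apply hq
              rw [mem_cube] at h1 h2
              exact Prod.ext (funext (fun i => (h1 i).symm)) (funext (fun i => (h2 i).symm))
            · rw [indicator_of_notMem h2, mul_zero]
          · rw [indicator_of_notMem h1, zero_mul]
      · rw [Finset.sum_eq_zero]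
        · exact zero_le
        · intro q hq
          by_cases h1 : x ∈ cube q.1
          · by_cases h2 : y ∈ cube q.2
            · exfalso; apply hp
              rw [mem_cube] at h1 h2
              have : ((fun i => ⌊x i⌋, fun i => ⌊y i⌋) : (Fin n → ℤ) × (Fin n → ℤ)) = q :=
                Prod.ext (funext h1) (funext h2)
              rwa [this]
            · rw [indicator_of_notMem h2, mul_zero]
          · rw [indicator_of_notMem h1, zero_mul]
    have hint : ∫⁻ x : Fin n → ℝ, ∫⁻ y : Fin n → ℝ, ∑ p ∈ S,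
        (cube p.1).indicator (1 : (Fin n → ℝ) → ℝ≥0∞) x * (cube p.2).indicator 1 y = S.card := by
      have h1 : ∀ x : Fin n → ℝ, ∫⁻ y : Fin n → ℝ, ∑ p ∈ S,
          (cube p.1).indicator (1 : (Fin n → ℝ) → ℝ≥0∞) x * (cube p.2).indicator 1 y
          = ∑ p ∈ S, (cube p.1).indicator (1 : (Fin n → ℝ) → ℝ≥0∞) x := by
        intro x
        rw [lintegral_finsetSum]
        · apply Finset.sum_congr rfl
          intro p _
          rw [lintegral_const_mul _ (measurable_one.indicator (measurableSet_cube p.2)),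
            lintegral_indicator_one (measurableSet_cube p.2), volume_cube, mul_one]
        · intro p _
          exact (measurable_one.indicator (measurableSet_cube p.2)).const_mul _
      simp only [h1]
      rw [lintegral_finsetSum]
      · simp [lintegral_indicator_one (measurableSet_cube _), volume_cube]
      · intro p _
        exact measurable_one.indicator (measurableSet_cube p.1)
    rw [← hint]
    exact lintegral_mono (fun x => lintegral_mono (fun y => hpt x y))
  have hfin := le_trans hlow hS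
  rw [← ENNReal.mul_rpow_of_nonneg _ _ (by norm_num), ← ENNReal.mul_rpow_of_nonneg _ _
    (by norm_num)] at hfin
  have e1 : (ENNReal.ofReal (199 / 200)) ^ n * ((A.card : ℝ≥0∞) * B.card * C'.card) ^ (2 / 3 : ℝ)
      = ENNReal.ofReal ((199 / 200) ^ n * ((A.card : ℝ) * B.card * C'.card) ^ (2 / 3 : ℝ)) := by
    rw [ENNReal.ofReal_mul (by positivity), ENNReal.ofReal_pow (by norm_num),
      ← ENNReal.ofReal_rpow_of_nonneg (by positivity) (by norm_num),
      ENNReal.ofReal_mul (by positivity), ENNReal.ofReal_mul (by positivity),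
      ENNReal.ofReal_natCast, ENNReal.ofReal_natCast, ENNReal.ofReal_natCast]
  rw [e1, ← ENNReal.ofReal_natCast, ENNReal.ofReal_le_ofReal_iff (by positivity)] at hfin
  exact hfin

end Yg

theorem young_set (n : ℕ) {S : Set (Fin n → ℝ)} (hS : MeasurableSet S) (r : Fin n → ℝ) :
    ∫⁻ x in S, volume {y | y ∈ S ∧ x + y + r ∈ S} ≤
      ENNReal.ofReal (rho ^ n) * volume S ^ 2 := by
  have hL : MeasurableSet {z | z + r ∈ S} := hS.preimage (measurable_id.add_const r)
  have h := Yg.young_sets n S S {z | z + r ∈ S} hS hS hL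
  have hvol : volume {z | z + r ∈ S} = volume S := by
    have : {z | z + r ∈ S} = (fun z => z + r) ⁻¹' S := rfl
    rw [this, measure_preimage_add_right]
  rw [hvol] at h
  have e1 : ∫⁻ x in S, volume {y | y ∈ S ∧ x + y + r ∈ S}
      = ∫⁻ x, ∫⁻ y, S.indicator 1 x * S.indicator 1 y *
        ({z | z + r ∈ S} : Set (Fin n → ℝ)).indicator (1 : (Fin n → ℝ) → ℝ≥0∞) (x + y) := by
    rw [← lintegral_indicator hS]
    apply lintegral_congr
    intro x
    by_cases hx : x ∈ S
    · rw [indicator_of_mem hx]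
      have hm : MeasurableSet {y | y ∈ S ∧ x + y + r ∈ S} := by
        have h2 : Measurable (fun y : Fin n → ℝ => x + y + r) := by fun_prop
        exact hS.inter (hS.preimage h2)
      rw [← lintegral_indicator_one hm]
      apply lintegral_congr
      intro y
      rw [indicator_of_mem hx]
      by_cases hy : y ∈ S
      · by_cases hz : x + y + r ∈ S
        · rw [indicator_of_mem hy, indicator_of_mem (show y ∈ {y | y ∈ S ∧ x + y + r ∈ S} from
            ⟨hy, hz⟩), indicator_of_mem (show x + y ∈ {z | z + r ∈ S} from hz)]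
          simp
        · rw [indicator_of_notMem (show y ∉ {y | y ∈ S ∧ x + y + r ∈ S} from fun h => hz h.2),
            indicator_of_notMem (show x + y ∉ {z | z + r ∈ S} from hz), mul_zero]
      · rw [indicator_of_notMem (show y ∉ {y | y ∈ S ∧ x + y + r ∈ S} from fun h => hy h.1),
          indicator_of_notMem hy, mul_zero, zero_mul]
    · rw [indicator_of_notMem hx]
      simp [indicator_of_notMem hx]
  rw [e1]
  refine le_trans h ?_
  have e2 : volume S ^ (2 / 3 : ℝ) * volume S ^ (2 / 3 : ℝ) * volume S ^ (2 / 3 : ℝ)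
      = volume S ^ 2 := by
    rw [← ENNReal.rpow_add_of_nonneg _ _ (by norm_num) (by norm_num),
      ← ENNReal.rpow_add_of_nonneg _ _ (by norm_num) (by norm_num), ← ENNReal.rpow_natCast]
    norm_num
  rw [e2, ENNReal.ofReal_pow (by unfold rho; norm_num)]
  gcongr
  unfold rho
  norm_num

end Vale.Agent.P230
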